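import Mathlib

/-!
# R227 / Acc : a multiplicative ultrametric seminorm comes from a complete algebraically closed field

Plan.
* `isAlgClosed_of_dense`: (any characteristic) let `f` be monic of degree `d ≥ 1` over `L`; approximate the
  coefficients by monic `f_k` over `K`, `‖f_k - f‖ ≤ ε_k`; roots of `f_k` are bounded by `B`.  If `a_k` is a
  root of `f_k` then `‖f_{k+1}(a_k)‖ = ∏ ‖a_k - β‖` is small, so some root `a_{k+1}` of `f_{k+1}` has
  `‖a_k - a_{k+1}‖^d ≤ ε_k B^d`.  The limit is a root of `f`.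
  (See also `Mathlib/Analysis/Normed/Field/Approximation.lean`.)
* `exists_acc`: `I = {a | N a = 0}` is a prime ideal; `N` descends to an absolute value on `R ⧸ I` and on
  `K₀ = FractionRing (R ⧸ I)` (`N(a/b) = N a / N b`; e.g. via `Valuation.onQuot`, `Valuation.extendToLocalization`
  with values in `ℝ≥0`, or `AbsoluteValue`, `WithAbs`); `K₁ = UniformSpace.Completion K₀`;
  `K₂ = AlgebraicClosure K₁` with `spectralNorm.normedField` (`spectralNorm_extends`,
  `isNonarchimedean_spectralNorm`, see `Mathlib/NumberTheory/Padics/Complex.lean` for the pattern);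
  `𝔽 = UniformSpace.Completion K₂`.
-/

set_option autoImplicit false

namespace Crest.Agent.R227

open Polynomial in
theorem norm_eval_le_of_close {L : Type*} [NormedField L] {f g : L[X]} {d : ℕ}
    (hf : f.natDegree = d) (hg : g.natDegree = d) {ε B : ℝ} (hB : 1 ≤ B) {a : L} (ha : ‖a‖ ≤ B)
    (hga : g.eval a = 0) (hc : ∀ i, ‖g.coeff i - f.coeff i‖ < ε) :
    ‖f.eval a‖ ≤ (d + 1) * (ε * B ^ d) := by
  have h1 : f.eval a = ∑ i ∈ Finset.range (d + 1), (f.coeff i - g.coeff i) * a ^ i := by
    have e1 := f.eval_eq_sum_range a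
    have e2 := g.eval_eq_sum_range a
    rw [hf] at e1
    rw [hg, hga] at e2
    simp only [sub_mul, Finset.sum_sub_distrib]
    rw [← e1, ← e2, sub_zero]
  rw [h1]
  refine (norm_sum_le _ _).trans ?_
  have : ∀ i ∈ Finset.range (d + 1), ‖(f.coeff i - g.coeff i) * a ^ i‖ ≤ ε * B ^ d := by
    intro i hi
    rw [norm_mul, norm_pow, norm_sub_rev]
    have hi' : i ≤ d := Nat.lt_succ_iff.mp (Finset.mem_range.mp hi)
    have h2 : ‖a‖ ^ i ≤ B ^ d :=
      (pow_le_pow_left₀ (norm_nonneg a) ha i).trans (pow_le_pow_right₀ hB hi')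
    exact mul_le_mul (hc i).le h2 (by positivity) ((norm_nonneg _).trans (hc i).le)
  refine (Finset.sum_le_card_nsmul _ _ _ this).trans ?_
  simp

open Polynomial in
theorem isAlgClosed_of_dense {K L : Type*} [Field K] [IsAlgClosed K] [NormedField L]
    [IsUltrametricDist L] [CompleteSpace L] (ι : K →+* L) (hι : DenseRange ι) : IsAlgClosed L := by
  let _ : Algebra K L := ι.toAlgebra
  apply IsAlgClosed.of_exists_root
  intro f hfm hirr
  set d := f.natDegree with hd
  have hd0 : 0 < d := hirr.natDegree_pos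
  let ε : ℕ → ℝ := fun k => ((1 / 2 : ℝ) ^ k) ^ d / (d + 1)
  have hε : ∀ k, 0 < ε k := fun k => by positivity
  have hεa : ∀ k, ε (k + 1) ≤ ε k := by
    intro k
    apply div_le_div_of_nonneg_right _ (by positivity)
    apply pow_le_pow_left₀ (by positivity)
    exact pow_le_pow_of_le_one (by norm_num) (by norm_num) (Nat.le_succ k)
  choose g hgm hgd hgc using fun k =>
    exists_monic_and_natDegree_eq_and_norm_map_algebraMap_coeff_sub_lt (K := K) (L := L) hι hfm (hε k)
  let G : ℕ → L[X] := fun k => (g k).map (algebraMap K L)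
  have hGm : ∀ k, (G k).Monic := fun k => (hgm k).map _
  have hGd : ∀ k, (G k).natDegree = d := fun k => by
    simp only [G]; rw [(hgm k).natDegree_map, ← hgd k]
  have hGs : ∀ k, (G k).Splits := fun k => (IsAlgClosed.splits (g k)).map _
  have step : ∀ k (a : L), (G k).eval a = 0 → ∃ b : L, (G (k + 1)).eval b = 0 ∧
      ‖a - b‖ ≤ (1 / 2 : ℝ) ^ k * max ‖a‖ 1 := by
    intro k a ha
    have hc : ∀ i, ‖(G (k + 1)).coeff i - (G k).coeff i‖ < ε k := by
      intro i
      have e : (G (k + 1)).coeff i - (G k).coeff i =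
          ((G (k + 1)).coeff i - f.coeff i) + -((G k).coeff i - f.coeff i) := by ring
      rw [e]
      refine (IsUltrametricDist.norm_add_le_max _ _).trans_lt (max_lt ?_ ?_)
      · exact (hgc (k + 1) i).trans_le (hεa k)
      · rw [norm_neg]; exact hgc k i
    obtain ⟨b, hb, hb2⟩ := exists_roots_norm_sub_lt_of_norm_coeff_sub_lt (hε k) ha (hGm k)
      (hGm (k + 1)) (by rw [hGd, hGd]) hc (hGs (k + 1))
    refine ⟨b, (mem_roots (hGm (k + 1)).ne_zero).mp hb, hb2.le.trans (le_of_eq ?_)⟩
    congr 1
    rw [hGd]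
    have : ((d : ℝ) + 1) * ε k = ((1 / 2 : ℝ) ^ k) ^ d := by
      simp only [ε]; field_simp
    rw [this]
    exact Real.pow_rpow_inv_natCast (by positivity) hd0.ne'
  obtain ⟨a0, ha0⟩ : ∃ a : L, (G 0).eval a = 0 := by
    apply (hGs 0).exists_eval_eq_zero
    rw [degree_eq_natDegree (hGm 0).ne_zero, hGd]
    exact_mod_cast hd0.ne'
  choose! nxt hn1 hn2 using step
  let a : ℕ → L := fun k => Nat.rec a0 (fun k x => nxt k x) k
  have ha : ∀ k, (G k).eval (a k) = 0 := by
    intro k
    induction k with
    | zero => exact ha0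
    | succ k ih => exact hn1 k _ ih
  set B := max ‖a0‖ 1 with hB
  have hB1 : 1 ≤ B := le_max_right _ _
  have hab : ∀ k, ‖a k‖ ≤ B := by
    intro k
    induction k with
    | zero => exact le_max_left _ _
    | succ k ih =>
      have h1 := hn2 k _ (ha k)
      have e : a (k + 1) = a k + -(a k - nxt k (a k)) := by simp [a]
      rw [e]
      refine (IsUltrametricDist.norm_add_le_max _ _).trans (max_le ih ?_)
      rw [norm_neg]
      refine h1.trans ?_
      have h2 : (1 / 2 : ℝ) ^ k ≤ 1 := pow_le_one₀ (by norm_num) (by norm_num)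
      calc _ ≤ 1 * B := mul_le_mul h2 (max_le ih hB1) (by positivity) (by norm_num)
        _ = B := one_mul _
  have hcau : CauchySeq a := by
    apply cauchySeq_of_le_geometric (1 / 2 : ℝ) B (by norm_num)
    intro k
    rw [dist_eq_norm]
    refine (hn2 k _ (ha k)).trans ?_
    rw [mul_comm]
    exact mul_le_mul_of_nonneg_right (max_le (hab k) hB1) (by positivity)
  obtain ⟨x, hx⟩ := cauchySeq_tendsto_of_complete hcau
  refine ⟨x, ?_⟩
  have h1 : Filter.Tendsto (fun k => f.eval (a k)) Filter.atTop (nhds (f.eval x)) :=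
    (f.continuous.tendsto x).comp hx
  have h2 : Filter.Tendsto (fun k => f.eval (a k)) Filter.atTop (nhds 0) := by
    apply squeeze_zero_norm (a := fun k => ((1 / 2 : ℝ) ^ k) ^ d * B ^ d)
    · intro k
      refine (norm_eval_le_of_close hd.symm (hGd k) hB1 (hab k) (ha k) (hgc k)).trans (le_of_eq ?_)
      simp only [ε]; field_simp
    · have h3 : Filter.Tendsto (fun k : ℕ => (1 / 2 : ℝ) ^ k) Filter.atTop (nhds 0) :=
        tendsto_pow_atTop_nhds_zero_of_lt_one (by norm_num) (by norm_num)
      have h4 := (h3.pow d).mul_const (B ^ d)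
      simpa [hd0.ne'] using h4
  exact tendsto_nhds_unique h1 h2


theorem ultra_completion (K : Type*) [NormedField K] [IsUltrametricDist K] :
    IsUltrametricDist (UniformSpace.Completion K) := by
  apply IsUltrametricDist.isUltrametricDist_of_forall_norm_add_le_max_norm
  intro x y
  induction x, y using UniformSpace.Completion.induction_on₂ with
  | hp => exact isClosed_le (by fun_prop) (by fun_prop)
  | ih a b =>
    rw [← UniformSpace.Completion.coe_add]
    simp only [UniformSpace.Completion.norm_coe]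
    exact IsUltrametricDist.norm_add_le_max a b

/-- completion step -/
theorem exists_complete (K : Type) [NormedField K] [IsUltrametricDist K] :
    ∃ (F : Type) (_ : NormedField F) (_ : IsUltrametricDist F) (_ : CompleteSpace F)
      (J : K →+* F), DenseRange J ∧ ∀ a, ‖J a‖ = ‖a‖ :=
  ⟨UniformSpace.Completion K, inferInstance, ultra_completion K, inferInstance,
    UniformSpace.Completion.coeRingHom, UniformSpace.Completion.denseRange_coe,
    fun a => UniformSpace.Completion.norm_coe a⟩

/-- algebraic closure step -/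
theorem exists_algClosed (K : Type) [NontriviallyNormedField K] [IsUltrametricDist K]
    [CompleteSpace K] :
    ∃ (F : Type) (_ : NormedField F) (_ : IsUltrametricDist F) (_ : IsAlgClosed F)
      (J : K →+* F), ∀ a, ‖J a‖ = ‖a‖ := by
  let _ : NormedField (AlgebraicClosure K) := spectralNorm.normedField K (AlgebraicClosure K)
  refine ⟨AlgebraicClosure K, inferInstance, ?_, inferInstance, algebraMap K _, fun a => ?_⟩
  · exact IsUltrametricDist.isUltrametricDist_of_forall_norm_add_le_max_norm
      (isNonarchimedean_spectralNorm (K := K) (L := AlgebraicClosure K))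
  · exact spectralNorm_extends a

open scoped NNReal in
/-- fraction field step -/
theorem exists_normedField {R : Type} [CommRing R] (N : R → ℝ) (h0 : N 0 = 0) (h1 : N 1 = 1)
    (hnn : ∀ a, 0 ≤ N a) (hmul : ∀ a b, N (a * b) = N a * N b)
    (hadd : ∀ a b, N (a + b) ≤ max (N a) (N b)) :
    ∃ (F : Type) (_ : NormedField F) (_ : IsUltrametricDist F) (J : R →+* F),
      ∀ a, ‖J a‖ = N a := by
  let v : Valuation R ℝ≥0 :=
    { toFun := fun a => NNReal.mk (N a) (hnn a)
      map_zero' := NNReal.eq h0
      map_one' := NNReal.eq h1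
      map_mul' := fun a b => NNReal.eq (hmul a b)
      map_add_le_max' := fun a b => by
        rcases le_max_iff.mp (hadd a b) with h | h
        · exact le_max_of_le_left h
        · exact le_max_of_le_right h }
  let v' : Valuation (R ⧸ v.supp) ℝ≥0 := v.onQuot le_rfl
  have hS : nonZeroDivisors (R ⧸ v.supp) ≤ v'.supp.primeCompl := by
    intro x hx hx'
    have : v'.supp = 0 := v.supp_quot_supp
    rw [this] at hx'
    exact nonZeroDivisors.ne_zero hx (by simpa using hx')
  let w : Valuation (FractionRing (R ⧸ v.supp)) ℝ≥0 := v'.extendToLocalization hS _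
  let A : AbsoluteValue (FractionRing (R ⧸ v.supp)) ℝ :=
    { toFun := fun x => w x
      map_mul' := fun x y => by rw [map_mul, NNReal.coe_mul]
      nonneg' := fun x => (w x).2
      eq_zero' := fun x => by
        simp only [NNReal.coe_eq_zero]
        exact w.zero_iff
      add_le' := fun x y => by
        have := w.map_add x y
        rw [← NNReal.coe_le_coe, NNReal.coe_max] at this
        exact this.trans (max_le_add_of_nonneg (w x).2 (w y).2) }
  let _ : NormedField (FractionRing (R ⧸ v.supp)) := A.toNormedField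
  refine ⟨FractionRing (R ⧸ v.supp), inferInstance, ?_,
    (algebraMap (R ⧸ v.supp) _).comp (Ideal.Quotient.mk _), fun a => ?_⟩
  · apply IsUltrametricDist.isUltrametricDist_of_forall_norm_add_le_max_norm
    intro x y
    have := w.map_add x y
    rw [← NNReal.coe_le_coe, NNReal.coe_max] at this
    exact this
  · change ((w (algebraMap (R ⧸ v.supp) _ (Ideal.Quotient.mk _ a)) : ℝ≥0) : ℝ) = N a
    rw [Valuation.extendToLocalization_apply_map_apply]
    rfl

theorem exists_acc {R : Type} [CommRing R] (N : R → ℝ) (h0 : N 0 = 0) (h1 : N 1 = 1)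
    (hnn : ∀ a, 0 ≤ N a) (hmul : ∀ a b, N (a * b) = N a * N b)
    (hadd : ∀ a b, N (a + b) ≤ max (N a) (N b)) (hnt : ∃ a, 0 < N a ∧ N a < 1) :
    ∃ (F : Type) (_ : NontriviallyNormedField F) (_ : IsUltrametricDist F) (_ : CompleteSpace F)
      (_ : IsAlgClosed F) (J : R →+* F), ∀ a, ‖J a‖ = N a := by
  obtain ⟨a, ha0, ha1⟩ := hnt
  obtain ⟨K0, i0, u0, J0, hJ0⟩ := exists_normedField N h0 h1 hnn hmul hadd
  obtain ⟨K1, i1, u1, c1, J1, -, hJ1⟩ := exists_complete K0
  have nt : ∀ (F : Type) [NormedField F] (J : R →+* F), (∀ a, ‖J a‖ = N a) →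
      ∃ x : F, 1 < ‖x‖ := by
    intro F _ J hJ
    refine ⟨(J a)⁻¹, ?_⟩
    rw [norm_inv, hJ]
    exact (one_lt_inv₀ ha0).mpr ha1
  let i1' : NontriviallyNormedField K1 :=
    { i1 with non_trivial := nt K1 (J1.comp J0) (fun a => by simp [hJ1, hJ0]) }
  obtain ⟨K2, i2, u2, c2, J2, hJ2⟩ := exists_algClosed K1
  obtain ⟨K3, i3, u3, c3, J3, hd3, hJ3⟩ := exists_complete K2
  have hN : ∀ a, ‖(J3.comp (J2.comp (J1.comp J0))) a‖ = N a := fun a => by
    simp only [RingHom.comp_apply]
    rw [hJ3, hJ2, hJ1, hJ0]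
  let i3' : NontriviallyNormedField K3 := { i3 with non_trivial := nt K3 _ hN }
  exact ⟨K3, i3', u3, c3, isAlgClosed_of_dense J3 hd3, _, hN⟩

end Crest.Agent.R227
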