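import Crest.Agent.R227.Ev

/-!
# R227 / EvSub : evaluation commutes with substitution

Plan.  `coeff e (F.subst A) = ∑ᶠ d, coeff d F • coeff e (∏ A_i^{d_i})` (`MvPowerSeries.coeff_subst`) and only
`d` with `degree d ≤ degree e` contribute (constant terms vanish), with `‖coeff e (∏ A_i^{d_i})‖ ≤ 1`.
So `‖coeff e (F.subst A)‖ ρ^{|e|} ≤ max_d ‖coeff d F‖ ρ^{|d|}`.  For the value: split
`F = P + R` with `P` the truncation in degrees `< N` (a polynomial; `subst` of a polynomial is `aeval`,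
and `ev` is multiplicative/additive on `An` series), and `‖ev (R.subst A) y‖, ‖ev R (ev A y)‖ ≤ B' (ρ/ρ')^N`.
-/

set_option autoImplicit false
set_option linter.unusedSectionVars false
open Crest.LubinTate Filter Topology

namespace Crest.Agent.R227

variable {C : Type*} [NormedField C] [IsUltrametricDist C] {σ τ : Type*} [Finite σ]

theorem norm_finsum_le {ι : Type*} {f : ι → C} {B : ℝ} (hB : 0 ≤ B) (h : ∀ i, ‖f i‖ ≤ B) :
    ‖∑ᶠ i, f i‖ ≤ B := by
  classical
  rw [finsum_def]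
  split_ifs
  · exact IsUltrametricDist.norm_sum_le_of_forall_le_of_nonneg hB fun i _ => h i
  · simpa using hB

theorem bd_prod {ι : Type*} (s : Finset ι) {A : ι → MvPowerSeries τ C} (hA : ∀ i, Bd (A i)) :
    Bd (∏ i ∈ s, A i) :=
  Finset.prod_induction _ Bd (fun _ _ => Bd.mul) (bd_C (norm_one (α := C)).le) fun i _ => hA i

theorem coeff_pw_eq_zero {A : σ → MvPowerSeries τ C}
    (hA0 : ∀ i, MvPowerSeries.constantCoeff (A i) = 0) {d : σ →₀ ℕ} {e : τ →₀ ℕ}
    (h : e.degree < d.degree) : MvPowerSeries.coeff e (d.prod fun s n => A s ^ n) = 0 := by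
  refine MvPowerSeries.coeff_of_lt_order (lt_of_lt_of_le (Nat.cast_lt.2 h) ?_)
  refine le_trans ?_ (MvPowerSeries.le_order_prod _ _)
  rw [Finsupp.degree_apply, Nat.cast_sum]
  exact Finset.sum_le_sum fun i _ =>
    MvPowerSeries.le_order_pow_of_constantCoeff_eq_zero _ (hA0 i)

theorem norm_coeff_subst_le {F : MvPowerSeries σ C} {A : σ → MvPowerSeries τ C}
    (hA : ∀ i, Bd (A i)) (hA0 : ∀ i, MvPowerSeries.constantCoeff (A i) = 0) (e : τ →₀ ℕ) {B : ℝ}
    (h : ∀ d : σ →₀ ℕ, d.degree ≤ e.degree → ‖MvPowerSeries.coeff d F‖ ≤ B) :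
    ‖MvPowerSeries.coeff e (MvPowerSeries.subst A F : MvPowerSeries τ C)‖ ≤ B := by
  have hB : 0 ≤ B := (norm_nonneg _).trans (h 0 (by simp))
  rw [MvPowerSeries.coeff_subst (MvPowerSeries.hasSubst_of_constantCoeff_zero hA0)]
  refine norm_finsum_le hB fun d => ?_
  rcases le_or_gt d.degree e.degree with hd | hd
  · rw [smul_eq_mul, norm_mul]
    exact (mul_le_of_le_one_right (norm_nonneg _)
      (bd_prod _ (fun i => (hA i).pow _) e)).trans (h d hd)
  · rw [coeff_pw_eq_zero hA0 hd, smul_zero, norm_zero]; exact hB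

theorem norm_coeff_subst_mul_le {F : MvPowerSeries σ C} {A : σ → MvPowerSeries τ C}
    (hA : ∀ i, Bd (A i)) (hA0 : ∀ i, MvPowerSeries.constantCoeff (A i) = 0) {ρ B : ℝ} (h0 : 0 ≤ ρ)
    (h1 : ρ ≤ 1) (h : ∀ d : σ →₀ ℕ, ‖MvPowerSeries.coeff d F‖ * ρ ^ d.degree ≤ B) (e : τ →₀ ℕ) :
    ‖MvPowerSeries.coeff e (MvPowerSeries.subst A F : MvPowerSeries τ C)‖ * ρ ^ e.degree ≤ B := by
  rcases (pow_nonneg h0 e.degree).eq_or_lt with h2 | h2
  · rw [← h2, mul_zero]; exact le_trans (by positivity) (h 0)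
  · rw [← le_div_iff₀ h2]
    refine norm_coeff_subst_le hA hA0 e fun d hd => ?_
    rw [le_div_iff₀ h2]
    exact (mul_le_mul_of_nonneg_left (pow_le_pow_of_le_one h0 h1 hd) (norm_nonneg _)).trans (h d)

theorem Bd.subst {F : MvPowerSeries σ C} (hF : Bd F) {A : σ → MvPowerSeries τ C}
    (hA : ∀ i, Bd (A i)) (hA0 : ∀ i, MvPowerSeries.constantCoeff (A i) = 0) :
    Bd (MvPowerSeries.subst A F : MvPowerSeries τ C) := by
  exact fun e => norm_coeff_subst_le hA hA0 e fun d _ => hF d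

theorem An.subst {F : MvPowerSeries σ C} (hF : An F) {A : σ → MvPowerSeries τ C}
    (hA : ∀ i, Bd (A i)) (hA0 : ∀ i, MvPowerSeries.constantCoeff (A i) = 0) :
    An (MvPowerSeries.subst A F : MvPowerSeries τ C) := by
  intro ρ h0 h1
  obtain ⟨B, hB⟩ := hF ρ h0 h1
  exact ⟨B, norm_coeff_subst_mul_le hA hA0 h0 h1.le hB⟩

theorem Bd.subst1 {f : PowerSeries C} (hf : Bd f) {A : MvPowerSeries τ C}
    (hA : Bd A) (hA0 : MvPowerSeries.constantCoeff A = 0) : Bd (PowerSeries.subst A f) := by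
  exact hf.subst (fun _ => hA) fun _ => hA0

theorem An.subst1 {f : PowerSeries C} (hf : An f) {A : MvPowerSeries τ C}
    (hA : Bd A) (hA0 : MvPowerSeries.constantCoeff A = 0) : An (PowerSeries.subst A f) := by
  exact hf.subst (fun _ => hA) fun _ => hA0

theorem bd_expand_iff {f : PowerSeries C} {q : ℕ} (hq : q ≠ 0) :
    Bd (PowerSeries.expand q hq f) ↔ Bd f := by
  simp only [bd1_iff]
  refine ⟨fun h i => by simpa using h (q * i), fun h i => ?_⟩
  rw [PowerSeries.coeff_expand]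
  split_ifs
  · exact h _
  · simp

/-- the compositional inverse of a bounded series with linear coefficient of norm one is bounded. -/
theorem Bd.exists_cmp_inv {f : PowerSeries C} (hf : Bd f) (h0 : PowerSeries.constantCoeff f = 0)
    (h1 : ‖PowerSeries.coeff 1 f‖ = 1) :
    ∃ g : PowerSeries C, Bd g ∧ PowerSeries.constantCoeff g = 0 ∧
      cmp f g = PowerSeries.X ∧ cmp g f = PowerSeries.X := by
  obtain ⟨F, hF⟩ := (bd_iff_exists f).1 hf
  obtain rfl : PowerSeries.map (OO C).subtype F = f := hF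
  have hF0 : PowerSeries.constantCoeff (R := OO C) F = 0 := by
    rw [← PowerSeries.coeff_zero_eq_constantCoeff_apply] at h0 ⊢
    exact Subtype.ext h0
  have hF1 : IsUnit (PowerSeries.coeff 1 F : OO C) := by
    rw [PowerSeries.coeff_map] at h1
    have h2 : (OO C).subtype (PowerSeries.coeff 1 F) ≠ 0 := by
      intro h; rw [h, norm_zero] at h1; exact zero_ne_one h1
    exact IsUnit.of_mul_eq_one ⟨((OO C).subtype (PowerSeries.coeff 1 F))⁻¹,
      mem_OO.2 (by rw [norm_inv, h1, inv_one])⟩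
      (Subtype.ext (mul_inv_cancel₀ h2))
  obtain ⟨G, hG0, -, h2, h3⟩ := R227.exists_cmp_inv hF0 hF1
  refine ⟨PowerSeries.map (OO C).subtype G, bd_map _ (fun a => a.2) G, ?_, ?_, ?_⟩
  · rw [← PowerSeries.coeff_zero_eq_constantCoeff_apply, PowerSeries.coeff_map,
      PowerSeries.coeff_zero_eq_constantCoeff_apply, hG0, map_zero]
  · rw [← map_cmp _ _ hG0, h2, PowerSeries.map_X]
  · rw [← map_cmp _ _ hF0, h3, PowerSeries.map_X]

/-- substitution of a bounded series does not increase the sup norm of the coefficients. -/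
theorem norm_coeff_cmp_le {f g : PowerSeries C} (hg : Bd g) (h0 : PowerSeries.constantCoeff g = 0)
    {ε : ℝ} (i : ℕ) (hf : ∀ l ≤ i, ‖PowerSeries.coeff l f‖ ≤ ε) :
    ‖PowerSeries.coeff i (cmp f g)‖ ≤ ε := by
  refine norm_coeff_subst_le (fun _ => hg) (fun _ => h0) _ (forall_unit.2 fun l hl => hf l ?_)
  simpa using hl

theorem norm_coeff_mul_le {F G : MvPowerSeries τ C} {ε : ℝ}
    (hF : ∀ d, ‖MvPowerSeries.coeff d F‖ ≤ ε) (hG : Bd G) (d : τ →₀ ℕ) :
    ‖MvPowerSeries.coeff d (F * G)‖ ≤ ε := by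
  classical
  rw [MvPowerSeries.coeff_mul]
  refine IsUltrametricDist.norm_sum_le_of_forall_le_of_nonneg ((norm_nonneg _).trans (hF 0))
    fun p _ => ?_
  rw [norm_mul]
  exact (mul_le_of_le_one_right (norm_nonneg _) (hG _)).trans (hF _)

theorem norm_coeff_pow_sub_le {G G' : MvPowerSeries τ C} (hG : Bd G) (hG' : Bd G') {ε : ℝ}
    (h : ∀ d, ‖MvPowerSeries.coeff d (G - G')‖ ≤ ε) (m : ℕ) :
    ∀ d, ‖MvPowerSeries.coeff d (G ^ m - G' ^ m)‖ ≤ ε := by
  induction m with
  | zero => simpa using (norm_nonneg _).trans (h 0)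
  | succ m ih =>
    intro d
    rw [show G ^ (m + 1) - G' ^ (m + 1) = (G ^ m - G' ^ m) * G + (G - G') * G' ^ m by ring, map_add]
    exact (IsUltrametricDist.norm_add_le_max _ _).trans
      (max_le (norm_coeff_mul_le ih hG d) (norm_coeff_mul_le h (hG'.pow m) d))

/-- Lipschitz in the inner series. -/
theorem norm_coeff_cmp_sub_le {f g g' : PowerSeries C} (hf : Bd f) (hg : Bd g) (hg' : Bd g')
    (h0 : PowerSeries.constantCoeff g = 0) (h0' : PowerSeries.constantCoeff g' = 0) {ε : ℝ}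
    (h : ∀ l, ‖PowerSeries.coeff l g - PowerSeries.coeff l g'‖ ≤ ε) (i : ℕ) :
    ‖PowerSeries.coeff i (cmp f g) - PowerSeries.coeff i (cmp f g')‖ ≤ ε := by
  have s := PowerSeries.HasSubst.of_constantCoeff_zero' h0
  have s' := PowerSeries.HasSubst.of_constantCoeff_zero' h0'
  rw [PowerSeries.coeff_subst' s, PowerSeries.coeff_subst' s',
    ← finsum_sub_distrib (PowerSeries.coeff_subst_finite' s f i)
      (PowerSeries.coeff_subst_finite' s' f i)]
  refine norm_finsum_le ((norm_nonneg _).trans (h 0)) fun m => ?_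
  rw [← smul_sub, smul_eq_mul, norm_mul, ← map_sub]
  refine (mul_le_of_le_one_left (norm_nonneg _) ((bd1_iff f).1 hf m)).trans ?_
  exact norm_coeff_pow_sub_le hg hg' (forall_unit.2 fun l => by rw [map_sub]; exact h l) m _

variable [CompleteSpace C] [Finite τ]

theorem ev_subst_coe (P : MvPolynomial σ C) {A : σ → MvPowerSeries τ C}
    (hA : ∀ i, Bd (A i)) (hA0 : ∀ i, MvPowerSeries.constantCoeff (A i) = 0) {y : τ → C}
    (hy : Sm y) : ev (MvPowerSeries.subst A (P : MvPowerSeries σ C) : MvPowerSeries τ C) y =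
      MvPolynomial.eval (fun i => ev (A i) y) P := by
  have hs := MvPowerSeries.hasSubst_of_constantCoeff_zero hA0
  induction P using MvPolynomial.induction_on with
  | C a => rw [MvPolynomial.coe_C, MvPowerSeries.subst_C, ev_C, MvPolynomial.eval_C]
  | add p q hp hq =>
    rw [MvPolynomial.coe_add, MvPowerSeries.subst_add hs,
      ev_add ((an_coe p).subst hA hA0) ((an_coe q).subst hA hA0) hy, hp, hq, map_add]
  | mul_X p i hp =>
    rw [MvPolynomial.coe_mul, MvPolynomial.coe_X, MvPowerSeries.subst_mul hs,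
      MvPowerSeries.subst_X hs, ev_mul ((an_coe p).subst hA hA0) (hA i).an hy, hp, map_mul,
      MvPolynomial.eval_X]

/-- approximation by polynomials in the Gauss norm of radius `ρ`. -/
theorem An.exists_poly {F : MvPowerSeries τ C} (hF : An F) {ρ ε : ℝ} (h0 : 0 ≤ ρ) (h1 : ρ < 1)
    (hε : 0 < ε) : ∃ P : MvPolynomial τ C,
      (∀ d, MvPolynomial.coeff d P = MvPowerSeries.coeff d F ∨ MvPolynomial.coeff d P = 0) ∧
      ∀ d, ‖MvPowerSeries.coeff d (F - (P : MvPowerSeries τ C))‖ * ρ ^ d.degree ≤ ε := by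
  have h2 := (hF.tendsto_zero h0 h1).eventually (eventually_le_nhds hε)
  rw [eventually_cofinite] at h2
  refine ⟨MvPowerSeries.truncFinset C h2.toFinset F, fun d => ?_, fun d => ?_⟩
  · by_cases hd : d ∈ h2.toFinset
    · exact Or.inl (MvPowerSeries.coeff_truncFinset_of_mem _ hd)
    · exact Or.inr (MvPowerSeries.coeff_truncFinset_eq_zero _ hd)
  rw [map_sub, MvPolynomial.coeff_coe]
  by_cases hd : d ∈ h2.toFinset
  · rw [MvPowerSeries.coeff_truncFinset_of_mem _ hd, sub_self, norm_zero, zero_mul]; exact hε.le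
  · rw [MvPowerSeries.coeff_truncFinset_eq_zero _ hd, sub_zero]
    simpa using hd

omit [CompleteSpace C] [Finite τ] in
theorem norm_ev_le_of_gauss {F : MvPowerSeries τ C} {ρ B : ℝ} (h0 : 0 ≤ ρ)
    (h : ∀ d, ‖MvPowerSeries.coeff d F‖ * ρ ^ d.degree ≤ B) {y : τ → C} (hy : ∀ i, ‖y i‖ ≤ ρ) :
    ‖ev F y‖ ≤ B :=
  norm_ev_le fun d =>
    (mul_le_mul_of_nonneg_left (norm_mono_le h0 hy d) (norm_nonneg _)).trans (h d)

theorem ev_subst {F : MvPowerSeries σ C} (hF : An F) {A : σ → MvPowerSeries τ C}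
    (hA : ∀ i, Bd (A i)) (hA0 : ∀ i, MvPowerSeries.constantCoeff (A i) = 0) {y : τ → C}
    (hy : Sm y) :
    ev (MvPowerSeries.subst A F : MvPowerSeries τ C) y = ev F (fun i => ev (A i) y) := by
  have hs := MvPowerSeries.hasSubst_of_constantCoeff_zero hA0
  obtain ⟨ρ, h0, h1, h2⟩ := hy.exists_bound
  have hz : ∀ i, ‖ev (A i) y‖ ≤ ρ := fun i => (hA i).norm_ev_le (hA0 i) h0 h1.le h2
  rw [← sub_eq_zero, ← norm_le_zero_iff]
  refine le_of_forall_pos_le_add fun ε hε => ?_
  obtain ⟨P, -, hP⟩ := hF.exists_poly h0 h1 hε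
  have e1 := ev_sub (hF.subst hA hA0) ((an_coe P).subst hA hA0) hy
  have e2 := ev_sub hF (an_coe P) fun i => (hz i).trans_lt h1
  rw [← MvPowerSeries.subst_sub hs, ev_subst_coe P hA hA0 hy] at e1
  rw [ev_coe] at e2
  have h3 := norm_ev_le_of_gauss h0 (norm_coeff_subst_mul_le hA hA0 h0 h1.le hP) h2
  have h4 := norm_ev_le_of_gauss h0 hP hz
  rw [e1] at h3
  rw [e2, norm_sub_rev] at h4
  rw [zero_add, ← sub_add_sub_cancel _ (MvPolynomial.eval (fun i => ev (A i) y) P)]
  exact (IsUltrametricDist.norm_add_le_max _ _).trans (max_le h3 h4)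

theorem ev_subst1 {f : PowerSeries C} (hf : An f) {A : MvPowerSeries τ C}
    (hA : Bd A) (hA0 : MvPowerSeries.constantCoeff A = 0) {y : τ → C} (hy : Sm y) :
    ev (PowerSeries.subst A f) y = ev1 f (ev A y) := by
  exact ev_subst hf (fun _ => hA) (fun _ => hA0) hy

theorem ev1_cmp {f g : PowerSeries C} (hf : An f) (hg : Bd g)
    (hg0 : PowerSeries.constantCoeff g = 0) {y : C} (hy : ‖y‖ < 1) :
    ev1 (cmp f g) y = ev1 f (ev1 g y) := by
  exact ev_subst1 hf hg hg0 fun _ => hy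

theorem ev1_expand {f : PowerSeries C} (hf : An f) {q : ℕ} (hq : q ≠ 0) {y : C} (hy : ‖y‖ < 1) :
    ev1 (PowerSeries.expand q hq f) y = ev1 f (y ^ q) := by
  have h := ev1_cmp hf ((bd_X ()).pow q) (by
    change PowerSeries.constantCoeff (PowerSeries.X ^ q : PowerSeries C) = 0
    simp [hq]) hy
  rw [PowerSeries.expand_apply]
  refine h.trans (congrArg _ ?_)
  have := ev1_C_mul_X_pow 1 q y
  rwa [map_one, one_mul, one_mul] at this

end Crest.Agent.R227
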