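import Crest.Agent.R227.PSer
import Crest.Agent.R227.EvSub

/-!
# R227 / Sub : formal lemmas for the canonical coordinates

Plan.
* `subst_surjective`: successive approximation in the total degree.  Let `N` be the inverse of the linear part and
  `ℓ_i = ∑ N_{ij} X_j`, so that `subst κ ℓ_i ≡ X_i` modulo degree `≥ 2`.  If `f` has order `≥ d` then
  `f - subst κ (subst ℓ f)` has order `≥ d + 1`.  Sum the resulting sequence coefficientwise.
  (Alternatively `surjective_of_mk_map_comp_surjective` for the adically complete ring of power series.)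
* `exists_Psi`: `[p] = V(X^{p^h})` over `R = C⟦δ⟧` with `coeff 1 V = z₀ + δ₀` a unit, `V'` its compositional inverse.
  `Ψ ∘ [p] = Ψ^{p^h}` iff `Ψ ∘ V = Ψ^{(p^h)}` (`map (iterateFrobenius R p h)`, `map_iterateFrobenius_expand`), i.e. `Ψ` is a fixed
  point of `T Ψ = Ψ^{(p^h)} ∘ V'`.  `T (map C ψ) ≡ map C ψ mod (δ)` because `ψ ∘ [p]_z = ψ^{p^h}`
  (`isFGHom_cmp_mulSeries`, `pser_hon`), and `T` improves congruences from order `j ≥ 1` to order `p^h j > j`.  Define
  the `δ^d`-coefficient of `Ψ_i` as that of `(T^{|d|+1} ψ)_i`.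
* `uniq_Theta`: with `Δ = Θ₁ - Θ₂`: `Δ = Δ^{(p^h)} ∘ V'`, so `‖Δ‖ ≤ ε ⇒ ‖Δ‖ ≤ ε^{p^h}` (`Bd.exists_cmp_inv`, `norm_coeff_cmp_le`).
* `exists_psum`: `coeff d κ = ∑_{l ≤ |d|} coeff d (Ψ_l K^l)`; `κ - ∑_{l<N} Ψ_l K^l` has order `≥ N`.
-/

set_option autoImplicit false
open Crest.LubinTate Filter Topology

namespace Crest.Agent.R227

section ord
variable {τ C : Type*} [CommRing C]

/-- series of order at least `N`. -/
def ordI (τ C : Type*) [CommRing C] (N : ℕ) : Ideal (MvPowerSeries τ C) where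
  carrier := {F | (N : ℕ∞) ≤ F.order}
  add_mem' := fun ha hb => (le_min ha hb).trans MvPowerSeries.min_order_le_add
  zero_mem' := by simp
  smul_mem' := fun c _ hx => (le_trans hx le_add_self).trans MvPowerSeries.le_order_mul

theorem mem_ordI {N : ℕ} {F : MvPowerSeries τ C} :
    F ∈ ordI τ C N ↔ ∀ d : τ →₀ ℕ, d.degree < N → MvPowerSeries.coeff d F = 0 :=
  ⟨fun h _ hd => MvPowerSeries.coeff_of_lt_order (lt_of_lt_of_le (Nat.cast_lt.2 hd) h),
    fun h => MvPowerSeries.nat_le_order h⟩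

theorem mem_ordI_one {F : MvPowerSeries τ C} :
    F ∈ ordI τ C 1 ↔ MvPowerSeries.constantCoeff F = 0 :=
  MvPowerSeries.one_le_order_iff_constCoeff_eq_zero

theorem ordI_anti {M N : ℕ} (h : M ≤ N) {F : MvPowerSeries τ C} (hF : F ∈ ordI τ C N) :
    F ∈ ordI τ C M := le_trans (Nat.cast_le.2 h : (M : ℕ∞) ≤ N) hF

theorem mul_mem_ordI {M N : ℕ} {F G : MvPowerSeries τ C} (hF : F ∈ ordI τ C M)
    (hG : G ∈ ordI τ C N) : F * G ∈ ordI τ C (M + N) := by
  change ((M + N : ℕ) : ℕ∞) ≤ _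
  rw [Nat.cast_add]
  exact (add_le_add hF hG).trans MvPowerSeries.le_order_mul

theorem pow_mem_ordI {N : ℕ} {F : MvPowerSeries τ C} (hF : F ∈ ordI τ C N) (m : ℕ) :
    F ^ m ∈ ordI τ C (m * N) := by
  induction m with
  | zero => exact mem_ordI.2 fun d hd => by omega
  | succ m ih => rw [pow_succ, Nat.succ_mul]; exact mul_mem_ordI ih hF

theorem exists_fixpt {ι : Type*} (T : (ι → MvPowerSeries τ C) → ι → MvPowerSeries τ C)
    (x₀ : ι → MvPowerSeries τ C) {m : ℕ} (h0 : ∀ i, T x₀ i - x₀ i ∈ ordI τ C m)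
    (hT : ∀ (N : ℕ) x y, m ≤ N → (∀ i, x i - y i ∈ ordI τ C N) →
      ∀ i, T x i - T y i ∈ ordI τ C (N + 1)) :
    ∃ x, T x = x ∧ ∀ i, x i - x₀ i ∈ ordI τ C m := by
  have A : ∀ k i, T^[k + 1] x₀ i - T^[k] x₀ i ∈ ordI τ C (m + k) := fun k => by
    induction k with
    | zero => exact h0
    | succ k ih =>
      rw [Function.iterate_succ_apply' T (k + 1), Function.iterate_succ_apply' T k]
      rw [Function.iterate_succ_apply' T k] at ih
      exact hT (m + k) _ _ (by omega) ih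
  have B : ∀ k l, k ≤ l → ∀ i, T^[l] x₀ i - T^[k] x₀ i ∈ ordI τ C (m + k) := fun k l hl i => by
    induction l, hl using Nat.le_induction with
    | base => rw [sub_self]; exact zero_mem _
    | succ l hl ih => simpa using add_mem (ordI_anti (by omega) (A l i)) ih
  choose x hx using fun i => exists_mv (τ := τ) fun d =>
    MvPowerSeries.coeff d (T^[d.degree + 1] x₀ i)
  have D : ∀ k i, x i - T^[k] x₀ i ∈ ordI τ C (m + k) := fun k i => mem_ordI.2 fun d hd => by
    rw [map_sub, hx, ← map_sub]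
    rcases le_total k (d.degree + 1) with h | h
    · exact mem_ordI.1 (B _ _ h i) d hd
    · rw [← neg_sub, map_neg, mem_ordI.1 (B _ _ h i) d (by omega), neg_zero]
  refine ⟨x, funext fun i => MvPowerSeries.ext fun d => ?_, D 0⟩
  have h1 := hT _ _ _ (by omega) (D d.degree) i
  have h2 := D (d.degree + 1) i
  rw [Function.iterate_succ_apply'] at h2
  have h3 := mem_ordI.1 (sub_mem h1 h2) d (by omega)
  rwa [sub_sub_sub_cancel_right, map_sub, sub_eq_zero] at h3

theorem pw_sub_mem_ordI {σ : Type*} {a b : σ → MvPowerSeries τ C} (ha : ∀ i, a i ∈ ordI τ C 1)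
    (hb : ∀ i, b i ∈ ordI τ C 1) (hab : ∀ i, a i - b i ∈ ordI τ C 2) (d : σ →₀ ℕ) :
    (d.prod fun s e => a s ^ e) ∈ ordI τ C d.degree ∧ (d.prod fun s e => b s ^ e) ∈ ordI τ C d.degree ∧
      (d.prod fun s e => a s ^ e) - (d.prod fun s e => b s ^ e) ∈ ordI τ C (d.degree + 1) := by
  have step : ∀ (M N : ℕ) (x y x' y' : MvPowerSeries τ C),
      (x ∈ ordI τ C M ∧ y ∈ ordI τ C M ∧ x - y ∈ ordI τ C (M + 1)) →
      (x' ∈ ordI τ C N ∧ y' ∈ ordI τ C N ∧ x' - y' ∈ ordI τ C (N + 1)) →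
      (x * x' ∈ ordI τ C (M + N) ∧ y * y' ∈ ordI τ C (M + N) ∧
        x * x' - y * y' ∈ ordI τ C (M + N + 1)) := by
    rintro M N x y x' y' ⟨a1, a2, a3⟩ ⟨b1, b2, b3⟩
    refine ⟨mul_mem_ordI a1 b1, mul_mem_ordI a2 b2, ?_⟩
    rw [show x * x' - y * y' = (x - y) * x' + y * (x' - y') by ring]
    exact add_mem (ordI_anti (by omega) (mul_mem_ordI a3 b1))
      (ordI_anti (by omega) (mul_mem_ordI a2 b3))
  have z : (1 : MvPowerSeries τ C) ∈ ordI τ C 0 ∧ (1 : MvPowerSeries τ C) ∈ ordI τ C 0 ∧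
      (1 : MvPowerSeries τ C) - 1 ∈ ordI τ C (0 + 1) :=
    ⟨mem_ordI.2 fun d hd => by omega, mem_ordI.2 fun d hd => by omega, by
      rw [sub_self]; exact zero_mem _⟩
  induction d using Finsupp.induction_linear with
  | zero => simpa using z
  | add d e h1 h2 =>
    rw [Finsupp.prod_add_index' (fun _ => pow_zero _) fun _ _ _ => pow_add _ _ _,
      Finsupp.prod_add_index' (fun _ => pow_zero _) fun _ _ _ => pow_add _ _ _, map_add]
    exact step _ _ _ _ _ _ h1 h2
  | single i m =>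
    rw [Finsupp.prod_single_index (h := fun s e => a s ^ e) (pow_zero _),
      Finsupp.prod_single_index (h := fun s e => b s ^ e) (pow_zero _), Finsupp.degree_single]
    induction m with
    | zero => simpa using z
    | succ m ih => rw [pow_succ, pow_succ]; exact step _ _ _ _ _ _ ih ⟨ha i, hb i, hab i⟩

theorem subst_sub_subst_mem_ordI {σ : Type*} [Finite σ] {a b : σ → MvPowerSeries τ C}
    (ha : ∀ i, a i ∈ ordI τ C 1) (hb : ∀ i, b i ∈ ordI τ C 1) (hab : ∀ i, a i - b i ∈ ordI τ C 2)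
    {N : ℕ} {g : MvPowerSeries σ C} (hg : g ∈ ordI σ C N) :
    MvPowerSeries.subst a g - MvPowerSeries.subst b g ∈ ordI τ C (N + 1) := by
  refine mem_ordI.2 fun e he => ?_
  rw [map_sub, sub_eq_zero, MvPowerSeries.coeff_subst
    (MvPowerSeries.hasSubst_of_constantCoeff_zero fun i => mem_ordI_one.1 (ha i)),
    MvPowerSeries.coeff_subst
    (MvPowerSeries.hasSubst_of_constantCoeff_zero fun i => mem_ordI_one.1 (hb i))]
  refine finsum_congr fun d => ?_
  rcases lt_or_ge d.degree N with hd | hd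
  · rw [mem_ordI.1 hg d hd, zero_smul, zero_smul]
  · have := mem_ordI.1 (pw_sub_mem_ordI ha hb hab d).2.2 e (by omega)
    rw [map_sub, sub_eq_zero] at this
    rw [this]

theorem coeff_cmp_mem {R : Type*} [CommRing R] (I : Ideal R) {f g : PowerSeries R}
    (hg : PowerSeries.constantCoeff g = 0) (hf : ∀ l, PowerSeries.coeff l f ∈ I) (i : ℕ) :
    PowerSeries.coeff i (cmp f g) ∈ I := by
  change MvPowerSeries.coeff (Finsupp.single () i) _ ∈ I
  rw [coeff_subst_range hg f _ (Nat.lt_succ_self _)]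
  exact sum_mem fun k _ => I.mul_mem_right _ (hf k)

end ord

theorem subst_surjective {R : Type*} [CommRing R] {r : ℕ} (κ : Fin r → MvPowerSeries (Fin r) R)
    (h0 : ∀ i, MvPowerSeries.constantCoeff (κ i) = 0)
    (hdet : IsUnit (Matrix.of fun i j => MvPowerSeries.coeff (Finsupp.single j 1) (κ i)).det)
    (f : MvPowerSeries (Fin r) R) :
    ∃ g : MvPowerSeries (Fin r) R, MvPowerSeries.subst κ g = f := by
  set M : Matrix (Fin r) (Fin r) R :=
    Matrix.of fun i j => MvPowerSeries.coeff (Finsupp.single j 1) (κ i) with hM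
  have hκ := MvPowerSeries.hasSubst_of_constantCoeff_zero h0
  let ℓ : Fin r → MvPowerSeries (Fin r) R := fun i => ∑ j, M⁻¹ i j • MvPowerSeries.X j
  have hℓ0 : ∀ i, MvPowerSeries.constantCoeff (ℓ i) = 0 := fun i => by simp [ℓ]
  have hℓ := MvPowerSeries.hasSubst_of_constantCoeff_zero hℓ0
  let κ' : Fin r → MvPowerSeries (Fin r) R := fun i => ∑ j, M⁻¹ i j • κ j
  have hκ' : ∀ i, MvPowerSeries.subst κ (ℓ i) = κ' i := fun i => by
    rw [← MvPowerSeries.coe_substAlgHom hκ, map_sum]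
    exact Finset.sum_congr rfl fun j _ => by
      rw [map_smul, MvPowerSeries.coe_substAlgHom, MvPowerSeries.subst_X hκ]
  have h1 : ∀ i, κ' i ∈ ordI (Fin r) R 1 := fun i => mem_ordI_one.2 (by simp [κ', h0])
  have hs := MvPowerSeries.hasSubst_of_constantCoeff_zero fun i => mem_ordI_one.1 (h1 i)
  have h2 : ∀ i, MvPowerSeries.X i - κ' i ∈ ordI (Fin r) R 2 := fun i => mem_ordI.2 fun d hd => by
    rcases Nat.lt_or_ge d.degree 1 with h | h
    · obtain rfl : d = 0 := (Finsupp.degree_eq_zero_iff d).1 (by omega)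
      rw [MvPowerSeries.coeff_zero_eq_constantCoeff_apply, map_sub, mem_ordI_one.1 (h1 i),
        MvPowerSeries.constantCoeff_X, sub_zero]
    · obtain ⟨j, rfl⟩ : ∃ j, d = Finsupp.single j 1 := by
        have : d.degree = 1 := by omega
        simpa [eq_comm] using (Finsupp.sum_eq_one_iff d).1 this
      have := congrFun (congrFun (Matrix.nonsing_inv_mul M hdet) i) j
      rw [Matrix.mul_apply, Matrix.one_apply] at this
      rw [map_sub, MvPowerSeries.coeff_X, map_sum, sub_eq_zero]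
      simp only [map_smul, smul_eq_mul, Finsupp.single_left_inj (one_ne_zero (α := ℕ)), eq_comm (a := j)]
      exact this.symm
  obtain ⟨x, hx, -⟩ := exists_fixpt (ι := Unit) (τ := Fin r) (C := R)
    (fun x _ => f + (x () - MvPowerSeries.subst κ' (x ()))) (fun _ => f) (m := 0)
    (fun _ => mem_ordI.2 fun d hd => by omega) fun N x y _ h _ => by
      have := subst_sub_subst_mem_ordI (fun i => mem_ordI_one.2 (MvPowerSeries.constantCoeff_X i))
        h1 h2 (h ())
      rw [MvPowerSeries.subst_self, id, MvPowerSeries.subst_sub hs] at this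
      convert this using 1; ring
  refine ⟨MvPowerSeries.subst ℓ (x ()), ?_⟩
  rw [MvPowerSeries.subst_comp_subst_apply hℓ hκ, funext hκ']
  have := congrFun hx ()
  linear_combination -this

variable {p : ℕ} [hp : Fact p.Prime]

theorem cmp_pser_iff {R : Type*} [CommRing R] [CharP R p] {h : ℕ} {V V' : PowerSeries R}
    (hV : PowerSeries.constantCoeff V = 0) (hV' : PowerSeries.constantCoeff V' = 0)
    (h1 : cmp V V' = PowerSeries.X) (h2 : cmp V' V = PowerSeries.X) (Ψ : PowerSeries R) :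
    cmp Ψ (PowerSeries.expand (p ^ h) (pow_ne_zero h hp.out.ne_zero) V) = Ψ ^ p ^ h ↔
      cmp (PowerSeries.map (iterateFrobenius R p h) Ψ) V' = Ψ := by
  have e1 : cmp Ψ (PowerSeries.expand (p ^ h) (pow_ne_zero h hp.out.ne_zero) V) =
      PowerSeries.expand (p ^ h) (pow_ne_zero h hp.out.ne_zero) (cmp Ψ V) :=
    (PowerSeries.expand_subst _ _ (fgS hV) Ψ).symm
  have e2 : Ψ ^ p ^ h = PowerSeries.expand (p ^ h) (pow_ne_zero h hp.out.ne_zero)
      (PowerSeries.map (iterateFrobenius R p h) Ψ) := by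
    rw [← PowerSeries.map_expand]
    exact (MvPowerSeries.map_iterateFrobenius_expand p hp.out.ne_zero Ψ h).symm
  rw [e1, e2]
  constructor
  · intro e
    have : cmp Ψ V = PowerSeries.map (iterateFrobenius R p h) Ψ := PowerSeries.ext fun i => by
      simpa only [PowerSeries.coeff_expand_mul] using congrArg (PowerSeries.coeff (p ^ h * i)) e
    rw [← this, cmp_assoc _ hV hV', h1, cmp_X]
  · intro e
    conv_lhs => rw [← e, cmp_assoc _ hV' hV, h2, cmp_X]

omit hp in
theorem zseq_first {R : Type*} [CommRing R] {n h r : ℕ} (hr0 : 0 < r) (z : Fin r → R) :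
    zseq n h z h = z ⟨0, hr0⟩ := by
  rw [zseq, dif_pos ⟨le_rfl, by omega⟩]
  congr 2; omega

omit hp in
theorem zseq_of_lt {R : Type*} [CommRing R] {n h r : ℕ} (hr : h + r = n) (z : Fin r → R) (j : ℕ)
    (hj : j < h) : zseq n h z j = 0 := by
  rw [zseq, dif_neg (by omega), hon, if_neg (by omega)]

theorem exists_Psi {C : Type*} [Field C] [CharP C p] {n h r : ℕ} (hh : 1 ≤ h) (hr : h + r = n)
    (hr0 : 0 < r) {z : Fin r → C} (hz0 : z ⟨0, hr0⟩ ≠ 0) {ψ : PowerSeries C}
    (hψ : IsFGHom (HL p n (zseq n h z)) (HL p h (hon h)) ψ) :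
    ∃ Ψ : PowerSeries (MvPowerSeries (Fin r) C), PowerSeries.constantCoeff Ψ = 0 ∧
      PowerSeries.map MvPowerSeries.constantCoeff Ψ = ψ ∧
      cmp Ψ (mulSeries (HL p n (zseq n h
        (fun i => (MvPowerSeries.C (z i) + MvPowerSeries.X i : MvPowerSeries (Fin r) C)))) p) =
        Ψ ^ p ^ h := by
  have : CharP (MvPowerSeries (Fin r) C) p :=
    charP_of_injective_ringHom (MvPowerSeries.C_injective (σ := Fin r) (R := C)) p
  set Z : Fin r → MvPowerSeries (Fin r) C := fun i => MvPowerSeries.C (z i) + MvPowerSeries.X i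
    with hZ
  set cc : MvPowerSeries (Fin r) C →+* C := MvPowerSeries.constantCoeff with hcc
  have hZz : (fun i => cc (Z i)) = z := funext fun i => by simp [hZ, hcc]
  obtain ⟨V, V0, V1, hV⟩ := exists_pser_charP p (CharP.cast_eq_zero _ p) hh (show h ≤ n by omega)
    (zseq n h Z) fun j _ hj => zseq_of_lt hr Z j hj
  rw [zseq_first hr0] at V1
  obtain ⟨V', V0', -, i1, i2⟩ := exists_cmp_inv V0 (by
    rw [V1, MvPowerSeries.isUnit_iff_constantCoeff]
    simpa [hZ] using hz0)
  have hbase : cmp (PowerSeries.map (iterateFrobenius C p h) ψ) (PowerSeries.map cc V') = ψ := by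
    refine (cmp_pser_iff (V := PowerSeries.map cc V) (V' := PowerSeries.map cc V')
      (const_map cc V0) (const_map cc V0')
      (by rw [← map_cmp cc _ V0', i1, PowerSeries.map_X])
      (by rw [← map_cmp cc _ V0, i2, PowerSeries.map_X]) ψ).1 ?_
    rw [← PowerSeries.map_expand, ← hV, map_mulSeries, HL_map_zseq, hZz,
      isFGHom_cmp_mulSeries hψ, pser_hon p (CharP.cast_eq_zero _ p) hh, X_pow_cmp hψ.1]
  have hq : 2 ≤ p ^ h := hp.out.two_le.trans (Nat.le_self_pow (by omega) p)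
  obtain ⟨x, hx, hx0⟩ := exists_fixpt (ι := ℕ) (τ := Fin r) (C := C)
    (fun x i => PowerSeries.coeff i
      (cmp (PowerSeries.map (iterateFrobenius _ p h) (PowerSeries.mk x)) V'))
    (fun i => MvPowerSeries.C (PowerSeries.coeff i ψ)) (m := 1)
    (fun i => mem_ordI_one.2 (by
      rw [map_sub, MvPowerSeries.constantCoeff_C, sub_eq_zero, ← hcc, ← PowerSeries.coeff_map,
        map_cmp cc _ V0']
      conv_rhs => rw [← hbase]
      congr 2
      ext l
      simp [iterateFrobenius_def, hcc]))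
    fun N x y hN hxy i => by
      rw [← map_sub, cmp, cmp, ← PowerSeries.subst_sub (fgS V0'), ← map_sub]
      refine coeff_cmp_mem _ V0' (fun l => ?_) i
      rw [PowerSeries.coeff_map, map_sub, PowerSeries.coeff_mk, PowerSeries.coeff_mk,
        iterateFrobenius_def]
      exact ordI_anti (by nlinarith) (pow_mem_ordI (hxy l) _)
  have hfix : cmp (PowerSeries.map (iterateFrobenius _ p h) (PowerSeries.mk x)) V' =
      PowerSeries.mk x := PowerSeries.ext fun i => by
    rw [PowerSeries.coeff_mk]; exact congrFun hx i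
  have hcx : ∀ i, cc (x i) = PowerSeries.coeff i ψ := fun i => by
    have := mem_ordI_one.1 (hx0 i)
    rwa [map_sub, MvPowerSeries.constantCoeff_C, sub_eq_zero] at this
  refine ⟨PowerSeries.mk x, ?_, PowerSeries.ext fun i => by
    rw [PowerSeries.coeff_map, PowerSeries.coeff_mk, hcx], ?_⟩
  · have e1 : x 0 = x 0 ^ p ^ h := by
      have := congrArg (PowerSeries.coeff 0) hfix
      rw [PowerSeries.coeff_mk] at this
      conv_lhs => rw [← this]
      change MvPowerSeries.coeff (Finsupp.single () 0) _ = _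
      rw [coeff_subst_range V0' _ _ (N := 1) (by simp)]
      simp [iterateFrobenius_def]
    have e2 : ∀ k, x 0 ∈ ordI (Fin r) C (k + 1) := fun k => by
      induction k with
      | zero =>
        exact mem_ordI_one.2 ((hcx 0).trans (by
          rw [PowerSeries.coeff_zero_eq_constantCoeff_apply, hψ.1]))
      | succ k ih => rw [e1]; exact ordI_anti (by nlinarith) (pow_mem_ordI ih _)
    rw [← PowerSeries.coeff_zero_eq_constantCoeff_apply, PowerSeries.coeff_mk]
    exact MvPowerSeries.ext fun d => mem_ordI.1 (e2 d.degree) d (by omega)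
  · rw [hV]
    exact (cmp_pser_iff V0 V0' i1 i2 _).2 hfix

theorem uniq_Theta {D : Type*} [NormedField D] [IsUltrametricDist D] [CharP D p] {n h r : ℕ}
    (hh : 1 ≤ h) (hr : h + r = n) (hr0 : 0 < r) {z : Fin r → D} (hz : ∀ i, ‖z i‖ ≤ 1)
    (hz0 : ‖z ⟨0, hr0⟩‖ = 1) {Θ₁ Θ₂ : PowerSeries D}
    (h₁ : cmp Θ₁ (mulSeries (HL p n (zseq n h z)) p) = Θ₁ ^ p ^ h)
    (h₂ : cmp Θ₂ (mulSeries (HL p n (zseq n h z)) p) = Θ₂ ^ p ^ h) {μ : ℝ} (hμ : μ < 1)
    (e : ∀ i, ‖PowerSeries.coeff i Θ₁ - PowerSeries.coeff i Θ₂‖ ≤ μ) : Θ₁ = Θ₂ := by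
  obtain ⟨V, V0, V1, hV⟩ := exists_pser_charP p (CharP.cast_eq_zero D p) hh (show h ≤ n by omega)
    (zseq n h z) fun j _ hj => zseq_of_lt hr z j hj
  rw [zseq_first hr0] at V1
  have hb : Bd V := by
    rw [← bd_expand_iff (pow_ne_zero h hp.out.ne_zero), ← hV]
    have := bd_map (OO D).subtype (fun a => a.2)
      (mulSeries (HL p n (zseq n h (fun i => (⟨z i, hz i⟩ : OO D)))) p)
    change Bd (PowerSeries.map _ _) at this
    rwa [map_mulSeries, HL_map_zseq] at this
  obtain ⟨V', hb', V0', i1, i2⟩ := hb.exists_cmp_inv V0 (by rw [V1, hz0])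
  rw [hV, cmp_pser_iff V0 V0' i1 i2] at h₁ h₂
  have hΔ : cmp (PowerSeries.map (iterateFrobenius D p h) (Θ₁ - Θ₂)) V' = Θ₁ - Θ₂ := by
    rw [map_sub, cmp, PowerSeries.subst_sub (fgS V0')]
    exact congrArg₂ (· - ·) h₁ h₂
  have hq : 2 ≤ p ^ h := hp.out.two_le.trans (Nat.le_self_pow (by omega) p)
  have hμ0 : 0 ≤ μ := (norm_nonneg _).trans (e 0)
  have key : ∀ k i, ‖PowerSeries.coeff i (Θ₁ - Θ₂)‖ ≤ μ ^ (k + 1) := fun k => by
    induction k with
    | zero => intro i; rw [map_sub, zero_add, pow_one]; exact e i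
    | succ k ih =>
      intro i
      rw [← hΔ]
      refine norm_coeff_cmp_le hb' V0' i fun l _ => ?_
      rw [PowerSeries.coeff_map, iterateFrobenius_def, norm_pow]
      refine (pow_le_pow_left₀ (norm_nonneg _) (ih l) _).trans ?_
      rw [← pow_mul]
      exact pow_le_pow_of_le_one hμ0 hμ.le (by nlinarith)
  refine sub_eq_zero.1 (PowerSeries.ext fun i => ?_)
  rw [map_zero, ← norm_le_zero_iff]
  exact ge_of_tendsto' ((tendsto_pow_atTop_nhds_zero_of_lt_one hμ0 hμ).comp
    (tendsto_add_atTop_nat 1)) fun k => key k i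

theorem exists_psum {C D τ : Type*} [CommRing C] [NormedField D] [IsUltrametricDist D]
    [CompleteSpace D] [Finite τ] (Ψ : PowerSeries (MvPowerSeries τ C))
    (hΨ : PowerSeries.constantCoeff Ψ = 0) {K : MvPowerSeries τ C}
    (hK : MvPowerSeries.constantCoeff K = 0) (σ : C →+* D) (hσ : ∀ a, ‖σ a‖ ≤ 1) :
    ∃ κ : MvPowerSeries τ C, MvPowerSeries.constantCoeff κ = 0 ∧
      (∀ t, MvPowerSeries.coeff (Finsupp.single t 1) κ =
        MvPowerSeries.constantCoeff (PowerSeries.coeff 1 Ψ) *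
          MvPowerSeries.coeff (Finsupp.single t 1) K) ∧
      ∀ (δ : τ → D) (hδ : Sm δ),
        evHom σ hσ hδ κ = ev1 (PowerSeries.map (evHom σ hσ hδ) Ψ) (evHom σ hσ hδ K) := by
  classical
  let S : ℕ → MvPowerSeries τ C := fun N => ∑ l ∈ Finset.range N, PowerSeries.coeff l Ψ * K ^ l
  have hS : ∀ M N, M ≤ N → S N - S M ∈ ordI τ C M := fun M N h => by
    rw [Finset.sum_range_sub_sum_range h]
    refine sum_mem fun l hl => Ideal.mul_mem_left _ _ (ordI_anti ?_
      (pow_mem_ordI (mem_ordI_one.2 hK) l))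
    simpa using (Finset.mem_filter.1 hl).2
  obtain ⟨κ, hκ⟩ := exists_mv (τ := τ) fun d => MvPowerSeries.coeff d (S (d.degree + 1))
  have hκS : ∀ N (d : τ →₀ ℕ), d.degree < N →
      MvPowerSeries.coeff d κ = MvPowerSeries.coeff d (S N) := fun N d hd => by
    have := mem_ordI.1 (hS (d.degree + 1) N hd) d (by omega)
    rw [map_sub, sub_eq_zero] at this
    rw [hκ, this]
  have h0 : PowerSeries.coeff 0 Ψ = 0 := by rwa [PowerSeries.coeff_zero_eq_constantCoeff_apply]
  refine ⟨κ, ?_, fun t => ?_, fun δ hδ => ?_⟩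
  · rw [← MvPowerSeries.coeff_zero_eq_constantCoeff_apply, hκS 1 0 (by simp)]
    simp [S, h0]
  · rw [hκS 2 _ (by simp)]
    simp only [S, Finset.sum_range_succ, Finset.sum_range_zero, h0, zero_mul, zero_add, pow_one]
    rw [MvPowerSeries.coeff_mul, Finsupp.antidiagonal_single]
    simp [Finset.Nat.antidiagonal_succ, hK]
  · obtain ⟨ρ, ρ0, ρ1, hρ⟩ := hδ.exists_bound
    have hle : ∀ F, ‖evHom σ hσ hδ F‖ ≤ 1 := fun F => (bd_map σ hσ F).norm_ev_le_one hδ
    have hKlt : ‖evHom σ hσ hδ K‖ < 1 := (bd_map σ hσ K).norm_ev_lt_one (const_map σ hK) hδ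
    have hs := (An.hasSum1 (bd_map _ hle Ψ).an hKlt).tendsto_sum_nat
    refine tendsto_nhds_unique ?_ hs
    refine tendsto_iff_norm_sub_tendsto_zero.2 (squeeze_zero (fun _ => norm_nonneg _) (fun N => ?_)
      (tendsto_pow_atTop_nhds_zero_of_lt_one ρ0 ρ1))
    have : ∑ i ∈ Finset.range N, PowerSeries.coeff i (MvPowerSeries.map (evHom σ hσ hδ) Ψ) *
        evHom σ hσ hδ K ^ i = evHom σ hσ hδ (S N) := by
      rw [map_sum]
      exact Finset.sum_congr rfl fun l _ => by rw [map_mul, map_pow]; rfl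
    rw [this]
    exact (bd_map σ hσ _).norm_ev_sub_le_pow (bd_map σ hσ _) (fun d hd => by
      rw [MvPowerSeries.coeff_map, MvPowerSeries.coeff_map, hκS N d hd]) ρ0 ρ1 hρ

end Crest.Agent.R227
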