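import Crest.Agent.R227.AddInit
import Crest.Agent.R227.Sub

/-!
# R227 / Adapt : adapted coordinates; a linear relation over the endomorphism ring

`act γ w` is the action of a matrix `γ` of endomorphisms `hend p h (γ i j)` on `w ∈ G^r`; `lin γ` its linear part.

Plan.  For each `c`, `map jκ (hend c)` is a bounded endomorphism of the Honda law; `exists_homPt` gives the additive map
`endPt c` on points.
* `isLam_act`: `act γ` is additive, and commutes with `w ↦ w^{p^h}` (`= p • `: `Pt.val_nsmul`, `pm_hon`), hence with `rt p h`.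
* `exists_vanish_act`: `exists_fsum` gives series `γ_i` over `κ` with `ev γ_i w = act γ w i` and linear part `lin γ`
  (`coeff_one_hend`); `subst_surjective` gives `f'` with `subst γ f' = f`; `ev_subst`.
* `act_step`: apply `add_init` to `act γ '' Λ`; `γ' i₀ j = ∑_i tw frobenius (single (e i) [c i]) (γ i j)` (`hend_add`, `hend_tw`,
  `hend_single`), so `act γ' w i₀ = ∑_G c_i (act γ w i)^{p^{e_i}}`, which differs from the ordinary sum by at most `ρ_{i₀}²`
  (`Pt.norm_val_sum_sub_sum_le`).  `det (lin γ') = c_{i₀} det (lin γ)` (row operation: `Matrix.det_updateRow_sum`).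
* `exists_min_act`: take a minimising sequence `γ_k` and an ultrafilter `𝒰 ≤ atTop`; each Witt coefficient
  `((γ_k i j t).coeff s : κ)` is `𝒰`-eventually constant (κ finite); this defines `γ`.  `lin γ = lin γ_k` for `𝒰`-most `k`, and
  `‖act γ_k w i - act γ w i‖ ≤ ρ^{p^M}` for `𝒰`-most `k` (`coeff_hend_congr`, `Bd.norm_ev_sub_le_pow`, `Pt.norm_val_sum_sub_le`).
* `adapt`: at a minimiser of `∏_i sup_{w ∈ S} ‖act γ w i‖` some factor vanishes by `act_step`; a row of an invertible
  matrix is nonzero.  (`γ = 1` shows the set of admissible `γ` is nonempty; `r = 0` is impossible since `0 ∈ Λ`.)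
-/

set_option autoImplicit false
open Crest.LubinTate Filter Topology

namespace Crest.Agent.R227

variable (p : ℕ) [hp : Fact p.Prime] {D : Type*} [NormedField D] [IsUltrametricDist D]
  [CompleteSpace D]

/-- `∑_G d_j (w_j)`. -/
noncomputable def comb (h : ℕ) {r : ℕ} (jκ : GaloisField p h →+* D)
    (d : Fin r → ℕ → WittVector p (GaloisField p h)) (w : Fin r → D) : Pt p h (hon h : ℕ → D) :=
  ∑ j, toPt p h (hon h) (ev1 (PowerSeries.map jκ (hend p h (d j))) (w j))

/-- the action of a matrix of endomorphisms. -/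
noncomputable def act (h : ℕ) {r : ℕ} (jκ : GaloisField p h →+* D)
    (γ : Fin r → Fin r → ℕ → WittVector p (GaloisField p h)) (w : Fin r → D) (i : Fin r) : D :=
  (comb p h jκ (γ i) w).val

/-- the linear part. -/
def lin {h r : ℕ} (γ : Fin r → Fin r → ℕ → WittVector p (GaloisField p h)) :
    Matrix (Fin r) (Fin r) (GaloisField p h) := Matrix.of fun i j => (γ i j 0).coeff 0

/-- `sup_{w ∈ S} ‖act γ w i‖`. -/
noncomputable def rad (h : ℕ) {r : ℕ} (jκ : GaloisField p h →+* D) (S : Finset (Fin r → D))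
    (γ : Fin r → Fin r → ℕ → WittVector p (GaloisField p h)) (i : Fin r) : NNReal :=
  S.sup fun w => ‖act p h jκ γ w i‖₊

variable {p} [CharP D p] [PerfectRing D p] {h r : ℕ}

section ept
omit [PerfectRing D p]

omit [IsUltrametricDist D] [CompleteSpace D] [CharP D p] in
theorem bd_hend (hh : 1 ≤ h) (jκ : GaloisField p h →+* D) (c : ℕ → WittVector p (GaloisField p h)) :
    Bd (PowerSeries.map jκ (hend p h c)) := bd_map jκ (norm_galois_le hh jκ) _

omit [IsUltrametricDist D] [CompleteSpace D] [CharP D p] in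
theorem const_map_hend (jκ : GaloisField p h →+* D) (c : ℕ → WittVector p (GaloisField p h)) :
    PowerSeries.constantCoeff (PowerSeries.map jκ (hend p h c)) = 0 := by
  rw [← PowerSeries.coeff_zero_eq_constantCoeff_apply, PowerSeries.coeff_map,
    PowerSeries.coeff_zero_eq_constantCoeff_apply, const_hend, map_zero]

omit [CharP D p] in
theorem exists_ept (hh : 1 ≤ h) (jκ : GaloisField p h →+* D) (c : ℕ → WittVector p (GaloisField p h)) :
    ∃ Φ : Pt p h (hon h : ℕ → D) →+ Pt p h (hon h : ℕ → D),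
      ∀ a, (Φ a).val = ev1 (PowerSeries.map jκ (hend p h c)) a.val :=
  exists_homPt (norm_hon_le h) (norm_hon_le h)
    (by simpa only [HL_map_hon] using isFGHom_map jκ (isFGHom_hend hh (galois_pow h hh) c))
    (bd_hend hh jκ c)

/-- the endomorphism on points. -/
noncomputable def ept (hh : 1 ≤ h) (jκ : GaloisField p h →+* D)
    (c : ℕ → WittVector p (GaloisField p h)) : Pt p h (hon h : ℕ → D) →+ Pt p h (hon h : ℕ → D) :=
  (exists_ept hh jκ c).choose

omit [CharP D p]

theorem val_ept (hh : 1 ≤ h) (jκ : GaloisField p h →+* D) (c : ℕ → WittVector p (GaloisField p h))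
    (a : Pt p h (hon h : ℕ → D)) :
    (ept hh jκ c a).val = ev1 (PowerSeries.map jκ (hend p h c)) a.val :=
  (exists_ept hh jκ c).choose_spec a

theorem ept_sum (hh : 1 ≤ h) (jκ : GaloisField p h →+* D) {ι : Type*} (s : Finset ι)
    (c : ι → ℕ → WittVector p (GaloisField p h)) (a : Pt p h (hon h : ℕ → D)) :
    ept hh jκ (∑ i ∈ s, c i) a = ∑ i ∈ s, ept hh jκ (c i) a := by
  induction s using Finset.cons_induction with
  | empty =>
    refine Pt.ext ?_
    rw [val_ept, Finset.sum_empty, hend_zero hh (galois_pow h hh), map_zero]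
    exact ev_zero_left _
  | cons i s hi ih =>
    refine Pt.ext ?_
    rw [Finset.sum_cons, Finset.sum_cons, ← ih, Pt.val_add (norm_hon_le h), val_ept, val_ept, val_ept,
      hend_add hh (galois_pow h hh), map_fadd _ _ (const_hend _) (const_hend _), HL_map_hon,
      ev1_fadd (norm_hon_le h) (bd_hend hh jκ _) (bd_hend hh jκ _) (const_map_hend _ _)
        (const_map_hend _ _) a.lt]

theorem ept_tw (hh : 1 ≤ h) (jκ : GaloisField p h →+* D) (d c : ℕ → WittVector p (GaloisField p h))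
    (a : Pt p h (hon h : ℕ → D)) :
    ept hh jκ (tw WittVector.frobenius d c) a = ept hh jκ d (ept hh jκ c a) := by
  refine Pt.ext ?_
  rw [val_ept, val_ept, val_ept, hend_tw hh (galois_pow h hh), map_cmp _ _ (const_hend _),
    ev1_cmp (bd_hend hh jκ _).an (bd_hend hh jκ _) (const_map_hend _ _) a.lt]

theorem ept_single (hh : 1 ≤ h) (jκ : GaloisField p h →+* D) (e : ℕ) (c : GaloisField p h)
    (a : Pt p h (hon h : ℕ → D)) :
    (ept hh jκ (Pi.single e (WittVector.teichmuller p c)) a).val = jκ c * a.val ^ p ^ e := by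
  rw [val_ept, hend_single hh (galois_pow h hh), map_mul, map_pow, PowerSeries.map_C,
    PowerSeries.map_X, ev1_C_mul_X_pow]

theorem toPt_hend (hh : 1 ≤ h) (jκ : GaloisField p h →+* D) (c : ℕ → WittVector p (GaloisField p h))
    {x : D} (hx : ‖x‖ < 1) : toPt p h (hon h) (ev1 (PowerSeries.map jκ (hend p h c)) x) =
      ept hh jκ c (toPt p h (hon h) x) := by
  rw [← toPt_val (ept hh jκ c _), val_ept, val_toPt hx]

theorem comb_eq (hh : 1 ≤ h) (jκ : GaloisField p h →+* D)
    (d : Fin r → ℕ → WittVector p (GaloisField p h)) {w : Fin r → D} (hw : Sm w) :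
    comb p h jκ d w = ∑ j, ept hh jκ (d j) (toPt p h (hon h) (w j)) :=
  Finset.sum_congr rfl fun j _ => toPt_hend hh jκ _ (hw j)

theorem rad_lt_one (jκ : GaloisField p h →+* D) (S : Finset (Fin r → D))
    (γ : Fin r → Fin r → ℕ → WittVector p (GaloisField p h)) (i : Fin r) : rad p h jκ S γ i < 1 :=
  (Finset.sup_lt_iff (by simp)).2 fun w _ => (comb p h jκ (γ i) w).lt

theorem norm_act_le (jκ : GaloisField p h →+* D) {S : Finset (Fin r → D)} {w : Fin r → D} (hw : w ∈ S)
    (γ : Fin r → Fin r → ℕ → WittVector p (GaloisField p h)) (i : Fin r) :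
    ‖act p h jκ γ w i‖ ≤ rad p h jκ S γ i :=
  Finset.le_sup (f := fun w => ‖act p h jκ γ w i‖₊) hw

end ept

omit [PerfectRing D p] in
theorem val_p_smul (hh : 1 ≤ h) (a : Pt p h (hon h : ℕ → D)) : (p • a).val = a.val ^ p ^ h := by
  have := pm_hon (CharP.cast_eq_zero D p) hh 1 a.val
  rwa [pow_one, mul_one, ← Pt.val_nsmul (norm_hon_le h)] at this

omit [PerfectRing D p] in
theorem act_frob (hh : 1 ≤ h) (jκ : GaloisField p h →+* D)
    (γ : Fin r → Fin r → ℕ → WittVector p (GaloisField p h)) {w : Fin r → D} (hw : Sm w) (i : Fin r) :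
    act p h jκ γ (fun j => w j ^ p ^ h) i = act p h jκ γ w i ^ p ^ h := by
  have h1 : Sm fun j => w j ^ p ^ h := fun j => by
    rw [norm_pow]; exact pow_lt_one₀ (norm_nonneg _) (hw j) (pow_ne_zero _ hp.out.ne_zero)
  rw [act, act, ← val_p_smul hh, comb_eq hh jκ _ h1, comb_eq hh jκ _ hw, Finset.smul_sum]
  congr 2
  funext j
  rw [← map_nsmul]
  congr 1
  exact Pt.ext (by rw [val_p_smul hh, val_toPt (h1 j), val_toPt (hw j)])

theorem isLam_act (hh : 1 ≤ h) (jκ : GaloisField p h →+* D) {Λ : Set (Fin r → D)}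
    (hΛ : IsLam p h Λ) (γ : Fin r → Fin r → ℕ → WittVector p (GaloisField p h)) :
    IsLam p h (act p h jκ γ '' Λ) := by
  refine ⟨?_, ⟨0, hΛ.zero, funext fun i => ?_⟩, ?_, ?_, ?_⟩
  · rintro _ ⟨w, -, rfl⟩ i
    exact (comb p h jκ (γ i) w).lt
  · rw [act, comb_eq hh jκ _ (hΛ.sm _ hΛ.zero), Finset.sum_eq_zero fun j _ => ?_]
    · rfl
    · exact (congrArg _ (toPt_val 0)).trans (map_zero _)
  · rintro _ ⟨w, hw, rfl⟩ _ ⟨w', hw', rfl⟩
    refine ⟨_, hΛ.add w hw w' hw', funext fun i => ?_⟩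
    rw [act, act, act, ← Pt.val_add (norm_hon_le h), comb_eq hh jκ _ (hΛ.sm _ (hΛ.add w hw w' hw')),
      comb_eq hh jκ _ (hΛ.sm _ hw), comb_eq hh jκ _ (hΛ.sm _ hw'), ← Finset.sum_add_distrib]
    congr 2
    funext j
    rw [toPt_gadd (norm_hon_le h) (hΛ.sm _ hw j) (hΛ.sm _ hw' j), map_add]
  · rintro _ ⟨w, hw, rfl⟩
    exact ⟨_, hΛ.frob w hw, funext (act_frob hh jκ γ (hΛ.sm _ hw))⟩
  · rintro _ ⟨w, hw, rfl⟩
    refine ⟨_, hΛ.root w hw, funext fun i => ?_⟩
    have := act_frob hh jκ γ (hΛ.sm _ (hΛ.root w hw)) i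
    simp only [rt_pow] at this
    rw [this, rt_pow']

theorem exists_vanish_act (hh : 1 ≤ h) (jκ : GaloisField p h →+* D) {Λ : Set (Fin r → D)}
    (hΛ : IsLam p h Λ) {f : MvPowerSeries (Fin r) (GaloisField p h)} (hf : f ≠ 0)
    (hv : ∀ w ∈ Λ, ev (MvPowerSeries.map jκ f) w = 0)
    {γ : Fin r → Fin r → ℕ → WittVector p (GaloisField p h)} (hγ : (lin p γ).det ≠ 0) :
    ∃ f' : MvPowerSeries (Fin r) (GaloisField p h), f' ≠ 0 ∧
      ∀ w ∈ act p h jκ γ '' Λ, ev (MvPowerSeries.map jκ f') w = 0 := by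
  have hj := norm_galois_le hh jκ
  choose B hB0 hB1 hB using fun i => exists_fsum (p := p) h Finset.univ
    (fun j => (PowerSeries.subst (MvPowerSeries.X j : MvPowerSeries (Fin r) (GaloisField p h))
      (hend p h (γ i j)) : MvPowerSeries (Fin r) (GaloisField p h)))
    (fun j => PowerSeries.constantCoeff_subst_eq_zero (by simp) _ (const_hend _)) jκ hj
  have hs := MvPowerSeries.hasSubst_of_constantCoeff_zero hB0
  obtain ⟨g, rfl⟩ := subst_surjective B hB0 (by
    refine Eq.mpr (congrArg (fun M => IsUnit (Matrix.det M)) (Matrix.ext fun i t => ?_)) hγ.isUnit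
    rw [Matrix.of_apply, hB1, Finset.sum_eq_single t (fun j _ hj => ?_) (by simp)]
    · simp [PowerSeries.coeff_subst_single, lin, coeff_one_hend hh (galois_pow h hh)]
    · simp [PowerSeries.coeff_subst_single, hj]) f
  refine ⟨g, fun h0 => hf (by rw [h0, ← MvPowerSeries.coe_substAlgHom hs, map_zero]), ?_⟩
  rintro _ ⟨w, hw, rfl⟩
  rw [← hv w hw, MvPowerSeries.map_subst hs, ev_subst (bd_map jκ hj g).an (fun i => bd_map jκ hj _)
    (fun i => by rw [MvPowerSeries.constantCoeff_map, hB0, map_zero]) (hΛ.sm w hw)]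
  congr 1
  funext i
  rw [hB i w (hΛ.sm w hw), act, comb]
  congr 2
  funext j
  rw [PowerSeries.map_subst (.X j), MvPowerSeries.map_X,
    ev_subst1 (bd_hend hh jκ _).an (bd_X j) (by simp) (hΛ.sm w hw), ev_X]

theorem act_step (hh : 1 ≤ h) (jκ : GaloisField p h →+* D) {Λ : Set (Fin r → D)}
    (hΛ : IsLam p h Λ) {f : MvPowerSeries (Fin r) (GaloisField p h)} (hf : f ≠ 0)
    (hv : ∀ w ∈ Λ, ev (MvPowerSeries.map jκ f) w = 0) {S : Finset (Fin r → D)}
    (hS : ∀ w ∈ S, w ∈ Λ) {γ : Fin r → Fin r → ℕ → WittVector p (GaloisField p h)}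
    (hγ : (lin p γ).det ≠ 0) (hpos : ∀ i, rad p h jκ S γ i ≠ 0) :
    ∃ γ' : Fin r → Fin r → ℕ → WittVector p (GaloisField p h), (lin p γ').det ≠ 0 ∧
      ∏ i, rad p h jκ S γ' i < ∏ i, rad p h jκ S γ i := by
  obtain ⟨f', hf', hv'⟩ := exists_vanish_act hh jκ hΛ hf hv hγ
  have h0 : ∀ i, (0 : ℝ) < rad p h jκ S γ i := fun i => NNReal.coe_pos.2 (pos_iff_ne_zero.2 (hpos i))
  have h1 : ∀ i, (rad p h jκ S γ i : ℝ) < 1 := rad_lt_one jκ S γ
  obtain ⟨i₀, c, e, hc, he, hρ, hlt⟩ := add_init hh jκ (isLam_act hh jκ hΛ γ) hf' hv' h0 h1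
  refine ⟨Function.update γ i₀ fun j => ∑ i, tw WittVector.frobenius
    (Pi.single (e i) (WittVector.teichmuller p (c i))) (γ i j), ?_, ?_⟩
  · have : lin p (Function.update γ i₀ fun j => ∑ i, tw WittVector.frobenius
        (Pi.single (e i) (WittVector.teichmuller p (c i))) (γ i j)) = (lin p γ).updateRow i₀
        (∑ i, (if e i = 0 then c i else 0) • lin p γ i) := by
      ext i j
      by_cases hi : i = i₀
      · subst hi
        simp only [lin, Matrix.of_apply, Function.update_self, Matrix.updateRow_self, Finset.sum_apply,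
          ← WittVector.constantCoeff_apply, map_sum, tw_single_left, Pi.smul_apply, smul_eq_mul]
        refine Finset.sum_congr rfl fun k _ => ?_
        by_cases hk : e k = 0 <;> simp [hk, WittVector.mul_coeff_zero, WittVector.teichmuller_coeff_zero]
      · simp [lin, hi]
    rw [this, Matrix.det_updateRow_sum, if_pos he]
    exact mul_ne_zero hc hγ
  rw [← Finset.mul_prod_erase _ _ (Finset.mem_univ i₀), ← Finset.mul_prod_erase _ _ (Finset.mem_univ i₀),
    Finset.prod_congr rfl fun i hi => show rad p h jκ S _ i = rad p h jκ S γ i by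
      simp only [rad, act, Function.update_of_ne (Finset.ne_of_mem_erase hi)]]
  refine mul_lt_mul_of_pos_right ((Finset.sup_lt_iff (h0 i₀)).2 fun w hw => ?_)
    (Finset.prod_pos fun i _ => h0 i)
  have hw' := hΛ.sm w (hS w hw)
  have e1 : act p h jκ (Function.update γ i₀ fun j => ∑ i, tw WittVector.frobenius
      (Pi.single (e i) (WittVector.teichmuller p (c i))) (γ i j)) w i₀ = (∑ i, ept hh jκ
      (Pi.single (e i) (WittVector.teichmuller p (c i))) (comb p h jκ (γ i) w)).val := by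
    simp only [act, Function.update_self, comb_eq hh jκ _ hw', ept_sum, ept_tw, map_sum]
    rw [Finset.sum_comm]
  have e2 := Pt.norm_val_sum_sub_sum_le Finset.univ (fun i => ept hh jκ
      (Pi.single (e i) (WittVector.teichmuller p (c i))) (comb p h jκ (γ i) w)) (h0 i₀).le fun i _ => by
    rw [ept_single]
    by_cases hi : c i = 0
    · simp [hi]
    · rw [norm_mul, norm_pow, ← hρ i hi]
      exact (mul_le_of_le_one_left (by positivity) (norm_galois_le hh jκ _)).trans
        (pow_le_pow_left₀ (norm_nonneg _) (norm_act_le jκ hw γ i) _)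
  simp only [ept_single] at e2
  have e3 := hlt _ ⟨w, hS w hw, rfl⟩ (norm_act_le jκ hw γ)
  change ‖_‖ < (rad p h jκ S γ i₀ : ℝ)
  rw [e1, ← sub_add_cancel (Pt.val _) (∑ i, jκ (c i) * act p h jκ γ w i ^ p ^ e i)]
  exact (IsUltrametricDist.norm_add_le_max _ _).trans_lt
    (max_lt (e2.trans_lt (by nlinarith [h0 i₀, h1 i₀])) e3)

theorem exists_min_act (hh : 1 ≤ h) (jκ : GaloisField p h →+* D) {S : Finset (Fin r → D)}
    (hS : ∀ w ∈ S, Sm w) :
    ∃ γ : Fin r → Fin r → ℕ → WittVector p (GaloisField p h), (lin p γ).det ≠ 0 ∧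
      ∀ γ' : Fin r → Fin r → ℕ → WittVector p (GaloisField p h), (lin p γ').det ≠ 0 →
        ∏ i, rad p h jκ S γ i ≤ ∏ i, rad p h jκ S γ' i := by
  obtain ⟨u, -, hu, huS⟩ := exists_seq_tendsto_sInf (S := (fun γ => ∏ i, rad p h jκ S γ i) ''
    {γ | (lin p γ).det ≠ 0}) (Set.Nonempty.image _ ⟨fun i j _ => if i = j then 1 else 0, by
      have : lin p (fun (i j : Fin r) (_ : ℕ) => if i = j then
          (1 : WittVector p (GaloisField p h)) else 0) = 1 := by
        ext i j
        by_cases hij : i = j <;> simp [lin, hij, Matrix.one_apply]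
      simp [this]⟩) (OrderBot.bddBelow _)
  choose G hG hGu using huS
  choose a ha using fun i j t s => (Ultrafilter.eventually_exists_iff (f := hyperfilter ℕ)
    (P := fun a k => (G k i j t).coeff s = a)).1 (.of_forall fun k => ⟨_, rfl⟩)
  obtain ⟨γ, hγ⟩ : ∃ γ : Fin r → Fin r → ℕ → WittVector p (GaloisField p h),
      ∀ i j t s, ∀ᶠ k in hyperfilter ℕ, (G k i j t).coeff s = (γ i j t).coeff s :=
    ⟨fun i j t => WittVector.mk p (a i j t), ha⟩
  refine ⟨γ, ?_, fun γ' h' => le_trans (le_of_eq ?_) (csInf_le (OrderBot.bddBelow _)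
    (Set.mem_image_of_mem (fun γ => ∏ i, rad p h jκ S γ i) (a := {γ | (lin p γ).det ≠ 0}) h'))⟩
  · obtain ⟨k, hk⟩ := (eventually_all.2 fun i => eventually_all.2 fun j => hγ i j 0 0).exists
    rw [show lin p γ = lin p (G k) from Matrix.ext fun i j => (hk i j).symm]
    exact hG k
  refine tendsto_nhds_unique ?_ (hu.mono_left Nat.hyperfilter_le_atTop)
  refine (tendsto_finsetProd _ fun i _ => Tendsto.finset_sup_nhds_apply fun w hw =>
    Tendsto.nnnorm (Metric.tendsto_nhds.2 fun ε hε => ?_)).congr hGu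
  have key : ∀ j, Tendsto (fun k => ev1 (PowerSeries.map jκ (hend p h (G k i j))) (w j))
      (hyperfilter ℕ) (𝓝 (ev1 (PowerSeries.map jκ (hend p h (γ i j))) (w j))) := fun j => by
    refine tendsto_ev_of_coeff (fun k => bd_hend hh jκ _) (bd_hend hh jκ _)
      (forall_unit.2 fun m => tendsto_const_nhds.congr' ?_) fun _ => hS w hw j
    filter_upwards [(eventually_all_finset (Finset.range (m + 1))).2 fun t _ =>
      (eventually_all_finset (Finset.range (m + 1))).2 fun s _ => hγ i j t s] with k hk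
    exact congrArg jκ (coeff_hend_congr hh (galois_pow h hh) (m + 1) (fun t ht s hs =>
      hk t (Finset.mem_range.2 ht) s (Finset.mem_range.2 hs)) m
      ((Nat.lt_succ_self m).trans (Nat.lt_pow_self hp.out.one_lt))).symm
  filter_upwards [eventually_all.2 fun j => Metric.tendsto_nhds.1 (key j) _ (half_pos hε)] with k hk
  rw [dist_eq_norm]
  refine (Pt.norm_val_sum_sub_le _ _ _ (half_pos hε).le fun j _ => ?_).trans_lt (half_lt_self hε)
  rw [toPt_hend hh jκ _ (hS w hw j), toPt_hend hh jκ _ (hS w hw j), val_ept, val_ept,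
    val_toPt (hS w hw j), ← dist_eq_norm]
  exact (hk j).le

theorem adapt (hh : 1 ≤ h) (jκ : GaloisField p h →+* D) {Λ : Set (Fin r → D)}
    (hΛ : IsLam p h Λ) {f : MvPowerSeries (Fin r) (GaloisField p h)} (hf : f ≠ 0)
    (hv : ∀ w ∈ Λ, ev (MvPowerSeries.map jκ f) w = 0) {S : Finset (Fin r → D)}
    (hS : ∀ w ∈ S, w ∈ Λ) :
    ∃ d : Fin r → ℕ → WittVector p (GaloisField p h), (∃ i, (d i 0).coeff 0 ≠ 0) ∧
      ∀ w ∈ S, comb p h jκ d w = 0 := by
  obtain ⟨γ, hγ, hmin⟩ := exists_min_act hh jκ fun w hw => hΛ.sm w (hS w hw)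
  obtain ⟨i, hi⟩ : ∃ i, rad p h jκ S γ i = 0 := by
    by_contra hc
    obtain ⟨γ', h1, h2⟩ := act_step hh jκ hΛ hf hv hS hγ (not_exists.1 hc)
    exact absurd (hmin γ' h1) (not_le.2 h2)
  refine ⟨γ i, ?_, fun w hw => Pt.ext (norm_le_zero_iff.1 ?_)⟩
  · by_contra hc
    exact hγ (Matrix.det_eq_zero_of_row_eq_zero i fun j => not_not.1 (not_exists.1 hc j))
  · simpa [hi, act] using norm_act_le jκ hw γ i

end Crest.Agent.R227
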