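import Crest.Agent.R227.Desc

/-!
# R227 / AddInit : the initial form of an equation of maximal weight is additive (Chai's rigidity)

For radii `0 < ρ_i < 1` the weight of a monomial is `wt ρ d = ∏ ρ_i^{d_i}`; `{d | ε ≤ wt ρ d}` is finite.

Plan.
* `transl f = f(X +_G Y)` in the variables `Fin r ⊕ Fin r`, `G = HL p h (hon h)`.
* `coeff_transl`: `f(G(X,Y)) = ∑ f_d ∏ G(X_i,Y_i)^{d_i}`, `G(X_i, Y_i) = X_i + Y_i + (degree ≥ 2)`; the monomial `X^I Y^J` occurs
  in the `d`-th term only if `d ≤ I + J`, and for `d = I + J` with coefficient `∏ choose (I_i + J_i) I_i`.  Under the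
  hypothesis only `d = I + J` contributes.  (One way: the lowest total degree part; for `d ≤ I + J`, `d ≠ I + J` the
  hypothesis gives `f_d = 0`; for `¬ d ≤ I + J` some factor `G(X_i,Y_i)^{d_i}` has order `d_i > I_i + J_i` in the variables
  `X_i, Y_i`, and the other factors do not involve them.)
* `ev_transl`, `exists_slice`: for `s ∈ Λ` the series `F_s = ∑_I g_I(s) X^I`, `g_I = ∑_J coeff (I,J) Y^J`, is bounded with
  `ev F_s w = ev (transl f) (w, s) = ev f (w +_G s)` (summation over a product: `HasSum.prod_fiberwise`,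
  `Finsupp.sumFinsuppEquivProdFinsupp`).
* `single_of_choose`: if `d ≠ 0` and `∏ choose d_i I_i ≡ 0 mod p` for all `0 ≠ I ≠ d`, `I ≤ d`, then `d = single i (p^e)`:
  two nonzero coordinates contradict `I = single i d_i`; for `d_i = p^e m`, `p ∤ m`, `m > 1`, `choose d_i (p^e) ≡ m` (Lucas:
  `Choose.choose_modEq_choose_mod_mul_choose_div`, or `Nat.Prime.dvd_choose…`, `(1+X)^{p^e m} = (1 + X^{p^e})^m`).
* `add_init`: choose `f ≠ 0` vanishing on `Λ` and `d₀` with `f_{d₀} ≠ 0` and `N = wt d₀` maximal among all such pairs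
  (`d₀ ≠ 0` as `0 ∈ Λ`).  If `wt I > N` then `g_I` vanishes on `Λ` (by `descent` applied to `F_s`), so its nonzero
  coefficients have `wt J ≤ N`.  Hence every `d` with `f_d ≠ 0`, `wt d = N` is `single i (p^{e_i})`, with `e_i` determined by `i`.
  Let `e` be the least exponent, attained at `i₀`; take `p^e`-th roots of the coefficients in the perfect field `κ`.
-/

set_option autoImplicit false
open Crest.LubinTate Filter Topology

namespace Crest.Agent.R227

variable (p : ℕ) [hp : Fact p.Prime]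

/-- the weight of a monomial. -/
noncomputable def wt {r : ℕ} (ρ : Fin r → ℝ) (d : Fin r →₀ ℕ) : ℝ := ∏ i, ρ i ^ d i

/-- `f(X +_G Y)`. -/
noncomputable def transl {κ : Type*} [CommRing κ] (h : ℕ) {r : ℕ} (f : MvPowerSeries (Fin r) κ) :
    MvPowerSeries (Fin r ⊕ Fin r) κ :=
  MvPowerSeries.subst (fun i : Fin r =>
    (MvPowerSeries.subst ![MvPowerSeries.X (Sum.inl i), MvPowerSeries.X (Sum.inr i)]
      (HL p h (hon h : ℕ → κ)).toPowerSeries : MvPowerSeries (Fin r ⊕ Fin r) κ)) f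

variable {p}

theorem finite_wt {r : ℕ} {ρ : Fin r → ℝ} (h0 : ∀ i, 0 < ρ i) (h1 : ∀ i, ρ i < 1) {ε : ℝ}
    (hε : 0 < ε) : {d : Fin r →₀ ℕ | ε ≤ wt ρ d}.Finite := by
  choose N hN using fun i => exists_pow_lt_of_lt_one hε (h1 i)
  refine ((Set.Finite.pi' fun i => Set.finite_le_nat (N i)).preimage
    (DFunLike.coe_injective (F := Fin r →₀ ℕ)).injOn).subset fun d hd i => ?_
  by_contra hi
  have h2 : wt ρ d ≤ ρ i ^ d i := by
    rw [wt, ← Finset.mul_prod_erase _ _ (Finset.mem_univ i)]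
    exact mul_le_of_le_one_right (pow_pos (h0 i) _).le (Finset.prod_le_one
      (fun j _ => (pow_pos (h0 j) _).le) fun j _ => pow_le_one₀ (h0 j).le (h1 j).le)
  have h3 := pow_le_pow_of_le_one (h0 i).le (h1 i).le (not_le.1 hi).le
  exact absurd (hd.trans (h2.trans h3)) (not_le.2 (hN i))

theorem wt_pos {r : ℕ} {ρ : Fin r → ℝ} (h0 : ∀ i, 0 < ρ i) (d : Fin r →₀ ℕ) : 0 < wt ρ d :=
  Finset.prod_pos fun i _ => pow_pos (h0 i) _

theorem wt_add {r : ℕ} (ρ : Fin r → ℝ) (d e : Fin r →₀ ℕ) : wt ρ (d + e) = wt ρ d * wt ρ e := by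
  simp [wt, pow_add, Finset.prod_mul_distrib]

theorem wt_single {r : ℕ} (ρ : Fin r → ℝ) (i : Fin r) (m : ℕ) :
    wt ρ (Finsupp.single i m) = ρ i ^ m := by
  rw [wt, Finset.prod_eq_single i (fun j _ hj => by simp [hj.symm]) (by simp)]
  simp

theorem wt_lt_one {r : ℕ} {ρ : Fin r → ℝ} (h0 : ∀ i, 0 < ρ i) (h1 : ∀ i, ρ i < 1)
    {d : Fin r →₀ ℕ} (hd : d ≠ 0) : wt ρ d < 1 := by
  obtain ⟨i, hi⟩ := Finsupp.ne_iff.1 hd
  rw [← Finset.prod_const_one (s := (Finset.univ : Finset (Fin r)))]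
  exact Finset.prod_lt_prod (fun j _ => pow_pos (h0 j) _)
    (fun j _ => pow_le_one₀ (h0 j).le (h1 j).le)
    ⟨i, Finset.mem_univ _, pow_lt_one₀ (h0 i).le (h1 i) hi⟩

theorem wt_add_lt {r : ℕ} {ρ : Fin r → ℝ} (h0 : ∀ i, 0 < ρ i) (h1 : ∀ i, ρ i < 1)
    (d : Fin r →₀ ℕ) {e : Fin r →₀ ℕ} (he : e ≠ 0) : wt ρ (d + e) < wt ρ d := by
  rw [wt_add]
  exact mul_lt_of_lt_one_right (wt_pos h0 d) (wt_lt_one h0 h1 he)

theorem exists_max_wt {r : ℕ} {ρ : Fin r → ℝ} (h0 : ∀ i, 0 < ρ i) (h1 : ∀ i, ρ i < 1)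
    {A : Set (Fin r →₀ ℕ)} (hA : A.Nonempty) : ∃ d ∈ A, ∀ e ∈ A, wt ρ e ≤ wt ρ d := by
  obtain ⟨d₁, hd₁⟩ := hA
  obtain ⟨d, hd, h⟩ := Set.exists_max_image (A ∩ {d | wt ρ d₁ ≤ wt ρ d}) (wt ρ)
    ((finite_wt h0 h1 (wt_pos h0 d₁)).inter_of_right _) ⟨d₁, hd₁, le_refl (wt ρ d₁)⟩
  refine ⟨d, hd.1, fun e he => ?_⟩
  rcases le_total (wt ρ d₁) (wt ρ e) with h' | h'
  · exact h e ⟨he, h'⟩
  · exact h'.trans hd.2

/-- `a ≡ b` modulo order `m + 1`, both of order at least `m`. -/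
def Lead {σ R : Type*} [CommRing R] (m : ℕ) (a b : MvPowerSeries σ R) : Prop :=
  (m : ℕ∞) ≤ b.order ∧ ((m + 1 : ℕ) : ℕ∞) ≤ (a - b).order

theorem Lead.mul {σ R : Type*} [CommRing R] {m m' : ℕ} {a b a' b' : MvPowerSeries σ R}
    (h : Lead m a b) (h' : Lead m' a' b') : Lead (m + m') (a * a') (b * b') := by
  refine ⟨(Nat.cast_add m m').trans_le ((add_le_add h.1 h'.1).trans MvPowerSeries.le_order_mul), ?_⟩
  have e : a * a' - b * b' = (a - b) * (a' - b') + ((a - b) * b' + b * (a' - b')) := by ring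
  rw [e]
  refine le_trans (le_min ?_ (le_trans (le_min ?_ ?_) MvPowerSeries.min_order_le_add))
    MvPowerSeries.min_order_le_add
  · exact le_trans (by exact_mod_cast (by omega)) ((add_le_add h.2 h'.2).trans MvPowerSeries.le_order_mul)
  · exact le_trans (by exact_mod_cast (by omega)) ((add_le_add h.2 h'.1).trans MvPowerSeries.le_order_mul)
  · exact le_trans (by exact_mod_cast (by omega)) ((add_le_add h.1 h'.2).trans MvPowerSeries.le_order_mul)

theorem lead_one {σ R : Type*} [CommRing R] : Lead 0 (1 : MvPowerSeries σ R) 1 :=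
  ⟨by simp, by simp⟩

theorem Lead.pow {σ R : Type*} [CommRing R] {a b : MvPowerSeries σ R} (h : Lead 1 a b) (k : ℕ) :
    Lead k (a ^ k) (b ^ k) := by
  induction k with
  | zero => simpa using lead_one
  | succ k ih => rw [pow_succ, pow_succ]; exact ih.mul h

theorem lead_prod {σ R ι : Type*} [CommRing R] (s : Finset ι) {m : ι → ℕ}
    {a b : ι → MvPowerSeries σ R} (h : ∀ i, Lead (m i) (a i) (b i)) :
    Lead (∑ i ∈ s, m i) (∏ i ∈ s, a i) (∏ i ∈ s, b i) := by
  induction s using Finset.cons_induction with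
  | empty => simpa using lead_one
  | cons i s hi ih => rw [Finset.sum_cons, Finset.prod_cons, Finset.prod_cons]; exact (h i).mul ih

theorem one_le_order_X {σ R : Type*} [CommRing R] (i : σ) :
    (1 : ℕ∞) ≤ (MvPowerSeries.X i : MvPowerSeries σ R).order :=
  MvPowerSeries.one_le_order_iff_constCoeff_eq_zero.2 (by simp)

theorem lead_fg {σ R : Type*} [CommRing R] (G : FormalGroup R) (i j : σ) :
    Lead 1 (MvPowerSeries.subst ![MvPowerSeries.X i, MvPowerSeries.X j] G.toPowerSeries :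
      MvPowerSeries σ R) (MvPowerSeries.X i + MvPowerSeries.X j) := by
  refine ⟨MvPowerSeries.one_le_order_iff_constCoeff_eq_zero.2 (by simp), ?_⟩
  have e : (MvPowerSeries.X i + MvPowerSeries.X j : MvPowerSeries σ R) =
      MvPowerSeries.subst ![MvPowerSeries.X i, MvPowerSeries.X j]
        (MvPowerSeries.X 0 + MvPowerSeries.X 1 : MvPowerSeries (Fin 2) R) := by
    simp [MvPowerSeries.subst_add .X_X, MvPowerSeries.subst_X .X_X]
  rw [e, ← MvPowerSeries.subst_sub .X_X]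
  refine le_trans ?_ (MvPowerSeries.le_order_subst .X_X _)
  refine le_trans (one_mul _).ge (mul_le_mul' (le_iInf fun k => ?_)
    (MvPowerSeries.nat_le_order fun d hd => ?_))
  · fin_cases k <;> exact one_le_order_X _
  · rw [Finsupp.degree_eq_sum, Fin.sum_univ_two] at hd
    have : d = 0 ∨ d = Finsupp.single 0 1 ∨ d = Finsupp.single 1 1 := by
      simp only [Finsupp.ext_iff, Fin.forall_fin_two]
      simp
      omega
    rcases this with rfl | rfl | rfl
    · simp [G.zero_constantCoeff]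
    · simp [G.lin_coeff_X, MvPowerSeries.coeff_index_single_X]
    · simp [G.lin_coeff_Y, MvPowerSeries.coeff_index_single_X]

theorem coeff_prod_add_pow {R : Type*} [CommRing R] {r : ℕ} (I J : Fin r →₀ ℕ) :
    MvPowerSeries.coeff (I.sumElim J) (∏ i, (MvPowerSeries.X (Sum.inl i) + MvPowerSeries.X (Sum.inr i) :
      MvPowerSeries (Fin r ⊕ Fin r) R) ^ (I i + J i)) = ∏ i, ((I i + J i).choose (I i) : R) := by
  have e : ∀ i, (MvPowerSeries.X (Sum.inl i) + MvPowerSeries.X (Sum.inr i) :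
      MvPowerSeries (Fin r ⊕ Fin r) R) ^ (I i + J i) = ∑ k ∈ Finset.range (I i + J i + 1),
        MvPowerSeries.monomial (Finsupp.single (Sum.inl i) k + Finsupp.single (Sum.inr i) (I i + J i - k))
          ((I i + J i).choose k : R) := fun i => by
    rw [add_pow]
    refine Finset.sum_congr rfl fun k _ => ?_
    rw [MvPowerSeries.X_pow_eq, MvPowerSeries.X_pow_eq, ← map_natCast (MvPowerSeries.C (σ := Fin r ⊕ Fin r) (R := R)),
      ← MvPowerSeries.monomial_zero_eq_C_apply, MvPowerSeries.monomial_mul_monomial,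
      MvPowerSeries.monomial_mul_monomial]
    simp
  simp only [e, Finset.prod_univ_sum, MvPowerSeries.prod_monomial, map_sum]
  rw [Finset.sum_eq_single (fun i => I i) (fun k _ hk => ?_) (fun h => absurd ?_ h)]
  · rw [show ∑ i, (Finsupp.single (Sum.inl i) (I i) + Finsupp.single (Sum.inr i) (I i + J i - I i)) =
      I.sumElim J by ext (i | i) <;> simp [Finsupp.finsetSum_apply, Finsupp.single_apply],
      MvPowerSeries.coeff_monomial_same]
  · refine MvPowerSeries.coeff_monomial_ne (fun h => hk (funext fun i => ?_)) _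
    have := DFunLike.congr_fun h (Sum.inl i)
    simpa [Finsupp.finsetSum_apply, Finsupp.single_apply] using this.symm
  · exact Fintype.mem_piFinset.2 fun i => Finset.mem_range.2 (by omega)

theorem const_transl {κ : Type*} [CommRing κ] (G : FormalGroup κ) {σ : Type*} (i j : σ) :
    MvPowerSeries.constantCoeff (MvPowerSeries.subst ![MvPowerSeries.X i, MvPowerSeries.X j]
      G.toPowerSeries : MvPowerSeries σ κ) = 0 :=
  MvPowerSeries.constantCoeff_subst_eq_zero .X_X (fun k => by fin_cases k <;> simp)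
    G.zero_constantCoeff

theorem coeff_transl {κ : Type*} [CommRing κ] (h : ℕ) {r : ℕ} (f : MvPowerSeries (Fin r) κ)
    (I J : Fin r →₀ ℕ)
    (hf : ∀ d, d ≤ I + J → d ≠ I + J → MvPowerSeries.coeff d f = 0) :
    MvPowerSeries.coeff (I.sumElim J) (transl p h f) =
      (∏ i, ((I i + J i).choose (I i) : κ)) * MvPowerSeries.coeff (I + J) f := by
  rw [transl, MvPowerSeries.coeff_subst (MvPowerSeries.hasSubst_of_constantCoeff_zero
    fun i => const_transl _ _ _), finsum_eq_single _ (I + J) fun d hd => ?_]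
  · rw [Finsupp.prod_fintype _ _ (by simp), smul_eq_mul, mul_comm, ← coeff_prod_add_pow]
    congr 1
    rw [← sub_eq_zero, ← map_sub]
    refine MvPowerSeries.coeff_of_lt_order (lt_of_lt_of_le ?_ (lead_prod Finset.univ fun i =>
      (lead_fg (HL p h (hon h : ℕ → κ)) (Sum.inl i) (Sum.inr i)).pow (I i + J i)).2)
    rw [Finsupp.degree_eq_sum, Fintype.sum_sum_type, Finset.sum_add_distrib]
    exact_mod_cast Nat.lt_succ_self _
  · by_cases hle : d ≤ I + J
    · rw [hf d hle hd, zero_smul]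
    · obtain ⟨i, hi⟩ : ∃ i, I i + J i < d i := by
        simpa [Finsupp.le_def] using hle
      rw [Finsupp.prod_fintype _ _ (by simp), MvPowerSeries.coeff_eq_zero_of_lt_weightedOrder
        (Sum.elim (Pi.single i 1) (Pi.single i 1)), smul_zero]
      refine lt_of_lt_of_le ?_ ((Finset.single_le_sum (fun _ _ => zero_le)
        (Finset.mem_univ i)).trans (MvPowerSeries.le_weightedOrder_prod _ _ _))
      refine lt_of_lt_of_le ?_ ((nsmul_le_nsmul_right (a := (1 : ℕ∞)) ?_ _).trans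
        (MvPowerSeries.le_weightedOrder_pow _ _))
      · rw [Finsupp.weight_apply, Finsupp.sum_fintype _ _ (by simp), Fintype.sum_sum_type]
        simp [Pi.single_apply]
        exact_mod_cast hi
      · refine le_trans (le_iInf₂ fun e he => ?_) (MvPowerSeries.le_weightedOrder_subst _ .X_X _)
        have h1 : e ≠ 0 := fun h0 => he (by rw [h0]; simp [FormalGroup.zero_constantCoeff])
        obtain ⟨k, hk⟩ : ∃ k, e k ≠ 0 := Finsupp.ne_iff.1 h1
        rw [Finsupp.weight_apply, Finsupp.sum_fintype _ _ (by simp)]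
        refine le_trans ?_ (Finset.single_le_sum (fun _ _ => zero_le) (Finset.mem_univ k))
        refine le_trans ?_ (nsmul_le_nsmul_left zero_le (Nat.one_le_iff_ne_zero.2 hk))
        rw [one_nsmul]
        refine MvPowerSeries.nat_le_weightedOrder _ (n := 1) fun m hm => ?_
        fin_cases k <;> exact MvPowerSeries.coeff_monomial_ne (fun h => by
          rw [h] at hm; simp [Finsupp.weight_single] at hm) _

theorem single_of_choose {r : ℕ} {d : Fin r →₀ ℕ} (hd : d ≠ 0)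
    (h : ∀ I J : Fin r →₀ ℕ, I + J = d → I ≠ 0 → J ≠ 0 → p ∣ ∏ i, (I i + J i).choose (I i)) :
    ∃ i e, d = Finsupp.single i (p ^ e) := by
  obtain ⟨i, hi⟩ : ∃ i, d i ≠ 0 := Finsupp.ne_iff.1 hd
  have h1 : d = Finsupp.single i (d i) := by
    by_contra hne
    have := h (Finsupp.single i (d i)) (d.erase i) (Finsupp.single_add_erase i d)
      (by simpa using hi) (fun h0 => hne (by
        rw [← Finsupp.single_add_erase i d, h0]; simp))
    rw [Finset.prod_eq_one fun j _ => by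
      by_cases hj : j = i
      · subst hj; simp
      · simp [Ne.symm hj]] at this
    exact hp.out.one_lt.ne' (Nat.dvd_one.1 this)
  refine ⟨i, _, h1.trans (congrArg _ (Choose.eq_pow_multiplicity_of_choose_modEq_zero_nat (p := p)
    (Nat.pos_of_ne_zero hi) fun k hk => ?_))⟩
  obtain ⟨hk1, hk2⟩ := Finset.mem_Icc.1 hk
  have := h (Finsupp.single i k) (Finsupp.single i (d i - k))
    (by rw [← Finsupp.single_add, Nat.add_sub_cancel' (by omega), ← h1])
    (Finsupp.single_ne_zero.2 (by omega)) (Finsupp.single_ne_zero.2 (by omega))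
  rw [Finset.prod_eq_single i (fun j _ hj => by simp [hj.symm]) (by simp)] at this
  simp only [Finsupp.single_eq_same] at this
  rw [Nat.add_sub_cancel' (by omega)] at this
  exact (Nat.modEq_zero_iff_dvd).2 this

variable {D : Type*} [NormedField D] [IsUltrametricDist D] [CompleteSpace D]

omit [IsUltrametricDist D] [CompleteSpace D] in
theorem sm_elim {r : ℕ} {w s : Fin r → D} (hw : Sm w) (hs : Sm s) : Sm (Sum.elim w s) := by
  rintro (i | i)
  exacts [hw i, hs i]

omit [IsUltrametricDist D] [CompleteSpace D] in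
theorem norm_mono_le_wt {r : ℕ} {w : Fin r → D} {ρ : Fin r → ℝ} (h : ∀ i, ‖w i‖ ≤ ρ i)
    (d : Fin r →₀ ℕ) : ‖mono d w‖ ≤ wt ρ d := by
  rw [mono, Finsupp.prod_fintype _ _ (by simp), norm_prod]
  exact Finset.prod_le_prod (fun _ _ => norm_nonneg _) fun i _ => by
    rw [norm_pow]; exact pow_le_pow_left₀ (norm_nonneg _) (h i) _

theorem ev_transl {κ : Type*} [CommRing κ] (j : κ →+* D) (hj : ∀ a, ‖j a‖ ≤ 1) (h : ℕ) {r : ℕ}
    (f : MvPowerSeries (Fin r) κ) {w s : Fin r → D} (hw : Sm w) (hs : Sm s) :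
    ev (MvPowerSeries.map j (transl p h f)) (Sum.elim w s) =
      ev (MvPowerSeries.map j f) (fun i => gadd p h (hon h) (w i) (s i)) := by
  have e : ∀ i : Fin r, MvPowerSeries.map j (MvPowerSeries.subst
      ![MvPowerSeries.X (Sum.inl i), MvPowerSeries.X (Sum.inr i)]
      (HL p h (hon h : ℕ → κ)).toPowerSeries : MvPowerSeries (Fin r ⊕ Fin r) κ) =
      MvPowerSeries.subst ![MvPowerSeries.X (Sum.inl i), MvPowerSeries.X (Sum.inr i)]
        (HL p h (hon h : ℕ → D)).toPowerSeries := fun i => by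
    rw [MvPowerSeries.map_subst .X_X, ← HL_map_hon p h j]
    congr 1
    funext k
    fin_cases k <;> simp
  rw [transl, MvPowerSeries.map_subst (MvPowerSeries.hasSubst_of_constantCoeff_zero
    fun i => const_transl _ _ _), ev_subst (bd_map j hj f).an (fun i => bd_map j hj _)
    (fun i => by rw [e]; exact const_transl _ _ _) (sm_elim hw hs)]
  congr 1
  funext i
  rw [e, ev_subst_HL (norm_hon_le h) (bd_X _) (bd_X _) (by simp) (by simp) (sm_elim hw hs), ev_X, ev_X]
  rfl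

/-- partial evaluation in the second group of variables. -/
theorem exists_slice {r : ℕ} {Φ : MvPowerSeries (Fin r ⊕ Fin r) D} (hΦ : Bd Φ) {s : Fin r → D}
    (hs : Sm s) : ∃ F : MvPowerSeries (Fin r) D, Bd F ∧
      (∀ I, MvPowerSeries.coeff I F =
        ev (fun J => MvPowerSeries.coeff (I.sumElim J) Φ : MvPowerSeries (Fin r) D) s) ∧
      ∀ w, Sm w → ev F w = ev Φ (Sum.elim w s) := by
  have hb : ∀ I : Fin r →₀ ℕ, Bd (fun J => MvPowerSeries.coeff (I.sumElim J) Φ :
      MvPowerSeries (Fin r) D) := fun I J => hΦ _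
  refine ⟨fun I => ev (fun J => MvPowerSeries.coeff (I.sumElim J) Φ : MvPowerSeries (Fin r) D) s,
    fun I => (hb I).norm_ev_le_one hs, fun _ => rfl, fun w hw => ?_⟩
  have h1 := (Finsupp.sumFinsuppEquivProdFinsupp.symm.hasSum_iff).2
    (hΦ.an.summable (sm_elim hw hs)).hasSum
  refine (h1.prod_fiberwise fun I => ?_).tsum_eq
  refine Eq.mpr (congrArg (HasSum · _) (funext fun J => ?_))
    (((hb I).an.summable hs).hasSum.mul_right (mono I w))
  change MvPowerSeries.coeff (I.sumElim J) Φ * mono (I.sumElim J) (Sum.elim w s) =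
    MvPowerSeries.coeff (I.sumElim J) Φ * mono J s * mono I w
  rw [mono, Finsupp.prod_sumElim, mul_assoc, mul_comm (mono J s)]
  rfl

theorem add_init [CharP D p] [PerfectRing D p] {h r : ℕ} (hh : 1 ≤ h)
    (jκ : GaloisField p h →+* D) {Λ : Set (Fin r → D)} (hΛ : IsLam p h Λ)
    {f : MvPowerSeries (Fin r) (GaloisField p h)} (hf : f ≠ 0)
    (hv : ∀ w ∈ Λ, ev (MvPowerSeries.map jκ f) w = 0) {ρ : Fin r → ℝ} (h0 : ∀ i, 0 < ρ i)
    (h1 : ∀ i, ρ i < 1) :
    ∃ (i₀ : Fin r) (c : Fin r → GaloisField p h) (e : Fin r → ℕ), c i₀ ≠ 0 ∧ e i₀ = 0 ∧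
      (∀ i, c i ≠ 0 → ρ i ^ p ^ e i = ρ i₀) ∧
      ∀ w ∈ Λ, (∀ i, ‖w i‖ ≤ ρ i) → ‖∑ i, jκ (c i) * w i ^ p ^ e i‖ < ρ i₀ := by
  have hj := norm_galois_le hh jκ
  obtain ⟨d₀, ⟨g, hg, hgd⟩, hmax⟩ := exists_max_wt h0 h1 (A := {d | ∃ g : MvPowerSeries (Fin r)
    (GaloisField p h), (∀ w ∈ Λ, ev (MvPowerSeries.map jκ g) w = 0) ∧ MvPowerSeries.coeff d g ≠ 0})
    (let ⟨d, hd⟩ := MvPowerSeries.ext_iff.not.1 hf |> not_forall.1; ⟨d, f, hv, by simpa using hd⟩)
  have hd0 : d₀ ≠ 0 := by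
    rintro rfl
    have := hg 0 hΛ.zero
    rw [ev_zero_right, MvPowerSeries.constantCoeff_map, map_eq_zero] at this
    exact hgd (by simpa using this)
  have key : ∀ d, MvPowerSeries.coeff d g ≠ 0 → wt ρ d = wt ρ d₀ →
      ∃ i e, d = Finsupp.single i (p ^ e) := by
    intro d hd hw
    refine single_of_choose (fun h => ?_) fun I J hIJ hI hJ => ?_
    · rw [h, wt] at hw
      simpa [← hw] using wt_lt_one h0 h1 hd0
    subst hIJ
    by_contra hnd
    have k1 : MvPowerSeries.coeff (I.sumElim J) (transl p h g) ≠ 0 := by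
      rw [coeff_transl h g I J fun e he hne => ?_, ← Nat.cast_prod]
      · exact mul_ne_zero (fun h => hnd ((CharP.cast_eq_zero_iff _ p _).1 h)) hd
      · by_contra hc
        obtain ⟨e', he'⟩ := exists_add_of_le he
        have := wt_add_lt h0 h1 e (e := e') fun h => hne (by rw [he', h, add_zero])
        exact absurd (hmax e ⟨g, hg, hc⟩) (by rw [← hw, he']; exact not_le.2 this)
    refine absurd (hmax J ⟨fun J => MvPowerSeries.coeff (I.sumElim J) (transl p h g),
      fun s hs => ?_, k1⟩) (by rw [← hw, add_comm]; exact not_le.2 (wt_add_lt h0 h1 J hI))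
    obtain ⟨F, hF, hFc, hFe⟩ := exists_slice (bd_map jκ hj (transl p h g)) (hΛ.sm s hs)
    by_contra hc
    obtain ⟨g', hg', hg''⟩ := descent hh jκ hΛ hF (I := I) (fun w hw => by
      rw [hFe w (hΛ.sm w hw), ev_transl jκ hj h g (hΛ.sm w hw) (hΛ.sm s hs)]
      exact hg _ (hΛ.add w hw s hs)) (by rw [hFc]; exact hc)
    exact absurd (hmax I ⟨g', hg'', hg'⟩) (by rw [← hw]; exact not_le.2 (wt_add_lt h0 h1 I hJ))
  have hinj : ∀ i {a b : ℕ}, ρ i ^ p ^ a = ρ i ^ p ^ b → a = b := fun i _ _ h =>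
    Nat.pow_right_injective hp.out.two_le (pow_right_injective₀ (h0 i) (h1 i).ne h)
  have he : ∀ i, ∃ e, ∀ e', ρ i ^ p ^ e' = wt ρ d₀ → e' = e := fun i => by
    by_cases h : ∃ e, ρ i ^ p ^ e = wt ρ d₀
    · exact ⟨h.choose, fun e' he' => hinj i (he'.trans h.choose_spec.symm)⟩
    · exact ⟨0, fun e' he' => absurd ⟨e', he'⟩ h⟩
  choose e he using he
  obtain ⟨a, ha⟩ : ∃ a : Fin r → GaloisField p h, ∀ i, a i = if ρ i ^ p ^ e i = wt ρ d₀ then
    MvPowerSeries.coeff (Finsupp.single i (p ^ e i)) g else 0 := ⟨_, fun _ => rfl⟩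
  have ha1 : ∀ i, a i ≠ 0 → ρ i ^ p ^ e i = wt ρ d₀ := fun i hi => by
    by_contra hc
    exact hi (by rw [ha, if_neg hc])
  have ha2 : ∀ d, MvPowerSeries.coeff d g ≠ 0 → wt ρ d = wt ρ d₀ →
      ∃ i, d = Finsupp.single i (p ^ e i) ∧ a i = MvPowerSeries.coeff d g := fun d hd hw => by
    obtain ⟨i, e', rfl⟩ := key d hd hw
    rw [wt_single] at hw
    obtain rfl := he i e' hw
    exact ⟨i, rfl, by rw [ha, if_pos hw]⟩
  obtain ⟨i₀, hi₀, hmin⟩ := Set.exists_min_image {i | a i ≠ 0} e (Set.toFinite _)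
    (let ⟨i, _, hi⟩ := ha2 d₀ hgd rfl; ⟨i, hi.trans_ne hgd⟩)
  have hc : ∀ i, rt p (e i₀) (a i) ≠ 0 → a i ≠ 0 := fun i hi h => hi (by rw [h, map_zero])
  have hq : p ^ e i₀ ≠ 0 := pow_ne_zero _ hp.out.ne_zero
  refine ⟨i₀, fun i => rt p (e i₀) (a i), fun i => e i - e i₀, (map_ne_zero _).2 hi₀, Nat.sub_self _,
    fun i hi => (pow_left_inj₀ (pow_pos (h0 i) _).le (h0 i₀).le hq).1 ?_, fun w hw hwρ => ?_⟩
  · rw [← pow_mul, ← pow_add, Nat.sub_add_cancel (hmin i (hc i hi)), ha1 i (hc i hi), ha1 i₀ hi₀]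
  obtain ⟨d₁, hd₁, hmax₁⟩ := exists_max_wt h0 h1 (A := {d | wt ρ d < wt ρ d₀})
    ⟨d₀ + d₀, wt_add_lt h0 h1 d₀ hd0⟩
  refine lt_of_pow_lt_pow_left₀ (p ^ e i₀) (h0 i₀).le ?_
  obtain ⟨g₁, hg₁⟩ : ∃ g₁ : MvPowerSeries (Fin r) (GaloisField p h),
    g₁ = ∑ i, MvPowerSeries.monomial (Finsupp.single i (p ^ e i)) (a i) := ⟨_, rfl⟩
  have e1 : (∑ i, jκ (rt p (e i₀) (a i)) * w i ^ p ^ (e i - e i₀)) ^ p ^ e i₀ =
      ev (MvPowerSeries.map jκ (g₁ - g)) w := by
    rw [map_sub, ev_sub (bd_map jκ hj _).an (bd_map jκ hj _).an (hΛ.sm w hw), hg w hw, sub_zero,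
      ← evHom_apply jκ hj (hΛ.sm w hw), hg₁, map_sum, sum_pow_char_pow]
    refine Finset.sum_congr rfl fun i _ => ?_
    rw [evHom_apply, MvPowerSeries.map_monomial, ev_monomial, mono_single, mul_pow, ← map_pow, rt_pow]
    by_cases hi : a i = 0
    · simp [hi]
    · rw [← pow_mul, ← pow_add, Nat.sub_add_cancel (hmin i hi)]
  have e2 : ∀ i, MvPowerSeries.coeff (Finsupp.single i (p ^ e i)) g₁ = a i := fun i => by
    rw [hg₁, map_sum, Finset.sum_eq_single i (fun j _ hj => MvPowerSeries.coeff_monomial_ne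
      (fun h => by simpa [hj, hp.out.ne_zero] using DFunLike.congr_fun h i) _) (by simp),
      MvPowerSeries.coeff_monomial_same]
  rw [← norm_pow, e1, ha1 i₀ hi₀]
  refine lt_of_le_of_lt (norm_ev_le fun d => ?_) hd₁
  by_cases hd : MvPowerSeries.coeff d (g₁ - g) = 0
  · rw [MvPowerSeries.coeff_map, hd]
    simpa using (wt_pos h0 d₁).le
  refine (mul_le_of_le_one_left (norm_nonneg _) (bd_map jκ hj _ d)).trans
    ((norm_mono_le_wt hwρ d).trans (hmax₁ d ?_))
  by_cases hdg : MvPowerSeries.coeff d g = 0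
  · rw [map_sub, hdg, sub_zero, hg₁, map_sum] at hd
    obtain ⟨i, -, hi⟩ := Finset.exists_ne_zero_of_sum_ne_zero hd
    obtain rfl : d = Finsupp.single i (p ^ e i) := by
      by_contra hc
      exact hi (MvPowerSeries.coeff_monomial_ne hc _)
    rw [MvPowerSeries.coeff_monomial_same] at hi
    exact absurd (by rw [ha, if_pos (ha1 i hi), hdg]) hi
  · refine lt_of_le_of_ne (hmax d ⟨g, hg, hdg⟩) fun hw => hd ?_
    obtain ⟨i, rfl, hi⟩ := ha2 d hdg hw
    rw [map_sub, e2, hi, sub_self]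

end Crest.Agent.R227
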