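import Crest.Agent.R227.EvSub

/-!
# R227 / EvMax : maximum principle, bounded analytic functions

Plan.
* `norm_coeff_le_of_ev_le`: put `G_d = F_d ϖ^{|d|} → 0`.  If `M = max ‖G_d‖ > ε`, let `P` be the truncation
  of `G` in degrees `< N`, where `‖G_d‖ < M` for `|d| ≥ N`... It suffices to find `t` with `‖t_i‖ ≤ 1` and
  `‖P(t)‖ = M` (sup norm of a polynomial on the closed unit polydisc is its Gauss norm).
  One variable: there are arbitrarily many points of norm `≤ 1` with mutual distances `1`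
  (induction: a root of `∏ (X - a_j) - 1`), Lagrange interpolation bounds the coefficients by the values.
  Several variables: Kronecker substitution `t_i = t^{N^i}` (or induction on the number of variables,
  or reduction to the infinite residue field and `MvPolynomial.funext`).
* `bd_of_ev_le_one`: take `ϖ_m` with `ϖ_m^m = ϖ`, `‖ϖ_m‖ → 1`.
* `BdFun.of_limit`: the coefficients of `B k` are Cauchy by the maximum principle; then
  `tendsto_ev_of_coeff`.
* `BdFun.series`, `exists_shift`: partial sums + `of_limit`.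
-/

set_option autoImplicit false
set_option linter.unusedSectionVars false
open Crest.LubinTate Filter Topology

namespace Crest.Agent.R227

variable {C : Type*} [NontriviallyNormedField C] [IsUltrametricDist C] [CompleteSpace C]
  [IsAlgClosed C] {τ : Type*} [Finite τ]

variable (C) in
/-- the maximal ideal of `OO C`. -/
def mOO : Ideal (OO C) where
  carrier := {a | ‖(a : C)‖ < 1}
  add_mem' := fun {a b} ha hb =>
    (IsUltrametricDist.norm_add_le_max (a : C) b).trans_lt (max_lt ha hb)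
  zero_mem' := by simp
  smul_mem' := fun c a ha => by
    change ‖(c : C) * a‖ < 1
    rw [norm_mul]
    exact mul_lt_one_of_nonneg_of_lt_one_right c.2 (norm_nonneg _) ha

theorem mem_mOO {a : OO C} : a ∈ mOO C ↔ ‖(a : C)‖ < 1 := Iff.rfl

instance : (mOO C).IsPrime where
  ne_top' := by rw [Ideal.ne_top_iff_one, mem_mOO]; simp
  mem_or_mem' := fun {a b} h => by
    by_contra hc
    rw [not_or, mem_mOO, mem_mOO, not_lt, not_lt] at hc
    rw [mem_mOO, Subring.coe_mul, norm_mul] at h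
    exact absurd (one_le_mul_of_one_le_of_one_le hc.1 hc.2) (not_le.2 h)

theorem infinite_res : Infinite (OO C ⧸ mOO C) := by
  classical
  by_contra hf
  rw [not_infinite_iff_finite] at hf
  have := Fintype.ofFinite (OO C ⧸ mOO C)
  choose s hs using Ideal.Quotient.mk_surjective (I := mOO C)
  have hd : (∏ j, (Polynomial.X - Polynomial.C (s j : C))).degree =
      ((Fintype.card (OO C ⧸ mOO C) : ℕ) : WithBot ℕ) := by
    simp [Polynomial.degree_prod]
  have hp : (0 : WithBot ℕ) < ((Fintype.card (OO C ⧸ mOO C) : ℕ) : WithBot ℕ) := by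
    exact_mod_cast Fintype.card_pos
  obtain ⟨x, hx⟩ := IsAlgClosed.exists_root (∏ j, (Polynomial.X - Polynomial.C (s j : C)) - 1) (by
    rw [Polynomial.degree_sub_eq_left_of_degree_lt (by rw [hd, Polynomial.degree_one]; exact hp), hd]
    exact hp.ne')
  have h1 : ∏ j, ‖x - s j‖ = 1 := by
    rw [← norm_prod, ← norm_one (α := C)]
    congr 1
    simpa [Polynomial.eval_prod, sub_eq_zero] using hx
  rcases le_or_gt ‖x‖ 1 with h | h
  · refine absurd h1 (ne_of_lt ?_)
    rw [← Finset.prod_const_one (s := (Finset.univ : Finset (OO C ⧸ mOO C)))]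
    have hle : ∀ j, ‖x - s j‖ ≤ 1 := fun j => mem_OO.1 (sub_mem (mem_OO.2 h) (s j).2)
    have h2 : ‖x - s (Ideal.Quotient.mk _ ⟨x, h⟩)‖ < 1 :=
      Ideal.Quotient.eq.1 (hs (Ideal.Quotient.mk _ ⟨x, h⟩)).symm
    rw [Finset.prod_const_one, ← Finset.mul_prod_erase _ _
      (Finset.mem_univ (Ideal.Quotient.mk (mOO C) ⟨x, h⟩))]
    exact mul_lt_one_of_nonneg_of_lt_one_left (norm_nonneg _) h2
      (Finset.prod_le_one (fun _ _ => norm_nonneg _) fun j _ => hle j)
  · have h2 : ∀ j, ‖x - s j‖ = ‖x‖ := fun j => by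
      have h3 : ‖-(s j : C)‖ < ‖x‖ := by rw [norm_neg]; exact lt_of_le_of_lt (s j).2 h
      rw [sub_eq_add_neg, IsUltrametricDist.norm_add_eq_max_of_norm_ne_norm h3.ne', max_eq_left h3.le]
    simp only [h2, Finset.prod_const, Finset.card_univ] at h1
    exact absurd h1 (one_lt_pow₀ h Fintype.card_ne_zero).ne'

theorem exists_eval_norm_one (Q : MvPolynomial τ (OO C)) {d : τ →₀ ℕ}
    (h : MvPolynomial.coeff d Q = 1) : ∃ t : τ → OO C, ‖(MvPolynomial.eval t Q : C)‖ = 1 := by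
  by_contra hc
  have := infinite_res (C := C)
  have h1 : MvPolynomial.map (Ideal.Quotient.mk (mOO C)) Q = 0 := by
    refine MvPolynomial.funext fun x => ?_
    choose s hs using Ideal.Quotient.mk_surjective (I := mOO C)
    have e : x = Ideal.Quotient.mk (mOO C) ∘ fun i => s (x i) := funext fun i => (hs _).symm
    rw [e, MvPolynomial.eval_map, ← MvPolynomial.eval₂_comp, map_zero,
      Ideal.Quotient.eq_zero_iff_mem, mem_mOO]
    exact lt_of_le_of_ne (MvPolynomial.eval _ Q).2 fun h => hc ⟨_, h⟩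
  have h2 := congrArg (MvPolynomial.coeff d) h1
  rw [MvPolynomial.coeff_map, h, map_one, MvPolynomial.coeff_zero] at h2
  exact one_ne_zero h2

theorem mono_mul_left (c : C) (t : τ → C) (e : τ →₀ ℕ) :
    mono e (fun i => c * t i) = c ^ e.degree * mono e t := by
  simp only [mono, Finsupp.prod, mul_pow, Finset.prod_mul_distrib, Finset.prod_pow_eq_pow_sum,
    Finsupp.degree_apply]

theorem poly_max (P : MvPolynomial τ C) (ϖ : C) {η : ℝ}
    (h : ∀ δ : τ → C, (∀ i, ‖δ i‖ ≤ ‖ϖ‖) → ‖MvPolynomial.eval δ P‖ ≤ η) (d : τ →₀ ℕ) :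
    ‖MvPolynomial.coeff d P‖ * ‖ϖ‖ ^ d.degree ≤ η := by
  classical
  have hη : 0 ≤ η := (norm_nonneg _).trans (h 0 fun _ => by simp)
  by_cases hd : d ∈ P.support
  swap
  · rw [MvPolynomial.notMem_support_iff.1 hd, norm_zero, zero_mul]; exact hη
  obtain ⟨e₀, he₀, hmax⟩ := P.support.exists_max_image
    (fun e => ‖MvPolynomial.coeff e P * ϖ ^ e.degree‖) ⟨d, hd⟩
  rw [← norm_pow, ← norm_mul]
  refine (hmax d hd).trans ?_
  set a := MvPolynomial.coeff e₀ P * ϖ ^ e₀.degree with ha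
  by_cases h0 : a = 0
  · rw [h0, norm_zero]; exact hη
  have hb : ∀ e, MvPolynomial.coeff e P * ϖ ^ e.degree / a ∈ OO C := fun e => by
    rw [mem_OO, norm_div, div_le_one (norm_pos_iff.2 h0)]
    by_cases he : e ∈ P.support
    · exact hmax e he
    · rw [MvPolynomial.notMem_support_iff.1 he, zero_mul, norm_zero]; exact norm_nonneg _
  obtain ⟨t, ht⟩ := exists_eval_norm_one (d := e₀)
    (∑ e ∈ P.support, MvPolynomial.monomial e (⟨_, hb e⟩ : OO C)) (by
      simp only [MvPolynomial.coeff_sum, MvPolynomial.coeff_monomial, Finset.sum_ite_eq', he₀,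
        if_true]
      exact Subtype.ext (div_self h0))
  have h1 := h (fun i => ϖ * t i) fun i => by
    rw [norm_mul]; exact mul_le_of_le_one_right (norm_nonneg _) (t i).2
  have h2 : MvPolynomial.eval (fun i => ϖ * t i) P = a * (MvPolynomial.eval t
      (∑ e ∈ P.support, MvPolynomial.monomial e (⟨_, hb e⟩ : OO C)) : OO C) := by
    rw [MvPolynomial.eval_eq, map_sum, AddSubmonoidClass.coe_finsetSum, Finset.mul_sum]
    refine Finset.sum_congr rfl fun e _ => ?_
    change _ * mono e _ = _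
    rw [mono_mul_left, MvPolynomial.eval_monomial, Subring.coe_mul, ← mul_assoc, ← mul_assoc,
      mul_div_cancel₀ _ h0]
    simp [mono, Finsupp.prod]
  rwa [h2, norm_mul, ht, mul_one] at h1

/-- maximum principle on the polydisc of radius `‖ϖ‖`. -/
theorem norm_coeff_le_of_ev_le {F : MvPowerSeries τ C} (hF : An F) {ϖ : C} (hϖ : ‖ϖ‖ < 1) {ε : ℝ}
    (h : ∀ δ : τ → C, (∀ i, ‖δ i‖ ≤ ‖ϖ‖) → ‖ev F δ‖ ≤ ε) (d : τ →₀ ℕ) :
    ‖MvPowerSeries.coeff d F‖ * ‖ϖ‖ ^ d.degree ≤ ε := by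
  have hε : 0 ≤ ε := (norm_nonneg _).trans (h 0 fun _ => by simp)
  refine le_of_forall_gt_imp_ge_of_dense fun η hη => ?_
  obtain ⟨P, -, hP⟩ := hF.exists_poly (norm_nonneg ϖ) hϖ (hε.trans_lt hη)
  have h1 := poly_max P ϖ (η := η) (fun δ hδ => by
    have h2 := norm_ev_le_of_gauss (norm_nonneg ϖ) hP hδ
    rw [ev_sub hF (an_coe P) fun i => (hδ i).trans_lt hϖ, ev_coe, norm_sub_rev] at h2
    rw [← sub_add_cancel (MvPolynomial.eval δ P) (ev F δ)]
    exact (IsUltrametricDist.norm_add_le_max _ _).trans (max_le h2 ((h δ hδ).trans hη.le))) d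
  have h2 := hP d
  rw [map_sub, MvPolynomial.coeff_coe] at h2
  rw [← sub_add_cancel (MvPowerSeries.coeff d F) (MvPolynomial.coeff d P)]
  refine (mul_le_mul_of_nonneg_right (IsUltrametricDist.norm_add_le_max _ _) (by positivity)).trans ?_
  rw [max_mul_of_nonneg _ _ (by positivity)]
  exact max_le h2 h1

variable (C) in
theorem exists_norm_gt {r : ℝ} (h0 : 0 ≤ r) (h1 : r < 1) : ∃ ϖ : C, r < ‖ϖ‖ ∧ ‖ϖ‖ < 1 := by
  obtain ⟨x, hx0, hx1⟩ := NormedField.exists_norm_lt_one C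
  obtain ⟨m, hm⟩ := exists_pow_lt_of_lt_one hx0 h1
  obtain ⟨z, hz⟩ := IsAlgClosed.exists_pow_nat_eq x (Nat.succ_pos m)
  rw [← hz, norm_pow] at hx1 hm
  refine ⟨z, lt_of_pow_lt_pow_left₀ (m + 1) (norm_nonneg _) (lt_of_le_of_lt ?_ hm),
    (pow_lt_one_iff_of_nonneg (norm_nonneg _) (Nat.succ_ne_zero m)).1 hx1⟩
  exact pow_le_pow_of_le_one h0 h1.le (Nat.le_succ m)

theorem bd_of_ev_le_one {F : MvPowerSeries τ C} (hF : An F)
    (h : ∀ δ : τ → C, Sm δ → ‖ev F δ‖ ≤ 1) : Bd F := by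
  intro d
  have h1 : Tendsto (fun r : ℝ => ‖MvPowerSeries.coeff d F‖ * r ^ d.degree) (𝓝[<] 1)
      (𝓝 (‖MvPowerSeries.coeff d F‖ * 1 ^ d.degree)) :=
    (Continuous.tendsto (by fun_prop) _).mono_left nhdsWithin_le_nhds
  rw [one_pow, mul_one] at h1
  refine le_of_tendsto h1 ?_
  filter_upwards [Ioo_mem_nhdsLT zero_lt_one] with r hr
  obtain ⟨ϖ, h2, h3⟩ := exists_norm_gt C hr.1.le hr.2
  refine le_trans ?_ (norm_coeff_le_of_ev_le hF h3 (fun δ hδ => h δ fun i => (hδ i).trans_lt h3) d)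
  exact mul_le_mul_of_nonneg_left (pow_le_pow_left₀ hr.1.le h2.le _) (norm_nonneg _)

/-- identity theorem. -/
theorem eq_zero_of_ev_eq_zero {F : MvPowerSeries τ C} (hF : An F)
    (h : ∀ δ : τ → C, Sm δ → ev F δ = 0) : F = 0 := by
  obtain ⟨x, hx0, hx1⟩ := NormedField.exists_norm_lt_one C
  ext d
  have := norm_coeff_le_of_ev_le hF hx1 (ε := 0)
    (fun δ hδ => by rw [h δ fun i => (hδ i).trans_lt hx1, norm_zero]) d
  rw [map_zero, ← norm_le_zero_iff]
  exact nonpos_of_mul_nonpos_left this (by positivity)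

/-- vanishing order from an estimate at small points. -/
theorem coeff_eq_zero_of_ev_le {F : MvPowerSeries τ C} (hF : An F) {N : ℕ} {L ρ : ℝ} (hρ : 0 < ρ)
    (h : ∀ (δ : τ → C) (t : ℝ), 0 ≤ t → t ≤ ρ → (∀ i, ‖δ i‖ ≤ t) → ‖ev F δ‖ ≤ L * t ^ N)
    (d : τ →₀ ℕ) (hd : d.degree < N) : MvPowerSeries.coeff d F = 0 := by
  rw [← norm_le_zero_iff]
  refine le_of_forall_pos_le_add fun ε hε => ?_
  obtain ⟨x, hx0, hx1⟩ := NormedField.exists_norm_lt C
    (lt_min (lt_min hρ one_pos) (show 0 < ε / (|L| + 1) by positivity))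
  simp only [lt_min_iff] at hx1
  have h1 := norm_coeff_le_of_ev_le hF hx1.1.2 (fun δ hδ => h δ _ hx0.le hx1.1.1.le hδ) d
  have h2 : L * ‖x‖ ^ N ≤ (|L| + 1) * ‖x‖ * ‖x‖ ^ d.degree := by
    rw [mul_assoc, ← pow_succ']
    exact mul_le_mul (by linarith [le_abs_self L]) (pow_le_pow_of_le_one hx0.le hx1.1.2.le hd)
      (by positivity) (by positivity)
  have h3 := le_of_mul_le_mul_right (h1.trans h2) (by positivity)
  have h4 := (lt_div_iff₀' (by positivity)).1 hx1.2
  linarith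

/-- functions on the open polydisc given by a series with bounded coefficients. -/
def BdFun (φ : (τ → C) → C) : Prop := ∃ B : MvPowerSeries τ C, Bd B ∧ ∀ δ, Sm δ → ev B δ = φ δ

theorem BdFun.congr {φ ψ : (τ → C) → C} (h : BdFun φ) (e : ∀ δ, Sm δ → φ δ = ψ δ) : BdFun ψ := by
  obtain ⟨B, hB, h⟩ := h
  exact ⟨B, hB, fun δ hδ => (h δ hδ).trans (e δ hδ)⟩

theorem bdFun_const {a : C} (ha : ‖a‖ ≤ 1) : BdFun (fun _ : τ → C => a) := by
  exact ⟨_, bd_C ha, fun δ _ => ev_C a δ⟩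

theorem bdFun_coord (i : τ) : BdFun (fun δ : τ → C => δ i) := by
  exact ⟨_, bd_X i, fun δ _ => ev_X i δ⟩

theorem BdFun.add {φ ψ : (τ → C) → C} (h : BdFun φ) (h' : BdFun ψ) :
    BdFun (fun δ => φ δ + ψ δ) := by
  obtain ⟨B, hB, h⟩ := h
  obtain ⟨B', hB', h'⟩ := h'
  exact ⟨_, hB.add hB', fun δ hδ => by rw [ev_add hB.an hB'.an hδ, h δ hδ, h' δ hδ]⟩

theorem BdFun.mul {φ ψ : (τ → C) → C} (h : BdFun φ) (h' : BdFun ψ) :
    BdFun (fun δ => φ δ * ψ δ) := by
  obtain ⟨B, hB, h⟩ := h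
  obtain ⟨B', hB', h'⟩ := h'
  exact ⟨_, hB.mul hB', fun δ hδ => by rw [ev_mul hB.an hB'.an hδ, h δ hδ, h' δ hδ]⟩

theorem BdFun.norm_le {φ : (τ → C) → C} (h : BdFun φ) {δ : τ → C} (hδ : Sm δ) : ‖φ δ‖ ≤ 1 := by
  obtain ⟨B, hB, h⟩ := h
  rw [← h δ hδ]; exact hB.norm_ev_le_one hδ

theorem BdFun.norm_sub_le {φ : (τ → C) → C} (h : BdFun φ) {δ δ' : τ → C} (hδ : Sm δ) (hδ' : Sm δ')
    {ε : ℝ} (hε : 0 ≤ ε) (e : ∀ i, ‖δ i - δ' i‖ ≤ ε) : ‖φ δ - φ δ'‖ ≤ ε := by
  obtain ⟨B, hB, h⟩ := h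
  rw [← h δ hδ, ← h δ' hδ']; exact hB.norm_ev_sub_le hδ hδ' hε e

/-- integer polynomials in bounded functions. -/
theorem bdFun_eval₂ {v : ℕ → (τ → C) → C} (hv : ∀ j, BdFun (v j)) (P : MvPolynomial ℕ ℤ) :
    BdFun (fun δ => MvPolynomial.eval₂ (Int.castRingHom C) (fun j => v j δ) P) := by
  induction P using MvPolynomial.induction_on with
  | C a =>
    simp only [MvPolynomial.eval₂_C]
    exact bdFun_const (IsUltrametricDist.norm_intCast_le_one C a)
  | add p q hp hq => simp only [MvPolynomial.eval₂_add]; exact hp.add hq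
  | mul_X p i hp => simp only [MvPolynomial.eval₂_mul, MvPolynomial.eval₂_X]; exact hp.mul (hv i)

/-- polynomial functions bounded by one on the open polydisc. -/
theorem bdFun_of_poly (P : MvPolynomial τ C) (h : ∀ δ, Sm δ → ‖MvPolynomial.eval δ P‖ ≤ 1) :
    BdFun (fun δ => MvPolynomial.eval δ P) := by
  exact ⟨P, bd_of_ev_le_one (an_coe P) fun δ hδ => by rw [ev_coe]; exact h δ hδ,
    fun δ _ => ev_coe P δ⟩

theorem BdFun.of_limit {φ : ℕ → (τ → C) → C} (hφ : ∀ k, BdFun (φ k)) {ψ : (τ → C) → C}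
    (hlim : ∀ δ, Sm δ → Tendsto (fun k => φ k δ) atTop (𝓝 (ψ δ))) {ρ : ℝ} (hρ : 0 < ρ)
    (hunif : ∀ ε > 0, ∃ K, ∀ k ≥ K, ∀ δ, Sm δ → (∀ i, ‖δ i‖ ≤ ρ) → ‖φ k δ - ψ δ‖ ≤ ε) :
    BdFun ψ := by
  choose B hB hB' using hφ
  obtain ⟨x, hx0, hx1⟩ := NormedField.exists_norm_lt C (lt_min hρ one_pos)
  rw [lt_min_iff] at hx1
  have hc : ∀ d, CauchySeq fun k => MvPowerSeries.coeff d (B k) := fun d => by
    refine Metric.cauchySeq_iff'.2 fun ε hε => ?_
    obtain ⟨K, hK⟩ := hunif (ε / 2 * ‖x‖ ^ d.degree) (by positivity)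
    refine ⟨K, fun k hk => ?_⟩
    have h1 := norm_coeff_le_of_ev_le ((hB k).sub (hB K)).an hx1.2 (ε := ε / 2 * ‖x‖ ^ d.degree)
      (fun δ hδ => by
        have hs : Sm δ := fun i => (hδ i).trans_lt hx1.2
        have h2 := hK K le_rfl δ hs fun i => (hδ i).trans hx1.1.le
        rw [norm_sub_rev] at h2
        rw [ev_sub (hB k).an (hB K).an hs, hB' k δ hs, hB' K δ hs, ← sub_add_sub_cancel _ (ψ δ)]
        exact (IsUltrametricDist.norm_add_le_max _ _).trans
          (max_le (hK k hk δ hs fun i => (hδ i).trans hx1.1.le) h2)) d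
    rw [dist_eq_norm, ← map_sub]
    exact (le_of_mul_le_mul_right h1 (by positivity)).trans_lt (half_lt_self hε)
  choose G hG using fun d => cauchySeq_tendsto_of_complete (hc d)
  have hG' : Bd (G : MvPowerSeries τ C) := fun d => le_of_tendsto' (hG d).norm fun k => hB k d
  exact ⟨G, hG', fun δ hδ => tendsto_nhds_unique (tendsto_ev_of_coeff hB hG' hG hδ)
    ((hlim δ hδ).congr fun k => (hB' k δ hδ).symm)⟩

theorem BdFun.series {a : ℕ → (τ → C) → C} (ha : ∀ i, BdFun (a i)) {y : C} (hy : ‖y‖ < 1) :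
    BdFun (fun δ => ev1 (PowerSeries.mk fun i => a i δ) y) := by
  have hs : ∀ δ, Sm δ → HasSum (fun i => a i δ * y ^ i)
      (ev1 (PowerSeries.mk fun i => a i δ) y) := fun δ hδ => by
    simpa using (Bd.an ((bd1_iff (PowerSeries.mk fun i => a i δ)).2 fun i => by
      rw [PowerSeries.coeff_mk]; exact (ha i).norm_le hδ)).hasSum1 hy
  refine BdFun.of_limit (φ := fun k δ => ∑ i ∈ Finset.range k, a i δ * y ^ i) (fun k => ?_)
    (fun δ hδ => (hs δ hδ).tendsto_sum_nat) one_pos fun ε hε => ?_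
  · induction k with
    | zero => simpa using bdFun_const (τ := τ) (a := (0 : C)) (by simp)
    | succ k ih =>
      simp only [Finset.sum_range_succ]
      exact ih.add ((ha k).mul (bdFun_const
        (by rw [norm_pow]; exact pow_le_one₀ (norm_nonneg _) hy.le)))
  · obtain ⟨K, hK⟩ := exists_pow_lt_of_lt_one hε hy
    refine ⟨K, fun k hk δ hδ _ => ?_⟩
    rw [norm_sub_rev, ← ((hasSum_nat_add_iff' k).2 (hs δ hδ)).tsum_eq]
    refine IsUltrametricDist.norm_tsum_le_of_forall_le fun i => ?_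
    rw [norm_mul, norm_pow]
    exact (mul_le_of_le_one_left (by positivity) ((ha _).norm_le hδ)).trans
      ((pow_le_pow_of_le_one (norm_nonneg _) hy.le (by omega)).trans hK.le)

theorem Sm.add {y z : τ → C} (hy : Sm y) (hz : Sm z) : Sm (y + z) := fun i =>
  (IsUltrametricDist.norm_add_le_max _ _).trans_lt (max_lt (hy i) (hz i))

theorem Sm.sub {y z : τ → C} (hy : Sm y) (hz : Sm z) : Sm (y - z) := by
  rw [sub_eq_add_neg]; exact hy.add fun i => by simpa using hz i

/-- Taylor expansion at a point of the open polydisc. -/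
theorem exists_shift {F : MvPowerSeries τ C} (hF : Bd F) {z : τ → C} (hz : Sm z) :
    ∃ G : MvPowerSeries τ C, Bd G ∧ (∀ δ, Sm δ → ev G δ = ev F (z + δ)) ∧ (G = 0 → F = 0) := by
  have hP : ∀ k, Bd (F.truncTotal k : MvPowerSeries τ C) := fun k d => by
    rw [MvPolynomial.coeff_coe, MvPowerSeries.coeff_truncTotal_eq_ite]
    split_ifs
    · exact hF d
    · simp
  have he : ∀ k {w : τ → C} {ρ : ℝ}, 0 ≤ ρ → ρ < 1 → (∀ i, ‖w i‖ ≤ ρ) →
      ‖MvPolynomial.eval w (F.truncTotal k) - ev F w‖ ≤ ρ ^ k := fun k w ρ h0 h1 hw => by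
    rw [← ev_coe]
    exact (hP k).norm_ev_sub_le_pow hF (fun d hd => by
      rw [MvPolynomial.coeff_coe, MvPowerSeries.coeff_truncTotal _ hd]) h0 h1 hw
  obtain ⟨r, hr0, hr1, hr⟩ := hz.exists_bound
  have key : BdFun fun δ => ev F (z + δ) := by
    refine BdFun.of_limit (φ := fun k δ => MvPolynomial.eval (z + δ) (F.truncTotal k))
      (fun k => ?_) (fun δ hδ => ?_) one_half_pos fun ε hε => ?_
    · have e : ∀ δ : τ → C, MvPolynomial.eval δ (MvPolynomial.bind₁
          (fun i => MvPolynomial.C (z i) + MvPolynomial.X i) (F.truncTotal k)) =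
          MvPolynomial.eval (z + δ) (F.truncTotal k) := fun δ => by
        rw [← MvPolynomial.coe_aeval_eq_eval, ← MvPolynomial.coe_aeval_eq_eval, RingHom.coe_coe,
          RingHom.coe_coe, MvPolynomial.aeval_bind₁]
        simp [Pi.add_def]
      refine (bdFun_of_poly _ fun δ hδ => ?_).congr fun δ _ => e δ
      rw [e, ← ev_coe]; exact (hP k).norm_ev_le_one (hz.add hδ)
    · obtain ⟨ρ, h0, h1, h2⟩ := (hz.add hδ).exists_bound
      rw [tendsto_iff_norm_sub_tendsto_zero]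
      exact squeeze_zero (fun _ => norm_nonneg _) (fun k => he k h0 h1 h2)
        (tendsto_pow_atTop_nhds_zero_of_lt_one h0 h1)
    · have h1 : max r (1 / 2) < 1 := max_lt hr1 one_half_lt_one
      have h0 : 0 ≤ max r (1 / 2) := le_max_of_le_left hr0
      obtain ⟨K, hK⟩ := exists_pow_lt_of_lt_one hε h1
      refine ⟨K, fun k hk δ _ hδ => (he k h0 h1 fun i => ?_).trans
        ((pow_le_pow_of_le_one h0 h1.le hk).trans hK.le)⟩
      exact (IsUltrametricDist.norm_add_le_max _ _).trans (max_le_max (hr i) (hδ i))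
  obtain ⟨G, hG, h⟩ := key
  refine ⟨G, hG, h, fun h0 => eq_zero_of_ev_eq_zero hF.an fun w hw => ?_⟩
  have := h _ (hw.sub hz)
  simp only [h0, ev_zero_left, add_sub_cancel] at this
  exact this.symm

theorem bd_sum {ι : Type*} (s : Finset ι) {A : ι → MvPowerSeries τ C} (hA : ∀ i, Bd (A i)) :
    Bd (∑ i ∈ s, A i) :=
  Finset.sum_induction _ Bd (fun _ _ => Bd.add) (fun _ => by simp) fun i _ => hA i

theorem ev_sum {ι : Type*} (s : Finset ι) {A : ι → MvPowerSeries τ C} (hA : ∀ i, Bd (A i))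
    {y : τ → C} (hy : Sm y) : ev (∑ i ∈ s, A i) y = ∑ i ∈ s, ev (A i) y := by
  classical
  induction s using Finset.induction_on with
  | empty => simpa using ev_zero_left y
  | insert i s hi ih =>
    rw [Finset.sum_insert hi, Finset.sum_insert hi, ev_add (hA i).an (bd_sum s hA).an hy, ih]

/-- second order Taylor estimate. -/
theorem Bd.taylor [Fintype τ] [DecidableEq τ] {G : MvPowerSeries τ C} (hG : Bd G) {δ : τ → C}
    {t : ℝ} (ht0 : 0 ≤ t) (ht : t < 1) (hδ : ∀ i, ‖δ i‖ ≤ t) :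
    ‖ev G δ - MvPowerSeries.constantCoeff G -
      ∑ i, MvPowerSeries.coeff (Finsupp.single i 1) G * δ i‖ ≤ t ^ 2 := by
  have hs : Sm δ := fun i => (hδ i).trans_lt ht
  have h0 : Bd (MvPowerSeries.C (MvPowerSeries.constantCoeff G) : MvPowerSeries τ C) := bd_C (hG 0)
  have h1 : ∀ i : τ, Bd (MvPowerSeries.monomial (Finsupp.single i 1)
      (MvPowerSeries.coeff (Finsupp.single i 1) G)) := fun i d => by
    rw [MvPowerSeries.coeff_monomial]
    split_ifs
    · exact hG _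
    · simp
  have h2 := hG.norm_ev_sub_le_pow (h0.add (bd_sum Finset.univ h1)) (N := 2) (fun d hd => by
    rw [map_add, map_sum]
    obtain h | h : d.degree = 0 ∨ d.degree = 1 := by omega
    · rw [Finsupp.degree_eq_zero_iff] at h
      subst h
      simp [MvPowerSeries.coeff_monomial, eq_comm (a := (0 : τ →₀ ℕ))]
    · obtain ⟨i, rfl⟩ : d ∈ Set.range fun a : τ => Finsupp.single a 1 := by
        rw [Finsupp.range_single_one]; exact h
      simp [MvPowerSeries.coeff_monomial, MvPowerSeries.coeff_C, Finsupp.single_left_inj]) ht0 ht hδ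
  rw [ev_add h0.an (bd_sum _ h1).an hs, ev_C, ev_sum _ h1 hs] at h2
  simpa only [ev_monomial, mono_single, pow_one, sub_sub] using h2

end Crest.Agent.R227
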