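import Crest.Agent.R227.Tors
import Crest.Agent.R227.EvMax

/-!
# R227 / Jac : canonical coordinates `K_i(δ) = prf_{z+δ}(ζ_i)` and their Jacobian

Plan.
* `bdFun_pm`: `coeff i (mulSeries (HL p n v) m) = eval₂ _ v (coeff i (mulSeries (univ p n) m))` (`map_mulSeries`), so
  `bdFun_eval₂` (each `δ ↦ zseq n h (z + δ) j` is a constant or `z_i + δ_i`) and `BdFun.series` apply.
* `bdFun_prf`: `BdFun.of_limit`, uniform on `‖δ‖ ≤ ρ` by `norm_prf_sub_pm`.
* `exists_D`: work over the polynomial ring `O[t]`, `O = OO C`, with `v(t) = zseq n h (C z + t a)`: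
  `[p]_{v(t)} = V(X^{p^h})` (`exists_pser_charP`), `D'_i = coeff 1 (V_i)`.  For `t ∈ C` map along `eval t`:
  `‖V_i(t) - V_i(0) - t D'_i‖ ≤ ‖t‖²`.  Let `e` be minimal with `‖a_e‖ = 1`; modulo the ideal `I = 𝔪_O[t]` the parameters
  `v(t)` are congruent to `v'(t) = zseq n h (t a')`, `a'_j = if j < e then 0 else a_j`, for which
  `coeff (p^{h+e}) [p] = a_e t` (`exists_pser_charP` with height `h + e`); `mulSeries_HL_congr` gives `D'_{p^e} ≡ a_e`.
* `exists_K`: if the determinant vanishes take `a ≠ 0` in the kernel (`Matrix.exists_mulVec_eq_zero_iff`), normalised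
  to sup norm `1`.  `Bd.taylor` gives `‖K_i(t a)‖ ≤ ‖t‖²`.  Also `K_i(ta) = pm_{z+ta} p (prf_{z+ta}(rt n ζ_i))` (`prf_pow`)
  is within `‖t‖^{p^h} ≤ ‖t‖²` of `pm_{z+ta} p η_i` (`norm_prf_sub_prf`, `norm_pm_sub_le_pow`).  So the set of torsion
  points `x` with `‖pm_{z+ta} p x‖ ≤ ‖t‖²` for all small `t` contains the `η_i`; it is closed under addition
  (`pm_gadd`, `norm_gadd_sub_gadd`, `norm_gadd_le`), and for such `x`, `D'(x^{p^h}) = 0`.  This gives `p^r` distinct zeros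
  of `D'` (`TD.exists_finset`), contradicting `card_zeros_le`.
-/

set_option autoImplicit false
open Crest.LubinTate Filter Topology

namespace Crest.Agent.R227

variable {p : ℕ} [hp : Fact p.Prime] {C : Type*} [NontriviallyNormedField C] [IsUltrametricDist C]
  [CompleteSpace C] [CharP C p] [IsAlgClosed C] {n h r : ℕ} {z : Fin r → C}

theorem sq_of_pow (hh : 1 ≤ h) {μ : ℝ} (h0 : 0 ≤ μ) (h1 : μ < 1) : μ ^ p ^ (h * 1) ≤ μ ^ 2 :=
  pow_le_pow_of_le_one h0 h1.le
    (hp.out.two_le.trans (by simpa using Nat.pow_le_pow_right hp.out.pos hh))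

theorem bdFun_pm (hz : Sm z) (m : ℕ) {y : C} (hy : ‖y‖ < 1) :
    BdFun (fun δ : Fin r → C => pm p n (zseq n h (z + δ)) m y) := by
  refine (BdFun.series (fun i => bdFun_eval₂ (v := fun j δ => zseq n h (z + δ) j) (fun j => ?_)
    (PowerSeries.coeff i (mulSeries (univ p n) m))) hy).congr fun δ _ => ?_
  · by_cases hj : h ≤ j ∧ j - h < r
    · simp only [zseq, dif_pos hj]
      exact (bdFun_const (hz _).le).add (bdFun_coord _)
    · simp only [zseq, dif_neg hj]
      exact bdFun_const (norm_hon_le n j)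
  · rw [pm, HL, ← map_mulSeries]
    congr 1
    ext i
    simp

theorem bdFun_prf (hh : 1 ≤ h) (hr : h + r = n) (hz : Sm z) {y : C} (hy : ‖y‖ < 1) :
    BdFun (fun δ : Fin r → C => prf p n (zseq n h (z + δ)) y) := by
  obtain ⟨ρ, h0, h1, hρ⟩ := hz.exists_bound
  have h2 : max ρ (1 / 2) < 1 := max_lt h1 (by norm_num)
  have h3 : 0 < max ρ (1 / 2) := lt_max_of_lt_right (by norm_num)
  refine BdFun.of_limit (fun k => bdFun_pm hz (p ^ k) (norm_rt_lt_one (n * k) hy))
    (fun δ hδ => tendsto_prf hh hr (hz.add hδ) hy) h3 fun ε hε => ?_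
  obtain ⟨K, hK⟩ := eventually_atTop.1 ((tendsto_mu (p := p) h3.le h2 hh).eventually (ge_mem_nhds hε))
  refine ⟨K, fun k hk δ _ hδ => ?_⟩
  rw [norm_sub_rev]
  exact (norm_prf_sub_pm hh hr h3.le h2 (fun i => (IsUltrametricDist.norm_add_le_max _ _).trans
    (max_le ((hρ i).trans (le_max_left _ _)) (hδ i))) hy k).trans (hK k hk)

theorem exists_D (hh : 1 ≤ h) (hr : h + r = n) (hz : Sm z) {a : Fin r → C} (ha : ∀ j, ‖a j‖ ≤ 1)
    (ha1 : ∃ j, ‖a j‖ = 1) :
    ∃ D : PowerSeries C, Bd D ∧ (∃ e < r, ‖PowerSeries.coeff (p ^ e) D‖ = 1) ∧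
      ∀ t y : C, ‖t‖ < 1 → ‖y‖ < 1 →
        ‖pm p n (zseq n h (z + t • a)) p y - pm p n (zseq n h z) p y - t * ev1 D (y ^ p ^ h)‖ ≤
          ‖t‖ ^ 2 := by
  classical
  have hp0 : (p : Polynomial (OO C)) = 0 := by
    rw [← map_natCast Polynomial.C, show (p : OO C) = 0 from Subtype.ext (by simp), map_zero]
  obtain ⟨z', rfl⟩ : ∃ z' : Fin r → OO C, z = fun i => (z' i : C) := ⟨fun i => ⟨z i, (hz i).le⟩, rfl⟩
  obtain ⟨a', rfl⟩ : ∃ a' : Fin r → OO C, a = fun i => (a' i : C) := ⟨fun i => ⟨a i, ha i⟩, rfl⟩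
  obtain ⟨V, -, -, hV⟩ := exists_pser_charP p hp0 hh (show h ≤ n by omega)
    (zseq n h fun i => Polynomial.C (z' i) + Polynomial.X * Polynomial.C (a' i))
    fun _ _ hj => zseq_eq_zero (by omega) _ hj
  have hD : Bd (PowerSeries.mk fun i => ((PowerSeries.coeff i V).coeff 1 : C)) :=
    (bd1_iff _).2 fun i => by rw [PowerSeries.coeff_mk]; exact ((PowerSeries.coeff i V).coeff 1).2
  refine ⟨_, hD, ?_, fun t y ht hy => ?_⟩
  · obtain ⟨e, he, hmin⟩ := (wellFounded_lt (α := Fin r)).has_min {j | ‖(a' j : C)‖ = 1} ha1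
    obtain ⟨V', -, hV1, hV'⟩ := exists_pser_charP p hp0 (h := h + e) (by omega) (show h + e ≤ n by omega)
      (zseq n h fun i => if i < e then 0 else Polynomial.X * Polynomial.C (a' i)) fun j _ hj => by
        unfold zseq
        split_ifs with h1
        · exact if_pos (Fin.lt_def.2 (by simp only; omega))
        · exact if_neg (by omega)
    have := mulSeries_HL_congr p n ((mOO C).map Polynomial.C)
      (v := zseq n h fun i => Polynomial.C (z' i) + Polynomial.X * Polynomial.C (a' i))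
      (v' := zseq n h fun i => if i < e then 0 else Polynomial.X * Polynomial.C (a' i))
      (fun j => by
        simp only [zseq]
        split_ifs with h1 h2
        · rw [sub_zero]
          exact add_mem (Ideal.mem_map_of_mem _ (hz _)) (Ideal.mul_mem_left _ _
            (Ideal.mem_map_of_mem _ (lt_of_le_of_ne (ha _) fun h3 => hmin _ h3 h2)))
        · rw [add_sub_cancel_right]
          exact Ideal.mem_map_of_mem _ (hz _)
        · simp) p (p ^ (h + e))
    have h3 := PowerSeries.coeff_expand_mul (p ^ (h + e)) (pow_ne_zero _ hp.out.ne_zero) V' 1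
    have h4 := PowerSeries.coeff_expand_mul (p ^ h) (pow_ne_zero _ hp.out.ne_zero) V (p ^ (e : ℕ))
    rw [mul_one] at h3
    rw [← pow_add] at h4
    rw [hV, hV', h3, h4, hV1, zseq_at, if_neg (lt_irrefl _)] at this
    refine ⟨e, e.2, ?_⟩
    have h2 := Ideal.mem_map_C_iff.1 this 1
    rw [mem_mOO] at h2
    have := norm_add_eq_one he h2
    simpa using this
  have hy' : ‖y ^ p ^ h‖ < 1 := by
    rw [norm_pow]; exact pow_lt_one₀ (norm_nonneg _) hy (pow_ne_zero _ hp.out.ne_zero)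
  have hb : ∀ s : OO C, Bd (PowerSeries.map ((OO C).subtype.comp (Polynomial.evalRingHom s)) V) :=
    fun s => bd_map _ (fun a => (Polynomial.eval s a).2) V
  have key : ∀ s : OO C, pm p n (zseq n h ((fun i => (z' i : C)) + (s : C) • fun i => (a' i : C))) p y =
      ev1 (PowerSeries.map ((OO C).subtype.comp (Polynomial.evalRingHom s)) V) (y ^ p ^ h) := fun s => by
    rw [← ev1_expand (hb s).an (pow_ne_zero _ hp.out.ne_zero) hy, ← PowerSeries.map_expand, ← hV,
      map_mulSeries, HL_map_zseq, pm]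
    congr 4
    funext i
    simp [mul_comm (s : C)]
  have k0 := key 0
  rw [ZeroMemClass.coe_zero, zero_smul, add_zero] at k0
  rw [key ⟨t, ht.le⟩, k0, sub_sub, ev1, ev1, ev1, ← ev_smul hD.an t fun _ => hy',
    ← ev_add (hb 0).an (hD.an.smul t) fun _ => hy']
  refine norm_ev_sub_le_of_coeff (hb _).an ((hb 0).an.add (hD.an.smul t)) (forall_unit.2 fun i => ?_)
    fun _ => hy'
  change ‖PowerSeries.coeff i _ - PowerSeries.coeff i _‖ ≤ _
  rw [map_add, map_smul, PowerSeries.coeff_mk]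
  change ‖(((PowerSeries.coeff i V).eval ⟨t, ht.le⟩ : OO C) : C) -
    ((((PowerSeries.coeff i V).eval 0 : OO C) : C) + t * (PowerSeries.coeff i V).coeff 1)‖ ≤ _
  generalize PowerSeries.coeff i V = P
  obtain ⟨k, hk⟩ := P.binomExpansion 0 ⟨t, ht.le⟩
  rw [zero_add] at hk
  rw [hk, ← Polynomial.coeff_zero_eq_eval_zero P.derivative, Polynomial.coeff_derivative]
  have : ‖(k : C)‖ * ‖t‖ ^ 2 ≤ ‖t‖ ^ 2 := mul_le_of_le_one_left (by positivity) k.2
  simpa [mul_comm] using this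

theorem exists_K (hh : 1 ≤ h) (hr : h + r = n) (hz : Sm z) {η : Fin r → Pt p n (zseq n h z)}
    {ζ : Fin r → C} (hT : TD p n h z η ζ) :
    ∃ K : Fin r → MvPowerSeries (Fin r) C, (∀ i, Bd (K i)) ∧
      (∀ i, MvPowerSeries.constantCoeff (K i) = 0) ∧
      (∀ i δ, Sm δ → ev (K i) δ = prf p n (zseq n h (z + δ)) (ζ i)) ∧
      (Matrix.of fun i j => MvPowerSeries.coeff (Finsupp.single j 1) (K i)).det ≠ 0 := by
  classical
  choose K hK hKe using fun i => bdFun_prf hh hr hz (hT.lt i)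
  beta_reduce at hKe
  have hK0 : ∀ i, MvPowerSeries.constantCoeff (K i) = 0 := fun i => by
    rw [← ev_zero_right, hKe i 0 fun _ => by simp, add_zero, hT.prf0]
  refine ⟨K, hK, hK0, hKe, fun hdet => ?_⟩
  obtain ⟨b, hb0, hb⟩ := Matrix.exists_mulVec_eq_zero_iff.2 hdet
  obtain ⟨j₁, hj₁⟩ := Function.ne_iff.1 hb0
  obtain ⟨j, -, hj⟩ := Finset.exists_max_image Finset.univ (fun j => ‖b j‖) ⟨j₁, Finset.mem_univ _⟩
  have hbj : 0 < ‖b j‖ := (norm_pos_iff.2 hj₁).trans_le (hj _ (Finset.mem_univ _))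
  obtain ⟨a, ha, ha1, ha0⟩ : ∃ a : Fin r → C, (∀ j, ‖a j‖ ≤ 1) ∧ (∃ j, ‖a j‖ = 1) ∧
      ∀ i, ∑ j, MvPowerSeries.coeff (Finsupp.single j 1) (K i) * a j = 0 := by
    refine ⟨fun i => b i / b j, fun i => ?_, ⟨j, by simp [hbj.ne']⟩, fun i => ?_⟩
    · rw [norm_div, div_le_one hbj]; exact hj _ (Finset.mem_univ _)
    · simp only [← mul_div_assoc, ← Finset.sum_div]
      exact div_eq_zero_iff.2 (Or.inl (congrFun hb i))
  obtain ⟨D, hD, ⟨e, her, he⟩, hDe⟩ := exists_D (p := p) hh hr hz ha ha1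
  have hta : ∀ t : C, ∀ i, ‖(t • a) i‖ ≤ ‖t‖ := fun t i => by
    rw [Pi.smul_apply, smul_eq_mul, norm_mul]; exact mul_le_of_le_one_right (norm_nonneg _) (ha i)
  have hsm : ∀ t : C, ‖t‖ < 1 → Sm (z + t • a) := fun t ht => hz.add fun i => (hta t i).trans_lt ht
  have hv := norm_zseq_le n h hz
  have close : ∀ t : C, ‖t‖ < 1 → ∀ x y : C, ‖x‖ < 1 → ‖y‖ < 1 → ‖x - y‖ ≤ ‖t‖ →
      ‖pm p n (zseq n h (z + t • a)) p y‖ ≤ ‖t‖ ^ 2 →
      ‖pm p n (zseq n h (z + t • a)) p x‖ ≤ ‖t‖ ^ 2 := fun t ht x y hx hy hxy h1 => by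
    have := (norm_pm_close (p := p) hh hr (hsm t ht) 1 hx hy hxy).trans (sq_of_pow hh (norm_nonneg t) ht)
    rw [pow_one] at this
    simpa using ultra_sub_le this (c := 0) (by simpa using h1)
  let S : AddSubmonoid (Pt p n (zseq n h z)) :=
    { carrier := {x | p • x = 0 ∧ ∀ t : C, ‖t‖ < 1 →
        ‖pm p n (zseq n h (z + t • a)) p x.val‖ ≤ ‖t‖ ^ 2}
      zero_mem' := ⟨smul_zero _, fun t _ => by simp [pm_zero_right]⟩
      add_mem' := fun {x y} hx hy => ⟨by rw [smul_add, hx.1, hy.1, add_zero], fun t ht => by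
        have hv' := norm_zseq_le n h (hsm t ht)
        refine close t ht _ _ (x + y).lt (norm_gadd_lt (p := p) (n := n) hv' x.lt y.lt) ?_ ?_
        · rw [Pt.val_add hv]
          exact norm_gadd_sub_gadd hv hv' x.lt y.lt x.lt y.lt (norm_zseq_sub_le n h (norm_nonneg _)
            fun i => by simpa using hta t i) (by simp) (by simp)
        · rw [pm_gadd hv' p x.lt y.lt]
          exact (norm_gadd_le hv' ((norm_pm_le hv' p x.lt).trans_lt x.lt)
            ((norm_pm_le hv' p y.lt).trans_lt y.lt)).trans (max_le (hx.2 t ht) (hy.2 t ht))⟩ }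
  have hη : ∀ i, η i ∈ S := fun i => ⟨hT.tors i, fun t ht => by
    have h1 := norm_rt_lt_one (p := p) n (hT.lt i)
    refine close t ht _ _ (η i).lt (norm_prf_lt hh hr (hsm t ht) h1) ?_ ?_
    · rw [← hT.prf1]
      exact norm_prf_sub_prf hh hr hz (hsm t ht) (norm_nonneg _) (fun i => by simpa using hta t i) h1
    · have h2 := prf_pow hh hr (hsm t ht) h1 1
      rw [pow_one, mul_one, rt_pow] at h2
      have h3 := (hK i).taylor (norm_nonneg t) ht (hta t)
      simp only [Pi.smul_apply, smul_eq_mul, mul_left_comm _ t, ← Finset.mul_sum, ha0, hK0] at h3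
      rw [← h2, ← hKe i _ fun i => (hta t i).trans_lt ht]
      simpa using h3⟩
  obtain ⟨T, hTc, hT'⟩ := hT.exists_finset
  have := card_zeros_le hD he (T.image fun x => x.val ^ p ^ h) fun y hy => by
    obtain ⟨x, hx, rfl⟩ := Finset.mem_image.1 hy
    obtain ⟨c, hc⟩ := hT' x hx
    have hx : x ∈ S := hc ▸ sum_mem fun i _ => nsmul_mem (hη i) _
    refine ⟨by rw [norm_pow]; exact pow_lt_one₀ (norm_nonneg _) x.lt (pow_ne_zero _ hp.out.ne_zero), ?_⟩
    by_contra hne
    obtain ⟨t, ht0, ht⟩ := NormedField.exists_norm_lt C (lt_min one_pos (norm_pos_iff.2 hne))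
    have h1 := hDe t x.val (ht.trans_le (min_le_left _ _)) x.lt
    rw [← Pt.val_nsmul hv, hx.1, Pt.val_zero, sub_zero, norm_sub_rev] at h1
    have h2 := ultra_sub_le h1 (c := 0) (by simpa using hx.2 t (ht.trans_le (min_le_left _ _)))
    rw [sub_zero, norm_mul] at h2
    nlinarith [ht.trans_le (min_le_right _ _)]
  rw [Finset.card_image_of_injective _ fun x y hxy => Pt.ext (eq_of_pow_eq h hxy), hTc] at this
  exact absurd this (not_le.2 (Nat.pow_lt_pow_right hp.out.one_lt her))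

end Crest.Agent.R227
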