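import Crest.Agent.R227.FG

/-!
# R227 / Ev : evaluation of power series on the open unit polydisc of a complete ultrametric field

`ev F y = ∑' d, coeff d F * y^d`.  `Bd` : coefficients of norm `≤ 1`.  `An` : convergent on the open
polydisc (`‖coeff d F‖ ρ^{|d|}` bounded for every `ρ < 1`).  `Sm` : point of the open polydisc.

Plan.  In a complete ultrametric group a family is summable iff it tends to `0` along `cofinite`
(`NonarchimedeanAddGroup.summable_iff_tendsto_cofinite_zero`); `{d | degree d < N}` is finite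
(`Finsupp.finite_of_degree_le`).  For `Sm y` choose `ρ < ρ' < 1` with `‖y i‖ ≤ ρ`.
`IsUltrametricDist.norm_tsum_le_of_forall_le(_of_nonneg)`.  For `ev_mul` use
`Summable.tsum_mul_tsum_eq_tsum_sum_antidiagonal` with summability of the product family over
`(τ →₀ ℕ) × (τ →₀ ℕ)` (`Summable.mul_of_nonarchimedean`).
-/

set_option autoImplicit false
set_option linter.unusedSectionVars false
open Crest.LubinTate Filter Topology

namespace Crest.Agent.R227

section defs
variable {C : Type*} [NormedField C] {τ : Type*}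

/-- the monomial `y^d`. -/
noncomputable def mono (d : τ →₀ ℕ) (y : τ → C) : C := d.prod fun i e => y i ^ e

/-- evaluation of a power series. -/
noncomputable def ev (F : MvPowerSeries τ C) (y : τ → C) : C :=
  ∑' d : τ →₀ ℕ, MvPowerSeries.coeff d F * mono d y

/-- evaluation of a one-variable power series. -/
noncomputable def ev1 (f : PowerSeries C) (y : C) : C := ev f (fun _ => y)

/-- coefficients of norm at most one. -/
def Bd (F : MvPowerSeries τ C) : Prop := ∀ d, ‖MvPowerSeries.coeff d F‖ ≤ 1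

/-- convergent on the open unit polydisc. -/
def An (F : MvPowerSeries τ C) : Prop :=
  ∀ ρ : ℝ, 0 ≤ ρ → ρ < 1 → ∃ B : ℝ, ∀ d : τ →₀ ℕ, ‖MvPowerSeries.coeff d F‖ * ρ ^ d.degree ≤ B

/-- a point of the open unit polydisc. -/
def Sm (y : τ → C) : Prop := ∀ i, ‖y i‖ < 1

/-- the closed unit ball as a subring. -/
def OO (C : Type*) [NormedField C] [IsUltrametricDist C] : Subring C where
  carrier := {a | ‖a‖ ≤ 1}
  mul_mem' := fun {a b} ha hb => by
    simp only [Set.mem_setOf_eq, norm_mul] at *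
    exact mul_le_one₀ ha (norm_nonneg _) hb
  one_mem' := by simp
  add_mem' := fun {a b} ha hb => by
    simp only [Set.mem_setOf_eq] at *
    exact (IsUltrametricDist.norm_add_le_max a b).trans (max_le ha hb)
  zero_mem' := by simp
  neg_mem' := fun {a} ha => by simpa using ha

theorem mem_OO [IsUltrametricDist C] {a : C} : a ∈ OO C ↔ ‖a‖ ≤ 1 := Iff.rfl

theorem forall_unit {P : (Unit →₀ ℕ) → Prop} : (∀ d, P d) ↔ ∀ i, P (Finsupp.single () i) :=
  ⟨fun h _ => h _, fun h d => by rw [Finsupp.unique_single d]; exact h _⟩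

theorem bd1_iff (f : PowerSeries C) : Bd f ↔ ∀ i, ‖PowerSeries.coeff i f‖ ≤ 1 := by
  exact forall_unit

theorem an1_iff (f : PowerSeries C) : An f ↔
    ∀ ρ : ℝ, 0 ≤ ρ → ρ < 1 → ∃ B : ℝ, ∀ i : ℕ, ‖PowerSeries.coeff i f‖ * ρ ^ i ≤ B := by
  simp only [An, forall_unit, Finsupp.degree_single]
  rfl

theorem Bd.an {F : MvPowerSeries τ C} (h : Bd F) : An F := by
  exact fun ρ h0 h1 => ⟨1, fun d => mul_le_one₀ (h d) (by positivity) (pow_le_one₀ h0 h1.le)⟩

theorem bd_map {R : Type*} [CommRing R] (ρ : R →+* C) (hρ : ∀ a, ‖ρ a‖ ≤ 1)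
    (F : MvPowerSeries τ R) : Bd (MvPowerSeries.map ρ F) := by
  exact fun d => by rw [MvPowerSeries.coeff_map]; exact hρ _

theorem norm_mono_le {y : τ → C} {ρ : ℝ} (hρ : 0 ≤ ρ) (hy : ∀ i, ‖y i‖ ≤ ρ) (d : τ →₀ ℕ) :
    ‖mono d y‖ ≤ ρ ^ d.degree := by
  rw [mono, Finsupp.prod, norm_prod, Finsupp.degree_apply, ← Finset.prod_pow_eq_pow_sum]
  exact Finset.prod_le_prod (fun _ _ => norm_nonneg _) fun i _ => by
    rw [norm_pow]; exact pow_le_pow_left₀ (norm_nonneg _) (hy i) _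

theorem mono_add (d e : τ →₀ ℕ) (y : τ → C) : mono (d + e) y = mono d y * mono e y := by
  exact Finsupp.prod_add_index' (fun _ => pow_zero _) fun _ _ _ => pow_add _ _ _

@[simp] theorem mono_zero (y : τ → C) : mono 0 y = 1 := Finsupp.prod_zero_index

@[simp] theorem mono_single (i : τ) (m : ℕ) (y : τ → C) : mono (Finsupp.single i m) y = y i ^ m :=
  Finsupp.prod_single_index (pow_zero _)

theorem Sm.norm_mono_le {y : τ → C} (hy : Sm y) (d : τ →₀ ℕ) : ‖mono d y‖ ≤ 1 := by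
  simpa using R227.norm_mono_le zero_le_one (fun i => (hy i).le) d

theorem Sm.exists_bound [Finite τ] {y : τ → C} (hy : Sm y) :
    ∃ ρ : ℝ, 0 ≤ ρ ∧ ρ < 1 ∧ ∀ i, ‖y i‖ ≤ ρ := by
  cases isEmpty_or_nonempty τ with
  | inl h => exact ⟨0, le_rfl, one_pos, fun i => isEmptyElim i⟩
  | inr h =>
    obtain ⟨i, hi⟩ := Finite.exists_max fun i => ‖y i‖
    exact ⟨‖y i‖, norm_nonneg _, hy i, hi⟩

end defs

section ultra
variable {C : Type*} [NormedField C] [IsUltrametricDist C] {τ : Type*}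

theorem bd_iff_exists (F : MvPowerSeries τ C) :
    Bd F ↔ ∃ G : MvPowerSeries τ (OO C), MvPowerSeries.map (OO C).subtype G = F := by
  refine ⟨fun h => ⟨fun d => ⟨MvPowerSeries.coeff d F, h d⟩, ?_⟩, ?_⟩
  · ext d; rfl
  · rintro ⟨G, rfl⟩; exact bd_map _ (fun a => a.2) G

theorem Bd.add {F G : MvPowerSeries τ C} (hF : Bd F) (hG : Bd G) : Bd (F + G) := by
  exact fun d => by rw [map_add]; exact add_mem (mem_OO.2 (hF d)) (mem_OO.2 (hG d))

theorem Bd.neg {F : MvPowerSeries τ C} (hF : Bd F) : Bd (-F) := by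
  exact fun d => by rw [map_neg, norm_neg]; exact hF d

theorem Bd.sub {F G : MvPowerSeries τ C} (hF : Bd F) (hG : Bd G) : Bd (F - G) := by
  rw [sub_eq_add_neg]; exact hF.add hG.neg

theorem Bd.mul {F G : MvPowerSeries τ C} (hF : Bd F) (hG : Bd G) : Bd (F * G) := by
  obtain ⟨F, rfl⟩ := (bd_iff_exists F).1 hF
  obtain ⟨G, rfl⟩ := (bd_iff_exists G).1 hG
  exact (bd_iff_exists _).2 ⟨F * G, map_mul _ _ _⟩

theorem Bd.pow {F : MvPowerSeries τ C} (hF : Bd F) (m : ℕ) : Bd (F ^ m) := by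
  obtain ⟨F, rfl⟩ := (bd_iff_exists F).1 hF
  exact (bd_iff_exists _).2 ⟨F ^ m, map_pow _ _ _⟩

theorem bd_C {a : C} (ha : ‖a‖ ≤ 1) : Bd (MvPowerSeries.C a : MvPowerSeries τ C) := by
  exact (bd_iff_exists _).2 ⟨MvPowerSeries.C ⟨a, ha⟩, MvPowerSeries.map_C _ _⟩

theorem bd_X (i : τ) : Bd (MvPowerSeries.X i : MvPowerSeries τ C) := by
  exact (bd_iff_exists _).2 ⟨MvPowerSeries.X i, MvPowerSeries.map_X _ _⟩

theorem An.add {F G : MvPowerSeries τ C} (hF : An F) (hG : An G) : An (F + G) := by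
  intro ρ h0 h1
  obtain ⟨B, hB⟩ := hF ρ h0 h1
  obtain ⟨B', hB'⟩ := hG ρ h0 h1
  refine ⟨B + B', fun d => ?_⟩
  rw [map_add]
  refine (mul_le_mul_of_nonneg_right (norm_add_le _ _) (by positivity)).trans ?_
  rw [add_mul]; exact add_le_add (hB d) (hB' d)

theorem An.neg {F : MvPowerSeries τ C} (hF : An F) : An (-F) := by
  simpa only [An, map_neg, norm_neg] using hF

theorem An.sub {F G : MvPowerSeries τ C} (hF : An F) (hG : An G) : An (F - G) := by
  rw [sub_eq_add_neg]; exact hF.add hG.neg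

theorem An.mul {F G : MvPowerSeries τ C} (hF : An F) (hG : An G) : An (F * G) := by
  classical
  intro ρ h0 h1
  obtain ⟨B, hB⟩ := hF ρ h0 h1
  obtain ⟨B', hB'⟩ := hG ρ h0 h1
  refine ⟨B * B', fun d => ?_⟩
  rw [MvPowerSeries.coeff_mul]
  obtain ⟨p, hp, h⟩ := IsUltrametricDist.exists_norm_finsetSum_le_of_nonempty
    (t := Finset.HasAntidiagonal.antidiagonal d) ⟨(d, 0), by simp⟩
    fun p => MvPowerSeries.coeff p.1 F * MvPowerSeries.coeff p.2 G
  refine (mul_le_mul_of_nonneg_right h (by positivity)).trans ?_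
  rw [← Finset.HasAntidiagonal.mem_antidiagonal.1 hp, map_add, pow_add, norm_mul, mul_mul_mul_comm]
  exact mul_le_mul (hB _) (hB' _) (by positivity) (le_trans (by positivity) (hB 0))

theorem An.smul {F : MvPowerSeries τ C} (hF : An F) (a : C) : An (a • F) := by
  intro ρ h0 h1
  obtain ⟨B, hB⟩ := hF ρ h0 h1
  refine ⟨‖a‖ * B, fun d => ?_⟩
  rw [map_smul, smul_eq_mul, norm_mul, mul_assoc]
  exact mul_le_mul_of_nonneg_left (hB d) (norm_nonneg a)

theorem an_C (a : C) : An (MvPowerSeries.C a : MvPowerSeries τ C) := by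
  simpa [MvPowerSeries.smul_eq_C_mul] using (bd_C (τ := τ) (norm_one (α := C)).le).an.smul a

theorem an_coe (P : MvPolynomial τ C) : An (P : MvPowerSeries τ C) := by
  induction P using MvPolynomial.induction_on with
  | C a => rw [MvPolynomial.coe_C]; exact an_C a
  | add p q hp hq => rw [MvPolynomial.coe_add]; exact hp.add hq
  | mul_X p i hp => rw [MvPolynomial.coe_mul, MvPolynomial.coe_X]; exact hp.mul (bd_X i).an

theorem norm_ev_le {F : MvPowerSeries τ C} {y : τ → C} {B : ℝ}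
    (h : ∀ d, ‖MvPowerSeries.coeff d F‖ * ‖mono d y‖ ≤ B) : ‖ev F y‖ ≤ B := by
  exact IsUltrametricDist.norm_tsum_le_of_forall_le fun d => by rw [norm_mul]; exact h d

theorem Bd.norm_ev_le_one {F : MvPowerSeries τ C} (hF : Bd F) {y : τ → C} (hy : Sm y) :
    ‖ev F y‖ ≤ 1 := by
  exact norm_ev_le fun d => mul_le_one₀ (hF d) (norm_nonneg _) (hy.norm_mono_le d)

theorem Bd.norm_ev_le_pow {F : MvPowerSeries τ C} (hF : Bd F) {N : ℕ}
    (hN : ∀ d : τ →₀ ℕ, d.degree < N → MvPowerSeries.coeff d F = 0) {y : τ → C} {ρ : ℝ}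
    (hρ0 : 0 ≤ ρ) (hρ : ρ ≤ 1) (hy : ∀ i, ‖y i‖ ≤ ρ) : ‖ev F y‖ ≤ ρ ^ N := by
  refine R227.norm_ev_le fun d => ?_
  rcases lt_or_ge d.degree N with h | h
  · rw [hN d h, norm_zero, zero_mul]; positivity
  · exact (mul_le_of_le_one_left (norm_nonneg _) (hF d)).trans
      ((norm_mono_le hρ0 hy d).trans (pow_le_pow_of_le_one hρ0 hρ h))

theorem Bd.norm_ev_le {F : MvPowerSeries τ C} (hF : Bd F)
    (h0 : MvPowerSeries.constantCoeff F = 0) {y : τ → C} {ρ : ℝ}
    (hρ0 : 0 ≤ ρ) (hρ : ρ ≤ 1) (hy : ∀ i, ‖y i‖ ≤ ρ) : ‖ev F y‖ ≤ ρ := by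
  have := hF.norm_ev_le_pow (N := 1) (fun d hd => by
    rw [Nat.lt_one_iff, Finsupp.degree_eq_zero_iff] at hd
    rw [hd, MvPowerSeries.coeff_zero_eq_constantCoeff_apply, h0]) hρ0 hρ hy
  rwa [pow_one] at this

theorem Bd.norm_ev_lt_one [Finite τ] {F : MvPowerSeries τ C} (hF : Bd F)
    (h0 : MvPowerSeries.constantCoeff F = 0) {y : τ → C} (hy : Sm y) : ‖ev F y‖ < 1 := by
  obtain ⟨ρ, h1, h2, h3⟩ := hy.exists_bound
  exact (hF.norm_ev_le h0 h1 h2.le h3).trans_lt h2

theorem Bd.norm_ev1_le {f : PowerSeries C} (hf : Bd f) (h0 : PowerSeries.constantCoeff f = 0)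
    {y : C} (hy : ‖y‖ < 1) : ‖ev1 f y‖ ≤ ‖y‖ := by
  exact hf.norm_ev_le h0 (norm_nonneg _) hy.le fun _ => le_rfl

theorem ev_monomial' (d : τ →₀ ℕ) (a : C) (y : τ → C) :
    ev (MvPowerSeries.monomial d a) y = a * mono d y := by
  rw [ev, tsum_eq_single d fun e he => by rw [MvPowerSeries.coeff_monomial_ne he, zero_mul],
    MvPowerSeries.coeff_monomial_same]

theorem ev_C (a : C) (y : τ → C) : ev (MvPowerSeries.C a) y = a := by
  rw [← MvPowerSeries.monomial_zero_eq_C_apply, ev_monomial', mono_zero, mul_one]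

theorem ev_X (i : τ) (y : τ → C) : ev (MvPowerSeries.X i) y = y i := by
  rw [MvPowerSeries.X, ev_monomial', mono_single, one_mul, pow_one]

theorem ev_monomial (d : τ →₀ ℕ) (a : C) (y : τ → C) :
    ev (MvPowerSeries.monomial d a) y = a * mono d y := by
  exact ev_monomial' d a y

theorem ev_zero_left (y : τ → C) : ev (0 : MvPowerSeries τ C) y = 0 := by
  simp [ev]

theorem ev_zero_right (F : MvPowerSeries τ C) : ev F 0 = MvPowerSeries.constantCoeff F := by
  rw [ev, tsum_eq_single 0 fun e he => ?_, mono_zero, mul_one,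
    MvPowerSeries.coeff_zero_eq_constantCoeff_apply]
  have := norm_mono_le (y := (0 : τ → C)) le_rfl (fun _ => by simp) e
  rw [zero_pow (mt (Finsupp.degree_eq_zero_iff e).1 he), norm_le_zero_iff] at this
  rw [this, mul_zero]

theorem ev_coe (P : MvPolynomial τ C) (y : τ → C) :
    ev (P : MvPowerSeries τ C) y = MvPolynomial.eval y P := by
  rw [ev, tsum_eq_sum (s := P.support) fun d hd => by
    rw [MvPolynomial.coeff_coe, MvPolynomial.notMem_support_iff.1 hd, zero_mul],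
    MvPolynomial.eval_eq]
  rfl

theorem ev1_X (y : C) : ev1 PowerSeries.X y = y := by
  exact ev_X () _

theorem ev1_C_mul_X_pow (a : C) (m : ℕ) (y : C) :
    ev1 (PowerSeries.C a * PowerSeries.X ^ m) y = a * y ^ m := by
  have : (PowerSeries.C a * PowerSeries.X ^ m : PowerSeries C) =
      MvPowerSeries.monomial (Finsupp.single () m) a := by
    rw [PowerSeries.X_pow_eq, ← PowerSeries.smul_eq_C_mul, ← map_smul, smul_eq_mul, mul_one]; rfl
  rw [ev1, this, ev_monomial, mono_single]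

theorem ev1_zero_right (f : PowerSeries C) : ev1 f 0 = PowerSeries.constantCoeff f := by
  exact ev_zero_right f

variable [CompleteSpace C] [Finite τ]

theorem An.tendsto_zero {F : MvPowerSeries τ C} (hF : An F) {ρ : ℝ} (h0 : 0 ≤ ρ) (h1 : ρ < 1) :
    Tendsto (fun d : τ →₀ ℕ => ‖MvPowerSeries.coeff d F‖ * ρ ^ d.degree) cofinite (𝓝 0) := by
  obtain ⟨ρ', h2, h3⟩ := exists_between h1
  have h4 : 0 < ρ' := h0.trans_lt h2
  obtain ⟨B, hB⟩ := hF ρ' h4.le h3
  have hd : Tendsto (fun d : τ →₀ ℕ => d.degree) cofinite atTop :=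
    tendsto_atTop.2 fun N => (Finsupp.finite_of_degree_lt N).subset fun d hd => by simpa using hd
  have h5 := ((tendsto_pow_atTop_nhds_zero_of_lt_one (div_nonneg h0 h4.le)
    ((div_lt_one h4).2 h2)).comp hd).const_mul B
  rw [mul_zero] at h5
  refine squeeze_zero (fun _ => by positivity) (fun d => ?_) h5
  calc _ = ‖MvPowerSeries.coeff d F‖ * ρ' ^ d.degree * (ρ / ρ') ^ d.degree := by
        rw [mul_assoc, ← mul_pow, mul_div_cancel₀ _ h4.ne']
    _ ≤ _ := mul_le_mul_of_nonneg_right (hB d) (by positivity)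

theorem An.summable {F : MvPowerSeries τ C} (hF : An F) {y : τ → C} (hy : Sm y) :
    Summable fun d : τ →₀ ℕ => MvPowerSeries.coeff d F * mono d y := by
  obtain ⟨ρ, h0, h1, h2⟩ := hy.exists_bound
  refine NonarchimedeanAddGroup.summable_of_tendsto_cofinite_zero
    (squeeze_zero_norm (fun d => ?_) (hF.tendsto_zero h0 h1))
  rw [norm_mul]
  exact mul_le_mul_of_nonneg_left (norm_mono_le h0 h2 d) (norm_nonneg _)

theorem An.hasSum1 {f : PowerSeries C} (hf : An f) {y : C} (hy : ‖y‖ < 1) :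
    HasSum (fun i : ℕ => PowerSeries.coeff i f * y ^ i) (ev1 f y) := by
  have h := (hf.summable (y := fun _ => y) fun _ => hy).hasSum
  rw [← (Finsupp.uniqueEquiv ()).symm.hasSum_iff] at h
  refine h.congr_fun fun i => ?_
  simp [PowerSeries.coeff]

theorem ev_add {F G : MvPowerSeries τ C} (hF : An F) (hG : An G) {y : τ → C} (hy : Sm y) :
    ev (F + G) y = ev F y + ev G y := by
  simp only [ev, map_add, add_mul]
  exact (hF.summable hy).tsum_add (hG.summable hy)

theorem ev_sub {F G : MvPowerSeries τ C} (hF : An F) (hG : An G) {y : τ → C} (hy : Sm y) :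
    ev (F - G) y = ev F y - ev G y := by
  simp only [ev, map_sub, sub_mul]
  exact (hF.summable hy).tsum_sub (hG.summable hy)

theorem ev_smul {F : MvPowerSeries τ C} (hF : An F) (a : C) {y : τ → C} (hy : Sm y) :
    ev (a • F) y = a * ev F y := by
  simp only [ev, map_smul, smul_eq_mul, mul_assoc]
  exact (hF.summable hy).tsum_mul_left a

theorem ev_mul {F G : MvPowerSeries τ C} (hF : An F) (hG : An G) {y : τ → C} (hy : Sm y) :
    ev (F * G) y = ev F y * ev G y := by
  classical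
  have h1 := hF.summable hy
  have h2 := hG.summable hy
  rw [ev, ev, ev, h1.tsum_mul_tsum_eq_tsum_sum_antidiagonal h2
    (NonarchimedeanAddGroup.summable_of_tendsto_cofinite_zero
      (tendsto_mul_cofinite_nhds_zero h1.tendsto_cofinite_zero h2.tendsto_cofinite_zero))]
  refine tsum_congr fun d => ?_
  rw [MvPowerSeries.coeff_mul, Finset.sum_mul]
  refine Finset.sum_congr rfl fun p hp => ?_
  rw [← Finset.HasAntidiagonal.mem_antidiagonal.1 hp, mono_add, mul_mul_mul_comm]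

omit [CompleteSpace C] [Finite τ] in
theorem An.pow {F : MvPowerSeries τ C} (hF : An F) (m : ℕ) : An (F ^ m) := by
  induction m with
  | zero => rw [pow_zero]; exact an_C 1
  | succ m ih => rw [pow_succ]; exact ih.mul hF

theorem ev_pow {F : MvPowerSeries τ C} (hF : An F) (m : ℕ) {y : τ → C} (hy : Sm y) :
    ev (F ^ m) y = ev F y ^ m := by
  induction m with
  | zero => rw [pow_zero, pow_zero]; exact ev_C 1 y
  | succ m ih => rw [pow_succ, pow_succ, ev_mul (hF.pow m) hF hy, ih]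

/-- Lipschitz in the series. -/
theorem norm_ev_sub_le_of_coeff {F G : MvPowerSeries τ C} (hF : An F) (hG : An G) {ε : ℝ}
    (h : ∀ d, ‖MvPowerSeries.coeff d F - MvPowerSeries.coeff d G‖ ≤ ε) {y : τ → C} (hy : Sm y) :
    ‖ev F y - ev G y‖ ≤ ε := by
  rw [← ev_sub hF hG hy]
  refine norm_ev_le fun d => ?_
  rw [map_sub]
  exact (mul_le_of_le_one_right (norm_nonneg _) (hy.norm_mono_le d)).trans (h d)

omit [CompleteSpace C] [Finite τ] in
theorem norm_mono_sub_le {y y' : τ → C} {ρ ε : ℝ} (hρ : 0 ≤ ρ) (hε : 0 ≤ ε) (hy : ∀ i, ‖y i‖ ≤ ρ)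
    (hy' : ∀ i, ‖y' i‖ ≤ ρ) (h : ∀ i, ‖y i - y' i‖ ≤ ε) (d : τ →₀ ℕ) :
    ‖mono d y - mono d y'‖ * ρ ≤ ε * ρ ^ d.degree := by
  have step : ∀ d e : τ →₀ ℕ, ‖mono d y - mono d y'‖ * ρ ≤ ε * ρ ^ d.degree →
      ‖mono e y - mono e y'‖ * ρ ≤ ε * ρ ^ e.degree →
      ‖mono (d + e) y - mono (d + e) y'‖ * ρ ≤ ε * ρ ^ (d + e).degree := fun d e h1 h2 => by
    have e1 : mono (d + e) y - mono (d + e) y' =
        (mono d y - mono d y') * mono e y + mono d y' * (mono e y - mono e y') := by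
      rw [mono_add, mono_add]; ring
    rw [e1, map_add, pow_add]
    refine (mul_le_mul_of_nonneg_right (IsUltrametricDist.norm_add_le_max _ _) hρ).trans ?_
    rw [max_mul_of_nonneg _ _ hρ, norm_mul, norm_mul]
    refine max_le ?_ ?_
    · rw [mul_right_comm, ← mul_assoc]
      exact mul_le_mul h1 (norm_mono_le hρ hy e) (norm_nonneg _) (by positivity)
    · rw [mul_assoc, mul_left_comm ε]
      exact mul_le_mul (norm_mono_le hρ hy' d) h2 (by positivity) (by positivity)
  induction d using Finsupp.induction_linear with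
  | zero => simpa using hε
  | add d e h1 h2 => exact step d e h1 h2
  | single i m =>
    induction m with
    | zero => simpa using hε
    | succ m ih =>
      rw [Finsupp.single_add]
      exact step _ _ ih (by simpa using mul_le_mul_of_nonneg_right (h i) hρ)

theorem norm_ev_sub_ev_le {F : MvPowerSeries τ C} (hF : An F) {y y' : τ → C} (hy : Sm y)
    (hy' : Sm y') {B : ℝ} (h : ∀ d, ‖MvPowerSeries.coeff d F‖ * ‖mono d y - mono d y'‖ ≤ B) :
    ‖ev F y - ev F y'‖ ≤ B := by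
  rw [ev, ev, ← (hF.summable hy).tsum_sub (hF.summable hy')]
  exact IsUltrametricDist.norm_tsum_le_of_forall_le fun d => by
    rw [← mul_sub, norm_mul]; exact h d

/-- Lipschitz in the point. -/
theorem Bd.norm_ev_sub_le {F : MvPowerSeries τ C} (hF : Bd F) {y y' : τ → C} (hy : Sm y)
    (hy' : Sm y') {ε : ℝ} (hε : 0 ≤ ε) (h : ∀ i, ‖y i - y' i‖ ≤ ε) : ‖ev F y - ev F y'‖ ≤ ε := by
  refine norm_ev_sub_ev_le hF.an hy hy' fun d =>
    (mul_le_of_le_one_left (norm_nonneg _) (hF d)).trans ?_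
  simpa using norm_mono_sub_le zero_le_one hε (fun i => (hy i).le) (fun i => (hy' i).le) h d

/-- an analytic series is Lipschitz on every smaller polydisc. -/
theorem An.exists_lipschitz {F : MvPowerSeries τ C} (hF : An F) {ρ : ℝ} (hρ : ρ < 1) :
    ∃ L : ℝ, 0 ≤ L ∧ ∀ (y y' : τ → C) (ε : ℝ), 0 ≤ ε → (∀ i, ‖y i‖ ≤ ρ) → (∀ i, ‖y' i‖ ≤ ρ) →
      (∀ i, ‖y i - y' i‖ ≤ ε) → ‖ev F y - ev F y'‖ ≤ L * ε := by
  have h0 : (0 : ℝ) < max ρ (1 / 2) := lt_max_of_lt_right (by norm_num)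
  have h1 : max ρ (1 / 2) < 1 := max_lt hρ (by norm_num)
  obtain ⟨B, hB⟩ := hF _ h0.le h1
  have hB0 : 0 ≤ B := le_trans (by positivity) (hB 0)
  refine ⟨B / max ρ (1 / 2), by positivity, fun y y' ε hε hy hy' h =>
    norm_ev_sub_ev_le hF (fun i => (hy i).trans_lt hρ) (fun i => (hy' i).trans_lt hρ) fun d => ?_⟩
  have h2 := norm_mono_sub_le h0.le hε (fun i => (hy i).trans (le_max_left _ _))
    (fun i => (hy' i).trans (le_max_left _ _)) h d
  rw [div_mul_eq_mul_div, le_div_iff₀ h0, mul_assoc]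
  refine (mul_le_mul_of_nonneg_left h2 (norm_nonneg _)).trans ?_
  rw [mul_left_comm, mul_comm B]
  exact mul_le_mul_of_nonneg_left (hB d) hε

/-- truncation error. -/
theorem Bd.norm_ev_sub_le_pow {F G : MvPowerSeries τ C} (hF : Bd F) (hG : Bd G) {N : ℕ}
    (hN : ∀ d : τ →₀ ℕ, d.degree < N → MvPowerSeries.coeff d F = MvPowerSeries.coeff d G)
    {y : τ → C} {ρ : ℝ} (hρ0 : 0 ≤ ρ) (hρ : ρ < 1) (hy : ∀ i, ‖y i‖ ≤ ρ) :
    ‖ev F y - ev G y‖ ≤ ρ ^ N := by
  rw [← ev_sub hF.an hG.an fun i => (hy i).trans_lt hρ]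
  exact (hF.sub hG).norm_ev_le_pow (fun d hd => by rw [map_sub, hN d hd, sub_self]) hρ0 hρ.le hy

/-- coefficientwise convergence of bounded series gives pointwise convergence. -/
theorem tendsto_ev_of_coeff {ι : Type*} {l : Filter ι} {F : ι → MvPowerSeries τ C}
    {G : MvPowerSeries τ C} (hF : ∀ k, Bd (F k)) (hG : Bd G)
    (h : ∀ d, Tendsto (fun k => MvPowerSeries.coeff d (F k)) l (𝓝 (MvPowerSeries.coeff d G)))
    {y : τ → C} (hy : Sm y) : Tendsto (fun k => ev (F k) y) l (𝓝 (ev G y)) := by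
  obtain ⟨ρ, h0, h1, h2⟩ := hy.exists_bound
  refine Metric.tendsto_nhds.2 fun ε hε => ?_
  obtain ⟨N, hN⟩ := exists_pow_lt_of_lt_one (half_pos hε) h1
  have h3 : ∀ᶠ k in l, ∀ d ∈ {d : τ →₀ ℕ | d.degree < N},
      dist (MvPowerSeries.coeff d (F k)) (MvPowerSeries.coeff d G) < ε / 2 :=
    (eventually_all_finite (Finsupp.finite_of_degree_lt N)).2 fun d _ =>
      Metric.tendsto_nhds.1 (h d) _ (half_pos hε)
  filter_upwards [h3] with k hk
  rw [dist_eq_norm, ← ev_sub (hF k).an hG.an hy]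
  refine (norm_ev_le (B := ε / 2) fun d => ?_).trans_lt (half_lt_self hε)
  rcases lt_or_ge d.degree N with hd | hd
  · refine (mul_le_of_le_one_right (norm_nonneg _) (hy.norm_mono_le d)).trans ?_
    rw [map_sub, ← dist_eq_norm]; exact (hk d hd).le
  · exact (mul_le_of_le_one_left (norm_nonneg _) ((hF k).sub hG d)).trans
      ((norm_mono_le h0 h2 d).trans ((pow_le_pow_of_le_one h0 h1.le hd).trans hN.le))

/-- functoriality under continuous field maps. -/
theorem map_ev {C' : Type*} [NormedField C'] (ι : C →+* C') (hι : Continuous ι)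
    {F : MvPowerSeries τ C} (hF : An F) {y : τ → C} (hy : Sm y) :
    ι (ev F y) = ev (MvPowerSeries.map ι F) (fun i => ι (y i)) := by
  refine (((hF.summable hy).hasSum.map ι hι).tsum_eq.symm).trans (tsum_congr fun d => ?_)
  simp only [Function.comp_apply, map_mul, MvPowerSeries.coeff_map, mono, map_finsuppProd, map_pow]

theorem map_ev1 {C' : Type*} [NormedField C'] (ι : C →+* C') (hι : Continuous ι)
    {f : PowerSeries C} (hf : An f) {y : C} (hy : ‖y‖ < 1) :
    ι (ev1 f y) = ev1 (PowerSeries.map ι f) (ι y) := by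
  exact map_ev ι hι hf fun _ => hy

/-- evaluation at a point of the open polydisc of series with coefficients in `R → O_C`. -/
noncomputable def evHom {R : Type*} [CommRing R] (ρ : R →+* C) (hρ : ∀ a, ‖ρ a‖ ≤ 1) {y : τ → C}
    (hy : Sm y) : MvPowerSeries τ R →+* C where
  toFun F := ev (MvPowerSeries.map ρ F) y
  map_one' := by rw [map_one]; exact ev_C 1 y
  map_mul' F G := by rw [map_mul]; exact ev_mul (bd_map ρ hρ F).an (bd_map ρ hρ G).an hy
  map_zero' := by rw [map_zero]; exact ev_zero_left y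
  map_add' F G := by rw [map_add]; exact ev_add (bd_map ρ hρ F).an (bd_map ρ hρ G).an hy

theorem evHom_apply {R : Type*} [CommRing R] (ρ : R →+* C) (hρ : ∀ a, ‖ρ a‖ ≤ 1) {y : τ → C}
    (hy : Sm y) (F : MvPowerSeries τ R) : evHom ρ hρ hy F = ev (MvPowerSeries.map ρ F) y := rfl

end ultra

end Crest.Agent.R227
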