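import Crest.Agent.R227.Hend
import Crest.Agent.R227.Ev

/-!
# R227 / OrbDef : the analytic description of the orbit of a point
-/

set_option autoImplicit false
open Crest.LubinTate

namespace Crest.Agent.R227

variable (p : ℕ) [hp : Fact p.Prime] {C : Type*} [NormedField C]

/-- characteristic zero: `f` vanishes on the orbit of `z` under the elements `1 + p^m c`. -/
def Orb0 (n : ℕ) (jW : WittVector p (GaloisField p n) →+* C) (z : Fin (n - 1) → C)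
    (f : MvPowerSeries (Fin (n - 1)) C) : Prop :=
  ∃ (μ K : ℝ) (m₀ : ℕ), 0 ≤ μ ∧ μ < 1 ∧ ∀ m ≥ m₀, ∀ c : ℕ → WittVector p (GaloisField p n),
    ∃ (z' : Fin (n - 1) → C) (θ : PowerSeries C), Sm z' ∧ Bd θ ∧
      IsFGHom (HL p n (zseq n 1 z')) (HL p n (zseq n 1 z)) θ ∧
      (∀ i, ‖PowerSeries.coeff i θ - jW (PowerSeries.coeff i (hendW p n (pert p m c)))‖ ≤ μ) ∧
      (∀ i, ‖z' i - z i‖ ≤ K * ‖(p : C)‖ ^ m) ∧ ev f z' = 0

/-- characteristic `p`, height `h`. -/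
def OrbP (n h : ℕ) {r : ℕ} (j : GaloisField p n →+* C) (z : Fin r → C)
    (f : MvPowerSeries (Fin r) C) : Prop :=
  ∃ (μ : ℝ) (m₀ : ℕ), 0 ≤ μ ∧ μ < 1 ∧ ∀ m ≥ m₀, ∀ c : ℕ → WittVector p (GaloisField p n),
    ∃ (z' : Fin r → C) (θ : PowerSeries C), Sm z' ∧ Bd θ ∧
      IsFGHom (HL p n (zseq n h z')) (HL p n (zseq n h z)) θ ∧
      (∀ i, ‖PowerSeries.coeff i θ - j (PowerSeries.coeff i (hend p n (pert p m c)))‖ ≤ μ) ∧
      (∀ i, ‖z' i - z i‖ ≤ μ ^ p ^ (h * m)) ∧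
      (∀ i < p ^ (h * m), ‖PowerSeries.coeff i θ - PowerSeries.coeff i PowerSeries.X‖ ≤
        μ ^ p ^ (h * m)) ∧ ev f z' = 0

end Crest.Agent.R227
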