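import Crest.Agent.R227.LamDef
import Crest.Agent.R227.Jac
import Crest.Agent.R227.Sub
import Crest.Agent.R227.OrbDef

/-!
# R227 / Canon : in canonical coordinates the orbit becomes `Λ`

Plan.
* `exists_limit_point`: fix `c, k`.  For `m ≥ m₀ + k` let `z'_m, θ_m` be given by `OrbP` at level `m - k` (for smaller `m` take
  `z'_m = z`, `θ_m = X`); `δ_m = z'_m - z`.  With `μ_k = μ^{1/p^{hk}} < 1`: `‖δ_m‖ ≤ μ_k^{p^{hm}}`.  Form `δ̂ : Fin r → BS C` and
  `θ̂ : PowerSeries (BS C)` with `bs`; `θ̂ : HL (zseq (cst z + δ̂)) → HL (zseq (cst z))` by `isFGHom_of_family` for `evm`; put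
  `δ = Ur δ̂`, `θ = map Ur θ̂` (`isFGHom_map`, `HL_map_zseq`).  `Ur_ev` for `map cst G` gives the vanishing.
  `prf_hom` with `g = map j (hend (pert (m-k) c))`, `hend_pert`, `ev1_fadd`, `prf_gadd`, `TD.prf0` give
  `θ_m(K_i(δ_m)) = prf_z((e(c) ζ_i)^{p^{n(m-k)}}) = prf_z((rt (nk) (e(c) ζ_i))^{p^{nm}})`; apply `Ur_ev` twice
  (`‖K_i(δ_m)‖ ≤ ‖δ_m‖`).
* `canon`: `G` from `exists_shift`, `K` from `exists_K`, `Ψ` from `exists_Psi`, `κ_i` from `exists_psum`, `F` with
  `subst κ F = G` from `subst_surjective` (the linear part of `κ` is `ψ₁` times that of `K`).  For `c, k` and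
  `e = evHom σ _ hδ`: `Θ₂ = map e Ψ` and `Θ₁ = ψ^σ ∘ θ` both satisfy `Θ ∘ [p]_{σ z + δ} = Θ^{p^h}` and are within `μ` of
  `ψ^σ` (`norm_coeff_cmp_sub_le`; `Bd.norm_ev_sub_le` against the point `0`), so they agree (`uniq_Theta`).  Hence
  `e κ_i = wpt c k i`, and `0 = e G = ev (F^σ) (e κ)` (`MvPowerSeries.map_subst`, `ev_subst`).
-/

set_option autoImplicit false
open Crest.LubinTate Filter Topology

namespace Crest.Agent.R227

variable {p : ℕ} [hp : Fact p.Prime] {C D : Type*} [NontriviallyNormedField C]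
  [IsUltrametricDist C] [CompleteSpace C] [CharP C p] [IsAlgClosed C] [NormedField D]
  [IsUltrametricDist D] [CompleteSpace D] [CharP D p] {n h r : ℕ} {z ζ : Fin r → C}

theorem UP.exists_limit_point (u : UP C D) (hh : 1 ≤ h) (hr : h + r = n)
    (j : GaloisField p n →+* C) (hz : Sm z) {η : Fin r → Pt p n (zseq n h z)}
    (hT : TD p n h z η ζ) {f G : MvPowerSeries (Fin r) C} (hG : Bd G)
    (hGf : ∀ δ, Sm δ → ev G δ = ev f (z + δ)) (hO : OrbP p n h j z f)
    {K : Fin r → MvPowerSeries (Fin r) C} (hK : ∀ i, Bd (K i))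
    (hK0 : ∀ i, MvPowerSeries.constantCoeff (K i) = 0)
    (hKe : ∀ i δ, Sm δ → ev (K i) δ = prf p n (zseq n h (z + δ)) (ζ i))
    (c : ℕ → WittVector p (GaloisField p n)) (k : ℕ) :
    ∃ (δ : Fin r → D) (θ : PowerSeries D) (μ : ℝ), 0 ≤ μ ∧ μ < 1 ∧ (∀ i, ‖δ i‖ ≤ μ) ∧ Bd θ ∧
      IsFGHom (HL p n (zseq n h (fun i => u.sig p h (z i) + δ i)))
        (HL p n (zseq n h (fun i => u.sig p h (z i)))) θ ∧
      (∀ i, ‖PowerSeries.coeff i θ - PowerSeries.coeff i PowerSeries.X‖ ≤ μ) ∧
      ev (MvPowerSeries.map (u.sig p h) G) δ = 0 ∧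
      ∀ i, ev1 θ (ev (MvPowerSeries.map (u.sig p h) (K i)) δ) =
        u.pi0 p n h z (rt p (n * k) (ev1 (PowerSeries.map j (hend p n c)) (ζ i))) := by
  obtain ⟨μ, m₀, hμ0, hμ1, hO⟩ := hO
  have hn : 1 ≤ n := by omega
  have hex : ∀ m, ∃ (z' : Fin r → C) (θ : PowerSeries C), Sm z' ∧ Bd θ ∧
      IsFGHom (HL p n (zseq n h z')) (HL p n (zseq n h z)) θ ∧ (m₀ + k ≤ m →
      (∀ i, ‖PowerSeries.coeff i θ -
        j (PowerSeries.coeff i (hend p n (pert p (m - k) c)))‖ ≤ μ) ∧
      (∀ i, ‖z' i - z i‖ ≤ μ ^ p ^ (h * (m - k))) ∧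
      (∀ i < p ^ (h * (m - k)), ‖PowerSeries.coeff i θ - PowerSeries.coeff i PowerSeries.X‖ ≤
        μ ^ p ^ (h * (m - k))) ∧ ev f z' = 0) := fun m => by
    by_cases hm : m₀ + k ≤ m
    · obtain ⟨z', θ, a1, a2, a3, a4⟩ := hO (m - k) (by omega) c
      exact ⟨z', θ, a1, a2, a3, fun _ => a4⟩
    · exact ⟨z, PowerSeries.X, hz, bd_X (), isFGHom_X _, fun h' => absurd h' hm⟩
  choose z' θ hz' hθb hθ hest using hex
  have hq0 : p ^ (h * k) ≠ 0 := pow_ne_zero _ hp.out.ne_zero
  set ν : ℝ := μ ^ ((p ^ (h * k) : ℕ) : ℝ)⁻¹ with hν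
  have hν0 : 0 ≤ ν := Real.rpow_nonneg hμ0 _
  have hνp : ν ^ p ^ (h * k) = μ := Real.rpow_inv_natCast_pow hμ0 hq0
  have hν1 : ν < 1 := by
    by_contra hcon
    have := one_le_pow₀ (n := p ^ (h * k)) (not_lt.1 hcon)
    linarith
  have hνm : ∀ m, k ≤ m → μ ^ p ^ (h * (m - k)) = ν ^ p ^ (h * m) := fun m hm => by
    rw [← hνp, ← pow_mul, ← pow_add, ← mul_add, Nat.add_sub_cancel' hm]
  have hδs : ∀ m, Sm (fun i => z' m i - z i) := fun m i => by
    beta_reduce
    rw [sub_eq_add_neg]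
    exact (IsUltrametricDist.norm_add_le_max _ _).trans_lt
      (max_lt (hz' m i) (by rw [norm_neg]; exact hz i))
  let δh : Fin r → BS C := fun i => bs fun m => z' m i - z i
  have hδh : ∀ m i, evm m (δh i) = z' m i - z i := fun m i =>
    bs_apply (B := 1) (fun m => (hδs m i).le) m
  let θh : PowerSeries (BS C) := PowerSeries.mk fun i => bs fun m => PowerSeries.coeff i (θ m)
  have hθh : ∀ m, PowerSeries.map (evm m) θh = θ m := fun m => by
    ext i
    rw [PowerSeries.coeff_map, PowerSeries.coeff_mk]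
    exact bs_apply (B := 1) (fun m => (bd1_iff _).1 (hθb m) i) m
  have hθhi : ∀ m i, evm m (PowerSeries.coeff i θh) = PowerSeries.coeff i (θ m) := fun m i => by
    rw [← hθh m, PowerSeries.coeff_map]
  have hhom : IsFGHom (HL p n (zseq n h fun i => cst (z i) + δh i))
      (HL p n (zseq n h fun i => cst (z i))) θh := by
    refine isFGHom_of_family (T := fun _ : ℕ => C) (fun m => evm m) (fun a b e => bs_ext e)
      fun m => ?_
    rw [HL_map_zseq, HL_map_zseq, hθh]
    have e1 : (fun i => evm m (cst (z i) + δh i)) = z' m := by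
      funext i; rw [map_add, evm_cst, hδh]; ring
    rw [e1]
    exact hθ m
  have hev : ∀ᶠ m in atTop, m₀ + k ≤ m := eventually_ge_atTop _
  have hδb : ∀ᶠ m in atTop, ∀ i, ‖evm m (δh i)‖ ≤ ν ^ p ^ (h * m) := by
    filter_upwards [hev] with m hm i
    rw [hδh, ← hνm m (by omega)]
    exact (hest m hm).2.1 i
  have hcst : ∀ (A : MvPowerSeries (Fin r) C) (m : ℕ),
      MvPowerSeries.map (evm m) (MvPowerSeries.map cst A) = A := fun A m => by
    ext d; simp [evm_cst]
  have hsig : ∀ A : MvPowerSeries (Fin r) C,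
      MvPowerSeries.map (u.Ur p h) (MvPowerSeries.map cst A) =
        MvPowerSeries.map (u.sig p h) A := fun A => by
    ext d; simp [UP.sig]
  have hzδ : ∀ m, z + (fun i => evm m (δh i)) = z' m := fun m => by
    funext i; rw [Pi.add_apply, hδh]; ring
  have hδs' : ∀ m, Sm (fun i => evm m (δh i)) := fun m i => by
    beta_reduce; rw [hδh]; exact hδs m i
  refine ⟨fun i => u.Ur p h (δh i), PowerSeries.map (u.Ur p h) θh, ν, hν0, hν1,
    fun i => u.norm_Ur_le h hν0 (hδb.mono fun m hm => hm i), ?_, ?_, ?_, ?_, ?_⟩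
  · rw [bd1_iff]; intro i
    rw [PowerSeries.coeff_map]
    refine u.norm_Ur_le h zero_le_one (Eventually.of_forall fun m => ?_)
    rw [one_pow, hθhi]
    exact (bd1_iff _).1 (hθb m) i
  · have := isFGHom_map (u.Ur p h) hhom
    rw [HL_map_zseq, HL_map_zseq] at this
    simpa only [map_add, UP.sig, RingHom.comp_apply] using this
  · intro i
    have e1 : (PowerSeries.coeff i PowerSeries.X : D) =
        u.Ur p h (PowerSeries.coeff i PowerSeries.X) := by
      rw [← PowerSeries.coeff_map, PowerSeries.map_X]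
    rw [PowerSeries.coeff_map, e1, ← map_sub]
    refine u.norm_Ur_le h hν0 ?_
    filter_upwards [hev, eventually_ge_atTop (i + k)] with m hm hm'
    have e2 : evm m (PowerSeries.coeff i (PowerSeries.X : PowerSeries (BS C))) =
        PowerSeries.coeff i PowerSeries.X := by
      rw [← PowerSeries.coeff_map, PowerSeries.map_X]
    rw [map_sub, hθhi, e2, ← hνm m (by omega)]
    refine (hest m hm).2.2.1 i ?_
    calc i ≤ h * (m - k) := by
          have : i ≤ m - k := by omega
          nlinarith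
      _ < p ^ (h * (m - k)) := Nat.lt_pow_self hp.out.one_lt
  · have := u.Ur_ev (p := p) h (F := MvPowerSeries.map cst G) (fun m => by rw [hcst]; exact hG)
      (y := δh) hν0 hν1 hδb (b := 0) (by
        filter_upwards [hev] with m hm
        rw [hcst, hGf _ (hδs' m), hzδ, map_zero, (hest m hm).2.2.2])
    rw [map_zero, hsig] at this
    exact this.symm
  · intro i
    set w := ev1 (PowerSeries.map j (hend p n c)) (ζ i) with hw
    have hjn := norm_galois_le hn j
    have heb : Bd (PowerSeries.map j (hend p n c)) := bd_map _ hjn _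
    have he0 : PowerSeries.constantCoeff (PowerSeries.map j (hend p n c)) = 0 := by
      rw [← PowerSeries.coeff_zero_eq_constantCoeff_apply, PowerSeries.coeff_map,
        PowerSeries.coeff_zero_eq_constantCoeff_apply, const_hend, map_zero]
    have hw1 : ‖w‖ < 1 := (heb.norm_ev1_le he0 (hT.lt i)).trans_lt (hT.lt i)
    have hwp : ∀ e, ‖w ^ p ^ e‖ < 1 := fun e => by
      rw [norm_pow]; exact pow_lt_one₀ (norm_nonneg _) hw1 (pow_ne_zero _ hp.out.ne_zero)
    let b : BS C := bs fun m => ev (K i) (fun l => evm m (δh l))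
    have hb : ∀ m, evm m b = ev (K i) (fun l => evm m (δh l)) := fun m =>
      bs_apply (B := 1) (fun m => (hK i).norm_ev_le_one (hδs' m)) m
    have h1 := u.Ur_ev (p := p) h (F := MvPowerSeries.map cst (K i))
      (fun m => by rw [hcst]; exact hK i) (y := δh) hν0 hν1 hδb (b := b)
      (Eventually.of_forall fun m => by rw [hcst, hb])
    rw [hsig] at h1
    have hy1 : ∀ m, ‖rt p (n * k) w ^ p ^ (n * m)‖ < 1 := fun m => by
      rw [norm_pow]
      exact pow_lt_one₀ (norm_nonneg _) (norm_rt_lt_one _ hw1) (pow_ne_zero _ hp.out.ne_zero)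
    have h2 := u.Ur_ev (p := p) h (τ := Unit) (F := θh)
      (fun m => by
        have := hθb m
        rw [← hθh m] at this
        exact this) (y := fun _ => b) hν0 hν1 (by
        filter_upwards [hδb] with m hm _
        rw [hb]
        exact (hK i).norm_ev_le (hK0 i) (pow_nonneg hν0 _) (pow_le_one₀ hν0 hν1.le) hm)
      (b := bs fun m => prf p n (zseq n h z) (rt p (n * k) w ^ p ^ (n * m))) (by
        filter_upwards [hev] with m hm
        rw [evm_apply, bs_apply (B := 1) (fun m => (norm_prf_lt hh hr hz (hy1 m)).le) m]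
        change _ = ev1 (PowerSeries.map (evm m) θh) (evm m b)
        rw [hθh, hb, hKe i _ (hδs' m), hzδ]
        have hg : Bd (PowerSeries.map j (hend p n (pert p (m - k) c))) := bd_map _ hjn _
        rw [prf_hom hh hr hz (hz' m) (hθ m) (hθb m) hg
          (by rw [← PowerSeries.coeff_zero_eq_constantCoeff_apply, PowerSeries.coeff_map,
            PowerSeries.coeff_zero_eq_constantCoeff_apply, const_hend, map_zero])
          (fun l => by rw [PowerSeries.coeff_map, ← map_pow, galois_pow n hn]) hμ1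
          (fun l => by rw [PowerSeries.coeff_map]; exact (hest m hm).1 l) (hT.lt i)]
        have hq : p ^ (n * (m - k)) ≠ 0 := pow_ne_zero _ hp.out.ne_zero
        rw [hend_pert hn (galois_pow n hn), map_fadd _ _ PowerSeries.constantCoeff_X
          (by rw [map_pow, const_hend, zero_pow hq]), HL_map_hon, PowerSeries.map_X, map_pow,
          ev1_fadd (A := PowerSeries.X)
            (B := PowerSeries.map j (hend p n c) ^ p ^ (n * (m - k))) (norm_hon_le n) (bd_X ())
            (heb.pow _) PowerSeries.constantCoeff_X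
            (by rw [map_pow, he0, zero_pow hq]) (hT.lt i), ev1_X]
        have e3 : ev1 (PowerSeries.map j (hend p n c) ^ p ^ (n * (m - k))) (ζ i) =
            w ^ p ^ (n * (m - k)) := ev_pow heb.an _ (fun _ => hT.lt i)
        rw [e3, prf_gadd hh hr hz (hT.lt i) (hwp _), hT.prf0,
          zero_gadd (norm_zseq_le n h hz) (norm_prf_lt hh hr hz (hwp _))]
        congr 1
        rw [show n * m = n * k + n * (m - k) by rw [← mul_add, Nat.add_sub_cancel' (by omega)],
          pow_add, pow_mul, rt_pow])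
    rw [UP.pi0, h2, h1]
    rfl

theorem UP.canon (u : UP C D) (hh : 1 ≤ h) (hr : h + r = n) (hr0 : 0 < r)
    (j : GaloisField p n →+* C) (hz : Sm z) (hz0 : z ⟨0, hr0⟩ ≠ 0)
    {η : Fin r → Pt p n (zseq n h z)} (hT : TD p n h z η ζ) {ψ : PowerSeries C}
    (hψ : IsFGHom (HL p n (zseq n h z)) (HL p h (hon h)) ψ) (hψ1 : PowerSeries.coeff 1 ψ ≠ 0)
    {f : MvPowerSeries (Fin r) C} (hf : Bd f) (hf0 : f ≠ 0) (hO : OrbP p n h j z f) :
    ∃ F : MvPowerSeries (Fin r) C, F ≠ 0 ∧
      ∀ c k, ev (MvPowerSeries.map (u.sig p h) F) (u.wpt p n h j z ζ ψ c k) = 0 := by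
  classical
  obtain ⟨G, hG, hGf, hG0⟩ := exists_shift hf hz
  obtain ⟨K, hK, hK0, hKe, hdet⟩ := exists_K hh hr hz hT
  obtain ⟨Ψ, hΨ0, hΨψ, hΨ⟩ := exists_Psi hh hr hr0 hz0 hψ
  have hσ := u.norm_sig_le (p := p) hh
  choose κ hκ0 hκ1 hκe using fun i => exists_psum Ψ hΨ0 (hK0 i) (u.sig p h) hσ
  have hΨ1 : MvPowerSeries.constantCoeff (PowerSeries.coeff 1 Ψ) = PowerSeries.coeff 1 ψ := by
    rw [← hΨψ, PowerSeries.coeff_map]
  have hdet' : IsUnit (Matrix.of fun i j => MvPowerSeries.coeff (Finsupp.single j 1) (κ i)).det := by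
    have : (Matrix.of fun i j => MvPowerSeries.coeff (Finsupp.single j 1) (κ i)) =
        PowerSeries.coeff 1 ψ •
          (Matrix.of fun i j => MvPowerSeries.coeff (Finsupp.single j 1) (K i)) := by
      ext i j
      simp [hκ1, hΨ1]
    rw [this, Matrix.det_smul]
    exact (mul_ne_zero (pow_ne_zero _ hψ1) hdet).isUnit
  obtain ⟨F, hF⟩ := subst_surjective κ hκ0 hdet' G
  have hκs : MvPowerSeries.HasSubst κ :=
    MvPowerSeries.hasSubst_of_constantCoeff_zero hκ0
  refine ⟨F, ?_, fun c k => ?_⟩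
  · rintro rfl
    refine hf0 (hG0 ?_)
    rw [← hF, ← MvPowerSeries.coe_substAlgHom hκs, map_zero]
  obtain ⟨δ, θ, μ, hμ0, hμ1, hδ, hθb, hθ, hθX, hGδ, hθK⟩ :=
    u.exists_limit_point hh hr j hz hT hG hGf hO hK hK0 hKe c k
  have hδs : Sm δ := fun i => (hδ i).trans_lt hμ1
  set e := evHom (u.sig p h) hσ hδs with he
  have hψ0 : PowerSeries.constantCoeff ψ = 0 := hψ.1
  have hψσ := isFGHom_map (u.sig p h) hψ
  rw [HL_map_zseq, HL_map_hon] at hψσ
  have hψbd : Bd (PowerSeries.map (u.sig p h) ψ) := bd_map _ hσ _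
  have hpD : (p : D) = 0 := CharP.cast_eq_zero D p
  have hz1 : ∀ i, ‖u.sig p h (z i) + δ i‖ ≤ 1 := fun i =>
    (IsUltrametricDist.norm_add_le_max _ _).trans (max_le (hσ _) (hδs i).le)
  have hz01 : ‖u.sig p h (z ⟨0, hr0⟩) + δ ⟨0, hr0⟩‖ = 1 := by
    have h1 := u.norm_sig (p := p) hh hz0
    rw [IsUltrametricDist.norm_add_eq_max_of_norm_ne_norm (by rw [h1]; exact (hδs _).ne'), h1]
    exact max_eq_left (hδs _).le
  have h₁ : cmp (cmp (PowerSeries.map (u.sig p h) ψ) θ)
      (mulSeries (HL p n (zseq n h fun i => u.sig p h (z i) + δ i)) p) =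
      cmp (PowerSeries.map (u.sig p h) ψ) θ ^ p ^ h := by
    have hc := isFGHom_cmp hθ hψσ
    rw [isFGHom_cmp_mulSeries hc, pser_hon p hpD hh, X_pow_cmp hc.1]
  have h₂ : cmp (PowerSeries.map e Ψ)
      (mulSeries (HL p n (zseq n h fun i => u.sig p h (z i) + δ i)) p) =
      PowerSeries.map e Ψ ^ p ^ h := by
    have := congrArg (PowerSeries.map e) hΨ
    rw [map_cmp _ _ (const_mulSeries _ _), map_mulSeries, HL_map_zseq, map_pow] at this
    convert this using 6 with i
    rw [map_add, he, evHom_apply, evHom_apply, MvPowerSeries.map_C, MvPowerSeries.map_X, ev_C, ev_X]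
  have hΘ : cmp (PowerSeries.map (u.sig p h) ψ) θ = PowerSeries.map e Ψ := by
    refine uniq_Theta hh hr hr0 hz1 hz01 h₁ h₂ hμ1 fun i => ?_
    have e1 := norm_coeff_cmp_sub_le hψbd hθb (bd_X ()) hθ.1
      (PowerSeries.constantCoeff_X) hθX i
    have e1' : ‖PowerSeries.coeff i (cmp (PowerSeries.map (u.sig p h) ψ) θ) -
        PowerSeries.coeff i (PowerSeries.map (u.sig p h) ψ)‖ ≤ μ := by
      have h3 := cmp_X (PowerSeries.map (u.sig p h) ψ)
      have e3 : ‖PowerSeries.coeff i (cmp (PowerSeries.map (u.sig p h) ψ) θ) -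
        PowerSeries.coeff i (cmp (PowerSeries.map (u.sig p h) ψ) PowerSeries.X)‖ ≤ μ := e1
      rwa [h3] at e3
    have e2 : ‖PowerSeries.coeff i (PowerSeries.map (u.sig p h) ψ) -
        PowerSeries.coeff i (PowerSeries.map e Ψ)‖ ≤ μ := by
      have h4 := (bd_map (u.sig p h) hσ (PowerSeries.coeff i Ψ)).norm_ev_sub_le
        (y := 0) (y' := δ) (fun _ => by simp) hδs hμ0 (fun l => by simpa using hδ l)
      rw [ev_zero_right] at h4
      rw [PowerSeries.coeff_map, PowerSeries.coeff_map, ← hΨψ, PowerSeries.coeff_map, he,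
        evHom_apply]
      simpa using h4
    have := IsUltrametricDist.norm_add_le_max
      (PowerSeries.coeff i (cmp (PowerSeries.map (u.sig p h) ψ) θ) -
        PowerSeries.coeff i (PowerSeries.map (u.sig p h) ψ))
      (PowerSeries.coeff i (PowerSeries.map (u.sig p h) ψ) -
        PowerSeries.coeff i (PowerSeries.map e Ψ))
    rw [sub_add_sub_cancel] at this
    exact this.trans (max_le e1' e2)
  have hκw : (fun i => ev (MvPowerSeries.map (u.sig p h) (κ i)) δ) = u.wpt p n h j z ζ ψ c k := by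
    funext i
    have h5 := hκe i δ hδs
    rw [← he, ← hΘ, he, evHom_apply, evHom_apply] at h5
    have h6 : ‖ev (MvPowerSeries.map (u.sig p h) (K i)) δ‖ < 1 :=
      (bd_map _ hσ _).norm_ev_lt_one (by simp [hK0 i]) hδs
    rw [h5, ev1_cmp hψbd.an hθb hθ.1 h6, hθK i, UP.wpt]
  rw [← hκw, ← hGδ, ← hF, MvPowerSeries.map_subst hκs,
    ev_subst (bd_map _ hσ F).an (fun i => bd_map _ hσ _) (fun i => by simp [hκ0 i]) hδs]

end Crest.Agent.R227
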