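import Crest.Agent.R227.EvMax

/-!
# R227 / Ded : two pieces of linear algebra

* `dedekind_frob`: the monoid homomorphisms `α ↦ χ(α)^{p^s} = χ(α^{p^s})`, `s < n`, are pairwise distinct (a generator
  of the cyclic group `kˣ` has order `p^n - 1`; or: the powers of Frobenius are distinct, `X^{p^s} - X^{p^t}` has
  fewer than `p^n` roots), so `linearIndependent_monoidHom` applies.
* `poly_eq_zero_of_span`: extract a basis `b` from `T` (`exists_linearIndependent`/ `Basis.ofSpan`); the polynomial
  `Q(x) = P(∑ x_i b_i)` vanishes on `ℕ^d ⊆ C^d`, hence is zero (`MvPolynomial.funext_set`).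
* `eq_zero_of_tangent`: if `G ≠ 0` let `N` be its order and `P` the homogeneous component of degree `N`;
  `‖ev G δ - eval δ P‖ ≤ ‖δ‖^{N+1}`, `eval δ P = λ^N eval (δ/λ) P`.
-/

set_option autoImplicit false
open Filter Topology

namespace Crest.Agent.R227

theorem dedekind_frob {p : ℕ} [Fact p.Prime] {n : ℕ} (hn : 1 ≤ n) {L : Type*} [Field L]
    (χ : GaloisField p n →* L) (hχ : Function.Injective χ) (a : ℕ → L)
    (h : ∀ α, ∑ s ∈ Finset.range n, a s * χ α ^ p ^ s = 0) : ∀ s < n, a s = 0 := by
  have hp : p.Prime := Fact.out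
  let f : Fin n → (GaloisField p n →* L) := fun s => (powMonoidHom (p ^ (s : ℕ))).comp χ
  have hf : Function.Injective f := by
    intro s t hst
    obtain ⟨g, hg⟩ := IsCyclic.exists_ofOrder_eq_natCard (α := (GaloisField p n)ˣ)
    rw [Nat.card_units, GaloisField.card p n (by omega)] at hg
    have h1 : χ (g : GaloisField p n) ^ p ^ (s : ℕ) = χ g ^ p ^ (t : ℕ) :=
      DFunLike.congr_fun hst (g : GaloisField p n)
    rw [← map_pow, ← map_pow] at h1
    have h2 : g ^ p ^ (s : ℕ) = g ^ p ^ (t : ℕ) := by
      apply Units.ext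
      simpa using hχ h1
    have hs1 : 1 ≤ p ^ (s : ℕ) := Nat.one_le_pow _ _ hp.pos
    have ht1 : 1 ≤ p ^ (t : ℕ) := Nat.one_le_pow _ _ hp.pos
    have hs2 : p ^ (s : ℕ) < p ^ n := Nat.pow_lt_pow_right hp.one_lt s.2
    have ht2 : p ^ (t : ℕ) < p ^ n := Nat.pow_lt_pow_right hp.one_lt t.2
    have h3 : g ^ (p ^ (s : ℕ) - 1) = g ^ (p ^ (t : ℕ) - 1) := by
      apply mul_right_cancel (b := g)
      rw [← pow_succ, ← pow_succ, Nat.sub_add_cancel hs1, Nat.sub_add_cancel ht1, h2]
    have h4 := pow_injOn_Iio_orderOf (x := g) (by rw [Set.mem_Iio, hg]; omega)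
      (by rw [Set.mem_Iio, hg]; omega) h3
    exact Fin.ext (Nat.pow_right_injective hp.two_le (by simp only; omega))
  have hli := (linearIndependent_monoidHom (GaloisField p n) L).comp f hf
  rw [Fintype.linearIndependent_iff] at hli
  intro s hs
  refine hli (fun s => a s) ?_ ⟨s, hs⟩
  funext α
  have := h α
  rw [Finset.sum_range] at this
  simpa [f] using this

theorem poly_eq_zero_of_span {C : Type*} [Field C] [CharZero C] {d : ℕ}
    (T : AddSubmonoid (Fin d → C)) (hT : Submodule.span C (T : Set (Fin d → C)) = ⊤)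
    (P : MvPolynomial (Fin d) C) (h : ∀ t ∈ T, MvPolynomial.eval t P = 0) : P = 0 := by
  classical
  obtain ⟨b, hbT, hspan, hli⟩ := exists_linearIndependent C (T : Set (Fin d → C))
  have hfin : Finite b := hli.finite
  have := Fintype.ofFinite b
  let Q : MvPolynomial b C := MvPolynomial.bind₁
    (fun i => ∑ j : b, MvPolynomial.X j * MvPolynomial.C ((j : Fin d → C) i)) P
  have hQ : ∀ x : b → C, MvPolynomial.eval x Q =
      MvPolynomial.eval (∑ j : b, x j • (j : Fin d → C)) P := by
    intro x
    simp only [Q]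
    rw [← MvPolynomial.coe_aeval_eq_eval, ← MvPolynomial.coe_aeval_eq_eval]
    simp only [RingHom.coe_coe]
    rw [MvPolynomial.aeval_bind₁]
    congr 2
    funext i
    simp
  have hQ0 : Q = 0 := by
    apply MvPolynomial.funext_set (fun _ => Set.range (Nat.cast : ℕ → C))
      (fun _ => Set.infinite_range_of_injective Nat.cast_injective)
    intro x hx
    rw [hQ, map_zero]
    apply h
    apply T.sum_mem
    intro j _
    obtain ⟨m, hm⟩ := hx j (Set.mem_univ j)
    rw [← hm, Nat.cast_smul_eq_nsmul]
    exact T.nsmul_mem (hbT j.2) m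
  apply MvPolynomial.funext
  intro y
  have hy : y ∈ Submodule.span C (Set.range ((↑) : b → (Fin d → C))) := by
    rw [Subtype.range_coe, hspan, hT]; trivial
  obtain ⟨x, rfl⟩ := (Submodule.mem_span_range_iff_exists_fun C).mp hy
  rw [← hQ, hQ0, map_zero, map_zero]

theorem eq_zero_of_tangent {C : Type*} [NormedField C] [IsUltrametricDist C] [CompleteSpace C]
    [CharZero C] {d : ℕ} (T : AddSubmonoid (Fin d → C))
    (hT : Submodule.span C (T : Set (Fin d → C)) = ⊤) {G : MvPowerSeries (Fin d) C} (hG : Bd G)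
    (h : ∀ t ∈ T, ∀ ε > (0 : ℝ), ∃ (lam : C) (δ : Fin d → C), lam ≠ 0 ∧ ‖lam‖ ≤ ε ∧
      (∀ i, ‖δ i - lam * t i‖ ≤ ε * ‖lam‖) ∧ ev G δ = 0) : G = 0 := by
  classical
  by_contra hG0
  have hex : ∃ N : ℕ, ∃ e : Fin d →₀ ℕ, e.degree = N ∧ MvPowerSeries.coeff e G ≠ 0 := by
    by_contra hc
    push Not at hc
    exact hG0 (MvPowerSeries.ext fun e => by rw [hc _ e rfl, map_zero])
  set N := Nat.find hex with hN
  have hlow : ∀ e : Fin d →₀ ℕ, e.degree < N → MvPowerSeries.coeff e G = 0 := by
    intro e he
    by_contra hne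
    exact Nat.find_min hex he ⟨e, rfl, hne⟩
  have hfin : {e : Fin d →₀ ℕ | e.degree = N}.Finite :=
    (Finsupp.finite_of_degree_le N).subset fun e he => le_of_eq he
  let P : MvPolynomial (Fin d) C :=
    ∑ e ∈ hfin.toFinset, MvPolynomial.monomial e (MvPowerSeries.coeff e G)
  have hPc : ∀ e, P.coeff e = if e.degree = N then MvPowerSeries.coeff e G else 0 := by
    intro e
    simp only [P, MvPolynomial.coeff_sum, MvPolynomial.coeff_monomial]
    rw [Finset.sum_ite_eq']
    simp
  have hPb : Bd (P : MvPowerSeries (Fin d) C) := by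
    intro e
    rw [MvPolynomial.coeff_coe, hPc]
    split_ifs
    · exact hG e
    · simp
  have hPh : ∀ (lam : C) (s : Fin d → C),
      MvPolynomial.eval (fun i => lam * s i) P = lam ^ N * MvPolynomial.eval s P := by
    intro lam s
    simp only [P, map_sum, MvPolynomial.eval_monomial, Finset.mul_sum]
    refine Finset.sum_congr rfl fun e he => ?_
    have he' : e.degree = N := by simpa using he
    rw [mul_left_comm, ← he']
    congr 1
    simp only [Finsupp.prod, mul_pow, Finset.prod_mul_distrib, Finsupp.degree_apply,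
      Finset.prod_pow_eq_pow_sum]
  have hP0 : P = 0 := by
    apply poly_eq_zero_of_span T hT
    intro t ht
    rw [← norm_le_zero_iff]
    apply le_of_forall_pos_le_add
    intro η hη
    obtain ⟨ε₁, hε₁, hc⟩ := Metric.continuous_iff.mp (MvPolynomial.continuous_eval P) t (η / 2)
      (half_pos hη)
    set B : ℝ := max 1 ‖t‖ with hB
    have hB1 : 1 ≤ B := le_max_left _ _
    have hB0 : 0 < B := by linarith
    set ε : ℝ := min (min (ε₁ / 2) (1 / (2 * B))) (η / 2 / B ^ (N + 1)) with hε
    have hε0 : 0 < ε := by positivity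
    have e1 : ε ≤ ε₁ / 2 := (min_le_left _ _).trans (min_le_left _ _)
    have e2 : ε ≤ 1 / (2 * B) := (min_le_left _ _).trans (min_le_right _ _)
    have e3 : ε ≤ η / 2 / B ^ (N + 1) := min_le_right _ _
    have e2' : ε * B ≤ 1 / 2 := by
      rw [le_div_iff₀ (by positivity)] at e2
      linarith
    have e4 : ε ≤ B := by nlinarith
    obtain ⟨lam, δ, hl0, hl, hδ, hev⟩ := h t ht ε hε0
    have hl0' : 0 < ‖lam‖ := norm_pos_iff.mpr hl0
    let s : Fin d → C := fun i => δ i / lam
    have hδs : δ = fun i => lam * s i := by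
      funext i; simp only [s]; field_simp
    have hst : ∀ i, ‖s i - t i‖ ≤ ε := by
      intro i
      have : δ i - lam * t i = lam * (s i - t i) := by simp only [s]; field_simp
      have h1 := hδ i
      rw [this, norm_mul, mul_comm] at h1
      exact le_of_mul_le_mul_right h1 hl0'
    have hsB : ∀ i, ‖s i‖ ≤ B := by
      intro i
      have : s i = (s i - t i) + t i := by ring
      rw [this]
      exact (IsUltrametricDist.norm_add_le_max _ _).trans
        (max_le ((hst i).trans e4) ((norm_le_pi_norm t i).trans (le_max_right _ _)))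
    have hρ : ‖lam‖ * B < 1 := by nlinarith
    have h1 := hG.norm_ev_sub_le_pow hPb (N := N + 1) (fun e he => by
      rw [MvPolynomial.coeff_coe, hPc]
      split_ifs with h'
      · rfl
      · exact hlow e (by omega)) (y := δ) (ρ := ‖lam‖ * B) (by positivity) hρ (fun i => by
      rw [hδs, norm_mul]
      exact mul_le_mul_of_nonneg_left (hsB i) hl0'.le)
    rw [hev, zero_sub, norm_neg, ev_coe, hδs, hPh, norm_mul, norm_pow, mul_pow, pow_succ ‖lam‖,
      mul_assoc] at h1
    have h2 := le_of_mul_le_mul_left h1 (by positivity)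
    have h3 : ‖MvPolynomial.eval s P‖ ≤ η / 2 := by
      refine h2.trans ((mul_le_mul_of_nonneg_right hl (by positivity)).trans ?_)
      rwa [le_div_iff₀ (by positivity)] at e3
    have h4 := hc s (by
      rw [dist_eq_norm]
      refine ((pi_norm_le_iff_of_nonneg hε0.le).mpr hst).trans_lt (by linarith))
    rw [dist_eq_norm] at h4
    have : MvPolynomial.eval t P = MvPolynomial.eval s P -
        (MvPolynomial.eval s P - MvPolynomial.eval t P) := by ring
    rw [this]
    refine (norm_sub_le _ _).trans ?_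
    linarith
  obtain ⟨e, he, hne⟩ := Nat.find_spec hex
  have := hPc e
  rw [hP0, if_pos he] at this
  exact hne this.symm

end Crest.Agent.R227
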