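import Crest.Agent.R227.Char0a
import Crest.Agent.R227.Ded
import Crest.Agent.R227.OrbDef

/-!
# R227 / Char0 : orbits of characteristic zero points are Zariski dense

Plan.
* `span_perAct`: a linear functional `(y_{s'})` killing all these vectors gives, for each `i`,
  `∑_s φ_s p^{⌊(i+s)/n⌋} y_{(i+s) % n} χ(α)^{p^s} = 0` with `χ α = jW (teichmuller α)` (injective: `[α] - [β]` is a unit of
  `W k` for `α ≠ β`; `frobenius (teichmuller α) = teichmuller (α^p)`), so `dedekind_frob` gives `φ_s y_{(i+s)%n} = 0`.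
* `char0`: `φ = per (zseq z) ≠ 0` (`exists_per_ne_zero`), `D` from `per_taylor`, `G` from `exists_shift`.
  For `c` supported in `[0, n)`, `w(c) = perAct c φ`, and `δ = z' - z`:
  `p^m w(c) = (θ₁ - 1) φ + θ₁ D δ + O(‖p‖^{2m})` (`per_transform`, `perAct_pert`), `‖θ₁‖ = 1` for `m ≥ 1`
  (`coeff_one_hendW`).  Hence `w(c)` lies in the closed range of `J : C × C^{n-1} → C^n`, `(a, δ) ↦ a φ + D δ`; so `J` is
  onto, hence bijective with continuous inverse; `t(c) = (J⁻¹ w(c)).2` ranges over an additive submonoid `T` spanning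
  `C^{n-1}`, and `θ₁ δ / p^m → t(c)`.  Apply `eq_zero_of_tangent` with `λ = p^m / θ₁`.
-/

set_option autoImplicit false
open Crest.LubinTate Filter Topology

namespace Crest.Agent.R227

variable {p : ℕ} [hp : Fact p.Prime]

section
variable {C : Type*} [NormedField C]

theorem perAct_add (n : ℕ) (jW : WittVector p (GaloisField p n) →+* C)
    (a b : ℕ → WittVector p (GaloisField p n)) (φ : ℕ → C) (s : ℕ) :
    perAct p n jW (a + b) φ s = perAct p n jW a φ s + perAct p n jW b φ s := by
  simp only [perAct, ← Finset.sum_add_distrib]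
  refine Finset.sum_congr rfl fun t _ => Finset.sum_congr rfl fun i _ => ?_
  split_ifs
  · rw [Pi.add_apply, map_add, map_add]; ring
  · simp

theorem perAct_pert {n : ℕ} (jW : WittVector p (GaloisField p n) →+* C) (m : ℕ)
    (c : ℕ → WittVector p (GaloisField p n)) (φ : ℕ → C) {s : ℕ} (hs : s < n) :
    perAct p n jW (pert p m c) φ s = φ s + (p : C) ^ m * perAct p n jW c φ s := by
  have e : pert p m c = (fun i => if i = 0 then 1 else 0) +
      fun i => (p : WittVector p (GaloisField p n)) ^ m * c i := rfl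
  rw [e, perAct_add]
  congr 1
  · rw [perAct, Finset.sum_eq_single s, Finset.sum_eq_single 0]
    · simp [Nat.mod_eq_of_lt hs, Nat.div_eq_of_lt hs]
    · intro i _ hi; simp [hi]
    · intro h; exact absurd (Finset.mem_range.2 (by omega)) h
    · intro t ht hts
      refine Finset.sum_eq_zero fun i _ => ?_
      by_cases hi : i = 0
      · rw [hi, zero_add, Nat.mod_eq_of_lt (Finset.mem_range.1 ht), if_neg hts]
      · simp [hi]
    · intro h; exact absurd (Finset.mem_range.2 hs) h
  · simp only [perAct, Finset.mul_sum]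
    refine Finset.sum_congr rfl fun t _ => Finset.sum_congr rfl fun i _ => ?_
    split_ifs
    · rw [map_mul, map_mul, map_pow, map_pow, map_natCast, map_natCast]; ring
    · simp

theorem frobenius_pow_teichmuller_c0 {κ : Type*} [CommRing κ] [CharP κ p] (a : κ) (s : ℕ) :
    ((WittVector.frobenius : WittVector p κ →+* _) ^ s) (WittVector.teichmuller p a) =
      WittVector.teichmuller p a ^ p ^ s := by
  induction s with
  | zero => simp
  | succ s ih =>
    rw [pow_succ', RingHom.mul_def, RingHom.comp_apply, ih, map_pow,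
      WittVector.frobenius_eq_map_frobenius, WittVector.map_teichmuller, frobenius_def, map_pow,
      ← pow_mul, ← pow_succ']

theorem span_perAct (hp0 : (p : C) ≠ 0) {n : ℕ} (hn : 1 ≤ n)
    (jW : WittVector p (GaloisField p n) →+* C) {φ : ℕ → C} (hφ : ∃ s < n, φ s ≠ 0) :
    Submodule.span C {w : Fin n → C | ∃ (i : ℕ) (α : GaloisField p n), i < n ∧
      w = fun s : Fin n => perAct p n jW (Pi.single i (WittVector.teichmuller p α)) φ s} = ⊤ := by
  classical
  by_contra hne
  obtain ⟨g, hg0, hg⟩ := Submodule.exists_le_ker_of_lt_top _ (lt_top_iff_ne_top.2 hne)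
  obtain ⟨s₀, hs₀, hφ₀⟩ := hφ
  let y : ℕ → C := fun s => if hs : s < n then g (Pi.single ⟨s, hs⟩ 1) else 0
  have hgy : ∀ w : Fin n → C, g w = ∑ s : Fin n, w s * y s := fun w => by
    rw [pi_eq_sum_univ' w, map_sum]
    refine Finset.sum_congr rfl fun s _ => ?_
    simp only [y, dif_pos s.2, map_smul, smul_eq_mul, ← pi_eq_sum_univ' w]
  let χ : GaloisField p n →* C := jW.toMonoidHom.comp (WittVector.teichmuller p)
  have hχ : Function.Injective χ := by
    intro α β e
    by_contra hne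
    have hu : IsUnit (WittVector.teichmuller p α - WittVector.teichmuller p β) :=
      WittVector.isUnit_of_coeff_zero_ne_zero _ (by
        have : WittVector.constantCoeff (WittVector.teichmuller p α - WittVector.teichmuller p β) =
          α - β := by rw [map_sub]; simp
        intro h0
        exact hne (sub_eq_zero.1 (this.symm.trans h0)))
    refine (hu.map jW).ne_zero ?_
    rw [map_sub, sub_eq_zero]; exact e
  have key : ∀ i < n, ∀ t < n, φ t * (p : C) ^ ((i + t) / n) * y ((i + t) % n) = 0 := by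
    intro i hi
    refine dedekind_frob hn χ hχ _ fun α => ?_
    have h1 := hg (Submodule.subset_span ⟨i, α, hi, rfl⟩)
    rw [LinearMap.mem_ker, hgy] at h1
    rw [← h1]
    simp only [perAct, Finset.sum_mul]
    rw [Finset.sum_comm]
    refine Finset.sum_congr rfl fun t _ => ?_
    rw [Finset.sum_eq_single ⟨(i + t) % n, Nat.mod_lt _ hn⟩, Finset.sum_eq_single i]
    · rw [if_pos rfl, Pi.single_eq_same, frobenius_pow_teichmuller_c0, map_pow]
      change _ = φ t * χ α ^ p ^ t * _ * _
      ring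
    · intro j _ hj; simp [Pi.single_eq_of_ne hj]
    · intro h; exact absurd (Finset.mem_range.2 hi) h
    · intro s _ hs
      refine Finset.sum_eq_zero fun j _ => ?_
      by_cases hj : j = i
      · rw [hj, if_neg (fun h => hs (Fin.ext h.symm)), zero_mul]
      · simp [Pi.single_eq_of_ne hj]
    · simp
  refine hg0 (LinearMap.ext fun w => ?_)
  rw [hgy, LinearMap.zero_apply]
  refine Finset.sum_eq_zero fun s _ => ?_
  have h2 := key ((s + n - s₀) % n) (Nat.mod_lt _ hn) s₀ hs₀
  have e : ((s + n - s₀) % n + s₀) % n = s := by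
    rw [Nat.mod_add_mod, show s + n - s₀ + s₀ = s + n by omega, Nat.add_mod_right,
      Nat.mod_eq_of_lt s.2]
  rw [e] at h2
  rw [(mul_eq_zero.1 h2).resolve_left (mul_ne_zero hφ₀ (pow_ne_zero _ hp0)), mul_zero]

end

theorem char0 {C : Type*} [NontriviallyNormedField C] [IsUltrametricDist C] [CompleteSpace C]
    [IsAlgClosed C] (hp0 : (p : C) ≠ 0) (hp1 : ‖(p : C)‖ < 1) {n : ℕ} (hn : 1 ≤ n)
    (jW : WittVector p (GaloisField p n) →+* C) (hjW : ∀ w, ‖jW w‖ ≤ 1)
    {z : Fin (n - 1) → C} (hz : Sm z) {f : MvPowerSeries (Fin (n - 1)) C} (hf : Bd f)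
    (h : Orb0 p n jW z f) : f = 0 := by
  classical
  have := charZero_of_norm hp0 hp1
  have hr : 1 + (n - 1) = n := by omega
  obtain ⟨μ, K, m₀, hμ0, hμ1, hO⟩ := h
  obtain ⟨G, hG, hGf, hG0⟩ := exists_shift hf hz
  refine hG0 ?_
  set φ := per p n (zseq n 1 z) with hφdef
  obtain ⟨ν, hν0, hν1, hν⟩ := hz.exists_bound
  have hφ : ∃ s < n, φ s ≠ 0 := exists_per_ne_zero hp0 hn
    (fun j _ hj => (norm_zseq_le_of_lt hν0 hν hj.ne).trans_lt hν1) (zseq_self hr z)
  obtain ⟨D, K', ρ, hρ, hD⟩ := per_taylor hp0 hn hr hz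
  let Jm : (C × (Fin (n - 1) → C)) →ₗ[C] (Fin n → C) :=
    { toFun := fun x s => x.1 * φ s + ∑ i, D s i * x.2 i
      map_add' := fun x y => by
        funext s; simp only [Prod.fst_add, Prod.snd_add, Pi.add_apply, mul_add,
          Finset.sum_add_distrib]; ring
      map_smul' := fun a x => by
        funext s; simp only [Prod.smul_fst, Prod.smul_snd, Pi.smul_apply, smul_eq_mul,
          RingHom.id_apply, mul_add, Finset.mul_sum]
        congr 1
        · ring
        · exact Finset.sum_congr rfl fun i _ => by ring }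
  let wv : (ℕ → WittVector p (GaloisField p n)) → Fin n → C := fun c s => perAct p n jW c φ s
  have hpn : 0 < ‖(p : C)‖ := norm_pos_iff.2 hp0
  set K₁ := max K 0
  set K₂ := max K' 0
  have hK₁ : 0 ≤ K₁ := le_max_right _ _
  have hK₂ : 0 ≤ K₂ := le_max_right _ _
  have hlim : ∀ a : ℝ, Tendsto (fun m : ℕ => a * ‖(p : C)‖ ^ m) atTop (𝓝 0) := fun a => by
    simpa using (tendsto_pow_atTop_nhds_zero_of_lt_one hpn.le hp1).const_mul a
  have main : ∀ c : ℕ → WittVector p (GaloisField p n), (∀ i, n ≤ i → c i = 0) → ∀ ε > (0 : ℝ),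
      ∃ (x : C × (Fin (n - 1) → C)) (lam : C), lam ≠ 0 ∧ ‖lam‖ ≤ ε ∧
        ‖wv c - Jm x‖ ≤ ε ∧ ev G (lam • x.2) = 0 := by
    intro c hc ε hε
    obtain ⟨m, hm0, hm1, hm2, hm3, hm4⟩ : ∃ m, m₀ ≤ m ∧ 1 ≤ m ∧ K₁ * ‖(p : C)‖ ^ m ≤ ρ ∧
        1 * ‖(p : C)‖ ^ m ≤ ε ∧ K₂ * K₁ ^ 2 * ‖(p : C)‖ ^ m ≤ ε :=
      ((eventually_ge_atTop m₀).and ((eventually_ge_atTop 1).and
        (((hlim _).eventually (ge_mem_nhds hρ)).and (((hlim _).eventually (ge_mem_nhds hε)).and
          ((hlim _).eventually (ge_mem_nhds hε)))))).exists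
    obtain ⟨z', θ, hz', hθb, hθ, hθc, hzz, hfz⟩ := hO m hm0 c
    set θ₁ := PowerSeries.coeff 1 θ with hθ₁
    have hθ1 : ‖θ₁‖ = 1 := by
      have a1 := hθc 1
      rw [coeff_one_hendW hn (galois_pow n hn), pert, if_pos rfl, map_add, map_one, map_mul,
        map_pow, map_natCast] at a1
      have a2 : ‖(p : C) ^ m * jW (c 0)‖ < 1 := by
        rw [norm_mul, norm_pow]
        exact mul_lt_one_of_nonneg_of_lt_one_left (by positivity)
          (pow_lt_one₀ hpn.le hp1 (by omega)) (hjW _)
      have a3 : ‖θ₁ - (1 + (p : C) ^ m * jW (c 0)) + (p : C) ^ m * jW (c 0)‖ < 1 :=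
        (IsUltrametricDist.norm_add_le_max _ _).trans_lt (max_lt (a1.trans_lt hμ1) a2)
      have a4 := IsUltrametricDist.norm_add_eq_max_of_norm_ne_norm
        (x := θ₁ - (1 + (p : C) ^ m * jW (c 0)) + (p : C) ^ m * jW (c 0)) (y := 1)
        (by rw [norm_one]; exact a3.ne)
      rw [norm_one, max_eq_right a3.le] at a4
      rw [← a4]; congr 1; ring
    have hθ0 : θ₁ ≠ 0 := by rintro h0; rw [h0, norm_zero] at hθ1; exact zero_ne_one hθ1
    have hpm : (p : C) ^ m ≠ 0 := pow_ne_zero _ hp0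
    have hδ : ∀ i, ‖(z' - z) i‖ ≤ K₁ * ‖(p : C)‖ ^ m := fun i =>
      (hzz i).trans (mul_le_mul_of_nonneg_right (le_max_left _ _) (by positivity))
    have hT := hD (z' - z) _ (by positivity) hm2 hδ
    rw [add_sub_cancel] at hT
    have hP := per_transform hp0 hp1 hn jW hjW hz hz' (a := pert p m c) (fun i hi => by
      rw [pert, if_neg (by omega), hc i hi, mul_zero, add_zero]) hθb hθ hμ1 hθc
    refine ⟨((θ₁ - 1) / (p : C) ^ m, (θ₁ / (p : C) ^ m) • (z' - z)), (p : C) ^ m / θ₁,
      div_ne_zero hpm hθ0, ?_, ?_, ?_⟩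
    · rw [norm_div, hθ1, div_one, norm_pow]; linarith
    · refine (pi_norm_le_iff_of_nonneg hε.le).2 fun s => ?_
      have b1 := hP s s.2
      rw [perAct_pert jW m c _ s.2, ← hθ₁, ← hφdef] at b1
      have e : (wv c - Jm ((θ₁ - 1) / (p : C) ^ m, (θ₁ / (p : C) ^ m) • (z' - z))) s =
          θ₁ / (p : C) ^ m * (per p n (zseq n 1 z') s - φ s - ∑ i, D s i * (z' - z) i) := by
        have e2 : ∑ i, D s i * ((θ₁ / (p : C) ^ m) • (z' - z)) i =
            θ₁ / (p : C) ^ m * ∑ i, D s i * (z' - z) i := by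
          rw [Finset.mul_sum]
          exact Finset.sum_congr rfl fun i _ => by rw [Pi.smul_apply, smul_eq_mul]; ring
        change perAct p n jW c φ s - ((θ₁ - 1) / (p : C) ^ m * φ s +
          ∑ i, D s i * ((θ₁ / (p : C) ^ m) • (z' - z)) i) = _
        rw [e2]
        field_simp
        linear_combination -b1
      rw [e, norm_mul, norm_div, hθ1, norm_pow]
      have b2 := (hT s s.2).trans (mul_le_mul_of_nonneg_right (le_max_left K' 0) (by positivity))
      refine le_trans (mul_le_mul_of_nonneg_left b2 (by positivity)) (le_trans (le_of_eq ?_) hm4)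
      field_simp
      exact mul_comm _ _
    · have e : ((p : C) ^ m / θ₁) • ((θ₁ / (p : C) ^ m) • (z' - z)) = z' - z := by
        rw [smul_smul, show (p : C) ^ m / θ₁ * (θ₁ / (p : C) ^ m) = 1 by field_simp, one_smul]
      change ev G (((p : C) ^ m / θ₁) • ((θ₁ / (p : C) ^ m) • (z' - z))) = 0
      rw [e, hGf _ (fun i => by
        rw [Pi.sub_apply, sub_eq_add_neg]
        exact (IsUltrametricDist.norm_add_le_max _ _).trans_lt
          (max_lt (hz' i) (by rw [norm_neg]; exact hz i))), add_sub_cancel, hfz]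
  have hsupp : ∀ i < n, ∀ (a : WittVector p (GaloisField p n)) (l : ℕ), n ≤ l →
      (Pi.single i a : ℕ → WittVector p (GaloisField p n)) l = 0 := fun i hi a l hl =>
    Pi.single_eq_of_ne (by omega) _
  have hspan := span_perAct hp0 hn jW hφ
  have hsurj : LinearMap.range Jm = ⊤ := by
    rw [eq_top_iff, ← hspan, Submodule.span_le]
    rintro _ ⟨i, α, hi, rfl⟩
    rw [← (LinearMap.range Jm).closed_of_finiteDimensional.closure_eq, Metric.mem_closure_iff]
    intro ε hε
    obtain ⟨x, -, -, -, hx, -⟩ := main _ (hsupp i hi (WittVector.teichmuller p α)) (ε / 2)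
      (by positivity)
    exact ⟨Jm x, ⟨x, rfl⟩, by rw [dist_eq_norm]; exact hx.trans_lt (by linarith)⟩
  have hsurj' : Function.Surjective Jm := LinearMap.range_eq_top.1 hsurj
  have hinj : Function.Injective Jm :=
    (LinearMap.injective_iff_surjective_of_finrank_eq_finrank (by simp [hr])).2 hsurj'
  let e := LinearEquiv.ofBijective Jm ⟨hinj, hsurj'⟩
  let π : (Fin n → C) →ₗ[C] (Fin (n - 1) → C) := LinearMap.snd C C _ ∘ₗ e.symm.toLinearMap
  have hπ : ∀ x, π (Jm x) = x.2 := fun x => congrArg Prod.snd (e.symm_apply_apply x)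
  let T : AddSubmonoid (Fin (n - 1) → C) :=
    { carrier := {t | ∃ c, (∀ i, n ≤ i → c i = 0) ∧ t = π (wv c)}
      add_mem' := by
        rintro _ _ ⟨c, hc, rfl⟩ ⟨c', hc', rfl⟩
        refine ⟨c + c', fun i hi => by rw [Pi.add_apply, hc i hi, hc' i hi, add_zero], ?_⟩
        rw [← map_add]
        congr 1
        funext s
        exact (perAct_add n jW c c' φ s).symm
      zero_mem' := ⟨0, fun _ _ => rfl, by
        have : wv 0 = 0 := by funext s; simp [wv, perAct]
        rw [this, map_zero]⟩ }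
  refine eq_zero_of_tangent T ?_ hG ?_
  · rw [eq_top_iff, ← (LinearMap.range_eq_top (f := π)).2 (fun t => ⟨Jm (0, t), hπ _⟩),
      ← Submodule.map_top, ← hspan, Submodule.map_span]
    refine Submodule.span_mono ?_
    rintro _ ⟨_, ⟨i, α, hi, rfl⟩, rfl⟩
    exact ⟨_, hsupp i hi _, rfl⟩
  · rintro _ ⟨c, hc, rfl⟩ ε hε
    let π' := LinearMap.toContinuousLinearMap π
    obtain ⟨x, lam, h1, h2, h3, h4⟩ := main c hc (min ε (ε / (‖π'‖ + 1))) (by positivity)
    refine ⟨lam, lam • x.2, h1, h2.trans (min_le_left _ _), fun i => ?_, h4⟩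
    have e1 : (lam • x.2) i - lam * π (wv c) i = -(lam * π' (wv c - Jm x) i) := by
      change _ = -(lam * π (wv c - Jm x) i)
      rw [map_sub, hπ, Pi.sub_apply, Pi.smul_apply, smul_eq_mul]; ring
    rw [e1, norm_neg, norm_mul, mul_comm]
    refine mul_le_mul_of_nonneg_right ?_ (norm_nonneg _)
    refine (norm_le_pi_norm _ i).trans ((π'.le_opNorm _).trans ?_)
    calc ‖π'‖ * ‖wv c - Jm x‖ ≤ (‖π'‖ + 1) * (ε / (‖π'‖ + 1)) :=
          mul_le_mul (by linarith) (h3.trans (min_le_right _ _)) (norm_nonneg _) (by positivity)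
      _ = ε := by field_simp

end Crest.Agent.R227
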