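import Crest.Agent.R227.Hend

/-!
# R227 / Log : logarithms; a law over `k` with `[p] = X^{p^n}` that lifts to `W k` is the Honda law

Plan.
* `exists_isLog`: let `ω(Y) = (∂_X F)(0, Y) = ∑_j coeff (single 0 1 + single 1 j) F · Y^j`, a unit of
  `A⟦Y⟧` (constant term `1`); `f = ∫ ω⁻¹`.  Differentiating `F(F(Z,X),Y) = F(Z,F(X,Y))` in `Z` at `Z = 0`
  gives `F₁(X,Y) ω(X) = ω(F(X,Y))` (alternatively substitute `Z = ε` over the dual numbers, or take the
  coefficient of `Z^1`), so `∂_X (f(F(X,Y)) - f(X) - f(Y)) = 0` by the chain rule; in characteristic zero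
  this series then does not involve `X`, and it vanishes at `X = 0` (`FormalGroup.zero_add`).
* `IsLog.eq_smul`: `A = f ∘ g⁻¹` satisfies `A(2X) = 2 A(X)` (`IsLog.cmp_mulSeries` with `m = 2`), so
  `(2^i - 2) A_i = 0`.
* `exists_iso_hon`: `D = wFrob p k`, `f` the log of `F` over `K = (W k)[1/p]` (a field of characteristic
  zero; integers prime to `p` are units of the local ring `W k`, so `Den` holds).  `[p]_F ≡ X^{p^n} mod p`
  (`ker_constantCoeff`), so by `pint_subst_sub` `p f = f ∘ [p] ≡ f(X^{p^n}) = T^n f`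
  (`σ^n = id` on `W k`, hence on `K`): `uact n (hon n) f` is `PInt`.  `Θ = ℓ_n⁻¹ ∘ f` is integral
  (`intg_of_uact`), a homomorphism over `K` (`isFGHom_of_isLog`), hence over `W k`
  (`isFGHom_of_family`), reduce mod `p`.
-/

set_option autoImplicit false
open Crest.LubinTate

namespace Crest.Agent.R227

section chain
variable {R : Type*} [CommRing R] {σ τ : Type*}

open MvPowerSeries.WithPiTopology in
theorem continuous_mv_pderiv [TopologicalSpace R] [IsTopologicalSemiring R] (i : σ) :
    Continuous (MvPowerSeries.pderiv R i : MvPowerSeries σ R → MvPowerSeries σ R) :=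
  continuous_pi fun d => by
    have : (fun f : MvPowerSeries σ R => MvPowerSeries.pderiv R i f d) = fun f =>
        MvPowerSeries.coeff (d + Finsupp.single i 1) f * ((d i : R) + 1) :=
      funext fun f => MvPowerSeries.coeff_pderiv f d
    rw [this]
    exact (continuous_coeff R _).mul continuous_const

open MvPowerSeries.WithPiTopology in
/-- the chain rule. -/
theorem mv_pderiv_subst [Fintype σ] {a : σ → MvPowerSeries τ R} (ha : MvPowerSeries.HasSubst a)
    (f : MvPowerSeries σ R) (t : τ) :
    MvPowerSeries.pderiv R t (MvPowerSeries.subst a f) =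
      ∑ s, MvPowerSeries.subst a (MvPowerSeries.pderiv R s f) * MvPowerSeries.pderiv R t (a s) := by
  classical
  let : UniformSpace R := ⊥
  have : T2Space (MvPowerSeries τ R) := instT2Space
  refine denseRange_toMvPowerSeries.induction_on f (isClosed_eq
    ((continuous_mv_pderiv t).comp (MvPowerSeries.continuous_subst ha))
    (continuous_finsetSum _ fun s _ => ((MvPowerSeries.continuous_subst ha).comp
      (continuous_mv_pderiv s)).mul continuous_const)) fun q => ?_
  simp only [← MvPowerSeries.coe_substAlgHom ha]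
  induction q using MvPolynomial.induction_on with
  | C r =>
    simp only [MvPolynomial.coe_C, MvPowerSeries.pderiv_C, map_zero, zero_mul, Finset.sum_const_zero]
    exact (congrArg _ (AlgHom.commutes _ r)).trans MvPowerSeries.pderiv_C
  | add q r hq hr => simp only [MvPolynomial.coe_add, map_add, hq, hr, add_mul, Finset.sum_add_distrib]
  | mul_X q s hq =>
    simp only [MvPolynomial.coe_mul, MvPolynomial.coe_X, map_mul, Derivation.leibniz, smul_eq_mul,
      hq, map_add, add_mul, Finset.sum_add_distrib, MvPowerSeries.substAlgHom_X, Finset.mul_sum,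
      mul_assoc]
    congr 1
    rw [Finset.sum_eq_single s (fun b _ hb => by
      rw [MvPowerSeries.pderiv_X_of_ne hb.symm, map_zero, zero_mul, mul_zero]) (by simp),
      MvPowerSeries.pderiv_X_self, map_one, one_mul]

theorem pderiv_psubst {a : MvPowerSeries τ R} (ha : MvPowerSeries.constantCoeff a = 0)
    (f : PowerSeries R) (t : τ) :
    MvPowerSeries.pderiv R t (PowerSeries.subst a f) =
      PowerSeries.subst a (PowerSeries.derivative R f) * MvPowerSeries.pderiv R t a :=
  (mv_pderiv_subst (fgS ha).const f t).trans (Fintype.sum_unique _)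

theorem pderiv_subst2 {a b : MvPowerSeries τ R} (ha : MvPowerSeries.constantCoeff a = 0)
    (hb : MvPowerSeries.constantCoeff b = 0) (F : MvPowerSeries (Fin 2) R) (t : τ) :
    MvPowerSeries.pderiv R t (MvPowerSeries.subst ![a, b] F) =
      MvPowerSeries.subst ![a, b] (MvPowerSeries.pderiv R 0 F) * MvPowerSeries.pderiv R t a +
        MvPowerSeries.subst ![a, b] (MvPowerSeries.pderiv R 1 F) * MvPowerSeries.pderiv R t b :=
  (mv_pderiv_subst (fgS2 ha hb) F t).trans (Fin.sum_univ_two _)

theorem map_mv_pderiv {S : Type*} [CommRing S] (ρ : R →+* S) (F : MvPowerSeries σ R) (i : σ) :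
    MvPowerSeries.map ρ (MvPowerSeries.pderiv R i F) =
      MvPowerSeries.pderiv S i (MvPowerSeries.map ρ F) := by
  ext d
  simp [MvPowerSeries.coeff_pderiv]

theorem coeff_zeroX' (G : MvPowerSeries (Fin 2) R) (j : ℕ) :
    PowerSeries.coeff j (MvPowerSeries.subst ![0, (PowerSeries.X : PowerSeries R)] G) =
      MvPowerSeries.coeff (Finsupp.single 1 j) G := by
  rw [PowerSeries.coeff, MvPowerSeries.coeff_subst (by exact MvPowerSeries.HasSubst.zero_X),
    finsum_eq_single _ (Finsupp.single 1 j)]
  · rw [Finsupp.prod_single_index (by simp)]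
    simp [PowerSeries.X, MvPowerSeries.coeff_X_pow]
  · intro d hd
    rw [Finsupp.prod_fintype _ _ (by simp), Fin.prod_univ_two]
    by_cases hd₁ : d 0 = 0
    · have : j ≠ d 1 := fun h => hd (by ext t; fin_cases t <;> simp [hd₁, h])
      simp [hd₁, PowerSeries.X, MvPowerSeries.coeff_X_pow, this]
    simp [hd₁]

/-- the invariant differential. -/
noncomputable def invDiff (F : FormalGroup R) : PowerSeries R :=
  MvPowerSeries.subst ![0, (PowerSeries.X : PowerSeries R)]
    (MvPowerSeries.pderiv R 0 F.toPowerSeries)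

theorem const_invDiff (F : FormalGroup R) : PowerSeries.constantCoeff (invDiff F) = 1 := by
  rw [← PowerSeries.coeff_zero_eq_constantCoeff_apply, invDiff, coeff_zeroX',
    MvPowerSeries.coeff_pderiv]
  simp [F.lin_coeff_X]

theorem map_invDiff {S : Type*} [CommRing S] (ρ : R →+* S) (F : FormalGroup R) :
    PowerSeries.map ρ (invDiff F) = invDiff (F.map ρ) := by
  refine (fg_map2 ρ (map_zero _) (fg_constX ()) _).trans ?_
  rw [map_zero, MvPowerSeries.map_X, map_mv_pderiv]
  rfl

theorem subst_invDiff (F : FormalGroup R) {a : MvPowerSeries τ R}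
    (ha : MvPowerSeries.constantCoeff a = 0) : PowerSeries.subst a (invDiff F) =
      MvPowerSeries.subst ![0, a] (MvPowerSeries.pderiv R 0 F.toPowerSeries) := by
  refine (fg_subst2 (fgS ha).const (map_zero _) (fg_constX ()) _).trans ?_
  rw [MvPowerSeries.subst_X (fgS ha).const, ← MvPowerSeries.coe_substAlgHom (fgS ha).const, map_zero]

theorem pderiv_mul_invDiff (F : FormalGroup R) :
    MvPowerSeries.pderiv R 0 F.toPowerSeries *
      PowerSeries.subst (MvPowerSeries.X 0 : MvPowerSeries (Fin 2) R) (invDiff F) =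
        PowerSeries.subst F.toPowerSeries (invDiff F) := by
  have c : ∀ t : Fin 3, MvPowerSeries.constantCoeff (MvPowerSeries.X t : MvPowerSeries (Fin 3) R) =
    0 := fg_constX
  have h := congrArg (MvPowerSeries.pderiv R 2) (F.assoc' (fgS (c 2)) (fgS (c 0)) (fgS (c 1)))
  rw [pderiv_subst2 (fg_const2 F (c 2) (c 0)) (c 1), pderiv_subst2 (c 2) (c 0),
    pderiv_subst2 (c 2) (fg_const2 F (c 0) (c 1)), pderiv_subst2 (c 0) (c 1)] at h
  simp only [MvPowerSeries.pderiv_X_self, MvPowerSeries.pderiv_X_of_ne (show (0 : Fin 3) ≠ 2 by decide),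
    MvPowerSeries.pderiv_X_of_ne (show (1 : Fin 3) ≠ 2 by decide), mul_zero, add_zero, mul_one] at h
  have hs : MvPowerSeries.HasSubst
      ![(MvPowerSeries.X 0 : MvPowerSeries (Fin 2) R), MvPowerSeries.X 1, 0] :=
    MvPowerSeries.hasSubst_of_constantCoeff_zero fun i => by fin_cases i <;> simp
  have h2 := congrArg (MvPowerSeries.subst
    ![(MvPowerSeries.X 0 : MvPowerSeries (Fin 2) R), MvPowerSeries.X 1, 0]) h
  rw [MvPowerSeries.subst_mul hs, fg_subst2 hs (fg_const2 F (c 2) (c 0)) (c 1),
    fg_subst2 hs (c 2) (c 0), fg_subst2 hs (c 2) (c 0), fg_subst2 hs (c 2) (fg_const2 F (c 0) (c 1)),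
    fg_subst2 hs (c 0) (c 1)] at h2
  simp only [MvPowerSeries.subst_X hs, Matrix.cons_val_zero, Matrix.cons_val_one, Matrix.cons_val] at h2
  rw [F.zero_add (fgS (fg_constX _)), fg_subst_self, fg_subst_self] at h2
  rw [subst_invDiff F (fg_constX _), subst_invDiff F F.zero_constantCoeff, h2]

theorem isLog_of_derivative (hR : ∀ m : ℕ, m ≠ 0 → IsUnit (m : R)) {F : FormalGroup R}
    {f : PowerSeries R} (h0 : PowerSeries.constantCoeff f = 0)
    (h : PowerSeries.derivative R f * invDiff F = 1) : IsLog F f := by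
  have k : ∀ a : MvPowerSeries (Fin 2) R, MvPowerSeries.constantCoeff a = 0 →
      PowerSeries.subst a (PowerSeries.derivative R f) * PowerSeries.subst a (invDiff F) = 1 :=
    fun a ha => by
      rw [← PowerSeries.subst_mul (fgS ha), h, ← PowerSeries.coe_substAlgHom (fgS ha), map_one]
  refine sub_eq_zero.1 ?_
  set D := PowerSeries.subst F.toPowerSeries f -
    (PowerSeries.subst (MvPowerSeries.X 0 : MvPowerSeries (Fin 2) R) f +
      PowerSeries.subst (MvPowerSeries.X 1 : MvPowerSeries (Fin 2) R) f) with hD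
  have e1 : MvPowerSeries.pderiv R 0 D = 0 := by
    rw [hD, map_sub, map_add, pderiv_psubst F.zero_constantCoeff, pderiv_psubst (fg_constX _),
      pderiv_psubst (fg_constX _), MvPowerSeries.pderiv_X_self,
      MvPowerSeries.pderiv_X_of_ne (show (1 : Fin 2) ≠ 0 by decide)]
    have a1 := k _ F.zero_constantCoeff
    have a2 := k _ (fg_constX 0)
    rw [← pderiv_mul_invDiff] at a1
    linear_combination (PowerSeries.subst (MvPowerSeries.X 0 : MvPowerSeries (Fin 2) R)
      (PowerSeries.derivative R f)) * a1 - (PowerSeries.subst F.toPowerSeries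
        (PowerSeries.derivative R f) * MvPowerSeries.pderiv R 0 F.toPowerSeries) * a2
  have hs : MvPowerSeries.HasSubst ![0, (PowerSeries.X : PowerSeries R)] :=
    MvPowerSeries.HasSubst.zero_X
  have e2 : MvPowerSeries.subst ![0, (PowerSeries.X : PowerSeries R)] D = 0 := by
    rw [hD, MvPowerSeries.subst_sub hs, MvPowerSeries.subst_add hs,
      fg_subst1 hs F.zero_constantCoeff, fg_subst1 hs (fg_constX _), fg_subst1 hs (fg_constX _),
      MvPowerSeries.subst_X hs, MvPowerSeries.subst_X hs, F.zero_add PowerSeries.HasSubst.X']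
    simp only [Matrix.cons_val_zero, Matrix.cons_val_one]
    rw [PowerSeries.subst_zero_of_constantCoeff_zero h0, zero_add, sub_self]
  ext d
  rcases hd : d 0 with _ | i
  · have : d = Finsupp.single 1 (d 1) := by
      ext t; fin_cases t <;> simp [hd]
    rw [this, ← coeff_zeroX', e2]; rfl
  · have e3 := congrArg (MvPowerSeries.coeff (d - Finsupp.single 0 1)) e1
    rw [MvPowerSeries.coeff_pderiv, tsub_add_cancel_of_le (Finsupp.single_le_iff.2 (by omega)),
      MvPowerSeries.coeff_zero, ← Nat.cast_succ] at e3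
    exact (hR _ (Nat.succ_ne_zero _)).mul_left_eq_zero.1 e3

end chain

theorem exists_isLog {A K : Type*} [CommRing A] [CommRing K] [Algebra A K]
    (hK : ∀ m : ℕ, m ≠ 0 → IsUnit (m : K)) (F : FormalGroup A) :
    ∃ f : PowerSeries K, PowerSeries.constantCoeff f = 0 ∧ PowerSeries.coeff 1 f = 1 ∧
      IsLog (F.map (algebraMap A K)) f ∧
      ∀ i : ℕ, ∃ a : A, algebraMap A K a = (i : K) * PowerSeries.coeff i f := by
  have h1 := PowerSeries.mul_invOfUnit (invDiff F) 1 (const_invDiff F)
  set η := PowerSeries.invOfUnit (invDiff F) 1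
  choose! u hu using fun m hm => (hK m hm).exists_right_inv
  let f : PowerSeries K := PowerSeries.mk fun i =>
    if i = 0 then 0 else u i * algebraMap A K (PowerSeries.coeff (i - 1) η)
  have e : ∀ i, ((i + 1 : ℕ) : K) * PowerSeries.coeff (i + 1) f =
      algebraMap A K (PowerSeries.coeff i η) := fun i => by
    rw [PowerSeries.coeff_mk, if_neg i.succ_ne_zero, ← mul_assoc, hu _ i.succ_ne_zero, one_mul]
    rfl
  have f0 : PowerSeries.coeff 0 f = 0 := by rw [PowerSeries.coeff_mk, if_pos rfl]
  refine ⟨f, by simpa using f0, ?_, isLog_of_derivative hK (by simpa using f0) ?_, fun i => ?_⟩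
  · simpa [η] using e 0
  · rw [← map_invDiff, mul_comm, ← map_one (PowerSeries.map (algebraMap A K)), ← h1, map_mul]
    congr 1
    ext i
    rw [PowerSeries.coeff_derivative, PowerSeries.coeff_map, ← e, mul_comm, Nat.cast_succ]
  · cases i with
    | zero => exact ⟨0, by simp⟩
    | succ i => exact ⟨_, (e i).symm⟩

theorem IsLog.eq_smul {K : Type*} [Field K] [CharZero K] {F : FormalGroup K} {f g : PowerSeries K}
    (hf : IsLog F f) (hg : IsLog F g) (hf0 : PowerSeries.constantCoeff f = 0)
    (hg0 : PowerSeries.constantCoeff g = 0) (hg1 : PowerSeries.coeff 1 g = 1) :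
    f = PowerSeries.coeff 1 f • g := by
  obtain ⟨k, k0, k1, k2, k3⟩ := exists_cmp_inv hg0 (hg1 ▸ isUnit_one)
  rw [hg1, one_mul] at k1
  have g2 : PowerSeries.constantCoeff ((2 : K) • g) = 0 := by simp [hg0]
  have e1 : cmp (cmp f k) g = f := by rw [cmp_assoc f k0 hg0, k3, cmp_X]
  have e2 : cmp (cmp f k) ((2 : K) • g) = (2 : K) • f := by
    have a1 := hf.cmp_mulSeries hf0 2
    have a2 := hg.cmp_mulSeries hg0 2
    rw [Nat.cast_ofNat] at a1 a2
    rw [← a2, ← cmp_assoc _ hg0 (const_mulSeries F 2), e1, a1]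
  have e3 : PowerSeries.rescale 2 (cmp f k) = (2 : K) • cmp f k := by
    have := congrArg (fun t => cmp t k) e2
    rw [cmp_assoc _ g2 k0] at this
    simp only [cmp, PowerSeries.subst_smul (fgS k0)] at this
    rw [PowerSeries.rescale_eq_subst, ← k2]
    exact this
  have e4 : cmp f k = PowerSeries.coeff 1 f • PowerSeries.X := by
    ext i
    have := congrArg (PowerSeries.coeff i) e3
    rw [PowerSeries.coeff_rescale, map_smul, smul_eq_mul] at this
    rw [map_smul, PowerSeries.coeff_X, smul_eq_mul]
    split_ifs with hi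
    · rw [hi, coeff_one_cmp f k0, k1]
    · refine (mul_left_cancel₀ (a := (2 : K) ^ i - 2) (sub_ne_zero.2 fun h => hi ?_) ?_)
      · exact Nat.pow_right_injective le_rfl (by exact_mod_cast h.trans (pow_one _).symm)
      · rw [sub_mul, this]; simp
  conv_lhs => rw [← e1, e4, cmp, PowerSeries.subst_smul (fgS hg0), PowerSeries.subst_X (fgS hg0)]

theorem exists_iso_hon (p : ℕ) [Fact p.Prime] (n : ℕ) (hn : 1 ≤ n)
    (F : FormalGroup (WittVector p (GaloisField p n)))
    (hF : mulSeries (F.map WittVector.constantCoeff) p = PowerSeries.X ^ (p ^ n)) :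
    ∃ Θ : PowerSeries (GaloisField p n), PowerSeries.coeff 1 Θ = 1 ∧
      IsFGHom (F.map WittVector.constantCoeff) (HL p n (hon n)) Θ := by
  have hp : p.Prime := Fact.out
  set D := wFrob p (GaloisField p n)
  have hu : ∀ m : ℕ, ¬ p ∣ m → IsUnit (m : WittVector p (GaloisField p n)) := fun m hm =>
    WittVector.isUnit_of_coeff_zero_ne_zero _ (by
      change WittVector.constantCoeff _ ≠ 0
      rwa [map_natCast, Ne, CharP.cast_eq_zero_iff _ p])
  obtain ⟨f, f0, f1, f2, f3⟩ := exists_isLog
    (K := Localization.Away (p : WittVector p (GaloisField p n))) (fun m hm => by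
      obtain ⟨e, m', h1, rfl⟩ := Nat.exists_eq_pow_mul_and_not_dvd hm p hp.ne_one
      rw [Nat.cast_mul, Nat.cast_pow]
      refine ((IsUnit.of_mul_eq_one _ D.mul_pinv).pow e).mul ?_
      have := (hu m' h1).map (algebraMap _ (Localization.Away (p : WittVector p (GaloisField p n))))
      rwa [map_natCast] at this) F
  have hd : Den p (WittVector p (GaloisField p n)) f := fun i => by
    rcases Nat.eq_zero_or_pos i with rfl | hi
    · exact ⟨0, by simp [f0]⟩
    obtain ⟨a, ha⟩ := f3 i
    obtain ⟨b, hb⟩ := (hu (i / p ^ padicValNat p i) (by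
      rw [← Nat.factorization_def _ hp]; exact Nat.not_dvd_ordCompl hp hi.ne')).exists_left_inv
    refine ⟨b * a, ?_⟩
    have hb' := congrArg (algebraMap _ (Localization.Away (p : WittVector p (GaloisField p n)))) hb
    rw [map_mul, map_natCast, map_one] at hb'
    rw [map_mul, ha]
    nth_rewrite 1 [← Nat.div_mul_cancel (pow_padicValNat_dvd (p := p) (n := i))]
    rw [Nat.cast_mul, Nat.cast_pow, mul_assoc, ← mul_assoc, hb', one_mul]
  have hσ : D.σK ^ n = RingHom.id _ :=
    IsLocalization.ringHom_ext (Submonoid.powers (p : WittVector p (GaloisField p n)))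
      (RingHom.ext fun a => by
        rw [RingHom.comp_apply, D.comm_pow, wFrob_σA, frobenius_pow_eq_self (galois_pow n hn)]; rfl)
  have h1 := pint_subst_sub hd (α := mulSeries F p) (β := (PowerSeries.X : PowerSeries _) ^ p ^ n)
    (const_mulSeries F p) (show PowerSeries.constantCoeff _ = 0 by simp [hp.ne_zero]) (by
      rw [natCast_dvd_iff]
      intro e
      rw [← Ideal.mem_span_singleton, ← WittVector.ker_constantCoeff, RingHom.mem_ker,
        ← MvPowerSeries.coeff_map]
      have : PowerSeries.map WittVector.constantCoeff (mulSeries F p - PowerSeries.X ^ p ^ n) = 0 := by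
        rw [map_sub, map_mulSeries, hF, map_pow, PowerSeries.map_X, sub_self]
      exact (congrArg _ this).trans (map_zero _))
  have h2 : PInt p (WittVector p (GaloisField p n)) (D.uact n (hon n) f) := by
    have a1 := f2.cmp_mulSeries f0 p
    rw [← map_mulSeries] at a1
    have a2 := D.subst_Tact (H := (PowerSeries.X : PowerSeries _)) PowerSeries.constantCoeff_X n f
    rw [PowerSeries.X_subst, hσ, PowerSeries.map_id] at a2
    rw [Frob.uact, sum_hon_smul hn fun j => D.Tact j f, a2]
    refine (congrArg (PInt p _) (congrArg₂ (· - ·) a1 ?_)).mp h1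
    rw [map_pow]
    exact congrArg (fun t => PowerSeries.subst (t ^ p ^ n) f) (PowerSeries.map_X _)
  have l0 := const_hlog (p := p) n D.pinv (hon n)
  have l1 := coeff_one_hlog (p := p) n D.pinv (hon n)
  obtain ⟨g, g0, g1, g2, -⟩ := exists_cmp_inv l0 (l1 ▸ isUnit_one)
  rw [l1, one_mul] at g1
  have e : cmp (hlog p n D.pinv (hon n)) (cmp g f) = f := by
    rw [← cmp_assoc _ g0 f0, g2, X_cmp f0]
  obtain ⟨Θ, hΘ⟩ := intg_of_uact D l0 l1 (pint_uact_hon D n) (H := cmp g f) (const_cmp g0 f0)
    ((congrArg (fun t => PInt p _ (D.uact n (hon n) t)) e).mpr h2)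
  change PowerSeries.map _ Θ = _ at hΘ
  have h3 : IsFGHom F (HL p n (hon n)) Θ :=
    isFGHom_of_family (ι := Unit) (fun _ => algebraMap _ _) (fun a b h => D.inj (h ())) fun _ => by
      rw [HL_map_hon, hΘ]
      exact isFGHom_of_isLog (isLog_HL p n D.mul_pinv (hon n)) l0 l1 (const_cmp g0 f0)
        (e.symm ▸ f2)
  refine ⟨PowerSeries.map WittVector.constantCoeff Θ, ?_, ?_⟩
  · rw [PowerSeries.coeff_map, D.inj (a₁ := PowerSeries.coeff 1 Θ) (a₂ := 1), map_one]
    rw [← PowerSeries.coeff_map, hΘ, coeff_one_cmp g f0, g1, f1, one_mul, map_one]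
  · have := isFGHom_map WittVector.constantCoeff h3
    rwa [HL_map_hon] at this

end Crest.Agent.R227
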