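import Crest.Agent.R227.Per
import Crest.Agent.R227.Log

/-!
# R227 / Char0a : the periods transform linearly under the stabilizer group

Plan for `per_transform`.  Let `f_z = hlog p n p⁻¹ (zseq n 1 z)`, `ℓ = hlog p n p⁻¹ (hon n)`.
`f_z ∘ θ = θ₁ • f_{z'}` (`IsLog.cmp_hom`, `isLog_HL`, `IsLog.eq_smul`; `C` has characteristic zero because
`0 < ‖p‖ < 1`: `charZero_of_norm`).
`f_z = ∑_{s<n} φ_s • ℓ(X^{p^s}) + R` with `R = ptyp (l ↦ (β_l - φ_{l % n}) p^{-⌊l/n⌋}) ∈ Gz` (`beta_tendsto_unif`,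
`bseq_hon`), `R ∘ θ ∈ Gz` (`Gz.cmp`).  With `ĝ_s = map (jW ∘ σ^s) (hendW a)`: the series `θ^{p^s}`, `ĝ_0^{p^s}` and
`ĝ_s(X^{p^s})` are within `max μ ‖p‖ < 1` of each other coefficientwise (`norm_coeff1_pow_sub_le`,
`dvd_expand_map_sub_pow`), so `ℓ(θ^{p^s}) - ℓ(ĝ_s(X^{p^s}))` is bounded (`bounded_hlog_sub`), hence in `Gz`;
`ℓ ∘ ĝ_s = ptyp (l ↦ ∑_{i+j=l} jW(σ^s a_i) b_j)` by `IsHon.push` with `ρ = jW ∘ σ^s`.  Now compare
`p^k · coeff (p^{nk+s'})` as `k → ∞`.
-/

set_option autoImplicit false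
open Crest.LubinTate Filter Topology

namespace Crest.Agent.R227

variable {p : ℕ} [hp : Fact p.Prime] {C : Type*} [NormedField C] [IsUltrametricDist C]

variable (p) in
theorem tendsto_log_div {n : ℕ} (hn : 1 ≤ n) : Tendsto (fun i => Nat.log p i / n) atTop atTop :=
  (Nat.tendsto_div_const_atTop (by omega)).comp (tendsto_atTop_atTop.2 fun b =>
    ⟨p ^ b, fun _ ha => Nat.le_log_of_pow_le hp.out.one_lt ha⟩)

/-- uniform bound on the coefficients. -/
def CLe (ε : ℝ) (F : PowerSeries C) : Prop := ∀ i, ‖PowerSeries.coeff i F‖ ≤ ε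

omit [IsUltrametricDist C] in
theorem CLe.nonneg {ε : ℝ} {F : PowerSeries C} (h : CLe ε F) : 0 ≤ ε := (norm_nonneg _).trans (h 0)

omit [IsUltrametricDist C] in
theorem CLe.mono {a b : ℝ} {F : PowerSeries C} (h : CLe a F) (hab : a ≤ b) : CLe b F :=
  fun i => (h i).trans hab

omit [IsUltrametricDist C] in
theorem Bd.cle {F : PowerSeries C} (h : Bd F) : CLe 1 F := (bd1_iff F).1 h

theorem CLe.add {a : ℝ} {F G : PowerSeries C} (hF : CLe a F) (hG : CLe a G) : CLe a (F + G) :=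
  fun i => by
    rw [map_add]
    exact (IsUltrametricDist.norm_add_le_max _ _).trans (max_le (hF i) (hG i))

theorem CLe.mul {a b : ℝ} {F G : PowerSeries C} (hF : CLe a F) (hG : CLe b G) :
    CLe (a * b) (F * G) := fun i => by
  rw [PowerSeries.coeff_mul]
  refine IsUltrametricDist.norm_sum_le_of_forall_le_of_nonneg (mul_nonneg hF.nonneg hG.nonneg)
    fun x _ => ?_
  rw [norm_mul]
  exact mul_le_mul (hF _) (hG _) (norm_nonneg _) hF.nonneg

theorem cle_pow_sub {α β : PowerSeries C} (hα : Bd α) (hβ : Bd β) {μ : ℝ} (h : CLe μ (α - β))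
    (m : ℕ) : CLe μ (α ^ m - β ^ m) := by
  induction m with
  | zero => intro i; simpa using h.nonneg
  | succ m ih =>
    rw [show α ^ (m + 1) - β ^ (m + 1) = (α ^ m - β ^ m) * α + (α - β) * β ^ m by ring]
    exact ((ih.mul hα.cle).mono (mul_one μ).le).add ((h.mul (hβ.pow m).cle).mono (mul_one μ).le)

theorem cle_step {α β : PowerSeries C} (hα : Bd α) (hβ : Bd β) {ε c : ℝ} (h : CLe ε (α - β))
    (hc : ‖(p : C)‖ ≤ c) (hε : ε ≤ c) : CLe (ε * c) (α ^ p - β ^ p) := by
  obtain ⟨a, rfl⟩ := (bd_iff_exists α).1 hα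
  obtain ⟨b, rfl⟩ := (bd_iff_exists β).1 hβ
  obtain ⟨r, hr⟩ := exists_add_pow_prime_eq hp.out b (a - b)
  obtain ⟨k, hk⟩ := Nat.exists_eq_add_of_le' hp.out.two_le
  have hr' := congrArg (MvPowerSeries.map (OO C).subtype) hr
  simp only [add_sub_cancel, map_add, map_mul, map_pow, map_natCast, map_sub] at hr'
  generalize MvPowerSeries.map (OO C).subtype a = α at *
  generalize MvPowerSeries.map (OO C).subtype b = β at *
  have h3 : Bd (MvPowerSeries.map (OO C).subtype r) := (bd_iff_exists _).2 ⟨r, rfl⟩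
  generalize MvPowerSeries.map (OO C).subtype r = r' at *
  have h4 : (α - β) ^ p = (α - β) * ((α - β) * (α - β) ^ k) := by rw [hk]; ring
  have h5 : CLe c (p : PowerSeries C) := fun i => by
    rw [← map_natCast PowerSeries.C, PowerSeries.coeff_C]
    split_ifs
    · exact hc
    · simpa using (norm_nonneg _).trans hc
  rw [show α ^ p - β ^ p = (α - β) * ((α - β) * (α - β) ^ k + p * (β * r')) by rw [hr', h4]; ring]
  exact CLe.mul h (((CLe.mul h ((hα.sub hβ).pow k).cle).mono (by rwa [mul_one])).add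
    ((h5.mul (hβ.mul h3).cle).mono (mul_one c).le))

theorem cle_iter {α β : PowerSeries C} (hα : Bd α) (hβ : Bd β) {c : ℝ} (h : CLe c (α - β))
    (hc : ‖(p : C)‖ ≤ c) (hc1 : c ≤ 1) (l : ℕ) : CLe (c ^ (l + 1)) (α ^ p ^ l - β ^ p ^ l) := by
  induction l with
  | zero => simpa using h
  | succ l ih =>
    rw [pow_succ p, pow_mul, pow_mul, pow_succ c]
    exact cle_step (hα.pow _) (hβ.pow _) ih hc (pow_le_of_le_one h.nonneg hc1 (by omega))

theorem expand_ptyp {K : Type*} [CommRing K] (a : ℕ → K) (s : ℕ) :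
    PowerSeries.expand (p ^ s) (pow_ne_zero s hp.out.ne_zero) (ptyp p a) =
      ptyp p fun l => if s ≤ l then a (l - s) else 0 := by
  refine eq_ptyp (fun l => ?_) fun i hi => ?_
  · rw [PowerSeries.coeff_expand]
    simp only [Nat.pow_dvd_pow_iff_le_right hp.out.one_lt]
    split_ifs with h
    · rw [Nat.pow_div h hp.out.pos, coeff_ptyp_pow]
    · rfl
  · rw [PowerSeries.coeff_expand]
    split_ifs with h
    · obtain ⟨m, rfl⟩ := h
      rw [Nat.mul_div_cancel_left _ (pow_pos hp.out.pos s)]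
      exact coeff_ptyp_of_not_pow a fun l hl => hi (s + l) (by rw [pow_add, hl])
    · rfl

omit [IsUltrametricDist C] in
theorem pow_mul_bseq_hon (hp0 : (p : C) ≠ 0) {n : ℕ} (hn : 1 ≤ n) {t l : ℕ} (h : t ≤ l) :
    (p : C) ^ (l / n) * bseq p n (p : C)⁻¹ (hon n) (l - t) =
      if t % n = l % n then (p : C) ^ (t / n) else 0 := by
  rw [bseq_hon hp.out.ne_zero hn]
  by_cases hd : n ∣ l - t
  · rw [if_pos hd, if_pos (show t % n = l % n from (Nat.modEq_iff_dvd' h).2 hd)]
    obtain ⟨m, hm⟩ := hd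
    rw [hm, Nat.mul_div_cancel_left _ hn, show l = t + n * m by omega, Nat.add_mul_div_left _ _ hn,
      pow_add, mul_assoc, ← mul_pow, mul_inv_cancel₀ hp0, one_pow, mul_one]
  · rw [if_neg hd, if_neg fun h' : t % n = l % n => hd ((Nat.modEq_iff_dvd' h).1 h'), mul_zero]

theorem charZero_of_norm (hp0 : (p : C) ≠ 0) (hp1 : ‖(p : C)‖ < 1) : CharZero C := by
  refine charZero_of_inj_zero fun m hm => by_contra fun hm0 => ?_
  obtain ⟨k, m', hm', rfl⟩ := Nat.exists_eq_pow_mul_and_not_dvd hm0 p hp.out.ne_one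
  obtain ⟨a, b, hab⟩ := Nat.isCoprime_iff_coprime.2 ((Nat.Prime.coprime_iff_not_dvd hp.out).2 hm')
  have h1 : (m' : C) = 0 := by simpa [hp0] using hm
  have h2 : (a : C) * p = 1 := by simpa [h1] using congrArg (Int.cast : ℤ → C) hab
  have h3 := congrArg norm h2
  rw [norm_mul, norm_one] at h3
  exact absurd h3 (mul_lt_one_of_nonneg_of_lt_one_right
    (IsUltrametricDist.norm_intCast_le_one C a) (norm_nonneg _) hp1).ne

variable (p) in
/-- series growing more slowly than the Honda logarithm of height `n`. -/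
def Gz (n : ℕ) (A : PowerSeries C) : Prop :=
  Tendsto (fun i => ‖PowerSeries.coeff i A‖ * ‖(p : C)‖ ^ (Nat.log p i / n)) atTop (𝓝 0)

theorem Gz.add {n : ℕ} {A B : PowerSeries C} (hA : Gz p n A) (hB : Gz p n B) : Gz p n (A + B) := by
  refine squeeze_zero (fun i => by positivity) (fun i => ?_) (by simpa using Tendsto.add hA hB)
  rw [← add_mul, map_add]
  exact mul_le_mul_of_nonneg_right (norm_add_le _ _) (by positivity)

theorem Gz.smul {n : ℕ} {A : PowerSeries C} (hA : Gz p n A) (a : C) : Gz p n (a • A) := by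
  simpa [Gz, mul_assoc] using Tendsto.const_mul ‖a‖ hA

theorem gz_of_bounded (hp1 : ‖(p : C)‖ < 1) {n : ℕ} (hn : 1 ≤ n) {A : PowerSeries C} {B : ℝ}
    (hA : ∀ i, ‖PowerSeries.coeff i A‖ ≤ B) : Gz p n A := by
  refine squeeze_zero (fun i => by positivity) (fun i => mul_le_mul_of_nonneg_right (hA i)
    (by positivity)) ?_
  simpa using ((tendsto_pow_atTop_nhds_zero_of_lt_one (norm_nonneg _) hp1).comp
    (tendsto_log_div p hn)).const_mul B

theorem Gz.cmp (hp0 : (p : C) ≠ 0) (hp1 : ‖(p : C)‖ < 1) {n : ℕ} (hn : 1 ≤ n) {A θ : PowerSeries C}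
    (hA : Gz p n A) (hθ : Bd θ) (h0 : PowerSeries.constantCoeff θ = 0) : Gz p n (cmp A θ) := by
  refine Metric.tendsto_atTop.2 fun ε hε => ?_
  obtain ⟨I, hI⟩ := eventually_atTop.1 (Tendsto.eventually hA (ge_mem_nhds (half_pos hε)))
  obtain ⟨J, hJ⟩ := eventually_atTop.1 ((gz_of_bounded hp1 hn (A := PowerSeries.mk fun _ =>
    (1 : C)) (B := 1) (by simp)).const_mul (∑ l ∈ Finset.range I, ‖PowerSeries.coeff l A‖)
    |>.eventually (ge_mem_nhds (a := ε / 2) (by simpa using hε)))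
  refine ⟨J, fun i hi => ?_⟩
  have hq : 0 < ‖(p : C)‖ ^ (Nat.log p i / n) := pow_pos (norm_pos_iff.2 hp0) _
  rw [Real.dist_0_eq_abs, abs_of_nonneg (by positivity)]
  refine lt_of_le_of_lt ((le_div_iff₀ hq).1 (norm_coeff_cmp_le hθ h0 i fun l hl =>
    (le_div_iff₀ hq).2 ?_)) (half_lt_self hε)
  by_cases hlI : l < I
  · refine le_trans (mul_le_mul_of_nonneg_right (Finset.single_le_sum
      (f := fun l => ‖PowerSeries.coeff l A‖) (fun _ _ => norm_nonneg _)
      (Finset.mem_range.2 hlI)) hq.le) ?_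
    simpa using hJ i hi
  · exact (mul_le_mul_of_nonneg_left (pow_le_pow_of_le_one (norm_nonneg _) hp1.le
      (Nat.div_le_div_right (Nat.log_mono_right hl))) (norm_nonneg _)).trans (hI l (not_lt.1 hlI))

theorem norm_coeff1_pow_sub_le {α β : PowerSeries C} (hα : Bd α) (hβ : Bd β) {μ : ℝ}
    (h : ∀ i, ‖PowerSeries.coeff i α - PowerSeries.coeff i β‖ ≤ μ) (m i : ℕ) :
    ‖PowerSeries.coeff i (α ^ m) - PowerSeries.coeff i (β ^ m)‖ ≤ μ := by
  rw [← map_sub]
  exact cle_pow_sub hα hβ (fun i => by rw [map_sub]; exact h i) m i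

omit [IsUltrametricDist C] in
theorem Gz.tendsto {n : ℕ} {A : PowerSeries C} (hA : Gz p n A) :
    Tendsto (fun l => (p : C) ^ (l / n) * PowerSeries.coeff (p ^ l) A) atTop (𝓝 0) := by
  refine tendsto_zero_iff_norm_tendsto_zero.2 ((Tendsto.comp hA
    (tendsto_pow_atTop_atTop_of_one_lt hp.out.one_lt)).congr fun l => ?_)
  simp [Nat.log_pow hp.out.one_lt, mul_comm]

omit [IsUltrametricDist C] in
theorem gz_ptyp {n : ℕ} {a : ℕ → C} (ha : Tendsto (fun l => (p : C) ^ (l / n) * a l) atTop (𝓝 0)) :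
    Gz p n (ptyp p a) := by
  have := (tendsto_zero_iff_norm_tendsto_zero.1 ha).comp (tendsto_log_div p le_rfl)
  refine squeeze_zero (fun i => by positivity) (fun i => ?_) this
  simp only [ptyp, PowerSeries.coeff_mk, Function.comp, Nat.div_one, norm_mul, norm_pow]
  split_ifs
  · rw [mul_comm]
  · rw [norm_zero, zero_mul]; positivity

theorem gz_sum {n : ℕ} {ι : Type*} (s : Finset ι) {A : ι → PowerSeries C} (hA : ∀ i, Gz p n (A i)) :
    Gz p n (∑ i ∈ s, A i) :=
  Finset.sum_induction _ (Gz p n) (fun _ _ => Gz.add) (by simp [Gz]) fun i _ => hA i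

theorem tendsto_beta_sub [CompleteSpace C] (hp0 : (p : C) ≠ 0) {n : ℕ} (hn : 1 ≤ n)
    {z : Fin (n - 1) → C} (hz : Sm z) : Tendsto (fun l => beta p n (zseq n 1 z) l -
      per p n (zseq n 1 z) (l % n)) atTop (𝓝 0) := by
  obtain ⟨ρ, h0, h1, hρ⟩ := hz.exists_bound
  refine Metric.tendsto_atTop.2 fun ε hε => ?_
  obtain ⟨I, hI⟩ := beta_tendsto_unif hp0 hn h1 (half_pos hε)
  refine ⟨I, fun l hl => ?_⟩
  rw [dist_zero_right]
  exact (hI _ (fun j _ hj => norm_zseq_le_of_lt h0 hρ hj.ne) (zseq_self (by omega) z) l hl).trans_lt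
    (half_lt_self hε)

/-- `‖α - β‖ ≤ μ < 1` implies `‖α^{p^l} - β^{p^l}‖ ≤ K ‖p‖^l`, so the logarithms differ boundedly. -/
theorem bounded_hlog_sub (hp0 : (p : C) ≠ 0) (hp1 : ‖(p : C)‖ < 1) {n : ℕ} {v : ℕ → C}
    (hv : ∀ j, ‖v j‖ ≤ 1) {α β : PowerSeries C} (hα : Bd α) (hβ : Bd β)
    (hα0 : PowerSeries.constantCoeff α = 0) (hβ0 : PowerSeries.constantCoeff β = 0) {μ : ℝ}
    (hμ : μ < 1) (h : ∀ i, ‖PowerSeries.coeff i α - PowerSeries.coeff i β‖ ≤ μ) :
    ∃ B : ℝ, ∀ i, ‖PowerSeries.coeff i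
      (cmp (hlog p n (p : C)⁻¹ v) α - cmp (hlog p n (p : C)⁻¹ v) β)‖ ≤ B := by
  have hq := norm_pos_iff.2 hp0
  have h1 : CLe (max μ ‖(p : C)‖) (α - β) := fun i => by
    rw [map_sub]; exact (h i).trans (le_max_left _ _)
  obtain ⟨l₀, hl₀⟩ := exists_pow_lt_of_lt_one hq (max_lt hμ hp1)
  have h2 := (cle_iter hα hβ h1 (le_max_right _ _) (max_lt hμ hp1).le l₀).mono
    ((pow_le_pow_of_le_one h1.nonneg (max_lt hμ hp1).le (Nat.le_succ l₀)).trans hl₀.le)
  refine ⟨‖(p : C)‖⁻¹ ^ l₀, fun i => ?_⟩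
  change ‖MvPowerSeries.coeff (Finsupp.single () i) _‖ ≤ _
  rw [map_sub, coeff_subst_range hα0 _ _ (Nat.lt_succ_self _), coeff_subst_range hβ0 _ _
    (Nat.lt_succ_self _), ← Finset.sum_sub_distrib]
  refine IsUltrametricDist.norm_sum_le_of_forall_le_of_nonneg (by positivity) fun k _ => ?_
  rw [← mul_sub, ← map_sub, norm_mul, hlog]
  by_cases hk : ∃ l, p ^ l = k
  · obtain ⟨l, rfl⟩ := hk
    rw [coeff_ptyp_pow]
    refine (mul_le_mul_of_nonneg_right (norm_bseq_le hp0 hv l) (norm_nonneg _)).trans ?_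
    rcases le_total l l₀ with hl | hl
    · exact (mul_le_of_le_one_right (by positivity) (((hα.pow _).sub (hβ.pow _)) _)).trans
        (pow_le_pow_right₀ ((one_le_inv₀ hq).2 hp1.le) hl)
    · obtain ⟨m, rfl⟩ := Nat.exists_eq_add_of_le hl
      have h3 := cle_iter (hα.pow _) (hβ.pow _) h2 le_rfl hp1.le m i
      rw [← pow_mul, ← pow_mul, ← pow_add] at h3
      refine (mul_le_mul_of_nonneg_left h3 (by positivity)).trans ?_
      rw [pow_add, pow_succ, mul_assoc, ← mul_assoc (_ ^ m), ← mul_pow, inv_mul_cancel₀ hq.ne', one_pow,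
        one_mul]
      exact mul_le_of_le_one_right (by positivity) hp1.le
  · rw [coeff_ptyp_of_not_pow _ (not_exists.1 hk), norm_zero, zero_mul]
    positivity

variable (p) in
/-- the right action of `∑_{i<n} a_i T^i` on period vectors. -/
noncomputable def perAct (n : ℕ) (jW : WittVector p (GaloisField p n) →+* C)
    (a : ℕ → WittVector p (GaloisField p n)) (φ : ℕ → C) (s' : ℕ) : C :=
  ∑ s ∈ Finset.range n, ∑ i ∈ Finset.range n,
    if (i + s) % n = s' then
      φ s * jW (((WittVector.frobenius : WittVector p (GaloisField p n) →+* _) ^ s) (a i)) *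
        (p : C) ^ ((i + s) / n)
    else 0

theorem per_transform [CompleteSpace C] (hp0 : (p : C) ≠ 0) (hp1 : ‖(p : C)‖ < 1) {n : ℕ}
    (hn : 1 ≤ n) (jW : WittVector p (GaloisField p n) →+* C) (hjW : ∀ w, ‖jW w‖ ≤ 1)
    {z z' : Fin (n - 1) → C} (hz : Sm z) (hz' : Sm z') {a : ℕ → WittVector p (GaloisField p n)}
    (ha : ∀ i, n ≤ i → a i = 0) {θ : PowerSeries C} (hb : Bd θ)
    (hθ : IsFGHom (HL p n (zseq n 1 z')) (HL p n (zseq n 1 z)) θ) {μ : ℝ} (hμ : μ < 1)
    (h : ∀ i, ‖PowerSeries.coeff i θ - jW (PowerSeries.coeff i (hendW p n a))‖ ≤ μ) :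
    ∀ s < n, PowerSeries.coeff 1 θ * per p n (zseq n 1 z') s =
      perAct p n jW a (per p n (zseq n 1 z)) s := by
  have := charZero_of_norm hp0 hp1
  have hpi := mul_inv_cancel₀ hp0
  have hθ0 : PowerSeries.constantCoeff θ = 0 := hθ.1
  have e1 := IsLog.eq_smul ((isLog_HL p n hpi _).cmp_hom hθ) (isLog_HL p n hpi _)
    (const_cmp (const_hlog _ _ _) hθ0) (const_hlog _ _ _) (coeff_one_hlog _ _ _)
  rw [coeff_one_cmp _ hθ0, coeff_one_hlog, one_mul] at e1
  obtain ⟨φ, hφ⟩ : ∃ φ, φ = per p n (zseq n 1 z) := ⟨_, rfl⟩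
  obtain ⟨b, hb'⟩ : ∃ b, b = bseq p n (p : C)⁻¹ (hon n) := ⟨_, rfl⟩
  obtain ⟨σ, hσ⟩ : ∃ σ : WittVector p (GaloisField p n) →+* WittVector p (GaloisField p n),
    σ = WittVector.frobenius := ⟨_, rfl⟩
  have hps : ∀ s, p ^ s ≠ 0 := fun s => pow_ne_zero s hp.out.ne_zero
  -- the remainder
  have hR : Gz p n (ptyp p fun l => bseq p n (p : C)⁻¹ (zseq n 1 z) l -
      ∑ s ∈ Finset.range n, φ s * if s ≤ l then b (l - s) else 0) := by
    refine gz_ptyp ((tendsto_beta_sub hp0 hn hz).congr' ?_)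
    filter_upwards [eventually_ge_atTop n] with l hl
    rw [mul_sub, Finset.mul_sum, Finset.sum_eq_single (l % n) (fun s hs hne => ?_)
      fun h => absurd (Finset.mem_range.2 (Nat.mod_lt l hn)) h]
    · rw [if_pos (Nat.mod_le l n), mul_left_comm, hb', pow_mul_bseq_hon hp0 hn (Nat.mod_le l n),
        if_pos (Nat.mod_mod l n), Nat.div_eq_of_lt (Nat.mod_lt l hn), pow_zero, mul_one, hφ, beta]
    · have hs := Finset.mem_range.1 hs
      rw [if_pos (by omega), mul_left_comm, hb', pow_mul_bseq_hon hp0 hn (by omega),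
        Nat.mod_eq_of_lt hs, if_neg hne, mul_zero]
  have e2 : hlog p n (p : C)⁻¹ (zseq n 1 z) = (ptyp p fun l => bseq p n (p : C)⁻¹ (zseq n 1 z) l -
      ∑ s ∈ Finset.range n, φ s * if s ≤ l then b (l - s) else 0) +
      ∑ s ∈ Finset.range n, φ s • PowerSeries.expand (p ^ s) (hps s) (ptyp p b) := by
    refine (eq_ptyp (fun l => ?_) fun i hi => ?_).symm
    · simp [expand_ptyp, coeff_ptyp_pow]
    · simp [expand_ptyp, coeff_ptyp_of_not_pow _ hi]
  have hg := isHon_hendW hn (galois_pow n hn) a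
  have hG : ∀ s, Gz p n (cmp (PowerSeries.expand (p ^ s) (hps s) (ptyp p b)) θ -
      PowerSeries.expand (p ^ s) (hps s) (ptyp p fun l =>
        ∑ x ∈ Finset.HasAntidiagonal.antidiagonal l, jW ((σ ^ s) (a x.1)) * b x.2)) := fun s => by
    have h1 := hg.push (jW.comp (σ ^ s)) hpi
    simp only [map_hon, RingHom.comp_apply, ← hb'] at h1
    have h0 : PowerSeries.constantCoeff (PowerSeries.map (jW.comp (σ ^ s)) (hendW p n a)) = 0 :=
      const_map _ hg.1
    have hb1 : Bd (PowerSeries.map (jW.comp (σ ^ s)) (hendW p n a)) := bd_map _ (fun _ => hjW _) _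
    obtain ⟨B, hB⟩ := bounded_hlog_sub hp0 hp1 (n := n) (norm_hon_le n) (hb.pow (p ^ s))
      ((bd_expand_iff (hps s)).2 hb1) (by rw [map_pow, hθ0, zero_pow (hps s)])
      (by rw [PowerSeries.constantCoeff_expand, h0]) (max_lt hμ hp1) fun i => by
        refine ultra_sub_le ((norm_coeff1_pow_sub_le hb (bd_map jW hjW (hendW p n a)) h _ i).trans
          (le_max_left _ _)) (le_trans ?_ (le_max_right _ _))
        obtain ⟨w, hw⟩ := (natCast_dvd_iff _ _).1 (dvd_expand_map_sub_pow (wFrob p _) (hendW p n a) s)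
          (Finsupp.single () i)
        have hw' : ‖jW (p * w)‖ ≤ ‖(p : C)‖ := by
          rw [map_mul, map_natCast, norm_mul]; exact mul_le_of_le_one_right (norm_nonneg _) (hjW w)
        rw [← hw, wFrob_σA, ← hσ, map_sub, map_sub, norm_sub_rev] at hw'
        rw [← map_pow, PowerSeries.map_comp, RingHom.comp_apply, ← PowerSeries.map_expand]
        exact hw'
    refine gz_of_bounded hp1 hn (B := B) fun i => ?_
    convert hB i using 4
    · rw [PowerSeries.expand_apply, cmp_assoc _ (by simp [hp.out.ne_zero]) hθ0, X_pow_cmp hθ0, hlog, hb']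
    · rw [← h1]
      exact PowerSeries.expand_subst _ _ (fgS h0) _
  have key := ((hR.cmp hp0 hp1 hn hb hθ0).add (gz_sum (Finset.range n) fun s =>
    (hG s).smul (φ s))).tendsto
  have e3 := congrArg (PowerSeries.substAlgHom (fgS hθ0)) e2
  rw [map_add, map_sum] at e3
  simp only [map_smul, PowerSeries.coe_substAlgHom] at e3
  simp only [smul_sub, Finset.sum_sub_distrib, ← add_sub_assoc, cmp, ← e3] at key
  rw [show PowerSeries.subst θ _ = _ from e1] at key
  intro s' hs'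
  have k2 := (key.sub ((tendsto_beta_sub hp0 hn hz').const_mul (PowerSeries.coeff 1 θ))).comp
    (tendsto_atTop_mono (f := id) (g := fun k => n * k + s') (fun k => by
      simp only [id]; nlinarith) tendsto_id)
  rw [mul_zero, sub_zero] at k2
  refine sub_eq_zero.1 (tendsto_nhds_unique tendsto_const_nhds (k2.congr' ?_))
  filter_upwards [eventually_ge_atTop 2] with k hk
  have hl : 2 * n ≤ n * k + s' := by nlinarith
  have hm : (n * k + s') % n = s' := by rw [Nat.mul_add_mod, Nat.mod_eq_of_lt hs']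
  simp only [Function.comp]
  generalize n * k + s' = l at hl hm ⊢
  have e4 : (p : C) ^ (l / n) * PowerSeries.coeff (p ^ l) (∑ s ∈ Finset.range n,
      φ s • PowerSeries.expand (p ^ s) (hps s) (ptyp p fun l =>
        ∑ x ∈ Finset.HasAntidiagonal.antidiagonal l, jW ((σ ^ s) (a x.1)) * b x.2)) =
      perAct p n jW a φ s' := by
    rw [map_sum, Finset.mul_sum, perAct]
    refine Finset.sum_congr rfl fun s hs => ?_
    have hs := Finset.mem_range.1 hs
    rw [map_smul, expand_ptyp, coeff_ptyp_pow, if_pos (by omega),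
      Finset.Nat.sum_antidiagonal_eq_sum_range_succ_mk, ← Finset.sum_subset
        (Finset.range_subset_range.2 (show n ≤ (l - s).succ by omega))
        fun i _ hi => by simp [ha i (by simpa using hi)],
      smul_eq_mul, Finset.mul_sum, Finset.mul_sum]
    refine Finset.sum_congr rfl fun i hi => ?_
    have hi := Finset.mem_range.1 hi
    have := pow_mul_bseq_hon hp0 hn (show i + s ≤ l by omega)
    rw [← hb', hm, show l - (i + s) = l - s - i by omega] at this
    rw [← hσ, mul_left_comm, mul_left_comm ((p : C) ^ _), this]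
    split_ifs <;> simp [mul_assoc]
  rw [map_sub, mul_sub, e4, hm, hφ, map_smul, hlog, coeff_ptyp_pow, beta, smul_eq_mul]
  ring

end Crest.Agent.R227
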