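import Crest.Agent.R227.Gfin
import Crest.Agent.R227.Canon

/-!
# R227 / CharP : orbits of characteristic `p` points are Zariski dense in their height stratum
-/

set_option autoImplicit false
open Crest.LubinTate Filter Topology

namespace Crest.Agent.R227

theorem charP_dense {p : ℕ} [Fact p.Prime] {C : Type} [NontriviallyNormedField C]
    [IsUltrametricDist C] [CompleteSpace C] [CharP C p] [IsAlgClosed C] {n h r : ℕ} (hh : 1 ≤ h)
    (hr : h + r = n) (hr0 : 0 < r) (j : GaloisField p n →+* C) {z : Fin r → C} (hz : Sm z)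
    (hz0 : z ⟨0, hr0⟩ ≠ 0) {f : MvPowerSeries (Fin r) C} (hf : Bd f) (hO : OrbP p n h j z f) :
    f = 0 := by
  classical
  by_contra hf0
  obtain ⟨D, _, _, _, _, _, ⟨u⟩⟩ := exists_UP p C
  obtain ⟨η, ζ, hT⟩ := exists_TD (p := p) hh hr hr0 hz hz0
  obtain ⟨c, Θ, hΘ, hc⟩ := exists_isHon_algClosed (p := p) hh hr hr0 z hz0
  have hψ := isFGHom_of_isHon_teich hΘ
  have hψ1 : PowerSeries.coeff 1 (PowerSeries.map WittVector.constantCoeff Θ) ≠ 0 := by
    rw [PowerSeries.coeff_map, hΘ.coeff_one]; exact hc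
  obtain ⟨F, hF0, hF⟩ := u.canon hh hr hr0 j hz hz0 hT hψ hψ1 hf hf0 hO
  let _ : Algebra (ZMod p) C := ZMod.algebra C p
  let jκ : GaloisField p h →+* C :=
    (IsAlgClosed.lift : GaloisField p h →ₐ[ZMod p] C).toRingHom
  have hΛ := u.isLam_wpt hh hr j hz hT.lt hψ
  obtain ⟨I, hI⟩ : ∃ I, MvPowerSeries.coeff I F ≠ 0 := by
    by_contra hcon
    push Not at hcon
    exact hF0 (MvPowerSeries.ext fun d => by simpa using hcon d)
  have hI' : MvPowerSeries.coeff I (MvPowerSeries.map (u.sig p h) F) ≠ 0 := by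
    rw [MvPowerSeries.coeff_map]
    exact (map_ne_zero _).2 hI
  obtain ⟨g, hgI, hg⟩ := descent hh ((u.sig p h).comp jκ) hΛ
    (bd_map _ (u.norm_sig_le hh) F) (by rintro w ⟨c', k, rfl⟩; exact hF c' k) hI'
  have hg0 : g ≠ 0 := by rintro rfl; simp at hgI
  let S : Finset (Fin r → D) := (Finset.range n ×ˢ (Set.toFinite (Set.univ : Set (GaloisField p n))).toFinset).image
    fun x => u.wpt p n h j z ζ (PowerSeries.map WittVector.constantCoeff Θ)
      (Pi.single x.1 (WittVector.teichmuller p x.2)) 0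
  obtain ⟨d, hd, hdS⟩ := adapt hh ((u.sig p h).comp jκ) hΛ hg0 hg (S := S) (by
    intro w hw
    obtain ⟨x, -, rfl⟩ := Finset.mem_image.1 hw
    exact ⟨_, _, rfl⟩)
  refine u.no_relation hh hr hr0 j jκ hz hz0 hT hΘ hc hd fun t ht α => hdS _ ?_
  exact Finset.mem_image.2 ⟨(t, α), by simp [ht], rfl⟩

end Crest.Agent.R227
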