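import Crest.Agent.R227.E0

/-!
# R227 / Conv : height ideals

Plan for `heightIdeal_of_iso`: induction on `h`.  `h = 0 → 1`: `coeff_one_mulSeries`.  For `1 ≤ h < n` pass to
`B = E ⧸ Jid h`, where `[p]_{HH} = V(X^{p^h})` with `coeff 1 V = u_h` (`exists_pser_charP`).  From
`θ ∘ [p]_F = [p]_{HH} ∘ θ` (`isFGHom_cmp_mulSeries`) and an inverse `θ'` of `θ`:
`[p]_F = θ' ∘ V ∘ θ^{p^h}`; the series `θ^{p^h}` has order `≥ p^h` with leading coefficient `θ₁^{p^h}`, so
`coeff (p^h) [p]_F = θ'₁ u_h θ₁^{p^h}` in `B`, a unit multiple of `u_h`.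
`stab_bijective`: `heightIdeal (HH.map φ) h = Jid h` by the above and `= map φ (Jid h)` by `heightIdeal_map`;
`h = n` gives the hypothesis of `bijective_of_map_max`.
-/

set_option autoImplicit false
open Crest.LubinTate

namespace Crest.Agent.R227

variable {p : ℕ} [hp : Fact p.Prime] {n : ℕ}

theorem coeff_cmp_of_order {R : Type*} [CommRing R] (f : PowerSeries R) {g : PowerSeries R} {q : ℕ}
    (hq : q ≠ 0) : PowerSeries.coeff q (cmp f (PowerSeries.X ^ q * g)) =
      PowerSeries.coeff 1 f * PowerSeries.constantCoeff g := by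
  have hs : PowerSeries.HasSubst (PowerSeries.X ^ q * g : PowerSeries R) :=
    PowerSeries.HasSubst.of_constantCoeff_zero' (by simp [hq])
  rw [PowerSeries.coeff_subst' hs, finsum_eq_single _ 1]
  · rw [pow_one, smul_eq_mul]
    congr 1
    have := PowerSeries.coeff_X_pow_mul g q 0
    rwa [zero_add, PowerSeries.coeff_zero_eq_constantCoeff_apply] at this
  · intro d hd
    rcases Nat.eq_zero_or_pos d with rfl | hd0
    · rw [pow_zero, PowerSeries.coeff_one, if_neg hq, smul_zero]
    · have h1 : q < q * d := by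
        have : 2 ≤ d := by omega
        nlinarith [Nat.pos_of_ne_zero hq]
      rw [mul_pow, ← pow_mul, PowerSeries.coeff_X_pow_mul', if_neg (by omega), smul_zero]

theorem sup_span_eq_of_unit {R : Type*} [CommRing R] (I : Ideal R) {a b : R} {u : R ⧸ I}
    (hu : IsUnit u) (h : Ideal.Quotient.mk I a = u * Ideal.Quotient.mk I b) :
    I ⊔ Ideal.span {a} = I ⊔ Ideal.span {b} := by
  rw [← Ideal.comap_map_quotientMk, ← Ideal.comap_map_quotientMk I (Ideal.span {b}),
    Ideal.map_span, Ideal.map_span, Set.image_singleton, Set.image_singleton, h,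
    Ideal.span_singleton_mul_left_unit hu]

theorem coeff_mulSeries_of_iso {R : Type*} [CommRing R] (hR : (p : R) = 0) {h : ℕ} (hh : 1 ≤ h)
    (hhn : h ≤ n) (v : ℕ → R) (hv : ∀ j, 1 ≤ j → j < h → v j = 0) {F : FormalGroup R}
    {θ : PowerSeries R} (hθ : IsFGHom F (HL p n v) θ) (h1 : IsUnit (PowerSeries.coeff 1 θ)) :
    ∃ u : R, IsUnit u ∧ PowerSeries.coeff (p ^ h) (mulSeries F p) = u * v h := by
  obtain ⟨V, hV0, hV1, hV⟩ := exists_pser_charP p hR hh hhn v hv
  obtain ⟨ψ, hψ0, hψ1, -, hψ⟩ := exists_cmp_inv hθ.1 h1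
  have hq : p ^ h ≠ 0 := pow_ne_zero h hp.out.ne_zero
  obtain ⟨t, ht⟩ := PowerSeries.X_dvd_iff.2 hθ.1
  have ht1 : PowerSeries.constantCoeff t = PowerSeries.coeff 1 θ := by
    rw [ht, PowerSeries.coeff_succ_X_mul, PowerSeries.coeff_zero_eq_constantCoeff_apply]
  have hX : PowerSeries.constantCoeff (PowerSeries.X ^ p ^ h : PowerSeries R) = 0 := by
    rw [map_pow, PowerSeries.constantCoeff_X, zero_pow hq]
  have e : mulSeries F p = cmp (cmp ψ V) (PowerSeries.X ^ p ^ h * t ^ p ^ h) := by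
    have e1 := isFGHom_cmp_mulSeries hθ p
    rw [hV, PowerSeries.expand_apply] at e1
    have e2 : cmp (cmp V (PowerSeries.X ^ p ^ h)) θ = cmp V (θ ^ p ^ h) := by
      rw [cmp_assoc V hX hθ.1, X_pow_cmp hθ.1]
    have hθq : PowerSeries.constantCoeff (θ ^ p ^ h) = 0 := by rw [map_pow, hθ.1, zero_pow hq]
    rw [← mul_pow, ← ht, cmp_assoc ψ hV0 hθq, ← e2]
    erw [← e1]
    rw [← cmp_assoc ψ hθ.1 (const_mulSeries F p), hψ, X_cmp (const_mulSeries F p)]
  refine ⟨PowerSeries.coeff 1 ψ * PowerSeries.coeff 1 θ ^ p ^ h,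
    (IsUnit.of_mul_eq_one_right _ hψ1).mul (h1.pow _), ?_⟩
  rw [e, coeff_cmp_of_order _ hq, coeff_one_cmp _ hV0, hV1, map_pow, ht1]
  ring

theorem heightIdeal_map (H : FormalGroup (LTRing p n)) (φ : LTRing p n →+* LTRing p n) (h : ℕ) :
    heightIdeal p n (H.map φ) h = Ideal.map φ (heightIdeal p n H h) := by
  induction h with
  | zero => simp [heightIdeal]
  | succ h ih =>
    rw [heightIdeal, heightIdeal, Ideal.map_sup, ih, Ideal.map_span, Set.image_singleton,
      ← map_mulSeries, PowerSeries.coeff_map]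

theorem heightIdeal_of_iso {F : FormalGroup (LTRing p n)} {θ : PowerSeries (LTRing p n)}
    (hθ : IsFGHom F (HH p n) θ) (h1 : IsUnit (PowerSeries.coeff 1 θ)) {h : ℕ} (hh : h ≤ n) :
    heightIdeal p n F h = Jid p n h := by
  induction h with
  | zero => rw [Jid_zero]; rfl
  | succ h ih =>
    rw [heightIdeal, ih (by omega), Jid_succ]
    rcases Nat.eq_zero_or_pos h with rfl | hh0
    · rw [pow_zero, coeff_one_mulSeries]
      rfl
    · set π := Ideal.Quotient.mk (Jid p n h) with hπ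
      have hz : ∀ j < h, π (useq p n j) = 0 := fun j hj =>
        Ideal.Quotient.eq_zero_iff_mem.2 (Ideal.subset_span ⟨j, hj, rfl⟩)
      have hθ' := isFGHom_map π hθ
      rw [HH, HL_map] at hθ'
      obtain ⟨u, hu, e⟩ := coeff_mulSeries_of_iso (p := p) (n := n) (h := h)
        (by have := hz 0 hh0; rwa [useq, if_pos rfl, map_natCast] at this) hh0 (by omega) _
        (fun j h1 h2 => by have := hz j h2; rwa [useq, if_neg (by omega)] at this) hθ'
        (by rw [PowerSeries.coeff_map]; exact h1.map π)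
      refine sup_span_eq_of_unit _ hu ?_
      rw [← map_mulSeries, PowerSeries.coeff_map] at e
      rw [useq, if_neg (by omega)]
      exact e

theorem heightIdeal_HH {h : ℕ} (hh : h ≤ n) : heightIdeal p n (HH p n) h = Jid p n h := by
  exact heightIdeal_of_iso (isFGHom_X _) (by simp) hh

theorem stab_bijective (hn : 1 ≤ n) {g : PowerSeries (GaloisField p n)}
    (hg : IsUnit (PowerSeries.coeff 1 g))
    {φ : LTRing p n →ₐ[WittVector p (GaloisField p n)] LTRing p n}
    (hφ : IsStabilizerMap p n (HH p n) g φ) :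
    Function.Bijective φ ∧ ∀ h ≤ n, Ideal.comap φ.toRingHom (Jid p n h) = Jid p n h := by
  obtain ⟨hres, θ, hθ, hθg⟩ := hφ
  have h1 : IsUnit (PowerSeries.coeff 1 θ) := by
    refine isUnit_of_residue p n ?_
    rw [← PowerSeries.coeff_map, hθg]
    exact hg.ne_zero
  have h2 : ∀ h ≤ n, Ideal.map φ.toRingHom (Jid p n h) = Jid p n h := fun h hh => by
    rw [← heightIdeal_HH hh, ← heightIdeal_map, heightIdeal_of_iso hθ h1 hh, heightIdeal_HH hh]
  have h3 : Function.Bijective φ := bijective_of_map_max p n φ hres (by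
    rw [← Jid_self p n hn, h2 n le_rfl])
  refine ⟨h3, fun h hh => ?_⟩
  conv_lhs => rw [← h2 h hh]
  exact Ideal.comap_map_of_bijective φ.toRingHom h3

theorem Jid_stable (hn : 1 ≤ n) (M : ℕ) {h : ℕ} (hh : h ≤ n) :
    IsStableIdeal p n (GG p n) (HH p n) M (Jid p n h) := by
  exact fun _ _ hg _ hφ => (stab_bijective hn hg.2 hφ).2 h hh

end Crest.Agent.R227
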