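import Crest.Agent.R227.LamDef

/-!
# R227 / Desc : Frobenius descent of equations

Plan.
* `exists_fixed_of_stable`: (finite-dimensional) among `x ∈ V` with `x I = 1` take one of minimal support; `y = x - φ x ∈ V`
  has `y I = 0` and `supp y ⊆ supp x`; if `y J ≠ 0` then `x - (x J / y J) • y` has smaller support.  So `φ x = x`.
* `descent`: let `𝓘` be the `D`-vector space of series with bounded coefficients (`∃ B, ∀ d, ‖coeff d F‖ ≤ B`; such series are
  `An`) vanishing on `Λ`.  It is stable under `map (iterateFrobenius D p h)` and `map (rt p h)` (`map_ev`, `IsLam.root`,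
  `IsLam.frob`).  For `N > |I|` let `V_N` be its image in `(d : {d // degree d < N}) → D`; get `x_N ∈ V_N` fixed by Frobenius
  with `x_N I = 1`, the truncation of `F_N ∈ 𝓘` with bound `B`.  Replacing `F_N` by `map (rt p h)^k F_N` keeps the truncation
  and makes the bound `≤ 2`.  So `‖x_N(w)‖ ≤ 2 ‖w‖^N` on `Λ`.  The entries of `x_N` lie in the finite set `range jκ`
  (`mem_range_of_pow_eq`); take the coefficientwise limit `f` along an ultrafilter on `N` (`Ultrafilter.eq_pure_of_finite`, or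
  `tendsto_ev_of_coeff`).
-/

set_option autoImplicit false
open Crest.LubinTate Filter Topology

namespace Crest.Agent.R227

theorem exists_fixed_of_stable {D ι : Type*} [Field D] [Finite ι] (φ : D →+* D)
    (V : Submodule D (ι → D)) (hV : ∀ x ∈ V, (fun i => φ (x i)) ∈ V) {I : ι} {x₀ : ι → D}
    (hx₀ : x₀ ∈ V) (hI : x₀ I ≠ 0) : ∃ x ∈ V, x I = 1 ∧ ∀ i, φ (x i) = x i := by
  classical
  have := Fintype.ofFinite ι
  have hex : ∃ m, ∃ x ∈ V, x I = 1 ∧ (Finset.univ.filter fun i => x i ≠ 0).card = m :=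
    ⟨_, (x₀ I)⁻¹ • x₀, V.smul_mem _ hx₀, by simp [hI], rfl⟩
  obtain ⟨x, hx, hx1, hc⟩ := Nat.find_spec hex
  refine ⟨x, hx, hx1, fun J => ?_⟩
  by_contra hJ
  let y : ι → D := x - fun i => φ (x i)
  have hy : y ∈ V := V.sub_mem hx (hV x hx)
  have hyJ : y J ≠ 0 := fun h => hJ (sub_eq_zero.1 h).symm
  have hxJ : x J ≠ 0 := fun h => hJ (by rw [h, map_zero])
  refine Nat.find_min hex (m := (Finset.univ.filter fun i => (x - (x J / y J) • y) i ≠ 0).card) ?_
    ⟨x - (x J / y J) • y, V.sub_mem hx (V.smul_mem _ hy), by simp [y, hx1], rfl⟩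
  rw [← hc]
  refine Finset.card_lt_card ⟨fun i hi => ?_, fun h => ?_⟩
  · simp only [Finset.mem_filter, Finset.mem_univ, true_and] at hi ⊢
    intro h0
    exact hi (by simp [y, h0])
  · have := h (Finset.mem_filter.2 ⟨Finset.mem_univ J, hxJ⟩)
    simp only [Finset.mem_filter, Finset.mem_univ, true_and] at this
    apply this
    rw [Pi.sub_apply, Pi.smul_apply, smul_eq_mul, div_mul_cancel₀ _ hyJ, sub_self]

variable {p : ℕ} [hp : Fact p.Prime]

theorem mem_range_of_pow_eq {D : Type*} [Field D] {h : ℕ} (hh : 1 ≤ h)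
    (jκ : GaloisField p h →+* D) {a : D} (ha : a ^ p ^ h = a) : ∃ b, jκ b = a := by
  classical
  have := Fintype.ofFinite (GaloisField p h)
  have hq : 1 < p ^ h := Nat.one_lt_pow (by omega) hp.out.one_lt
  have hne := FiniteField.X_pow_card_sub_X_ne_zero D hq
  have hsub : Finset.univ.image jκ ⊆ (Polynomial.X ^ p ^ h - Polynomial.X : Polynomial D).roots.toFinset := by
    intro x hx
    obtain ⟨b, -, rfl⟩ := Finset.mem_image.1 hx
    rw [Multiset.mem_toFinset, Polynomial.mem_roots hne]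
    simp [← map_pow, galois_pow h hh]
  have hcard : (Polynomial.X ^ p ^ h - Polynomial.X : Polynomial D).roots.toFinset.card ≤
      (Finset.univ.image jκ).card := by
    rw [Finset.card_image_of_injective _ jκ.injective, Finset.card_univ, ← Nat.card_eq_fintype_card,
      GaloisField.card p h (by omega)]
    refine (Multiset.toFinset_card_le _).trans ((Polynomial.card_roots' _).trans ?_)
    rw [FiniteField.X_pow_card_sub_X_natDegree_eq D hq]
  have := Finset.eq_of_subset_of_card_le hsub hcard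
  have ha' : a ∈ Finset.univ.image jκ := by
    rw [this, Multiset.mem_toFinset, Polynomial.mem_roots hne]
    simp [ha]
  obtain ⟨b, -, hb⟩ := Finset.mem_image.1 ha'
  exact ⟨b, hb⟩

theorem an_of_bounded {D τ : Type*} [NormedField D] {F : MvPowerSeries τ D} {B : ℝ}
    (h : ∀ d, ‖MvPowerSeries.coeff d F‖ ≤ B) : An F := fun ρ h0 h1 =>
  ⟨B, fun d => (mul_le_of_le_one_right (norm_nonneg _) (pow_le_one₀ h0 h1.le)).trans (h d)⟩

theorem descent {D : Type*} [NormedField D] [IsUltrametricDist D] [CompleteSpace D] [CharP D p]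
    [PerfectRing D p] {h r : ℕ} (hh : 1 ≤ h) (jκ : GaloisField p h →+* D)
    {Λ : Set (Fin r → D)} (hΛ : IsLam p h Λ) {F : MvPowerSeries (Fin r) D} (hF : Bd F)
    (hv : ∀ w ∈ Λ, ev F w = 0) {I : Fin r →₀ ℕ} (hI : MvPowerSeries.coeff I F ≠ 0) :
    ∃ f : MvPowerSeries (Fin r) (GaloisField p h), MvPowerSeries.coeff I f ≠ 0 ∧
      ∀ w ∈ Λ, ev (MvPowerSeries.map jκ f) w = 0 := by
  classical
  have hpe : ∀ e, p ^ e ≠ 0 := fun e => pow_ne_zero _ hp.out.ne_zero
  let 𝓘 : Submodule D (MvPowerSeries (Fin r) D) :=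
    { carrier := {G | (∃ B : ℝ, ∀ d, ‖MvPowerSeries.coeff d G‖ ≤ B) ∧ ∀ w ∈ Λ, ev G w = 0}
      add_mem' := by
        rintro G G' ⟨⟨B, hB⟩, hG⟩ ⟨⟨B', hB'⟩, hG'⟩
        refine ⟨⟨B + B', fun d => ?_⟩, fun w hw => ?_⟩
        · rw [map_add]; exact (norm_add_le _ _).trans (add_le_add (hB d) (hB' d))
        · rw [ev_add (an_of_bounded hB) (an_of_bounded hB') (hΛ.sm w hw), hG w hw, hG' w hw,
            add_zero]
      zero_mem' := ⟨⟨0, by simp⟩, fun w _ => ev_zero_left w⟩
      smul_mem' := by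
        rintro a G ⟨⟨B, hB⟩, hG⟩
        refine ⟨⟨‖a‖ * B, fun d => ?_⟩, fun w hw => ?_⟩
        · rw [MvPowerSeries.coeff_smul, norm_mul]
          exact mul_le_mul_of_nonneg_left (hB d) (norm_nonneg _)
        · rw [ev_smul (an_of_bounded hB) a (hΛ.sm w hw), hG w hw, mul_zero] }
  have hfrob : ∀ G ∈ 𝓘, MvPowerSeries.map (iterateFrobenius D p h) G ∈ 𝓘 := by
    rintro G ⟨⟨B, hB⟩, hG⟩
    refine ⟨⟨B ^ p ^ h, fun d => ?_⟩, fun w hw => ?_⟩
    · rw [MvPowerSeries.coeff_map, iterateFrobenius_def, norm_pow]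
      exact pow_le_pow_left₀ (norm_nonneg _) (hB d) _
    · have := map_ev (iterateFrobenius D p h) (continuous_pow _) (an_of_bounded hB)
        (hΛ.sm _ (hΛ.root w hw))
      rw [hG _ (hΛ.root w hw), map_zero] at this
      simpa only [iterateFrobenius_def, rt_pow] using this.symm
  have hpow : ∀ k, ∀ w ∈ Λ, (fun i => w i ^ p ^ (h * k)) ∈ Λ := by
    intro k w hw
    induction k with
    | zero => simpa using hw
    | succ k ih => simpa only [mul_add, mul_one, pow_add, pow_mul] using hΛ.frob _ ih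
  have hroot : ∀ k, ∀ G ∈ 𝓘, ∀ w ∈ Λ, ev (MvPowerSeries.map (rt p (h * k)) G) w = 0 := by
    rintro k G ⟨⟨B, hB⟩, hG⟩ w hw
    have := map_ev (rt p (h * k)) (continuous_rt _) (an_of_bounded hB) (hΛ.sm _ (hpow k w hw))
    rw [hG _ (hpow k w hw), map_zero] at this
    simpa only [rt_pow'] using this.symm
  -- truncated solutions
  have step : ∀ N, ∃ g : MvPowerSeries (Fin r) (GaloisField p h), I.degree < N →
      MvPowerSeries.coeff I g = 1 ∧ ∀ w ∈ Λ, ∀ ρ : ℝ, 0 ≤ ρ → ρ ≤ 1 → (∀ i, ‖w i‖ ≤ ρ) →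
        ‖ev (MvPowerSeries.map jκ g) w‖ ≤ 2 * ρ ^ N := by
    intro N
    by_cases hN : I.degree < N
    swap
    · exact ⟨0, fun h' => absurd h' hN⟩
    have hfin : Finite {d : Fin r →₀ ℕ // d.degree < N} :=
      ((Finsupp.finite_of_degree_le N).subset fun d (hd : d.degree < N) => hd.le).to_subtype
    let tr : MvPowerSeries (Fin r) D →ₗ[D] ({d : Fin r →₀ ℕ // d.degree < N} → D) :=
      LinearMap.pi fun d => MvPowerSeries.coeff d.1
    obtain ⟨_, ⟨G, hG, rfl⟩, hG1, hGfix⟩ := exists_fixed_of_stable (iterateFrobenius D p h)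
      (𝓘.map tr) (by
        rintro _ ⟨G, hG, rfl⟩
        exact ⟨_, hfrob G hG, by funext d; simp [tr]⟩) (I := ⟨I, hN⟩) (x₀ := tr F)
      ⟨F, ⟨⟨1, hF⟩, hv⟩, rfl⟩ hI
    have hGf : ∀ d : Fin r →₀ ℕ, d.degree < N →
        MvPowerSeries.coeff d G ^ p ^ h = MvPowerSeries.coeff d G := fun d hd => hGfix ⟨d, hd⟩
    choose! b hb using fun d hd => mem_range_of_pow_eq hh jκ (hGf d hd)
    let g : MvPowerSeries (Fin r) (GaloisField p h) := fun d => if d.degree < N then b d else 0
    have hg : ∀ d, MvPowerSeries.coeff d g = if d.degree < N then b d else 0 := fun d => rfl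
    refine ⟨g, fun _ => ⟨?_, fun w hw ρ h0 h1 hwρ => ?_⟩⟩
    · rw [hg, if_pos hN]
      apply jκ.injective
      rw [hb I hN, map_one]; exact hG1
    obtain ⟨B, hB⟩ := hG.1
    obtain ⟨k, hk⟩ : ∃ k : ℕ, B ≤ 2 ^ p ^ (h * k) := by
      obtain ⟨k, hk⟩ := pow_unbounded_of_one_lt B (one_lt_two (α := ℝ))
      refine ⟨k, hk.le.trans (pow_le_pow_right₀ one_le_two ?_)⟩
      calc k ≤ h * k := by nlinarith
        _ ≤ _ := (Nat.lt_pow_self hp.out.one_lt).le
    have hB2 : ∀ d, ‖MvPowerSeries.coeff d (MvPowerSeries.map (rt p (h * k)) G)‖ ≤ 2 := fun d => by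
      rw [MvPowerSeries.coeff_map, norm_rt_le_iff _ _ zero_le_two]
      exact (hB d).trans hk
    have e := ev_sub (bd_map jκ (norm_galois_le hh jκ) g).an (an_of_bounded hB2) (hΛ.sm w hw)
    rw [hroot k G hG w hw, sub_zero] at e
    rw [← e]
    refine norm_ev_le fun d => ?_
    rw [map_sub, MvPowerSeries.coeff_map, hg]
    split_ifs with hd
    · rw [MvPowerSeries.coeff_map, rt_of_fixed (hGf d hd), hb d hd, sub_self, norm_zero, zero_mul]
      positivity
    · rw [map_zero, zero_sub, norm_neg]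
      exact mul_le_mul (hB2 d) ((norm_mono_le h0 hwρ d).trans
        (pow_le_pow_of_le_one h0 h1 (not_lt.1 hd))) (norm_nonneg _) zero_le_two
  choose g hg using step
  let 𝒰 := Filter.hyperfilter ℕ
  have hlim : ∀ d, ∃ b, ∀ᶠ N in 𝒰, MvPowerSeries.coeff d (g N) = b := fun d => by
    obtain ⟨b, hb⟩ := (𝒰.map fun N => MvPowerSeries.coeff d (g N)).eq_pure_of_finite
    refine ⟨b, ?_⟩
    have : {b} ∈ 𝒰.map fun N => MvPowerSeries.coeff d (g N) := by rw [hb]; simp
    exact this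
  choose f hf using hlim
  have hle : (𝒰 : Filter ℕ) ≤ atTop := Nat.hyperfilter_le_atTop
  have hev : ∀ᶠ N in 𝒰, I.degree < N := hle (eventually_gt_atTop _)
  refine ⟨f, ?_, fun w hw => ?_⟩
  · obtain ⟨N, h1, h2⟩ := ((hf I).and hev).exists
    change f I ≠ 0
    rw [← h1, (hg N h2).1]; exact one_ne_zero
  · have t1 := tendsto_ev_of_coeff (l := (𝒰 : Filter ℕ)) (F := fun N => MvPowerSeries.map jκ (g N))
      (G := MvPowerSeries.map jκ f) (fun N => bd_map jκ (norm_galois_le hh jκ) _)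
      (bd_map jκ (norm_galois_le hh jκ) _) (fun d => tendsto_const_nhds.congr' (by
        filter_upwards [hf d] with N hN
        rw [MvPowerSeries.coeff_map, MvPowerSeries.coeff_map, hN]; rfl)) (hΛ.sm w hw)
    obtain ⟨ρ, h0, h1, hρ⟩ := (hΛ.sm w hw).exists_bound
    have t2 : Tendsto (fun N => ev (MvPowerSeries.map jκ (g N)) w) 𝒰 (𝓝 0) := by
      refine squeeze_zero_norm' (a := fun N => 2 * ρ ^ N) ?_ ?_
      · filter_upwards [hev] with N hN
        exact (hg N hN).2 w hw ρ h0 h1.le hρ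
      · simpa using ((tendsto_pow_atTop_nhds_zero_of_lt_one h0 h1).const_mul 2).mono_left hle
    exact tendsto_nhds_unique t1 t2

end Crest.Agent.R227
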