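import Crest.Agent.R227.PSer
import Crest.Agent.R227.Ev

/-!
# R227 / E0 : the Lubin–Tate ring, the ideals `(p, u_1, …, u_{h-1})`, points

Plan.
* `ker_residue`: the residue map is onto a field, the ring is local.
* `mem_span_X`-type fact: a power series all of whose monomials not involving the variables of a finite
  set `S` have coefficient zero lies in `span (X '' S)` (induction on `S`, `MvPowerSeries.X_dvd_iff`).
* `ker_red`: `f ↦ killCompl f` kills exactly the span of the variables `X i`, `i < h - 1`; a series with all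
  coefficients in `ker constantCoeff = span {p}` (`WittVector.ker_constantCoeff`) is `p • g`.
* `lt_isAdicComplete`: `𝔪^N`-Cauchy sequences: an element of `𝔪^N` has `coeff d ∈ p^{N - |d|} W`, and conversely
  (homogeneous pieces of degree `< N` are finite sums, the tail lies in `span(X)^N`); use
  `WittVector.isAdicCompleteIdealSpanP` coefficientwise.
* `bijective_of_map_max`: surjective by `surjective_of_mk_map_comp_surjective` (or successive approximation),
  injective because a surjective endomorphism of a Noetherian ring is injective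
  (`IsNoetherianRing`/ kernels `ker τ^k` stabilise; `RingHom.injective_of_surjective`-type lemma).
* `point_eq_ev`: `f - trunc_N f ∈ 𝔪^N`, `point_bound`, `Bd.norm_ev_sub_le_pow`, `ev_coe`.
-/

set_option autoImplicit false
set_option linter.unusedSectionVars false
open Crest.LubinTate

namespace Crest.Agent.R227

section general
variable {R σ : Type*} [CommRing R]

open Classical in
/-- the part of a power series on monomials satisfying `P`. -/
noncomputable def psPart (P : (σ →₀ ℕ) → Prop) (f : MvPowerSeries σ R) : MvPowerSeries σ R :=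
  fun d => if P d then MvPowerSeries.coeff d f else 0

open Classical in
theorem coeff_psPart (P : (σ →₀ ℕ) → Prop) (f : MvPowerSeries σ R) (d : σ →₀ ℕ) :
    MvPowerSeries.coeff d (psPart P f) = if P d then MvPowerSeries.coeff d f else 0 := rfl

theorem psPart_add (P : (σ →₀ ℕ) → Prop) (f : MvPowerSeries σ R) :
    psPart P f + psPart (fun d => ¬ P d) f = f := by
  ext d
  rw [map_add, coeff_psPart, coeff_psPart]
  by_cases h : P d <;> simp [h]

theorem mem_span_X_of_coeff (S : Finset σ) (f : MvPowerSeries σ R)
    (h : ∀ d : σ →₀ ℕ, (∀ i ∈ S, d i = 0) → MvPowerSeries.coeff d f = 0) :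
    f ∈ Ideal.span ((fun i => (MvPowerSeries.X i : MvPowerSeries σ R)) '' (S : Set σ)) := by
  classical
  induction S using Finset.induction_on generalizing f with
  | empty =>
    have : f = 0 := MvPowerSeries.ext fun d => by rw [h d (by simp), map_zero]
    rw [this]; exact Ideal.zero_mem _
  | insert i S hi ih =>
    rw [← psPart_add (fun d => d i = 0) f]
    apply Ideal.add_mem
    · refine Ideal.span_mono (Set.image_mono (by simp)) (ih _ fun d hd => ?_)
      rw [coeff_psPart]
      split_ifs with h0
      · apply h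
        intro j hj
        rcases Finset.mem_insert.mp hj with rfl | hj
        · exact h0
        · exact hd j hj
      · rfl
    · obtain ⟨g, hg⟩ : MvPowerSeries.X i ∣ psPart (fun d => ¬ d i = 0) f := by
        rw [MvPowerSeries.X_dvd_iff]
        intro d hd
        rw [coeff_psPart, if_neg (by simpa using hd)]
      rw [hg]
      exact Ideal.mul_mem_right _ _ (Ideal.subset_span ⟨i, by simp, rfl⟩)

theorem mem_span_X_pow [Finite σ] (N : ℕ) (f : MvPowerSeries σ R)
    (h : ∀ d : σ →₀ ℕ, d.degree < N → MvPowerSeries.coeff d f = 0) :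
    f ∈ Ideal.span (Set.range (fun i => (MvPowerSeries.X i : MvPowerSeries σ R))) ^ N := by
  classical
  induction N generalizing f with
  | zero => simp
  | succ N ihN =>
    have := Fintype.ofFinite σ
    suffices H : ∀ (S : Finset σ) (f : MvPowerSeries σ R),
        (∀ d : σ →₀ ℕ, d.degree < N + 1 → MvPowerSeries.coeff d f = 0) →
        (∀ d : σ →₀ ℕ, (∀ i ∈ S, d i = 0) → MvPowerSeries.coeff d f = 0) →
        f ∈ Ideal.span (Set.range (fun i => (MvPowerSeries.X i : MvPowerSeries σ R))) ^ (N + 1) by
      refine H Finset.univ f h fun d hd => h d ?_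
      have : d = 0 := Finsupp.ext fun i => hd i (Finset.mem_univ i)
      simp [this]
    intro S
    induction S using Finset.induction_on with
    | empty =>
      intro f _ h
      have : f = 0 := MvPowerSeries.ext fun d => by rw [h d (by simp), map_zero]
      rw [this]; exact Ideal.zero_mem _
    | insert i S hi ih =>
      intro f h1 h
      rw [← psPart_add (fun d => d i = 0) f]
      apply Ideal.add_mem
      · refine ih _ (fun d hd => ?_) fun d hd => ?_
        · rw [coeff_psPart, h1 d hd, ite_self]
        · rw [coeff_psPart]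
          split_ifs with h0
          · apply h
            intro j hj
            rcases Finset.mem_insert.mp hj with rfl | hj
            · exact h0
            · exact hd j hj
          · rfl
      · obtain ⟨g, hg⟩ : MvPowerSeries.X i ∣ psPart (fun d => ¬ d i = 0) f := by
          rw [MvPowerSeries.X_dvd_iff]
          intro d hd
          rw [coeff_psPart, if_neg (by simpa using hd)]
        rw [hg, pow_succ']
        refine Ideal.mul_mem_mul (Ideal.subset_span ⟨i, rfl⟩) (ihN g fun d hd => ?_)
        have h2 : MvPowerSeries.coeff (Finsupp.single i 1 + d) (MvPowerSeries.X i * g) =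
            MvPowerSeries.coeff d g := by
          rw [MvPowerSeries.X_def, MvPowerSeries.coeff_add_monomial_mul, one_mul]
        rw [← h2, ← hg, coeff_psPart, h1 _ (by rw [map_add, Finsupp.degree_single]; omega),
          ite_self]

theorem coeff_mul_mem_pow {P : Ideal R} {a b : ℕ} {f g : MvPowerSeries σ R}
    (hf : ∀ d : σ →₀ ℕ, MvPowerSeries.coeff d f ∈ P ^ (a - d.degree))
    (hg : ∀ d : σ →₀ ℕ, MvPowerSeries.coeff d g ∈ P ^ (b - d.degree)) (d : σ →₀ ℕ) :
    MvPowerSeries.coeff d (f * g) ∈ P ^ (a + b - d.degree) := by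
  classical
  rw [MvPowerSeries.coeff_mul]
  refine Ideal.sum_mem _ fun x hx => ?_
  have h1 := Ideal.mul_mem_mul (hf x.1) (hg x.2)
  rw [← pow_add] at h1
  refine Ideal.pow_le_pow_right ?_ h1
  rw [← Finset.HasAntidiagonal.mem_antidiagonal.1 hx, map_add]
  omega

theorem coeff_mem_pow_of_mem_pow {P : Ideal R} {M : Ideal (MvPowerSeries σ R)}
    (hM : ∀ f ∈ M, MvPowerSeries.constantCoeff f ∈ P) (N : ℕ) {f : MvPowerSeries σ R}
    (hf : f ∈ M ^ N) (d : σ →₀ ℕ) : MvPowerSeries.coeff d f ∈ P ^ (N - d.degree) := by
  induction N generalizing f d with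
  | zero => simp
  | succ N ih =>
    rw [pow_succ] at hf
    revert d
    refine Submodule.mul_induction_on hf (fun a ha b hb => ?_) (fun a b ha hb d => ?_)
    · refine coeff_mul_mem_pow (ih ha) (fun d => ?_)
      by_cases hd : d = 0
      · subst hd
        simpa using hM b hb
      · have : d.degree ≠ 0 := mt (Finsupp.degree_eq_zero_iff d).1 hd
        rw [Nat.sub_eq_zero_of_le (by omega)]
        simp
    · rw [map_add]; exact Ideal.add_mem _ (ha d) (hb d)

theorem mem_pow_of_coeff_mem_pow [Finite σ] {P : Ideal R} {M : Ideal (MvPowerSeries σ R)}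
    (hC : ∀ a ∈ P, MvPowerSeries.C a ∈ M) (hX : ∀ i, MvPowerSeries.X i ∈ M) (N : ℕ)
    {f : MvPowerSeries σ R} (hf : ∀ d : σ →₀ ℕ, MvPowerSeries.coeff d f ∈ P ^ (N - d.degree)) :
    f ∈ M ^ N := by
  classical
  have hXM : Ideal.span (Set.range (fun i => (MvPowerSeries.X i : MvPowerSeries σ R))) ≤ M := by
    rw [Ideal.span_le]; rintro _ ⟨i, rfl⟩; exact hX i
  have hPM : P.map (MvPowerSeries.C : R →+* MvPowerSeries σ R) ≤ M :=
    Ideal.map_le_iff_le_comap.mpr hC
  have hfin := Finsupp.finite_of_degree_lt (σ := σ) N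
  let T : MvPowerSeries σ R :=
    ∑ e ∈ hfin.toFinset, MvPowerSeries.monomial e (MvPowerSeries.coeff e f)
  have h1 : f - T ∈ M ^ N := by
    refine Ideal.pow_right_mono hXM N (mem_span_X_pow N _ fun d hd => ?_)
    simp only [T, map_sub, map_sum, MvPowerSeries.coeff_monomial]
    rw [Finset.sum_ite_eq, if_pos (by simpa using hd), sub_self]
  have h2 : T ∈ M ^ N := by
    refine Ideal.sum_mem _ fun e he => ?_
    have he' : e.degree < N := by simpa using he
    have e1 : (MvPowerSeries.monomial e (MvPowerSeries.coeff e f) : MvPowerSeries σ R) =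
        MvPowerSeries.C (MvPowerSeries.coeff e f) * MvPowerSeries.monomial e 1 := by
      rw [← MvPowerSeries.monomial_zero_eq_C_apply, MvPowerSeries.monomial_mul_monomial, zero_add,
        mul_one]
    have e2 : M ^ N = M ^ (N - e.degree) * M ^ e.degree := by
      rw [← pow_add, Nat.sub_add_cancel he'.le]
    rw [e1, e2]
    refine Ideal.mul_mem_mul ?_ ?_
    · refine Ideal.pow_right_mono hPM _ ?_
      rw [← Ideal.map_pow]
      exact Ideal.mem_map_of_mem _ (hf e)
    · refine Ideal.pow_right_mono hXM _ (mem_span_X_pow _ _ fun d hd => ?_)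
      rw [MvPowerSeries.coeff_monomial, if_neg]
      rintro rfl
      exact lt_irrefl _ hd
  have : f = (f - T) + T := by ring
  rw [this]
  exact Ideal.add_mem _ h1 h2

theorem ringHom_injective_of_surjective [IsNoetherianRing R] (φ : R →+* R)
    (h : Function.Surjective φ) : Function.Injective φ := by
  let K : ℕ →o Ideal R :=
    { toFun := fun k => RingHom.ker (φ ^ k)
      monotone' := monotone_nat_of_le_succ fun k a ha => by
        rw [RingHom.mem_ker] at ha ⊢
        rw [pow_succ', RingHom.coe_mul, Function.comp_apply, ha, map_zero] }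
  obtain ⟨k, hk⟩ := monotone_stabilizes_iff_noetherian.mpr (inferInstance : IsNoetherian R R) K
  rw [injective_iff_map_eq_zero]
  intro a ha
  have hs : Function.Surjective (φ ^ k : R →+* R) := by
    rw [RingHom.coe_pow]; exact h.iterate k
  obtain ⟨b, rfl⟩ := hs a
  have h1 : b ∈ K (k + 1) := by
    change (φ ^ (k + 1)) b = 0
    rw [pow_succ', RingHom.coe_mul, Function.comp_apply, ha]
  rw [← hk (k + 1) (Nat.le_succ k)] at h1
  exact h1

end general

variable (p : ℕ) [hp : Fact p.Prime] (n : ℕ)

/-- the parameters `v_j = u_j` (`1 ≤ j < n`), `v_n = 1`. -/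
noncomputable def uv : ℕ → LTRing p n := zseq n 1 (fun i : Fin (n - 1) => MvPowerSeries.X i)

/-- `u_0 = p, u_1, …, u_{n-1}, u_n = 1`. -/
noncomputable def useq (j : ℕ) : LTRing p n := if j = 0 then (p : LTRing p n) else uv p n j

/-- the standard universal deformation. -/
noncomputable def HH : FormalGroup (LTRing p n) := HL p n (uv p n)

/-- the standard Honda law over `k`. -/
noncomputable def GG : FormalGroup (GaloisField p n) := HL p n (hon n)

instance : (HH p n).IsComm := by unfold HH; infer_instance
instance : (GG p n).IsComm := by unfold GG; infer_instance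

/-- the ideal `(u_0, …, u_{h-1})`. -/
noncomputable def Jid (h : ℕ) : Ideal (LTRing p n) := Ideal.span (useq p n '' Set.Iio h)

/-- the variables `u_h, …, u_{n-1}`. -/
def redEmb {n h r : ℕ} (hh : 1 ≤ h) (hr : h + r = n) : Fin r ↪ Fin (n - 1) where
  toFun i := ⟨h - 1 + i, by have := i.2; omega⟩
  inj' := fun i j e => by
    simp only [Fin.mk.injEq] at e
    exact Fin.ext (by omega)

variable {n} in
/-- reduction modulo `(p, u_1, …, u_{h-1})`. -/
noncomputable def red {h r : ℕ} (hh : 1 ≤ h) (hr : h + r = n) :
    LTRing p n →+* MvPowerSeries (Fin r) (GaloisField p n) :=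
  (MvPowerSeries.map WittVector.constantCoeff).comp
    (MvPowerSeries.killCompl (R := WittVector p (GaloisField p n)) (redEmb hh hr)).toRingHom

theorem useq_eq_X {j : ℕ} (h1 : 1 ≤ j) (hj : j < n) :
    useq p n j = MvPowerSeries.X (⟨j - 1, by omega⟩ : Fin (n - 1)) := by
  rw [useq, if_neg (by omega), uv, zseq, dif_pos ⟨h1, by omega⟩]

theorem X_mem_Jid {h : ℕ} {t : Fin (n - 1)} (ht : (t : ℕ) < h - 1) :
    (MvPowerSeries.X t : LTRing p n) ∈ Jid p n h := by
  refine Ideal.subset_span ⟨t + 1, by simp only [Set.mem_Iio]; omega, ?_⟩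
  rw [useq_eq_X p n (by omega) (by have := t.2; omega)]
  rfl

theorem not_mem_range_redEmb {n h r : ℕ} (hh : 1 ≤ h) (hr : h + r = n) (t : Fin (n - 1)) :
    t ∉ Set.range (redEmb hh hr) ↔ (t : ℕ) < h - 1 := by
  constructor
  · intro ht
    by_contra hc
    refine ht ⟨⟨t - (h - 1), by have := t.2; omega⟩, Fin.ext ?_⟩
    change h - 1 + (t - (h - 1)) = t
    omega
  · rintro ht ⟨i, rfl⟩
    change h - 1 + (i : ℕ) < h - 1 at ht
    omega

theorem constantCoeff_red {h r : ℕ} (hh : 1 ≤ h) (hr : h + r = n) (f : LTRing p n) :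
    MvPowerSeries.constantCoeff (red p hh hr f) = LTRing.residue p n f := by
  simp only [red, RingHom.comp_apply, MvPowerSeries.constantCoeff_map, LTRing.residue,
    AlgHom.toRingHom_eq_coe, RingHom.coe_coe]
  congr 1

theorem ker_red' {h r : ℕ} (hh : 1 ≤ h) (hr : h + r = n) :
    RingHom.ker (red p hh hr) = Jid p n h := by
  classical
  apply le_antisymm
  · intro f hf
    rw [RingHom.mem_ker] at hf
    let S : Finset (Fin (n - 1)) := Finset.univ.filter fun t => (t : ℕ) < h - 1
    rw [← psPart_add (fun d => ∀ i ∈ S, d i = 0) f]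
    apply Ideal.add_mem
    · have hc : ∀ d, ∃ b, MvPowerSeries.coeff d (psPart (fun d => ∀ i ∈ S, d i = 0) f) =
          (p : WittVector p (GaloisField p n)) * b := by
        intro d
        rw [coeff_psPart]
        split_ifs with hd
        · have hd' : d = Finsupp.embDomain (redEmb hh hr)
              (d.comapDomain (redEmb hh hr) (redEmb hh hr).injective.injOn) := by
            rw [Finsupp.embDomain_comapDomain]
            intro t ht
            by_contra hc
            exact (Finsupp.mem_support_iff.mp ht)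
              (hd t (by simpa [S] using (not_mem_range_redEmb hh hr t).1 hc))
          have h1 := congrArg (MvPowerSeries.coeff
            (d.comapDomain (redEmb hh hr) (redEmb hh hr).injective.injOn)) hf
          simp only [red, RingHom.comp_apply, MvPowerSeries.coeff_map, AlgHom.toRingHom_eq_coe,
            RingHom.coe_coe, MvPowerSeries.coeff_killCompl, map_zero] at h1
          rw [← hd', ← RingHom.mem_ker, WittVector.ker_constantCoeff,
            Ideal.mem_span_singleton] at h1
          exact h1
        · exact ⟨0, by simp⟩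
      choose g hg using hc
      let g' : LTRing p n := g
      have : psPart (fun d => ∀ i ∈ S, d i = 0) f = (p : LTRing p n) * g' := by
        ext1 d
        rw [hg, ← map_natCast (MvPowerSeries.C : WittVector p (GaloisField p n) →+* LTRing p n),
          MvPowerSeries.coeff_C_mul]
        rfl
      rw [this]
      refine Ideal.mul_mem_right _ _ (Ideal.subset_span ⟨0, by simp only [Set.mem_Iio]; omega, ?_⟩)
      simp [useq]
    · refine (Ideal.span_le.mpr ?_ : _ ≤ Jid p n h) (mem_span_X_of_coeff S _ fun d hd => ?_)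
      · rintro _ ⟨t, ht, rfl⟩
        exact X_mem_Jid p n (by simpa [S] using ht)
      · rw [coeff_psPart, if_neg (not_not.mpr hd)]
  · rw [Jid, Ideal.span_le]
    rintro _ ⟨j, hj, rfl⟩
    have hj' : j < h := hj
    rw [SetLike.mem_coe, RingHom.mem_ker]
    by_cases h0 : j = 0
    · rw [useq, if_pos h0, map_natCast,
        ← map_natCast (MvPowerSeries.C : GaloisField p n →+* MvPowerSeries (Fin r) _)]
      simp
    · rw [useq_eq_X p n (by omega) (by omega)]
      simp only [red, RingHom.comp_apply, AlgHom.toRingHom_eq_coe, RingHom.coe_coe]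
      rw [MvPowerSeries.killCompl_X_eq_zero ((not_mem_range_redEmb hh hr _).2 (by simp only; omega)),
        map_zero]

theorem residue_surjective : Function.Surjective (LTRing.residue p n) := by
  intro a
  refine ⟨MvPowerSeries.C (WittVector.teichmuller p a), ?_⟩
  simp [LTRing.residue]

theorem ker_residue : RingHom.ker (LTRing.residue p n) = IsLocalRing.maximalIdeal (LTRing p n) := by
  exact IsLocalRing.ker_eq_maximalIdeal _ (residue_surjective p n)

theorem residue_comp_algebraMap :
    (LTRing.residue p n).comp (algebraMap (WittVector p (GaloisField p n)) (LTRing p n)) =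
      WittVector.constantCoeff := by
  ext1 w
  simp [LTRing.residue, MvPowerSeries.algebraMap_apply]

theorem isUnit_of_residue {a : LTRing p n} (ha : LTRing.residue p n a ≠ 0) : IsUnit a := by
  by_contra h
  apply ha
  have : a ∈ IsLocalRing.maximalIdeal (LTRing p n) := h
  rwa [← ker_residue] at this

theorem lt_isAdicComplete :
    IsAdicComplete (IsLocalRing.maximalIdeal (LTRing p n)) (LTRing p n) := by
  have hM : ∀ f : LTRing p n, f ∈ IsLocalRing.maximalIdeal (LTRing p n) ↔
      MvPowerSeries.constantCoeff f ∈ Ideal.span {(p : WittVector p (GaloisField p n))} := by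
    intro f
    rw [← ker_residue, ← WittVector.ker_constantCoeff]
    rfl
  have hpre : IsPrecomplete (IsLocalRing.maximalIdeal (LTRing p n)) (LTRing p n) := by
    constructor
    intro f hf
    simp only [smul_eq_mul, Ideal.mul_top, SModEq.sub_mem] at hf ⊢
    have key : ∀ d : Fin (n - 1) →₀ ℕ, ∃ L : WittVector p (GaloisField p n), ∀ k,
        MvPowerSeries.coeff d (f (k + d.degree)) - L ∈
          Ideal.span {(p : WittVector p (GaloisField p n))} ^ k := by
      intro d
      have := IsPrecomplete.prec' (I := Ideal.span {(p : WittVector p (GaloisField p n))})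
        (fun k => MvPowerSeries.coeff d (f (k + d.degree))) (by
          intro a b hab
          simp only [smul_eq_mul, Ideal.mul_top, SModEq.sub_mem]
          have h1 := coeff_mem_pow_of_mem_pow (fun f hf => (hM f).1 hf) _
            (hf (Nat.add_le_add_right hab d.degree)) d
          rwa [Nat.add_sub_cancel, map_sub] at h1)
      simpa only [smul_eq_mul, Ideal.mul_top, SModEq.sub_mem] using this
    choose L hL using key
    refine ⟨L, fun N => ?_⟩
    refine mem_pow_of_coeff_mem_pow (P := Ideal.span {(p : WittVector p (GaloisField p n))})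
      (fun a ha => (hM _).2 (by simpa using ha)) (fun i => (hM _).2 (by simp)) N fun d => ?_
    rcases le_total d.degree N with h | h
    · have h1 := hL d (N - d.degree)
      rw [Nat.sub_add_cancel h] at h1
      exact h1
    · rw [Nat.sub_eq_zero_of_le h]; simp
  exact { toIsHausdorff := inferInstance, toIsPrecomplete := hpre }

theorem Jid_zero : Jid p n 0 = ⊥ := by
  simp [Jid]

theorem Jid_succ (h : ℕ) : Jid p n (h + 1) = Jid p n h ⊔ Ideal.span {useq p n h} := by
  rw [Jid, Jid, ← Ideal.span_union, ← Set.image_singleton, ← Set.image_union]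
  congr 2
  ext j
  simp only [Set.mem_Iio, Set.mem_union, Set.mem_singleton_iff]
  omega

theorem Jid_mono {h h' : ℕ} (e : h ≤ h') : Jid p n h ≤ Jid p n h' := by
  exact Ideal.span_mono (Set.image_mono fun j hj => lt_of_lt_of_le hj e)

theorem useq_mem_max {j : ℕ} (hj : j < n) :
    useq p n j ∈ IsLocalRing.maximalIdeal (LTRing p n) := by
  rw [← ker_residue, RingHom.mem_ker]
  by_cases h0 : j = 0
  · simp [useq, h0]
  · rw [useq_eq_X p n (by omega) hj]
    simp [LTRing.residue]

theorem Jid_self (hn : 1 ≤ n) : Jid p n n = IsLocalRing.maximalIdeal (LTRing p n) := by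
  rw [← ker_red' p n (r := 0) hn rfl, ← ker_residue]
  ext f
  rw [RingHom.mem_ker, RingHom.mem_ker, ← constantCoeff_red p n (r := 0) hn rfl]
  constructor
  · intro h; rw [h, map_zero]
  · intro h
    ext d
    rw [Subsingleton.elim d 0, map_zero]
    exact h

theorem ker_red {h r : ℕ} (hh : 1 ≤ h) (hr : h + r = n) : RingHom.ker (red p hh hr) = Jid p n h := by
  exact ker_red' p n hh hr

theorem Jid_isPrime {h : ℕ} (hh : h ≤ n) : (Jid p n h).IsPrime := by
  rcases Nat.eq_zero_or_pos h with rfl | h0
  · rw [Jid_zero]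
    have : IsDomain (LTRing p n) := NoZeroDivisors.to_isDomain _
    exact Ideal.isPrime_bot
  · rw [← ker_red p n (r := n - h) h0 (by omega)]
    have : IsDomain (MvPowerSeries (Fin (n - h)) (GaloisField p n)) :=
      NoZeroDivisors.to_isDomain _
    exact RingHom.ker_isPrime _

theorem HH_map_residue (hn : 1 ≤ n) : (HH p n).map (LTRing.residue p n) = GG p n := by
  rw [HH, GG, HL_map]
  congr 1
  funext j
  rw [uv, map_zseq, ← zseq_zero n 1 (n - 1) (by omega)]
  congr 1
  funext i
  simp [LTRing.residue]

theorem bijective_of_map_max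
    (φ : LTRing p n →ₐ[WittVector p (GaloisField p n)] LTRing p n)
    (hφ : (LTRing.residue p n).comp φ.toRingHom = LTRing.residue p n)
    (hm : IsLocalRing.maximalIdeal (LTRing p n) ≤
      Ideal.map φ.toRingHom (IsLocalRing.maximalIdeal (LTRing p n))) :
    Function.Bijective φ := by
  have hres : ∀ a, LTRing.residue p n (φ a) = LTRing.residue p n a :=
    fun a => DFunLike.congr_fun hφ a
  have he : Ideal.map φ.toRingHom (IsLocalRing.maximalIdeal (LTRing p n)) =
      IsLocalRing.maximalIdeal (LTRing p n) := by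
    refine le_antisymm (Ideal.map_le_iff_le_comap.mpr fun a ha => ?_) hm
    rw [Ideal.mem_comap]
    rw [← ker_residue, RingHom.mem_ker] at ha ⊢
    exact (hres a).trans ha
  have hc := lt_isAdicComplete p n
  have hh : IsHausdorff (Ideal.map φ.toRingHom (IsLocalRing.maximalIdeal (LTRing p n)))
      (LTRing p n) := by rw [he]; infer_instance
  have hs : Function.Surjective φ.toRingHom := by
    apply surjective_of_mk_map_comp_surjective (I := IsLocalRing.maximalIdeal (LTRing p n))
    intro a
    obtain ⟨a, rfl⟩ := Ideal.Quotient.mk_surjective a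
    refine ⟨a, ?_⟩
    rw [RingHom.comp_apply, Ideal.Quotient.eq, he, ← ker_residue, RingHom.mem_ker, map_sub]
    exact sub_eq_zero.mpr (hres a)
  exact ⟨ringHom_injective_of_surjective φ.toRingHom hs, hs⟩

section points
variable {p n} {C : Type*} [NormedField C] [IsUltrametricDist C]

/-- a point of the Lubin–Tate open disc. -/
def IsPoint (x : LTRing p n →+* C) : Prop :=
  (∀ a, ‖x a‖ ≤ 1) ∧ ∀ a ∈ IsLocalRing.maximalIdeal (LTRing p n), ‖x a‖ < 1

theorem IsPoint.comp {x : LTRing p n →+* C} (hx : IsPoint x)
    (φ : LTRing p n →ₐ[WittVector p (GaloisField p n)] LTRing p n)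
    (hφ : (LTRing.residue p n).comp φ.toRingHom = LTRing.residue p n) :
    IsPoint (x.comp φ.toRingHom) := by
  refine ⟨fun a => hx.1 _, fun a ha => hx.2 _ ?_⟩
  rw [← ker_residue, RingHom.mem_ker] at ha ⊢
  exact (DFunLike.congr_fun hφ a).trans ha

theorem IsPoint.bound {x : LTRing p n →+* C} (hx : IsPoint x) :
    ∃ μ : ℝ, 0 ≤ μ ∧ μ < 1 ∧ ∀ (N : ℕ), ∀ a ∈ IsLocalRing.maximalIdeal (LTRing p n) ^ N,
      ‖x a‖ ≤ μ ^ N := by
  obtain ⟨s, hs⟩ : (IsLocalRing.maximalIdeal (LTRing p n)).FG := IsNoetherian.noetherian _
  obtain ⟨μ, h0, h1, h2⟩ := Sm.exists_bound (y := fun a : s => x a)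
    (fun a => hx.2 _ (hs ▸ Ideal.subset_span a.2))
  have h3 : ∀ a ∈ IsLocalRing.maximalIdeal (LTRing p n), ‖x a‖ ≤ μ := by
    intro a ha
    rw [← hs] at ha
    induction ha using Submodule.span_induction with
    | mem a ha => exact h2 ⟨a, ha⟩
    | zero => simpa using h0
    | add a b _ _ ha hb =>
      rw [map_add]; exact (IsUltrametricDist.norm_add_le_max _ _).trans (max_le ha hb)
    | smul a b _ hb =>
      rw [smul_eq_mul, map_mul, norm_mul]
      exact (mul_le_of_le_one_left (norm_nonneg _) (hx.1 a)).trans hb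
  refine ⟨μ, h0, h1, fun N => ?_⟩
  induction N with
  | zero => intro a _; simpa using hx.1 a
  | succ N ih =>
    intro a ha
    rw [pow_succ] at ha
    refine Submodule.mul_induction_on ha (fun a ha b hb => ?_) (fun a b ha hb => ?_)
    · rw [map_mul, norm_mul, pow_succ]
      exact mul_le_mul (ih a ha) (h3 b hb) (norm_nonneg _) (by positivity)
    · rw [map_add]; exact (IsUltrametricDist.norm_add_le_max _ _).trans (max_le ha hb)

theorem IsPoint.eq_ev [CompleteSpace C] {x : LTRing p n →+* C} (hx : IsPoint x) (f : LTRing p n) :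
    x f = ev (MvPowerSeries.map (x.comp MvPowerSeries.C) f) (fun i => x (MvPowerSeries.X i)) := by
  obtain ⟨μ, h0, h1, h2⟩ := hx.bound
  have hX : ∀ i, (MvPowerSeries.X i : LTRing p n) ∈ IsLocalRing.maximalIdeal (LTRing p n) := by
    intro i
    rw [← ker_residue, RingHom.mem_ker]
    simp [LTRing.residue]
  have hXM : Ideal.span (Set.range (fun i => (MvPowerSeries.X i : LTRing p n))) ≤
      IsLocalRing.maximalIdeal (LTRing p n) := by
    rw [Ideal.span_le]; rintro _ ⟨i, rfl⟩; exact hX i
  have hy : Sm (fun i => x (MvPowerSeries.X i)) := fun i => hx.2 _ (hX i)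
  have hρ : ∀ a, ‖(x.comp MvPowerSeries.C) a‖ ≤ 1 := fun a => hx.1 _
  rw [← evHom_apply _ hρ hy]
  set y := evHom (x.comp MvPowerSeries.C) hρ hy with hydef
  have hpoly : x.comp MvPolynomial.coeToMvPowerSeries.ringHom =
      y.comp MvPolynomial.coeToMvPowerSeries.ringHom := by
    apply MvPolynomial.ringHom_ext
    · intro a
      simp only [RingHom.comp_apply, MvPolynomial.coeToMvPowerSeries.ringHom_apply,
        MvPolynomial.coe_C]
      rw [hydef, evHom_apply, MvPowerSeries.map_C, ev_C]
      rfl
    · intro i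
      simp only [RingHom.comp_apply, MvPolynomial.coeToMvPowerSeries.ringHom_apply,
        MvPolynomial.coe_X]
      rw [hydef, evHom_apply, MvPowerSeries.map_X, ev_X]
  have key : ∀ N : ℕ, ‖x f - y f‖ ≤ μ ^ N := by
    intro N
    set T : LTRing p n := MvPolynomial.toMvPowerSeries (MvPowerSeries.truncTotal N f) with hT
    have hxy : x T = y T := DFunLike.congr_fun hpoly (MvPowerSeries.truncTotal N f)
    have hc : ∀ d : Fin (n - 1) →₀ ℕ, d.degree < N → MvPowerSeries.coeff d (f - T) = 0 := by
      intro d hd
      rw [map_sub, hT, MvPolynomial.coeff_coe, MvPowerSeries.coeff_truncTotal _ hd, sub_self]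
    have e1 : ‖x (f - T)‖ ≤ μ ^ N :=
      h2 N _ (Ideal.pow_right_mono hXM N (mem_span_X_pow N _ hc))
    have e2 : ‖y (f - T)‖ ≤ μ ^ N := by
      rw [hydef, evHom_apply]
      refine (bd_map _ hρ _).norm_ev_le_pow (fun d hd => ?_) h0 h1.le (fun i => ?_)
      · rw [MvPowerSeries.coeff_map, hc d hd, map_zero]
      · simpa using h2 1 _ (by simpa using hX i)
    have : x f - y f = x (f - T) + -y (f - T) := by rw [map_sub, map_sub, hxy]; ring
    rw [this]
    exact (IsUltrametricDist.norm_add_le_max _ _).trans (max_le e1 (by rwa [norm_neg]))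
  have := ge_of_tendsto' (tendsto_pow_atTop_nhds_zero_of_lt_one h0 h1) key
  exact sub_eq_zero.mp (norm_le_zero_iff.mp this)

theorem exists_residue_map {x : LTRing p n →+* C} (hx : (p : C) = 0) :
    ∃ j : GaloisField p n →+* C, ∀ w, x (MvPowerSeries.C w) = j (w.coeff 0) := by
  have hk : ∀ a ∈ Ideal.span {(p : WittVector p (GaloisField p n))},
      (x.comp MvPowerSeries.C) a = 0 := by
    intro a ha
    obtain ⟨b, rfl⟩ := Ideal.mem_span_singleton'.mp ha
    rw [map_mul, map_natCast, hx, mul_zero]
  refine ⟨(Ideal.Quotient.lift _ _ hk).comp WittVector.quotientPEquiv.symm.toRingHom, fun w => ?_⟩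
  have : WittVector.quotientPEquiv.symm (w.coeff 0) = Ideal.Quotient.mk _ w := by
    rw [RingEquiv.symm_apply_eq]; rfl
  simp only [RingHom.comp_apply, RingEquiv.toRingHom_eq_coe, RingHom.coe_coe, this,
    Ideal.Quotient.lift_mk]

theorem IsPoint.eq_ev_red [CompleteSpace C] {x : LTRing p n →+* C} (hx : IsPoint x) {h r : ℕ}
    (hh : 1 ≤ h) (hr : h + r = n) (hJ : ∀ a ∈ Jid p n h, x a = 0) {j : GaloisField p n →+* C}
    (hj : ∀ w, x (MvPowerSeries.C w) = j (w.coeff 0)) (f : LTRing p n) :
    x f = ev (MvPowerSeries.map j (red p hh hr f)) (fun i : Fin r => x (useq p n (h + i))) := by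
  have hρ : ∀ a, ‖j a‖ ≤ 1 := by
    intro a
    have := hx.1 (MvPowerSeries.C (WittVector.teichmuller p a))
    rwa [hj, WittVector.teichmuller_coeff_zero] at this
  have hy : Sm (fun i : Fin r => x (useq p n (h + i))) :=
    fun i => hx.2 _ (useq_mem_max p n (by have := i.2; omega))
  let y : LTRing p n →+* C := (evHom j hρ hy).comp (red p hh hr)
  have hyp : IsPoint y := by
    refine ⟨fun a => (bd_map j hρ _).norm_ev_le_one hy, fun a ha => ?_⟩
    refine (bd_map j hρ _).norm_ev_lt_one ?_ hy
    rw [← ker_residue, RingHom.mem_ker] at ha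
    rw [MvPowerSeries.constantCoeff_map, constantCoeff_red, ha, map_zero]
  have e1 : x.comp MvPowerSeries.C = y.comp MvPowerSeries.C := by
    ext1 w
    simp only [y, RingHom.comp_apply, hj, evHom_apply, red, AlgHom.toRingHom_eq_coe,
      RingHom.coe_coe, MvPowerSeries.killCompl_C, MvPowerSeries.map_C, ev_C]
    rfl
  have e2 : (fun i => x (MvPowerSeries.X i)) = fun i => y (MvPowerSeries.X i) := by
    funext t
    by_cases ht : t ∈ Set.range (redEmb hh hr)
    · obtain ⟨i, rfl⟩ := ht
      simp only [y, RingHom.comp_apply, evHom_apply, red, AlgHom.toRingHom_eq_coe,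
        RingHom.coe_coe, MvPowerSeries.killCompl_X, MvPowerSeries.map_X, ev_X]
      rw [useq_eq_X p n (j := h + i) (by omega) (by have := i.2; omega)]
      congr 2
      apply Fin.ext
      change h - 1 + (i : ℕ) = h + i - 1
      omega
    · have ht' := (not_mem_range_redEmb hh hr t).1 ht
      simp only [y, RingHom.comp_apply, red, AlgHom.toRingHom_eq_coe,
        RingHom.coe_coe, MvPowerSeries.killCompl_X_eq_zero ht, map_zero]
      exact hJ _ (X_mem_Jid p n ht')
  change x f = y f
  rw [hx.eq_ev, hyp.eq_ev, e1, e2]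

theorem HH_map_point (x : LTRing p n →+* C) :
    (HH p n).map x = HL p n (zseq n 1 (fun i : Fin (n - 1) => x (MvPowerSeries.X i))) := by
  exact HL_map_zseq p n 1 x _

theorem HH_map_point_red (x : LTRing p n →+* C) {h r : ℕ} (hh : 1 ≤ h) (hr : h + r = n)
    (hJ : ∀ a ∈ Jid p n h, x a = 0) :
    (HH p n).map x = HL p n (zseq n h (fun i : Fin r => x (useq p n (h + i)))) := by
  rw [HH, HL_map]
  congr 1
  funext j
  by_cases hj : h ≤ j ∧ j - h < r
  · rw [zseq, dif_pos hj]
    simp only
    rw [Nat.add_sub_cancel' hj.1, useq, if_neg (by omega)]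
  · rw [zseq, dif_neg hj]
    by_cases hj' : 1 ≤ j ∧ j - 1 < n - 1
    · have h1 : useq p n j ∈ Jid p n h := Ideal.subset_span ⟨j, by simp only [Set.mem_Iio]; omega, rfl⟩
      have h2 := hJ _ h1
      rw [useq, if_neg (by omega)] at h2
      rw [h2, hon, if_neg (by omega)]
    · rw [uv, zseq, dif_neg hj', map_hon]

end points

end Crest.Agent.R227
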