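import Crest.Agent.R227.EvSub

/-!
# R227 / EvRoot : zeros of bounded one-variable series

Plan.
* `exists_div_root`: `g_i = ∑_{j > i} f_j a^{j-i-1}`.
* `card_zeros_le`: induction on the cardinality; `f_d = g_{d-1} - a g_d`.
* `exists_root`: let `d' ≥ 1` be the least index with `‖f_{d'}‖ = 1`, `ϖ` a coefficient of maximal norm among
  `f_0, …, f_{d'-1}` (if they all vanish, `0` is a root).  Weierstrass division of `X^{d'}` by `f` over the
  `ϖ`-adically complete ring `OO C` (`PowerSeries.IsWeierstrassDivisorAt`), or a direct contraction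
  argument: `f = P + X^{d'} U`, `U` a unit, find `q` bounded with `q f = X^{d'} - r`, `deg r < d'`,
  `‖r‖ ≤ ‖ϖ‖`, `‖q_0‖ = 1`; a root of `X^{d'} - r` has norm `< 1` and `‖q(y)‖ = 1`.
* `exists_zeros`: induction on `d`; `V = (X - a) g`, `V' = g + (X - a) g'`.
-/

set_option autoImplicit false
set_option linter.unusedSectionVars false
open Crest.LubinTate Filter Topology

namespace Crest.Agent.R227

variable {C : Type*} [NormedField C] [IsUltrametricDist C] [CompleteSpace C]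

theorem bd_lin {a : C} (ha : ‖a‖ < 1) : Bd (PowerSeries.X - PowerSeries.C a : PowerSeries C) :=
  (bd_X ()).sub (bd_C ha.le)

theorem ev1_lin_mul_add {g h : PowerSeries C} (hg : Bd g) (hh : An h) {a y : C} (ha : ‖a‖ < 1)
    (hy : ‖y‖ < 1) :
    ev1 ((PowerSeries.X - PowerSeries.C a) * g + h) y = (y - a) * ev1 g y + ev1 h y := by
  have hs : Sm fun _ : Unit => y := fun _ => hy
  have h1 : ev1 (PowerSeries.X - PowerSeries.C a) y = y - a :=
    (ev_sub (bd_X ()).an (an_C a) hs).trans (by rw [ev_X, ev_C])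
  rw [← h1]
  exact (ev_add ((bd_lin ha).mul hg).an hh hs).trans
    (congrArg (· + ev1 h y) (ev_mul (bd_lin ha).an hg.an hs))

theorem ev1_lin_mul_add_C {g : PowerSeries C} (hg : Bd g) (c : C) {a y : C} (ha : ‖a‖ < 1)
    (hy : ‖y‖ < 1) :
    ev1 ((PowerSeries.X - PowerSeries.C a) * g + PowerSeries.C c) y = (y - a) * ev1 g y + c :=
  (ev1_lin_mul_add hg (an_C c) ha hy).trans (congrArg _ (ev_C _ _))

/-- division by `X - a` with remainder. -/
theorem exists_div {f : PowerSeries C} (hf : Bd f) {a : C} (ha : ‖a‖ < 1) :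
    ∃ g : PowerSeries C, Bd g ∧
      f = (PowerSeries.X - PowerSeries.C a) * g + PowerSeries.C (ev1 f a) := by
  have hs : Sm fun _ : Unit => a := fun _ => ha
  have hb : ∀ i, Bd (PowerSeries.mk fun j => PowerSeries.coeff (j + i) f) := fun i =>
    (bd1_iff _).2 fun j => by rw [PowerSeries.coeff_mk]; exact (bd1_iff f).1 hf _
  set e : ℕ → C := fun i => ev1 (PowerSeries.mk fun j => PowerSeries.coeff (j + i) f) a with he
  have hrec : ∀ i, e i = a * e (i + 1) + PowerSeries.coeff i f := fun i => by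
    have h1 := ev1_lin_mul_add_C (hb (i + 1)) (PowerSeries.coeff i f) (a := 0) (by simp) ha
    rw [sub_zero] at h1
    refine Eq.trans (congrArg (ev1 · a) ?_) h1
    ext j
    cases j with
    | zero => simp
    | succ j => simp [PowerSeries.coeff_succ_X_mul, add_assoc, add_comm 1 i]
  have h0 : e 0 = ev1 f a := congrArg (ev1 · a) (by ext j; simp)
  refine ⟨PowerSeries.mk fun i => e (i + 1), (bd1_iff _).2 fun i => ?_, ?_⟩
  · rw [PowerSeries.coeff_mk]; exact (hb _).norm_ev_le_one hs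
  · ext i
    cases i with
    | zero => simp [sub_mul, ← h0, hrec 0]
    | succ i => simp [sub_mul, PowerSeries.coeff_succ_X_mul, hrec (i + 1)]

theorem norm_add_eq_one {a b : C} (ha : ‖a‖ = 1) (hb : ‖b‖ < 1) : ‖a + b‖ = 1 := by
  rw [IsUltrametricDist.norm_add_eq_max_of_norm_ne_norm (by rw [ha]; exact hb.ne'), ha,
    max_eq_left hb.le]

theorem coeff_div_eq (g : PowerSeries C) (a c : C) (i : ℕ) :
    PowerSeries.coeff i g = PowerSeries.coeff (i + 1) ((PowerSeries.X - PowerSeries.C a) * g +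
      PowerSeries.C c) + a * PowerSeries.coeff (i + 1) g := by
  simp [sub_mul, PowerSeries.coeff_succ_X_mul]

theorem Bd.norm_mul_coeff_lt {g : PowerSeries C} (hg : Bd g) {a : C} (ha : ‖a‖ < 1) (i : ℕ) :
    ‖a * PowerSeries.coeff i g‖ < 1 := by
  rw [norm_mul]
  exact mul_lt_one_of_nonneg_of_lt_one_left (norm_nonneg _) ha ((bd1_iff g).1 hg i)

theorem exists_div_root {f : PowerSeries C} (hf : Bd f) {a : C} (ha : ‖a‖ < 1)
    (h : ev1 f a = 0) : ∃ g : PowerSeries C, Bd g ∧ f = (PowerSeries.X - PowerSeries.C a) * g := by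
  simpa [h] using exists_div hf ha

theorem card_zeros_le {f : PowerSeries C} (hf : Bd f) {d : ℕ} (hd : ‖PowerSeries.coeff d f‖ = 1)
    (S : Finset C) (hS : ∀ y ∈ S, ‖y‖ < 1 ∧ ev1 f y = 0) : S.card ≤ d := by
  classical
  induction S using Finset.induction_on generalizing f d with
  | empty => simp
  | insert a S haS ih =>
    obtain ⟨ha, ha0⟩ := hS a (Finset.mem_insert_self _ _)
    obtain ⟨g, hg, e⟩ := exists_div hf ha
    rw [ha0] at e
    cases d with
    | zero =>
      have := hg.norm_mul_coeff_lt ha 0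
      rw [e] at hd
      simp only [sub_mul, map_zero, add_zero, map_sub, PowerSeries.coeff_zero_X_mul,
        PowerSeries.coeff_C_mul, zero_sub, norm_neg] at hd
      exact absurd hd this.ne
    | succ d =>
      rw [Finset.card_insert_of_notMem haS, Nat.add_le_add_iff_right]
      refine ih hg ?_ fun y hy => ?_
      · rw [coeff_div_eq g a 0, ← e]; exact norm_add_eq_one hd (hg.norm_mul_coeff_lt ha _)
      · obtain ⟨h1, h2⟩ := hS y (Finset.mem_insert_of_mem hy)
        rw [e, ev1_lin_mul_add_C hg _ ha h1, add_zero] at h2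
        exact ⟨h1, (mul_eq_zero.1 h2).resolve_left (sub_ne_zero.2 fun h => haS (h ▸ hy))⟩

theorem Bd.derivative {f : PowerSeries C} (hf : Bd f) :
    Bd (PowerSeries.derivative C f) := by
  refine (bd1_iff _).2 fun i => ?_
  rw [PowerSeries.coeff_derivative, norm_mul, ← Nat.cast_succ]
  exact mul_le_one₀ ((bd1_iff f).1 hf _) (norm_nonneg _) (IsUltrametricDist.norm_natCast_le_one C _)

variable [IsAlgClosed C]

theorem ev1_derivative_div {g : PowerSeries C} (hg : Bd g) {a y : C} (c : C) (ha : ‖a‖ < 1)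
    (hy : ‖y‖ < 1) :
    ev1 (PowerSeries.derivative C ((PowerSeries.X - PowerSeries.C a) * g + PowerSeries.C c)) y =
      (y - a) * ev1 (PowerSeries.derivative C g) y + ev1 g y := by
  rw [← ev1_lin_mul_add hg.derivative hg.an ha hy]
  simp

theorem exists_poly_approx {y : C} (hy : ‖y‖ < 1) (d : ℕ) {f : PowerSeries C} (hf : Bd f)
    (hd : ‖PowerSeries.coeff d f‖ = 1) : ∃ P : Polynomial C, P.natDegree = d ∧
      ‖P.leadingCoeff‖ = 1 ∧ P.eval 0 = ev1 f y ∧
      ∀ t, ‖t‖ < 1 → ‖ev1 f (y + t) - P.eval t‖ ≤ ‖t‖ ^ (d + 1) := by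
  have hyt : ∀ t : C, ‖t‖ < 1 → ‖y + t‖ < 1 := fun t ht =>
    (IsUltrametricDist.norm_add_le_max _ _).trans_lt (max_lt hy ht)
  induction d generalizing f with
  | zero =>
    refine ⟨Polynomial.C (ev1 f y), by simp, ?_, by simp, fun t ht => ?_⟩
    · have h1 := hf.norm_ev_sub_le (y := fun _ => y) (y' := 0) (fun _ => hy) (fun _ => by simp)
        (norm_nonneg y) fun _ => by simp
      rw [ev_zero_right] at h1
      rw [Polynomial.leadingCoeff_C, ← add_sub_cancel (PowerSeries.coeff 0 f) (ev1 f y)]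
      refine norm_add_eq_one hd (lt_of_le_of_lt ?_ hy)
      rw [PowerSeries.coeff_zero_eq_constantCoeff_apply]; exact h1
    · rw [Polynomial.eval_C, zero_add, pow_one]
      exact hf.norm_ev_sub_le (fun _ => hyt t ht) (fun _ => hy) (norm_nonneg t) fun _ => by simp
  | succ d ih =>
    obtain ⟨g, hg, e⟩ := exists_div hf hy
    obtain ⟨P, h1, h2, -, h4⟩ := ih hg (by
      rw [coeff_div_eq g y (ev1 f y), ← e]; exact norm_add_eq_one hd (hg.norm_mul_coeff_lt hy _))
    have h0 : P ≠ 0 := by rintro rfl; simp at h2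
    have h5 : (P * Polynomial.X + Polynomial.C (ev1 f y)).natDegree = d + 1 := by
      rw [Polynomial.natDegree_add_C, Polynomial.natDegree_mul_X h0, h1]
    refine ⟨P * Polynomial.X + Polynomial.C (ev1 f y), h5, ?_, by simp, fun t ht => ?_⟩
    · rw [Polynomial.leadingCoeff, h5, ← h2, Polynomial.leadingCoeff, h1]; simp
    · have h6 := (congrArg (ev1 · (y + t)) e).trans (ev1_lin_mul_add_C hg _ hy (hyt t ht))
      have h7 : ev1 f (y + t) - (P * Polynomial.X + Polynomial.C (ev1 f y)).eval t =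
          (ev1 g (y + t) - P.eval t) * t := by rw [h6]; simp; ring
      rw [h7, norm_mul, pow_succ _ (d + 1)]
      exact mul_le_mul_of_nonneg_right (h4 t ht) (norm_nonneg _)

theorem exists_small_root {P : Polynomial C} (hd : P.natDegree ≠ 0) (hl : ‖P.leadingCoeff‖ = 1) :
    ∃ t, P.eval t = 0 ∧ ‖t‖ ^ P.natDegree ≤ ‖P.eval 0‖ := by
  classical
  have hs := IsAlgClosed.splits P
  rw [hs.natDegree_eq_card_roots] at hd ⊢
  obtain ⟨t, ht, hmin⟩ := P.roots.toFinset.exists_min_image (fun x => ‖x‖₊)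
    (Multiset.toFinset_nonempty.2 (mt Multiset.card_eq_zero.2 hd))
  refine ⟨t, (Polynomial.mem_roots'.1 (Multiset.mem_toFinset.1 ht)).2, ?_⟩
  rw [hs.eval_eq_prod_roots 0, norm_mul, hl, one_mul, ← coe_nnnorm, ← coe_nnnorm, ← NNReal.coe_pow,
    NNReal.coe_le_coe, ← nnnormHom_apply (Multiset.prod _), map_multiset_prod, Multiset.map_map,
    ← Multiset.card_map (nnnormHom ∘ fun x => 0 - x)]
  refine Multiset.pow_card_le_prod fun x hx => ?_
  obtain ⟨z, hz, rfl⟩ := Multiset.mem_map.1 hx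
  simpa using hmin z (Multiset.mem_toFinset.2 hz)

theorem exists_root {f : PowerSeries C} (hf : Bd f) {d : ℕ} (hd : ‖PowerSeries.coeff d f‖ = 1)
    (h0 : ‖PowerSeries.coeff 0 f‖ < 1) : ∃ y : C, ‖y‖ < 1 ∧ ev1 f y = 0 := by
  have hd0 : d ≠ 0 := by rintro rfl; exact h0.ne hd
  have step : ∀ y : C, ∃ t : C, ‖y‖ < 1 → ‖t‖ ^ d ≤ ‖ev1 f y‖ ∧
      (‖t‖ < 1 → ‖ev1 f (y + t)‖ ≤ ‖t‖ ^ (d + 1)) := fun y => by
    by_cases hy : ‖y‖ < 1
    · obtain ⟨P, h1, h2, h3, h4⟩ := exists_poly_approx hy d hf hd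
      obtain ⟨t, h5, h6⟩ := exists_small_root (h1 ▸ hd0) h2
      exact ⟨t, fun _ => ⟨by rwa [h1, h3] at h6, fun ht => by simpa [h5] using h4 t ht⟩⟩
    · exact ⟨0, fun h => absurd h hy⟩
  choose T hT using step
  obtain ⟨z, hz⟩ := IsAlgClosed.exists_pow_nat_eq (PowerSeries.coeff 0 f)
    (Nat.pos_of_ne_zero (mul_ne_zero hd0 hd0))
  have hz0 := norm_nonneg z
  have hz1 : ‖z‖ < 1 := by
    rw [← hz, norm_pow] at h0
    exact (pow_lt_one_iff_of_nonneg hz0 (mul_ne_zero hd0 hd0)).1 h0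
  have hθ : ‖z‖ ^ d < 1 := pow_lt_one₀ hz0 hz1 hd0
  set y : ℕ → C := fun n => (fun y => y + T y)^[n] 0 with hy
  have hs : ∀ n, y (n + 1) = y n + T (y n) := fun n => Function.iterate_succ_apply' _ _ _
  have hle : ∀ n, ‖z‖ ^ d * ‖z‖ ^ n ≤ ‖z‖ ^ d := fun n =>
    mul_le_of_le_one_right (by positivity) (pow_le_one₀ hz0 hz1.le)
  have hT1 : ∀ n, ‖y n‖ ≤ ‖z‖ ^ d → ‖ev1 f (y n)‖ ≤ (‖z‖ ^ d * ‖z‖ ^ n) ^ d →
      ‖T (y n)‖ ≤ ‖z‖ ^ d * ‖z‖ ^ n := fun n h1 h2 =>
    le_of_pow_le_pow_left₀ hd0 (by positivity) ((hT _ (h1.trans_lt hθ)).1.trans h2)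
  have inv : ∀ n, ‖y n‖ ≤ ‖z‖ ^ d ∧ ‖ev1 f (y n)‖ ≤ (‖z‖ ^ d * ‖z‖ ^ n) ^ d := fun n => by
    induction n with
    | zero =>
      refine ⟨by simp [hy], ?_⟩
      rw [show y 0 = 0 from rfl, ev1_zero_right, ← PowerSeries.coeff_zero_eq_constantCoeff_apply,
        ← hz, norm_pow, pow_zero, mul_one, pow_mul]
    | succ n ih =>
      have h1 := hT1 n ih.1 ih.2
      rw [hs]
      refine ⟨(IsUltrametricDist.norm_add_le_max _ _).trans (max_le ih.1 (h1.trans (hle n))),
        ((hT _ (ih.1.trans_lt hθ)).2 ((h1.trans (hle n)).trans_lt hθ)).trans ?_⟩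
      rw [pow_succ, pow_succ, ← mul_assoc, mul_pow _ ‖z‖]
      exact mul_le_mul (pow_le_pow_left₀ (norm_nonneg _) h1 _) (h1.trans (hle n)) (norm_nonneg _)
        (by positivity)
  obtain ⟨w, hw⟩ := cauchySeq_tendsto_of_complete (cauchySeq_of_le_geometric ‖z‖ (‖z‖ ^ d) hz1
    (f := y) fun n => by
      rw [dist_comm, dist_eq_norm, hs, add_sub_cancel_left]; exact hT1 n (inv n).1 (inv n).2)
  have hw1 : ‖w‖ < 1 := (le_of_tendsto' hw.norm fun n => (inv n).1).trans_lt hθ
  refine ⟨w, hw1, tendsto_nhds_unique (f := fun n => ev1 f (y n)) (l := atTop) ?_ ?_⟩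
  · rw [tendsto_iff_norm_sub_tendsto_zero] at hw ⊢
    exact squeeze_zero (fun _ => norm_nonneg _) (fun n => hf.norm_ev_sub_le
      (fun _ => (inv n).1.trans_lt hθ) (fun _ => hw1) (norm_nonneg _) fun _ => le_rfl) hw
  · refine squeeze_zero_norm (fun n => (inv n).2.trans ?_)
      (tendsto_pow_atTop_nhds_zero_of_lt_one hz0 hz1)
    exact (pow_le_of_le_one (by positivity) ((hle n).trans hθ.le) hd0).trans
      (mul_le_of_le_one_left (by positivity) hθ.le)

theorem exists_zeros {V : PowerSeries C} (hV : Bd V) {d : ℕ}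
    (hd : ‖PowerSeries.coeff d V‖ = 1) (hlt : ∀ i < d, ‖PowerSeries.coeff i V‖ < 1)
    (hsimple : ∀ y : C, ‖y‖ < 1 → ev1 V y = 0 → ev1 (PowerSeries.derivative C V) y ≠ 0) :
    ∃ S : Finset C, S.card = d ∧ ∀ y ∈ S, ‖y‖ < 1 ∧ ev1 V y = 0 := by
  classical
  induction d generalizing V with
  | zero => exact ⟨∅, rfl, by simp⟩
  | succ d ih =>
    obtain ⟨a, ha, ha0⟩ := exists_root hV hd (hlt 0 (Nat.succ_pos d))
    obtain ⟨g, hg, e⟩ := exists_div hV ha
    rw [ha0] at e
    have h1 : ∀ y : C, ‖y‖ < 1 → ev1 g y = 0 → ev1 V y = 0 ∧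
        (y - a) * ev1 (PowerSeries.derivative C g) y ≠ 0 := fun y hy h => by
      have h2 : ev1 V y = 0 := by
        rw [e, ev1_lin_mul_add_C hg _ ha hy, h, mul_zero, add_zero]
      have h3 := hsimple y hy h2
      rw [e, ev1_derivative_div hg _ ha hy, h, add_zero] at h3
      exact ⟨h2, h3⟩
    obtain ⟨S, hS, hS'⟩ := ih hg
      (by rw [coeff_div_eq g a 0, ← e]; exact norm_add_eq_one hd (hg.norm_mul_coeff_lt ha _))
      (fun i hi => by
        rw [coeff_div_eq g a 0, ← e]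
        exact (IsUltrametricDist.norm_add_le_max _ _).trans_lt
          (max_lt (hlt _ (by omega)) (hg.norm_mul_coeff_lt ha _)))
      fun y hy h => right_ne_zero_of_mul (h1 y hy h).2
    have haS : a ∉ S := fun h => (h1 a ha (hS' a h).2).2 (by rw [sub_self, zero_mul])
    refine ⟨insert a S, by rw [Finset.card_insert_of_notMem haS, hS], fun y hy => ?_⟩
    rcases Finset.mem_insert.1 hy with rfl | hy
    · exact ⟨ha, ha0⟩
    · exact ⟨(hS' y hy).1, (h1 y (hS' y hy).1 (hS' y hy).2).1⟩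

/-- second order Taylor estimate at a point, one variable. -/
theorem norm_ev1_taylor {f : PowerSeries C} (hf : Bd f) {y t : C} (hy : ‖y‖ < 1) (ht : ‖t‖ < 1) :
    ‖ev1 f (y + t) - ev1 f y - t * ev1 (PowerSeries.derivative C f) y‖ ≤ ‖t‖ ^ 2 := by
  have hyt : ‖y + t‖ < 1 := (IsUltrametricDist.norm_add_le_max _ _).trans_lt (max_lt hy ht)
  obtain ⟨g, hg, e⟩ := exists_div hf hy
  obtain ⟨h, hh, e'⟩ := exists_div hg hy
  have h1 := (congrArg (ev1 · (y + t)) e).trans (ev1_lin_mul_add_C hg _ hy hyt)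
  have h2 := (congrArg (ev1 · (y + t)) e').trans (ev1_lin_mul_add_C hh _ hy hyt)
  have h3 := (congrArg (fun f => ev1 (PowerSeries.derivative C f) y) e).trans
    (ev1_derivative_div hg _ hy hy)
  have h4 : ev1 f (y + t) - ev1 f y - t * ev1 (PowerSeries.derivative C f) y =
      t ^ 2 * ev1 h (y + t) := by rw [h1, h2, h3]; ring
  rw [h4, norm_mul, norm_pow]
  exact mul_le_of_le_one_right (by positivity) (hh.norm_ev_le_one fun _ => hyt)

end Crest.Agent.R227
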