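import Crest.Agent.R227.FG

/-!
# R227 / FE : the functional equation lemma (Honda / Hazewinkel)

`A → K` is an injective ring map, `p` is invertible in `K`, `σ` is a lift of Frobenius.
`T` acts on series by `F(X) ↦ F^σ(X^p)` and `u = p - ∑_{j=1}^n v_j T^j`.

Plan.
* `den_of_uact`: strong induction on `i`: `p f_i = ∑_j v_j σ^j (f_{i/p^j}) + p a`
  (terms with `p^j ∤ i` vanish: `coeff_expand_of_not_dvd`), multiply by `p^(v(i)-1)`;
  if `v(i) = 0` cancel `p` using `pinv`.
* `pint_subst_sub` (L0): coefficientwise finite sum `∑ g_i (α^i - β^i)`, and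
  `α ≡ β mod p ⇒ α^i ≡ β^i mod p^(v_p(i)+1)` (in the ring `MvPowerSeries τ A`:
  `dvd_sub_pow_of_dvd_sub` for `p^v`, then `sub_dvd_pow_sub_pow`).
* `pint_Tact_subst`: `T^j (g ∘ H) = g^{σ^j}(H^{σ^j}(X^{p^j}))` (`map_subst`, `expand_subst`) and
  `H^{σ^j}(X^{p^j}) ≡ H^{p^j} mod p` (reduce mod `p`: `map_iterateFrobenius_expand` over `A ⧸ p`,
  or induction on `j`), then L0 for `g^{σ^j}` (which again satisfies `Den`), and
  `(T^j g) ∘ H = g^{σ^j}(H^{p^j})`.
* `intg_of_uact` (FE1): induction on the total degree `d`: let `H₀` be the integral truncation of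
  `H` in degrees `< d` (`d ≥ 1`); in degrees `≤ d`, `T^j (f∘H) = T^j (f∘H₀)` for `j ≥ 1` and
  `f∘H = f∘H₀ + (H - H₀)`.  By `pint_uact_subst`, `u(f∘H₀) ≡ 0 mod p`, so `p (H - H₀)_e ∈ pA`
  for `|e| = d`; cancel `p`.
* `dvd_of_pint_subst` (FE4): induction on the degree: modify `β` by `p·(series)` to `β'` agreeing with
  `α` in degrees `< d`; L0 gives `f∘β' ≡ f∘β`; in degree `d`, `f∘α - f∘β' = α - β'`.
-/

set_option autoImplicit false
open Crest.LubinTate

namespace Crest.Agent.R227

/-- Frobenius data on `A ⊆ K`. -/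
structure Frob (p : ℕ) (A K : Type*) [CommRing A] [CommRing K] [Algebra A K] where
  σA : A →+* A
  σK : K →+* K
  comm : ∀ a : A, σK (algebraMap A K a) = algebraMap A K (σA a)
  lift : ∀ a : A, (p : A) ∣ σA a - a ^ p
  inj : Function.Injective (algebraMap A K)
  pinv : K
  mul_pinv : (p : K) * pinv = 1

/-- the standard example `K = A[1/p]`, for `p` a non-zero-divisor of `A`. -/
theorem exists_frob_away (p : ℕ) {A : Type*} [CommRing A] (hp : (p : A) ∈ nonZeroDivisors A)
    (σ : A →+* A) (hσ : ∀ a : A, (p : A) ∣ σ a - a ^ p) :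
    ∃ D : Frob p A (Localization.Away (p : A)), D.σA = σ := by
  have hu : IsUnit (((algebraMap A (Localization.Away (p : A))).comp σ) (p : A)) := by
    rw [RingHom.comp_apply, map_natCast σ]
    exact IsLocalization.Away.algebraMap_isUnit (p : A)
  refine ⟨⟨σ, IsLocalization.Away.lift (p : A) hu, fun a => IsLocalization.Away.lift_eq _ hu a, hσ,
    IsLocalization.injective _ (M := Submonoid.powers (p : A)) ?_,
    IsLocalization.Away.invSelf (p : A), ?_⟩, rfl⟩
  · exact Submonoid.powers_le.2 hp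
  · rw [← map_natCast (algebraMap A (Localization.Away (p : A)))]
    exact IsLocalization.Away.mul_invSelf _

/-- a choice of the Frobenius data on `A ⊆ A[1/p]`. -/
noncomputable def Frob.away (p : ℕ) {A : Type*} [CommRing A] (hp : (p : A) ∈ nonZeroDivisors A)
    (σ : A →+* A) (hσ : ∀ a : A, (p : A) ∣ σ a - a ^ p) :
    Frob p A (Localization.Away (p : A)) := (exists_frob_away p hp σ hσ).choose

theorem Frob.away_σA (p : ℕ) {A : Type*} [CommRing A] (hp : (p : A) ∈ nonZeroDivisors A)
    (σ : A →+* A) (hσ : ∀ a : A, (p : A) ∣ σ a - a ^ p) : (Frob.away p hp σ hσ).σA = σ :=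
  (exists_frob_away p hp σ hσ).choose_spec

variable {p : ℕ} [hp : Fact p.Prime] {A K : Type*} [CommRing A] [CommRing K] [Algebra A K]
variable {τ : Type*}

variable (A) in
/-- all coefficients lie in `A`. -/
def Intg (F : MvPowerSeries τ K) : Prop :=
  ∃ G : MvPowerSeries τ A, MvPowerSeries.map (algebraMap A K) G = F

variable (p A) in
/-- all coefficients lie in `pA`. -/
def PInt (F : MvPowerSeries τ K) : Prop :=
  ∃ G : MvPowerSeries τ A, MvPowerSeries.map (algebraMap A K) ((p : A) • G) = F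

/-- `T^j F = F^{σ^j}(X^{p^j})`. -/
noncomputable def Frob.Tact (D : Frob p A K) (j : ℕ) (F : MvPowerSeries τ K) :
    MvPowerSeries τ K :=
  MvPowerSeries.expand (p ^ j) (pow_ne_zero j hp.out.ne_zero) (MvPowerSeries.map (D.σK ^ j) F)

/-- `u F = p F - ∑_{j=1}^n v_j T^j F`. -/
noncomputable def Frob.uact (D : Frob p A K) (n : ℕ) (v : ℕ → A) (F : MvPowerSeries τ K) :
    MvPowerSeries τ K :=
  (p : K) • F - ∑ j ∈ Finset.range n, algebraMap A K (v (j + 1)) • D.Tact (j + 1) F

variable (p A) in
/-- bounded denominators: `p^{v_p(i)} g_i ∈ A`. -/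
def Den (g : PowerSeries K) : Prop :=
  ∀ i : ℕ, ∃ a : A, algebraMap A K a = (p : K) ^ (padicValNat p i) * PowerSeries.coeff i g

theorem hasS {R : Type*} [CommRing R] {a : MvPowerSeries τ R}
    (ha : MvPowerSeries.constantCoeff a = 0) : PowerSeries.HasSubst a :=
  PowerSeries.HasSubst.of_constantCoeff_zero ha

theorem exists_mv {R : Type*} [CommRing R] (a : (τ →₀ ℕ) → R) :
    ∃ G : MvPowerSeries τ R, ∀ e, MvPowerSeries.coeff e G = a e := ⟨a, fun _ => rfl⟩

theorem const_map {R S : Type*} [CommRing R] [CommRing S] (ρ : R →+* S) {a : MvPowerSeries τ R}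
    (ha : MvPowerSeries.constantCoeff a = 0) :
    MvPowerSeries.constantCoeff (MvPowerSeries.map ρ a) = 0 := by
  rw [MvPowerSeries.constantCoeff_map, ha, map_zero]

/-- coefficients of a substitution as a finite sum. -/
theorem coeff_subst_range {R : Type*} [CommRing R] {a : MvPowerSeries τ R}
    (ha : MvPowerSeries.constantCoeff a = 0) (f : PowerSeries R) (e : τ →₀ ℕ) {N : ℕ}
    (hN : e.degree < N) :
    MvPowerSeries.coeff e (PowerSeries.subst a f) =
      ∑ k ∈ Finset.range N, PowerSeries.coeff k f * MvPowerSeries.coeff e (a ^ k) := by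
  rw [PowerSeries.coeff_subst (hasS ha)]
  refine finsum_eq_sum_of_support_subset _ fun k hk => ?_
  simp only [Finset.coe_range, Set.mem_Iio]
  by_contra hc
  apply hk
  have : MvPowerSeries.coeff e (a ^ k) = 0 := MvPowerSeries.coeff_of_lt_order
    (lt_of_lt_of_le (by exact_mod_cast (by omega : e.degree < k))
      (MvPowerSeries.le_order_pow_of_constantCoeff_eq_zero k ha))
  simp [this]

/-- first-order behaviour of substitution. -/
theorem coeff_subst_sub {R : Type*} [CommRing R] {a b : MvPowerSeries τ R}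
    (ha : MvPowerSeries.constantCoeff a = 0) (hb : MvPowerSeries.constantCoeff b = 0)
    (f : PowerSeries R) {d : ℕ} (hd : ∀ e : τ →₀ ℕ, e.degree < d → MvPowerSeries.coeff e (a - b) = 0)
    (e : τ →₀ ℕ) (he : e.degree ≤ d) :
    MvPowerSeries.coeff e (PowerSeries.subst a f - PowerSeries.subst b f) =
      PowerSeries.coeff 1 f * MvPowerSeries.coeff e (a - b) := by
  have hd' : (d : ℕ∞) ≤ (a - b).order := MvPowerSeries.nat_le_order hd
  rw [map_sub, coeff_subst_range ha f e (N := d + 2) (by omega),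
    coeff_subst_range hb f e (N := d + 2) (by omega), ← Finset.sum_sub_distrib,
    Finset.sum_range_succ', Finset.sum_range_succ', Finset.sum_eq_zero]
  · simp [mul_sub]
  intro k _
  rw [← mul_sub, ← map_sub]
  obtain ⟨c, hc⟩ := sub_dvd_pow_sub_pow a b (k + 1)
  have e1 : a ^ (k + 1 + 1) - b ^ (k + 1 + 1) = (a - b) * (a * c + b * b ^ k) := by
    linear_combination a * hc
  have h1 : (1 : ℕ∞) ≤ (a * c + b * b ^ k).order := by
    rw [MvPowerSeries.one_le_order_iff_constCoeff_eq_zero]; simp [ha, hb]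
  rw [e1, MvPowerSeries.coeff_of_lt_order, mul_zero]
  refine lt_of_lt_of_le ?_ ((add_le_add hd' h1).trans MvPowerSeries.le_order_mul)
  exact_mod_cast (by omega : e.degree < d + 1)

theorem natCast_dvd_iff {R : Type*} [CommRing R] (m : ℕ) (F : MvPowerSeries τ R) :
    (m : MvPowerSeries τ R) ∣ F ↔ ∀ e, (m : R) ∣ MvPowerSeries.coeff e F := by
  constructor
  · rintro ⟨G, rfl⟩ e
    rw [← nsmul_eq_mul, map_nsmul, nsmul_eq_mul]
    exact dvd_mul_right _ _
  · intro h
    choose a ha using h
    obtain ⟨G, hG⟩ := exists_mv a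
    refine ⟨G, MvPowerSeries.ext fun e => ?_⟩
    rw [← nsmul_eq_mul, map_nsmul, nsmul_eq_mul, hG, ha]

omit hp in
theorem Frob.comm_pow (D : Frob p A K) (j : ℕ) (a : A) :
    (D.σK ^ j) (algebraMap A K a) = algebraMap A K ((D.σA ^ j) a) := by
  induction j with
  | zero => rfl
  | succ j ih => rw [pow_succ', pow_succ', RingHom.mul_def, RingHom.mul_def, RingHom.comp_apply,
      RingHom.comp_apply, ih, D.comm]

omit hp in
theorem Frob.cancel (D : Frob p A K) {x y : K} (h : (p : K) * x = p * y) : x = y := by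
  have := congrArg (D.pinv * ·) h
  simp only [← mul_assoc] at this
  rwa [mul_comm D.pinv, D.mul_pinv, one_mul, one_mul] at this

omit hp in
theorem Frob.map_map (D : Frob p A K) (j : ℕ) (G : MvPowerSeries τ A) :
    MvPowerSeries.map (D.σK ^ j) (MvPowerSeries.map (algebraMap A K) G) =
      MvPowerSeries.map (algebraMap A K) (MvPowerSeries.map (D.σA ^ j) G) := by
  ext e
  simp only [MvPowerSeries.coeff_map, D.comm_pow]

omit hp in
theorem intg_iff (F : MvPowerSeries τ K) :
    Intg A F ↔ ∀ d, ∃ a : A, algebraMap A K a = MvPowerSeries.coeff d F := by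
  constructor
  · rintro ⟨G, rfl⟩ d
    exact ⟨MvPowerSeries.coeff d G, (MvPowerSeries.coeff_map _ _ _).symm⟩
  · intro h
    choose a ha using h
    obtain ⟨G, hG⟩ := exists_mv a
    refine ⟨G, MvPowerSeries.ext fun d => ?_⟩
    rw [MvPowerSeries.coeff_map, hG, ha]

omit hp in
theorem pint_iff (F : MvPowerSeries τ K) :
    PInt p A F ↔ ∀ d, ∃ a : A, algebraMap A K ((p : A) * a) = MvPowerSeries.coeff d F := by
  constructor
  · rintro ⟨G, rfl⟩ d
    exact ⟨MvPowerSeries.coeff d G, by rw [MvPowerSeries.coeff_map, map_smul, smul_eq_mul]⟩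
  · intro h
    choose a ha using h
    obtain ⟨G, hG⟩ := exists_mv a
    refine ⟨G, MvPowerSeries.ext fun d => ?_⟩
    rw [MvPowerSeries.coeff_map, map_smul, smul_eq_mul, hG, ha]

omit hp in
theorem PInt.add {F G : MvPowerSeries τ K} (hF : PInt p A F) (hG : PInt p A G) :
    PInt p A (F + G) := by
  obtain ⟨a, rfl⟩ := hF
  obtain ⟨b, rfl⟩ := hG
  exact ⟨a + b, by rw [smul_add, map_add]⟩

omit hp in
theorem PInt.neg {F : MvPowerSeries τ K} (hF : PInt p A F) : PInt p A (-F) := by
  obtain ⟨a, rfl⟩ := hF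
  exact ⟨-a, by rw [smul_neg, map_neg]⟩

omit hp in
theorem PInt.sub {F G : MvPowerSeries τ K} (hF : PInt p A F) (hG : PInt p A G) :
    PInt p A (F - G) := by
  rw [sub_eq_add_neg]; exact hF.add hG.neg

omit hp in
theorem PInt.zero : PInt p A (0 : MvPowerSeries τ K) := ⟨0, by simp⟩

omit hp in
theorem PInt.sum {ι : Type*} {s : Finset ι} {F : ι → MvPowerSeries τ K}
    (h : ∀ i ∈ s, PInt p A (F i)) : PInt p A (∑ i ∈ s, F i) :=
  Finset.sum_induction _ _ (fun _ _ => PInt.add) PInt.zero h

omit hp in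
theorem map_p_smul (G : MvPowerSeries τ A) :
    MvPowerSeries.map (algebraMap A K) ((p : A) • G) =
      (p : K) • MvPowerSeries.map (algebraMap A K) G := by
  ext e
  simp only [MvPowerSeries.coeff_map, map_smul, smul_eq_mul, map_mul, map_natCast]

omit hp in
theorem PInt.smul {F : MvPowerSeries τ K} (hF : PInt p A F) (a : A) :
    PInt p A (algebraMap A K a • F) := by
  rw [pint_iff] at hF ⊢
  intro d
  obtain ⟨b, hb⟩ := hF d
  exact ⟨a * b, by rw [map_smul, ← hb, smul_eq_mul, ← map_mul, mul_left_comm]⟩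

theorem PInt.Tact (D : Frob p A K) {F : MvPowerSeries τ K} (hF : PInt p A F) (j : ℕ) :
    PInt p A (D.Tact j F) := by
  obtain ⟨G, rfl⟩ := hF
  refine ⟨MvPowerSeries.expand (p ^ j) (pow_ne_zero j hp.out.ne_zero)
    (MvPowerSeries.map (D.σA ^ j) G), ?_⟩
  rw [Frob.Tact, D.map_map, ← MvPowerSeries.map_expand (f := algebraMap A K), ← map_smul]
  congr 2
  ext e
  simp only [MvPowerSeries.coeff_map, map_smul, smul_eq_mul, map_mul, map_natCast]

omit hp in
/-- substituting an integral series into a series divisible by `p`. -/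
theorem PInt.subst {g : PowerSeries K} (hg : PInt p A g) {H : MvPowerSeries τ A}
    (hH : MvPowerSeries.constantCoeff H = 0) :
    PInt p A (PowerSeries.subst (MvPowerSeries.map (algebraMap A K) H) g) := by
  obtain ⟨G, rfl⟩ := hg
  refine ⟨PowerSeries.subst H (G : PowerSeries A), ?_⟩
  rw [← PowerSeries.subst_smul (hasS hH), PowerSeries.map_subst (hasS hH)]
  rfl

theorem Frob.Tact_add (D : Frob p A K) (j : ℕ) (F G : MvPowerSeries τ K) :
    D.Tact j (F + G) = D.Tact j F + D.Tact j G := by
  simp only [Frob.Tact, map_add]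

theorem Frob.Tact_neg (D : Frob p A K) (j : ℕ) (F : MvPowerSeries τ K) :
    D.Tact j (-F) = -D.Tact j F := by
  simp only [Frob.Tact, map_neg]

theorem Frob.Tact_sub (D : Frob p A K) (j : ℕ) (F G : MvPowerSeries τ K) :
    D.Tact j (F - G) = D.Tact j F - D.Tact j G := by
  simp only [Frob.Tact, map_sub]

theorem Frob.Tact_smul (D : Frob p A K) (j : ℕ) (c : K) (F : MvPowerSeries τ K) :
    D.Tact j (c • F) = (D.σK ^ j) c • D.Tact j F := by
  rw [Frob.Tact, Frob.Tact, ← map_smul]
  congr 1
  ext e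
  simp only [MvPowerSeries.coeff_map, map_smul, smul_eq_mul, map_mul]

theorem Frob.uact_add (D : Frob p A K) (n : ℕ) (v : ℕ → A) (F G : MvPowerSeries τ K) :
    D.uact n v (F + G) = D.uact n v F + D.uact n v G := by
  simp only [Frob.uact, Frob.Tact_add, smul_add, Finset.sum_add_distrib]
  abel

theorem Frob.uact_neg (D : Frob p A K) (n : ℕ) (v : ℕ → A) (F : MvPowerSeries τ K) :
    D.uact n v (-F) = -D.uact n v F := by
  simp only [Frob.uact, Frob.Tact_neg, smul_neg, Finset.sum_neg_distrib]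
  abel

theorem Frob.uact_sub (D : Frob p A K) (n : ℕ) (v : ℕ → A) (F G : MvPowerSeries τ K) :
    D.uact n v (F - G) = D.uact n v F - D.uact n v G := by
  rw [sub_eq_add_neg, D.uact_add, D.uact_neg, sub_eq_add_neg]

theorem Frob.uact_p_smul (D : Frob p A K) (n : ℕ) (v : ℕ → A) (F : MvPowerSeries τ K) :
    D.uact n v ((p : K) • F) = (p : K) • D.uact n v F := by
  simp only [Frob.uact, Frob.Tact_smul, map_natCast, smul_sub, Finset.smul_sum]
  congr 1
  exact Finset.sum_congr rfl fun _ _ => smul_comm _ _ _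

theorem Frob.Tact_subst (D : Frob p A K) {H : MvPowerSeries τ K}
    (hH : MvPowerSeries.constantCoeff H = 0) (j : ℕ) (g : PowerSeries K) :
    D.Tact j (PowerSeries.subst H g) =
      PowerSeries.subst (D.Tact j H) (PowerSeries.map (D.σK ^ j) g) := by
  rw [Frob.Tact, PowerSeries.map_subst (hasS hH), PowerSeries.expand_subst _ _ (hasS (const_map _ hH))]
  rfl

theorem Frob.subst_Tact (D : Frob p A K) {H : MvPowerSeries τ K}
    (hH : MvPowerSeries.constantCoeff H = 0) (j : ℕ) (g : PowerSeries K) :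
    PowerSeries.subst H (D.Tact j g : PowerSeries K) =
      PowerSeries.subst (H ^ p ^ j) (PowerSeries.map (D.σK ^ j) g) := by
  have e : (D.Tact j g : PowerSeries K) = PowerSeries.subst (PowerSeries.X ^ p ^ j : PowerSeries K)
      (PowerSeries.map (D.σK ^ j) g) :=
    PowerSeries.expand_apply (p ^ j) (pow_ne_zero j hp.out.ne_zero) _
  rw [e, PowerSeries.subst_comp_subst_apply
    (PowerSeries.HasSubst.X_pow (pow_ne_zero j hp.out.ne_zero)) (hasS hH),
    PowerSeries.subst_pow (hasS hH), PowerSeries.subst_X (hasS hH)]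

theorem Frob.subst_uact (D : Frob p A K) (n : ℕ) (v : ℕ → A) {H : MvPowerSeries τ K}
    (hH : MvPowerSeries.constantCoeff H = 0) (g : PowerSeries K) :
    PowerSeries.subst H (D.uact n v g : PowerSeries K) = (p : K) • PowerSeries.subst H g -
      ∑ j ∈ Finset.range n, algebraMap A K (v (j + 1)) •
        PowerSeries.subst H (D.Tact (j + 1) g : PowerSeries K) := by
  simp only [← PowerSeries.coe_substAlgHom (hasS hH), ← map_smul, ← map_sum, ← map_sub]
  rfl

/-- `T^j` commutes with substituting a variable. -/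
theorem Frob.Tact_subst_X (D : Frob p A K) (j : ℕ) (g : PowerSeries K) (t : τ) :
    D.Tact j (PowerSeries.subst (MvPowerSeries.X t : MvPowerSeries τ K) g) =
      PowerSeries.subst (MvPowerSeries.X t : MvPowerSeries τ K) (D.Tact j g : PowerSeries K) := by
  rw [D.Tact_subst (by simp), D.subst_Tact (by simp), Frob.Tact, MvPowerSeries.map_X,
    MvPowerSeries.expand_X]

theorem Frob.uact_subst_X (D : Frob p A K) (n : ℕ) (v : ℕ → A) (g : PowerSeries K) (t : τ) :
    D.uact n v (PowerSeries.subst (MvPowerSeries.X t : MvPowerSeries τ K) g) =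
      PowerSeries.subst (MvPowerSeries.X t : MvPowerSeries τ K)
        (D.uact n v g : PowerSeries K) := by
  rw [D.subst_uact n v (by simp), Frob.uact]
  simp only [D.Tact_subst_X]

omit hp in
theorem Den.map (D : Frob p A K) {g : PowerSeries K} (hg : Den p A g) (j : ℕ) :
    Den p A (PowerSeries.map (D.σK ^ j) g) := by
  intro i
  obtain ⟨a, ha⟩ := hg i
  exact ⟨(D.σA ^ j) a, by rw [← D.comm_pow, ha, PowerSeries.coeff_map, map_mul, map_pow, map_natCast]⟩

theorem Frob.coeff_Tact (D : Frob p A K) (j : ℕ) (f : PowerSeries K) (i : ℕ) :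
    PowerSeries.coeff i (D.Tact j f : PowerSeries K) =
      if p ^ j ∣ i then (D.σK ^ j) (PowerSeries.coeff (i / p ^ j) f) else 0 :=
  PowerSeries.coeff_expand (p ^ j) (pow_ne_zero j hp.out.ne_zero) (PowerSeries.map (D.σK ^ j) f)

theorem den_of_uact (D : Frob p A K) {n : ℕ} {v : ℕ → A} {f : PowerSeries K}
    (h0 : PowerSeries.constantCoeff f = 0) (hu : PInt p A (D.uact n v f)) : Den p A f := by
  intro i
  induction i using Nat.strong_induction_on with
  | _ i ih =>
  rcases Nat.eq_zero_or_pos i with rfl | hi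
  · exact ⟨0, by simp [h0]⟩
  obtain ⟨a, ha⟩ := (pint_iff _).1 hu (Finsupp.single () i)
  have key : ∀ j, ∃ b : A, algebraMap A K (p * b) =
      (p : K) ^ padicValNat p i * PowerSeries.coeff i (D.Tact (j + 1) f : PowerSeries K) := by
    intro j
    rw [D.coeff_Tact]
    split_ifs with h
    · obtain ⟨m, rfl⟩ := h
      have hm : m ≠ 0 := by rintro rfl; simp at hi
      have h1 : 1 < p ^ (j + 1) := Nat.one_lt_pow (by omega) hp.out.one_lt
      obtain ⟨c, hc⟩ := ih m (by nlinarith [Nat.pos_of_ne_zero hm])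
      refine ⟨p ^ j * (D.σA ^ (j + 1)) c, ?_⟩
      rw [Nat.mul_div_cancel_left _ (by omega), padicValNat.mul (by omega) hm, padicValNat.prime_pow,
        map_mul, map_mul, ← D.comm_pow, hc, map_mul, map_pow, map_pow, map_natCast, map_natCast]
      ring
    · exact ⟨0, by simp⟩
  choose b hb using key
  refine ⟨p ^ padicValNat p i * a + ∑ j ∈ Finset.range n, v (j + 1) * b j, D.cancel ?_⟩
  have e : MvPowerSeries.coeff (Finsupp.single () i) (D.uact n v f) =
      p * PowerSeries.coeff i f - ∑ j ∈ Finset.range n, algebraMap A K (v (j + 1)) *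
        PowerSeries.coeff i (D.Tact (j + 1) f : PowerSeries K) := by
    simp only [Frob.uact, map_sub, map_smul, map_sum, smul_eq_mul]; rfl
  rw [e, map_mul, map_natCast] at ha
  simp only [map_mul, map_natCast] at hb
  simp only [map_add, map_mul, map_pow, map_natCast, map_sum, mul_add, Finset.mul_sum]
  have e2 : ∑ j ∈ Finset.range n, (p : K) * (algebraMap A K (v (j + 1)) * algebraMap A K (b j)) =
      (p : K) ^ padicValNat p i * ∑ j ∈ Finset.range n, algebraMap A K (v (j + 1)) *
        PowerSeries.coeff i (D.Tact (j + 1) f : PowerSeries K) := by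
    rw [Finset.mul_sum]
    exact Finset.sum_congr rfl fun j _ => by rw [mul_left_comm, hb]; ring
  rw [e2]
  linear_combination (p : K) ^ padicValNat p i * ha

omit hp in
/-- L0. -/
theorem pint_subst_sub {g : PowerSeries K} (hg : Den p A g) {α β : MvPowerSeries τ A}
    (hα : MvPowerSeries.constantCoeff α = 0) (hβ : MvPowerSeries.constantCoeff β = 0)
    (h : (p : MvPowerSeries τ A) ∣ α - β) :
    PInt p A (PowerSeries.subst (MvPowerSeries.map (algebraMap A K) α) g -
      PowerSeries.subst (MvPowerSeries.map (algebraMap A K) β) g) := by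
  rw [pint_iff]
  intro e
  have key : ∀ k, ∃ c : A, algebraMap A K (p * c) = PowerSeries.coeff k g *
      algebraMap A K (MvPowerSeries.coeff e (α ^ k - β ^ k)) := fun k => by
    obtain ⟨a, ha⟩ := hg k
    obtain ⟨m, hm⟩ : p ^ padicValNat p k ∣ k := pow_padicValNat_dvd
    have h1 := (dvd_sub_pow_of_dvd_sub h (padicValNat p k)).trans (sub_dvd_pow_sub_pow _ _ m)
    rw [← pow_mul, ← pow_mul, ← hm, ← Nat.cast_pow, natCast_dvd_iff] at h1
    obtain ⟨c, hc⟩ := h1 e
    refine ⟨a * c, ?_⟩
    rw [hc, map_mul, map_mul, map_mul, ha, map_natCast, map_natCast]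
    push_cast
    ring
  choose c hc using key
  refine ⟨∑ k ∈ Finset.range (e.degree + 1), c k, ?_⟩
  rw [map_sub, coeff_subst_range (const_map _ hα) g e (Nat.lt_succ_self _),
    coeff_subst_range (const_map _ hβ) g e (Nat.lt_succ_self _), ← Finset.sum_sub_distrib,
    Finset.mul_sum, map_sum]
  refine Finset.sum_congr rfl fun k _ => ?_
  rw [hc, ← map_pow, ← map_pow, MvPowerSeries.coeff_map, MvPowerSeries.coeff_map, map_sub, map_sub,
    mul_sub]

/-- `H^{σ^j}(X^{p^j}) ≡ H^{p^j} mod p`. -/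
theorem dvd_expand_map_sub_pow (D : Frob p A K) (H : MvPowerSeries τ A) (j : ℕ) :
    (p : MvPowerSeries τ A) ∣
      MvPowerSeries.expand (p ^ j) (pow_ne_zero j hp.out.ne_zero) (MvPowerSeries.map (D.σA ^ j) H)
        - H ^ (p ^ j) := by
  rw [natCast_dvd_iff]
  intro e
  rw [← Ideal.mem_span_singleton, ← Ideal.Quotient.eq_zero_iff_mem]
  rcases subsingleton_or_nontrivial (A ⧸ Ideal.span {(p : A)}) with hs | hs
  · exact Subsingleton.elim _ _
  have h0 : (p : A ⧸ Ideal.span {(p : A)}) = 0 := by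
    rw [← map_natCast (Ideal.Quotient.mk _), Ideal.Quotient.eq_zero_iff_mem]
    exact Ideal.mem_span_singleton_self _
  have : CharP (A ⧸ Ideal.span {(p : A)}) p := (CharP.charP_iff_prime_eq_zero hp.out).2 h0
  have e1 : ∀ (j : ℕ) (a : A), Ideal.Quotient.mk (Ideal.span {(p : A)}) ((D.σA ^ j) a) =
      iterateFrobenius _ p j (Ideal.Quotient.mk (Ideal.span {(p : A)}) a) := by
    intro j
    induction j with
    | zero => intro a; simp
    | succ j ih =>
      intro a
      rw [pow_succ, RingHom.mul_def, RingHom.comp_apply, ih, iterateFrobenius_def,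
        iterateFrobenius_def, pow_succ', pow_mul, ← map_pow _ a]
      congr 1
      exact Ideal.Quotient.eq.2 (Ideal.mem_span_singleton.2 (D.lift a))
  have e2 : MvPowerSeries.map (Ideal.Quotient.mk (Ideal.span {(p : A)}))
      (MvPowerSeries.map (D.σA ^ j) H) = MvPowerSeries.map (iterateFrobenius _ p j)
        (MvPowerSeries.map (Ideal.Quotient.mk (Ideal.span {(p : A)})) H) := by
    ext d
    simp only [MvPowerSeries.coeff_map, e1]
  rw [← MvPowerSeries.coeff_map, map_sub, MvPowerSeries.map_expand, e2, ← MvPowerSeries.map_expand,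
    MvPowerSeries.map_iterateFrobenius_expand _ hp.out.ne_zero, map_pow, sub_self, map_zero]

/-- L1. -/
theorem pint_Tact_subst (D : Frob p A K) {g : PowerSeries K} (hg : Den p A g)
    {H : MvPowerSeries τ A} (hH : MvPowerSeries.constantCoeff H = 0) (j : ℕ) :
    PInt p A (D.Tact j (PowerSeries.subst (MvPowerSeries.map (algebraMap A K) H) g) -
      PowerSeries.subst (MvPowerSeries.map (algebraMap A K) H) (D.Tact j g : PowerSeries K)) := by
  rw [D.Tact_subst (const_map _ hH), D.subst_Tact (const_map _ hH), Frob.Tact, D.map_map,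
    ← MvPowerSeries.map_expand, ← map_pow]
  refine pint_subst_sub (hg.map D j) ?_ ?_ (dvd_expand_map_sub_pow D H j)
  · rw [MvPowerSeries.constantCoeff_expand]; exact const_map _ hH
  · rw [map_pow, hH, zero_pow (pow_ne_zero j hp.out.ne_zero)]

/-- FE3: composing a solution of `u f ≡ 0` with an integral series gives a solution. -/
theorem pint_uact_subst (D : Frob p A K) {n : ℕ} {v : ℕ → A} {f : PowerSeries K}
    (h0 : PowerSeries.constantCoeff f = 0) (hu : PInt p A (D.uact n v f))
    {H : MvPowerSeries τ A} (hH : MvPowerSeries.constantCoeff H = 0) :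
    PInt p A (D.uact n v (PowerSeries.subst (MvPowerSeries.map (algebraMap A K) H) f)) := by
  have h1 := hu.subst hH
  rw [D.subst_uact n v (const_map _ hH)] at h1
  have h2 := PInt.sum (s := Finset.range n) fun j _ =>
    (pint_Tact_subst D (den_of_uact D h0 hu) hH (j + 1)).smul (v (j + 1))
  have h3 := h1.sub h2
  simp only [smul_sub, Finset.sum_sub_distrib] at h3
  rw [sub_sub, add_sub_cancel] at h3
  exact h3

theorem Frob.coeff_Tact_succ (D : Frob p A K) (j : ℕ) {F : MvPowerSeries τ K} {d : ℕ} (hd : 0 < d)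
    (h : ∀ e : τ →₀ ℕ, e.degree < d → MvPowerSeries.coeff e F = 0) (e : τ →₀ ℕ)
    (he : e.degree ≤ d) : MvPowerSeries.coeff e (D.Tact (j + 1) F) = 0 := by
  have h1 : (d : ℕ∞) ≤ (MvPowerSeries.map (D.σK ^ (j + 1)) F).order :=
    (MvPowerSeries.nat_le_order h).trans (MvPowerSeries.le_order_map _)
  refine MvPowerSeries.coeff_of_lt_order ?_
  rw [Frob.Tact, MvPowerSeries.order_expand]
  refine lt_of_lt_of_le ?_ (nsmul_le_nsmul_right h1 _)
  have h2 : 1 < p ^ (j + 1) := Nat.one_lt_pow (by omega) hp.out.one_lt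
  rw [nsmul_eq_mul]
  exact_mod_cast (by nlinarith : e.degree < p ^ (j + 1) * d)

theorem Frob.coeff_uact (D : Frob p A K) (n : ℕ) (v : ℕ → A) {F : MvPowerSeries τ K} {d : ℕ}
    (hd : 0 < d) (h : ∀ e : τ →₀ ℕ, e.degree < d → MvPowerSeries.coeff e F = 0) (e : τ →₀ ℕ)
    (he : e.degree ≤ d) : MvPowerSeries.coeff e (D.uact n v F) = p * MvPowerSeries.coeff e F := by
  simp only [Frob.uact, map_sub, map_smul, map_sum, D.coeff_Tact_succ _ hd h e he, smul_eq_mul,
    mul_zero, Finset.sum_const_zero, sub_zero]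

/-- FE1: if `u f ≡ 0`, `f = X + ⋯`, and `u (f ∘ H) ≡ 0` then `H` is integral. -/
theorem intg_of_uact [Finite τ] (D : Frob p A K) {n : ℕ} {v : ℕ → A} {f : PowerSeries K}
    (h0 : PowerSeries.constantCoeff f = 0) (h1 : PowerSeries.coeff 1 f = 1)
    (hu : PInt p A (D.uact n v f)) {H : MvPowerSeries τ K}
    (hH : MvPowerSeries.constantCoeff H = 0)
    (hG : PInt p A (D.uact n v (PowerSeries.subst H f))) : Intg A H := by
  classical
  rw [intg_iff]
  intro e
  induction hd : e.degree using Nat.strong_induction_on generalizing e with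
  | _ d ih =>
  rcases Nat.eq_zero_or_pos d with rfl | hd0
  · rw [(Finsupp.degree_eq_zero_iff e).1 hd]
    exact ⟨0, by simp [hH]⟩
  choose! a ha using fun (e : τ →₀ ℕ) (h : e.degree < d) => ih _ h e rfl
  let H₀ : MvPowerSeries τ A := fun e => if e.degree < d then a e else 0
  have c0 : ∀ e, MvPowerSeries.coeff e H₀ = if e.degree < d then a e else 0 := fun _ => rfl
  have c1 : ∀ e : τ →₀ ℕ, e.degree < d →
      MvPowerSeries.coeff e (H - MvPowerSeries.map (algebraMap A K) H₀) = 0 := fun e he => by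
    rw [map_sub, MvPowerSeries.coeff_map, c0, if_pos he, ha e he, sub_self]
  have c2 : MvPowerSeries.constantCoeff H₀ = 0 := by
    apply D.inj
    have := c1 0 (by simpa using hd0)
    rw [map_sub, MvPowerSeries.coeff_map] at this
    simp only [MvPowerSeries.coeff_zero_eq_constantCoeff_apply, hH, zero_sub, neg_eq_zero] at this
    rw [this, map_zero]
  have h2 := hG.sub (pint_uact_subst D h0 hu c2)
  rw [← D.uact_sub] at h2
  obtain ⟨b, hb⟩ := (pint_iff _).1 h2 e
  have c3 := coeff_subst_sub hH (const_map (algebraMap A K) c2) f c1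
  rw [D.coeff_uact n v hd0 (fun e he => by rw [c3 e he.le, c1 e he, mul_zero]) e hd.le, c3 e hd.le,
    h1, one_mul, map_sub, MvPowerSeries.coeff_map, c0, if_neg (by omega), map_zero, sub_zero,
    map_mul, map_natCast] at hb
  exact ⟨b, D.cancel hb⟩

omit hp in
/-- FE4: `f ∘ α ≡ f ∘ β mod p` forces `α ≡ β mod p`. -/
theorem dvd_of_pint_subst [Finite τ] (D : Frob p A K) {f : PowerSeries K} (hf : Den p A f)
    (h1 : PowerSeries.coeff 1 f = 1) {α β : MvPowerSeries τ A}
    (hα : MvPowerSeries.constantCoeff α = 0) (hβ : MvPowerSeries.constantCoeff β = 0)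
    (h : PInt p A (PowerSeries.subst (MvPowerSeries.map (algebraMap A K) α) f -
      PowerSeries.subst (MvPowerSeries.map (algebraMap A K) β) f)) :
    (p : MvPowerSeries τ A) ∣ α - β := by
  classical
  rw [natCast_dvd_iff]
  intro e
  induction hd : e.degree using Nat.strong_induction_on generalizing e with
  | _ d ih =>
  rcases Nat.eq_zero_or_pos d with rfl | hd0
  · rw [(Finsupp.degree_eq_zero_iff e).1 hd]
    simp [hα, hβ]
  choose! a ha using fun (e : τ →₀ ℕ) (h : e.degree < d) => ih _ h e rfl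
  let γ : MvPowerSeries τ A := fun e => if e.degree < d then a e else 0
  have c0 : ∀ e, MvPowerSeries.coeff e (β + (p : MvPowerSeries τ A) * γ) =
      MvPowerSeries.coeff e β + p * if e.degree < d then a e else 0 := fun e => by
    rw [map_add, ← nsmul_eq_mul, map_nsmul, nsmul_eq_mul]; rfl
  have c1 : ∀ e : τ →₀ ℕ, e.degree < d → MvPowerSeries.coeff e (α - (β + (p : MvPowerSeries τ A) * γ)) = 0 :=
    fun e he => by rw [map_sub, c0, if_pos he, ← ha e he, map_sub]; ring
  have c2 : MvPowerSeries.constantCoeff (β + (p : MvPowerSeries τ A) * γ) = 0 := by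
    have := c1 0 (by simpa using hd0)
    rw [map_sub] at this
    simpa only [MvPowerSeries.coeff_zero_eq_constantCoeff_apply, hα, zero_sub, neg_eq_zero]
      using this
  have h2 := h.sub (pint_subst_sub hf c2 hβ ⟨γ, by ring⟩)
  rw [sub_sub_sub_cancel_right] at h2
  obtain ⟨b, hb⟩ := (pint_iff _).1 h2 e
  rw [coeff_subst_sub (const_map _ hα) (const_map _ c2) f (d := d)
    (fun e he => by rw [← map_sub, MvPowerSeries.coeff_map, c1 e he, map_zero]) e hd.le, h1, one_mul,
    ← map_sub, MvPowerSeries.coeff_map, map_sub, c0, if_neg (by omega), mul_zero, add_zero,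
    ← map_sub] at hb
  exact ⟨b, (D.inj hb).symm⟩

end Crest.Agent.R227
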