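import Crest.Prelude.Def_LubinTate

/-!
# R227 / FG : elementary algebra of formal group law homomorphisms

Everything here is formal manipulation of `PowerSeries.subst` / `MvPowerSeries.subst`
(`subst_comp_subst_apply`, `map_subst`, `FormalGroup.assoc'`, `FormalGroup.comm'`,
`FormalGroup.add_zero`, `FormalGroup.zero_add`, `PowerSeries.substInvOfIsUnit`).
Hint: prove once the "pointwise" form `isFGHom_apply` below and use it everywhere.
-/

set_option autoImplicit false
open Crest.LubinTate

namespace Crest.Agent.R227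

variable {R S : Type*} [CommRing R] [CommRing S]

/-- composition `f ∘ g` of one-variable series (meaningful when `g` has no constant term). -/
noncomputable abbrev cmp (f g : PowerSeries R) : PowerSeries R := PowerSeries.subst g f

/-- the formal sum `F(a, b)` of two one-variable series. -/
noncomputable abbrev fadd (F : FormalGroup R) (a b : PowerSeries R) : PowerSeries R :=
  MvPowerSeries.subst ![a, b] F.toPowerSeries

section aux
variable {τ υ : Type*}

theorem fgS {a : MvPowerSeries τ R} (ha : MvPowerSeries.constantCoeff a = 0) :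
    PowerSeries.HasSubst a := PowerSeries.HasSubst.of_constantCoeff_zero ha

theorem fgS2 {a b : MvPowerSeries τ R} (ha : MvPowerSeries.constantCoeff a = 0)
    (hb : MvPowerSeries.constantCoeff b = 0) : MvPowerSeries.HasSubst ![a, b] :=
  MvPowerSeries.hasSubst_of_constantCoeff_zero fun i => by fin_cases i <;> assumption

theorem fg_const1 {a : MvPowerSeries τ R} (ha : MvPowerSeries.constantCoeff a = 0)
    {f : PowerSeries R} (hf : PowerSeries.constantCoeff f = 0) :
    MvPowerSeries.constantCoeff (PowerSeries.subst a f) = 0 :=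
  PowerSeries.constantCoeff_subst_eq_zero ha f hf

theorem fg_const2 (F : FormalGroup R) {a b : MvPowerSeries τ R}
    (ha : MvPowerSeries.constantCoeff a = 0) (hb : MvPowerSeries.constantCoeff b = 0) :
    MvPowerSeries.constantCoeff
      (MvPowerSeries.subst ![a, b] F.toPowerSeries : MvPowerSeries τ R) = 0 :=
  MvPowerSeries.constantCoeff_subst_eq_zero (fgS2 ha hb)
    (fun i => by fin_cases i <;> assumption) F.zero_constantCoeff

theorem fg_constX (t : τ) : MvPowerSeries.constantCoeff (MvPowerSeries.X t : MvPowerSeries τ R) = 0 :=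
  MvPowerSeries.constantCoeff_X t

theorem fg_subst1 {c : τ → MvPowerSeries υ R} (hc : MvPowerSeries.HasSubst c)
    {a : MvPowerSeries τ R} (ha : MvPowerSeries.constantCoeff a = 0) (f : PowerSeries R) :
    MvPowerSeries.subst c (PowerSeries.subst a f) =
      PowerSeries.subst (MvPowerSeries.subst c a : MvPowerSeries υ R) f :=
  MvPowerSeries.subst_comp_subst_apply (fgS ha).const hc f

theorem fg_subst2 {c : τ → MvPowerSeries υ R} (hc : MvPowerSeries.HasSubst c)
    {a b : MvPowerSeries τ R} (ha : MvPowerSeries.constantCoeff a = 0)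
    (hb : MvPowerSeries.constantCoeff b = 0) (F : MvPowerSeries (Fin 2) R) :
    MvPowerSeries.subst c (MvPowerSeries.subst ![a, b] F : MvPowerSeries τ R) =
      MvPowerSeries.subst ![(MvPowerSeries.subst c a : MvPowerSeries υ R),
        MvPowerSeries.subst c b] F := by
  rw [MvPowerSeries.subst_comp_subst_apply (fgS2 ha hb) hc]
  congr 1
  funext i; fin_cases i <;> rfl

theorem fg_psubst2 {c : MvPowerSeries υ R} (hc : MvPowerSeries.constantCoeff c = 0)
    {a b : PowerSeries R} (ha : PowerSeries.constantCoeff a = 0)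
    (hb : PowerSeries.constantCoeff b = 0) (F : FormalGroup R) :
    PowerSeries.subst c (fadd F a b) =
      MvPowerSeries.subst ![PowerSeries.subst c a, PowerSeries.subst c b] F.toPowerSeries :=
  fg_subst2 (fgS hc).const ha hb _

theorem fg_psubst1 {c : MvPowerSeries υ R} (hc : MvPowerSeries.constantCoeff c = 0)
    (f : PowerSeries R) {g : PowerSeries R} (hg : PowerSeries.constantCoeff g = 0) :
    PowerSeries.subst c (cmp f g) = PowerSeries.subst (PowerSeries.subst c g) f :=
  PowerSeries.subst_comp_subst_apply (fgS hg) (fgS hc) f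

theorem fg_map2 (ρ : R →+* S) {a b : MvPowerSeries τ R} (ha : MvPowerSeries.constantCoeff a = 0)
    (hb : MvPowerSeries.constantCoeff b = 0) (F : MvPowerSeries (Fin 2) R) :
    MvPowerSeries.map ρ (MvPowerSeries.subst ![a, b] F : MvPowerSeries τ R) =
      MvPowerSeries.subst ![MvPowerSeries.map ρ a, MvPowerSeries.map ρ b]
        (MvPowerSeries.map ρ F) := by
  rw [MvPowerSeries.map_subst (fgS2 ha hb)]
  congr 1
  funext i; fin_cases i <;> rfl

theorem fg_subst_self (F : MvPowerSeries (Fin 2) R) :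
    MvPowerSeries.subst ![(MvPowerSeries.X 0 : MvPowerSeries (Fin 2) R), MvPowerSeries.X 1] F = F := by
  have : ![(MvPowerSeries.X 0 : MvPowerSeries (Fin 2) R), MvPowerSeries.X 1] = MvPowerSeries.X := by
    funext i; fin_cases i <;> rfl
  rw [this, MvPowerSeries.subst_self]; rfl

end aux

theorem cmp_assoc (f : PowerSeries R) {g h : PowerSeries R} (hg : PowerSeries.constantCoeff g = 0)
    (hh : PowerSeries.constantCoeff h = 0) : cmp (cmp f g) h = cmp f (cmp g h) := PowerSeries.subst_comp_subst_apply (fgS hg) (fgS hh) f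

theorem const_cmp {f g : PowerSeries R} (hf : PowerSeries.constantCoeff f = 0)
    (hg : PowerSeries.constantCoeff g = 0) : PowerSeries.constantCoeff (cmp f g) = 0 := fg_const1 hg hf

theorem coeff_one_cmp (f : PowerSeries R) {g : PowerSeries R}
    (hg : PowerSeries.constantCoeff g = 0) :
    PowerSeries.coeff 1 (cmp f g) = PowerSeries.coeff 1 f * PowerSeries.coeff 1 g := by
  rw [PowerSeries.coeff_subst' (fgS hg), finsum_eq_single _ 1]
  · simp
  · intro k hk
    rw [PowerSeries.coeff_one_pow, hg]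
    rcases k with _ | _ | k
    · simp
    · exact absurd rfl hk
    · simp

theorem cmp_X (f : PowerSeries R) : cmp f PowerSeries.X = f := PowerSeries.X_subst f

theorem X_cmp {g : PowerSeries R} (hg : PowerSeries.constantCoeff g = 0) :
    cmp PowerSeries.X g = g := PowerSeries.subst_X (fgS hg)

theorem X_pow_cmp {g : PowerSeries R} (hg : PowerSeries.constantCoeff g = 0) (m : ℕ) :
    cmp (PowerSeries.X ^ m) g = g ^ m := by
  rw [cmp, PowerSeries.subst_pow (fgS hg), PowerSeries.subst_X (fgS hg)]

theorem map_cmp (ρ : R →+* S) (f : PowerSeries R) {g : PowerSeries R}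
    (hg : PowerSeries.constantCoeff g = 0) :
    PowerSeries.map ρ (cmp f g) = cmp (PowerSeries.map ρ f) (PowerSeries.map ρ g) := PowerSeries.map_subst (fgS hg) f

/-- two-sided compositional inverse. -/
theorem exists_cmp_inv {f : PowerSeries R} (h0 : PowerSeries.constantCoeff f = 0)
    (h1 : IsUnit (PowerSeries.coeff 1 f)) :
    ∃ g : PowerSeries R, PowerSeries.constantCoeff g = 0 ∧
      PowerSeries.coeff 1 f * PowerSeries.coeff 1 g = 1 ∧
      cmp f g = PowerSeries.X ∧ cmp g f = PowerSeries.X := by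
  refine ⟨f.substInvOfIsUnit h1, PowerSeries.constantCoeff_substInvOfIsUnit _ _, ?_,
    PowerSeries.subst_substInvOfIsUnit_right _ h0 _, PowerSeries.subst_substInvOfIsUnit_left _ h0 _⟩
  rw [PowerSeries.coeff_one_substInvOfIsUnit]
  exact h1.mul_val_inv

theorem const_fadd (F : FormalGroup R) {a b : PowerSeries R}
    (ha : PowerSeries.constantCoeff a = 0) (hb : PowerSeries.constantCoeff b = 0) :
    PowerSeries.constantCoeff (fadd F a b) = 0 := fg_const2 F ha hb

theorem coeff_one_fadd (F : FormalGroup R) {a b : PowerSeries R}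
    (ha : PowerSeries.constantCoeff a = 0) (hb : PowerSeries.constantCoeff b = 0) :
    PowerSeries.coeff 1 (fadd F a b) = PowerSeries.coeff 1 a + PowerSeries.coeff 1 b := by
  have e : ∀ d : Fin 2 →₀ ℕ, PowerSeries.coeff 1 (d.prod fun s e => (![a, b] s) ^ e) =
      if d = Finsupp.single 0 1 then PowerSeries.coeff 1 a
      else if d = Finsupp.single 1 1 then PowerSeries.coeff 1 b else 0 := fun d => by
    rw [Finsupp.prod_fintype _ _ (by simp), Fin.prod_univ_two]
    simp only [Matrix.cons_val_zero, Matrix.cons_val_one, Finsupp.ext_iff, Fin.forall_fin_two]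
    rw [PowerSeries.coeff_one_mul, PowerSeries.coeff_one_pow, PowerSeries.coeff_one_pow, map_pow,
      map_pow, ha, hb]
    rcases d 0 with _ | _ | i <;> rcases d 1 with _ | _ | j <;> simp
  have hne : (Finsupp.single 0 1 : Fin 2 →₀ ℕ) ≠ Finsupp.single 1 1 := by
    simp [Finsupp.ext_iff, Fin.forall_fin_two]
  refine (MvPowerSeries.coeff_subst (fgS2 ha hb) _ _).trans ?_
  rw [finsum_eq_sum_of_support_subset (s := {Finsupp.single 0 1, Finsupp.single 1 1})]
  · rw [Finset.sum_pair hne, F.lin_coeff_X, F.lin_coeff_Y, one_smul, one_smul]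
    congr 1
    · exact (e _).trans (if_pos rfl)
    · exact (e _).trans ((if_neg hne.symm).trans (if_pos rfl))
  · intro d hd
    by_contra hc
    simp only [Finset.coe_insert, Finset.coe_singleton, Set.mem_insert_iff, Set.mem_singleton_iff,
      not_or] at hc
    apply hd
    have := e d
    rw [if_neg hc.1, if_neg hc.2] at this
    exact (congrArg _ this).trans (smul_zero _)

theorem map_fadd (ρ : R →+* S) (F : FormalGroup R) {a b : PowerSeries R}
    (ha : PowerSeries.constantCoeff a = 0) (hb : PowerSeries.constantCoeff b = 0) :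
    PowerSeries.map ρ (fadd F a b) =
      fadd (F.map ρ) (PowerSeries.map ρ a) (PowerSeries.map ρ b) := fg_map2 ρ ha hb _

theorem fadd_cmp (F : FormalGroup R) {a b c : PowerSeries R}
    (ha : PowerSeries.constantCoeff a = 0) (hb : PowerSeries.constantCoeff b = 0)
    (hc : PowerSeries.constantCoeff c = 0) :
    cmp (fadd F a b) c = fadd F (cmp a c) (cmp b c) := fg_psubst2 hc ha hb F

/-- `F(a, b) ≡ a` modulo `X^N` when `b ≡ 0` modulo `X^N`. -/
theorem coeff_fadd_of_order (F : FormalGroup R) {a b : PowerSeries R}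
    (ha : PowerSeries.constantCoeff a = 0) (hb0 : PowerSeries.constantCoeff b = 0) {N : ℕ}
    (hb : ∀ i < N, PowerSeries.coeff i b = 0) :
    ∀ i < N, PowerSeries.coeff i (fadd F a b) = PowerSeries.coeff i a := by
  intro i hi
  have h0 : fadd F a 0 = a := F.add_zero (fgS ha)
  conv_rhs => rw [← h0]
  refine (MvPowerSeries.coeff_subst (fgS2 ha hb0) _ _).trans
    (Eq.trans ?_ (MvPowerSeries.coeff_subst (fgS2 ha (map_zero _)) _ _).symm)
  refine finsum_congr fun d => congrArg _ ?_
  rw [Finsupp.prod_fintype _ _ (by simp), Finsupp.prod_fintype _ _ (by simp), Fin.prod_univ_two,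
    Fin.prod_univ_two]
  simp only [Matrix.cons_val_zero, Matrix.cons_val_one]
  have h1 : (PowerSeries.X : PowerSeries R) ^ N ∣ a ^ d 0 * b ^ d 1 - a ^ d 0 * 0 ^ d 1 := by
    rw [← mul_sub]
    refine Dvd.dvd.mul_left (Dvd.dvd.trans ?_ (sub_dvd_pow_sub_pow b 0 _)) _
    rw [sub_zero]; exact PowerSeries.X_pow_dvd_iff.2 hb
  have h2 := PowerSeries.X_pow_dvd_iff.1 h1 i hi
  rw [map_sub, sub_eq_zero] at h2
  exact h2

theorem fg_map_map {T : Type*} [CommRing T] (F : FormalGroup R) (ρ : R →+* S) (ρ' : S →+* T) :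
    (F.map ρ).map ρ' = F.map (ρ'.comp ρ) := FormalGroup.ext (MvPowerSeries.map_map _ _ _)

theorem fg_map_id (F : FormalGroup R) : F.map (RingHom.id R) = F := FormalGroup.ext (by simp)

instance fg_map_isComm (F : FormalGroup R) [F.IsComm] (ρ : R →+* S) : (F.map ρ).IsComm := by
  refine ⟨?_⟩
  have := congrArg (MvPowerSeries.map ρ) (FormalGroup.IsComm.comm (F := F))
  rwa [fg_map2 ρ (fg_constX _) (fg_constX _), MvPowerSeries.map_X, MvPowerSeries.map_X] at this

/-- pointwise form of the homomorphism property. -/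
theorem isFGHom_apply {τ : Type*} {F G : FormalGroup R} {φ : PowerSeries R} (h : IsFGHom F G φ)
    {a b : MvPowerSeries τ R} (ha : MvPowerSeries.constantCoeff a = 0)
    (hb : MvPowerSeries.constantCoeff b = 0) :
    PowerSeries.subst (MvPowerSeries.subst ![a, b] F.toPowerSeries : MvPowerSeries τ R) φ =
      MvPowerSeries.subst ![PowerSeries.subst a φ, PowerSeries.subst b φ] G.toPowerSeries := by
  have hs := fgS2 ha hb
  have := congrArg (MvPowerSeries.subst ![a, b]) h.2
  rwa [fg_subst1 hs F.zero_constantCoeff,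
    fg_subst2 hs (fg_const1 (fg_constX _) h.1) (fg_const1 (fg_constX _) h.1),
    fg_subst1 hs (fg_constX _), fg_subst1 hs (fg_constX _), MvPowerSeries.subst_X hs,
    MvPowerSeries.subst_X hs] at this

theorem map_hom_lhs (ρ : R →+* S) (F : FormalGroup R) (φ : PowerSeries R) :
    MvPowerSeries.map ρ (PowerSeries.subst F.toPowerSeries φ) =
      PowerSeries.subst (F.map ρ).toPowerSeries (PowerSeries.map ρ φ) :=
  PowerSeries.map_subst (fgS F.zero_constantCoeff) φ

theorem map_hom_rhs (ρ : R →+* S) (G : FormalGroup R) {φ : PowerSeries R}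
    (h : PowerSeries.constantCoeff φ = 0) :
    MvPowerSeries.map ρ (G.toPowerSeries.subst
      ![PowerSeries.subst (MvPowerSeries.X 0 : MvPowerSeries (Fin 2) R) φ,
        PowerSeries.subst (MvPowerSeries.X 1 : MvPowerSeries (Fin 2) R) φ]) =
      (G.map ρ).toPowerSeries.subst
        ![PowerSeries.subst (MvPowerSeries.X 0 : MvPowerSeries (Fin 2) S) (PowerSeries.map ρ φ),
          PowerSeries.subst (MvPowerSeries.X 1 : MvPowerSeries (Fin 2) S) (PowerSeries.map ρ φ)] := by
  rw [fg_map2 ρ (fg_const1 (fg_constX _) h) (fg_const1 (fg_constX _) h),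
    PowerSeries.map_subst (fgS (fg_constX _)), PowerSeries.map_subst (fgS (fg_constX _)),
    MvPowerSeries.map_X, MvPowerSeries.map_X]
  rfl

theorem isFGHom_map (ρ : R →+* S) {F G : FormalGroup R} {φ : PowerSeries R} (h : IsFGHom F G φ) :
    IsFGHom (F.map ρ) (G.map ρ) (PowerSeries.map ρ φ) := by
  refine ⟨by rw [← PowerSeries.coeff_zero_eq_constantCoeff_apply, PowerSeries.coeff_map,
    PowerSeries.coeff_zero_eq_constantCoeff_apply, h.1, map_zero], ?_⟩
  have := congrArg (MvPowerSeries.map ρ) h.2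
  rwa [map_hom_lhs, map_hom_rhs ρ G h.1] at this

theorem isFGHom_X (F : FormalGroup R) : IsFGHom F F PowerSeries.X := by
  refine ⟨PowerSeries.constantCoeff_X, ?_⟩
  rw [PowerSeries.subst_X (fgS F.zero_constantCoeff), PowerSeries.subst_X (fgS (fg_constX _)),
    PowerSeries.subst_X (fgS (fg_constX _)), fg_subst_self]

theorem isFGHom_zero (F G : FormalGroup R) : IsFGHom F G 0 := by
  have e : ∀ a : MvPowerSeries (Fin 2) R, MvPowerSeries.constantCoeff a = 0 →
      PowerSeries.subst a (0 : PowerSeries R) = 0 := fun a ha => by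
    rw [← PowerSeries.coe_substAlgHom (fgS ha), map_zero]
  refine ⟨map_zero _, ?_⟩
  rw [e _ F.zero_constantCoeff, e _ (fg_constX _), e _ (fg_constX _),
    G.add_zero PowerSeries.HasSubst.zero]

theorem isFGHom_cmp {F G H : FormalGroup R} {φ ψ : PowerSeries R} (h₁ : IsFGHom F G φ)
    (h₂ : IsFGHom G H ψ) : IsFGHom F H (cmp ψ φ) := by
  refine ⟨const_cmp h₂.1 h₁.1, ?_⟩
  rw [fg_psubst1 F.zero_constantCoeff ψ h₁.1, h₁.2,
    isFGHom_apply h₂ (fg_const1 (fg_constX _) h₁.1) (fg_const1 (fg_constX _) h₁.1),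
    fg_psubst1 (fg_constX _) ψ h₁.1, fg_psubst1 (fg_constX _) ψ h₁.1]

theorem isFGHom_inv {F G : FormalGroup R} {φ ψ : PowerSeries R} (h : IsFGHom F G φ)
    (hψ : PowerSeries.constantCoeff ψ = 0) (h₁ : cmp φ ψ = PowerSeries.X)
    (h₂ : cmp ψ φ = PowerSeries.X) : IsFGHom G F ψ := by
  refine ⟨hψ, ?_⟩
  have c0 := fg_const1 (fg_constX (R := R) (0 : Fin 2)) hψ
  have c1 := fg_const1 (fg_constX (R := R) (1 : Fin 2)) hψ
  have e := isFGHom_apply h c0 c1
  rw [← fg_psubst1 (fg_constX _) φ hψ, ← fg_psubst1 (fg_constX _) φ hψ, h₁,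
    PowerSeries.subst_X (fgS (fg_constX _)), PowerSeries.subst_X (fgS (fg_constX _)),
    fg_subst_self] at e
  rw [← e, ← fg_psubst1 (fg_const2 F c0 c1) ψ h.1, h₂, PowerSeries.subst_X (fgS (fg_const2 F c0 c1))]

theorem isFGHom_fadd {F G : FormalGroup R} [G.IsComm] {φ ψ : PowerSeries R} (h₁ : IsFGHom F G φ)
    (h₂ : IsFGHom F G ψ) : IsFGHom F G (fadd G φ ψ) := by
  refine ⟨const_fadd G h₁.1 h₂.1, ?_⟩
  rw [fg_psubst2 F.zero_constantCoeff h₁.1 h₂.1, fg_psubst2 (fg_constX _) h₁.1 h₂.1,
    fg_psubst2 (fg_constX _) h₁.1 h₂.1, h₁.2, h₂.2]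
  have := add_add_add_comm (G := G.Point (Fin 2)) ⟨_, fgS (fg_const1 (fg_constX 0) h₁.1)⟩
    ⟨_, fgS (fg_const1 (fg_constX 1) h₁.1)⟩ ⟨_, fgS (fg_const1 (fg_constX 0) h₂.1)⟩
    ⟨_, fgS (fg_const1 (fg_constX 1) h₂.1)⟩
  exact congrArg Subtype.val this

/-- a homomorphism can be tested on a jointly injective family of ring maps. -/
theorem isFGHom_of_family {ι : Type*} {T : ι → Type*} [∀ i, CommRing (T i)]
    (ρ : ∀ i, R →+* T i) (hρ : ∀ a b : R, (∀ i, ρ i a = ρ i b) → a = b)
    {F G : FormalGroup R} {φ : PowerSeries R}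
    (h : ∀ i, IsFGHom (F.map (ρ i)) (G.map (ρ i)) (PowerSeries.map (ρ i) φ)) :
    IsFGHom F G φ := by
  have h0 : PowerSeries.constantCoeff φ = 0 := hρ _ _ fun i => by
    have := (h i).1
    rwa [← PowerSeries.coeff_zero_eq_constantCoeff_apply, PowerSeries.coeff_map,
      PowerSeries.coeff_zero_eq_constantCoeff_apply, ← map_zero (ρ i)] at this
  refine ⟨h0, MvPowerSeries.ext fun e => hρ _ _ fun i => ?_⟩
  rw [← MvPowerSeries.coeff_map, ← MvPowerSeries.coeff_map, map_hom_lhs, map_hom_rhs _ G h0, (h i).2]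

theorem coeff_one_Xzero' (G : MvPowerSeries (Fin 2) R) :
    PowerSeries.coeff 1 (MvPowerSeries.subst ![(PowerSeries.X : PowerSeries R), 0] G) =
      MvPowerSeries.coeff (Finsupp.single 0 1) G := by
  rw [PowerSeries.coeff, MvPowerSeries.coeff_subst (by exact MvPowerSeries.HasSubst.X_zero),
    finsum_eq_single _ (Finsupp.single 0 1)]
  · simp
  · intro d hd
    by_cases hd₁ : d 1 = 0
    · by_cases hd₀ : d 0 = 0
      · simp [hd₀, hd₁]
      simp [hd₁, PowerSeries.coeff_X_pow]
      grind
    simp [hd₁]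

theorem coeff_one_zeroX' (G : MvPowerSeries (Fin 2) R) :
    PowerSeries.coeff 1 (MvPowerSeries.subst ![0, (PowerSeries.X : PowerSeries R)] G) =
      MvPowerSeries.coeff (Finsupp.single 1 1) G := by
  rw [PowerSeries.coeff, MvPowerSeries.coeff_subst (by exact MvPowerSeries.HasSubst.zero_X),
    finsum_eq_single _ (Finsupp.single 1 1)]
  · simp
  · intro d hd
    by_cases hd₁ : d 0 = 0
    · by_cases hd₀ : d 1 = 0
      · simp [hd₀, hd₁]
      simp [hd₁, PowerSeries.coeff_X_pow]
      grind
    simp [hd₁]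

/-- transport of a law along an invertible series: `G = θ F (θ⁻¹ X, θ⁻¹ Y)`. -/
theorem exists_transport (F : FormalGroup R) {θ : PowerSeries R}
    (h0 : PowerSeries.constantCoeff θ = 0) (h1 : IsUnit (PowerSeries.coeff 1 θ)) :
    ∃ G : FormalGroup R, IsFGHom F G θ := by
  obtain ⟨g, g0, -, g2, g3⟩ := exists_cmp_inv h0 h1
  have cX : ∀ t : Fin 2, MvPowerSeries.constantCoeff
      (PowerSeries.subst (MvPowerSeries.X t : MvPowerSeries (Fin 2) R) g) = 0 := fun t =>
    fg_const1 (fg_constX t) g0
  have cF := fg_const2 F (cX 0) (cX 1)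
  set G₀ : MvPowerSeries (Fin 2) R := PowerSeries.subst (MvPowerSeries.subst
    ![PowerSeries.subst (MvPowerSeries.X 0 : MvPowerSeries (Fin 2) R) g,
      PowerSeries.subst (MvPowerSeries.X 1 : MvPowerSeries (Fin 2) R) g] F.toPowerSeries :
      MvPowerSeries (Fin 2) R) θ with hG₀
  have key : ∀ {τ : Type} {a b : MvPowerSeries τ R}, MvPowerSeries.constantCoeff a = 0 →
      MvPowerSeries.constantCoeff b = 0 → MvPowerSeries.subst ![a, b] G₀ =
        PowerSeries.subst (MvPowerSeries.subst ![PowerSeries.subst a g, PowerSeries.subst b g]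
          F.toPowerSeries : MvPowerSeries τ R) θ := fun {τ a b} ha hb => by
    have hs := fgS2 ha hb
    rw [hG₀, fg_subst1 hs cF, fg_subst2 hs (cX 0) (cX 1), fg_subst1 hs (fg_constX _),
      fg_subst1 hs (fg_constX _), MvPowerSeries.subst_X hs, MvPowerSeries.subst_X hs]
    rfl
  have gθ : ∀ {τ : Type} {a : MvPowerSeries τ R}, MvPowerSeries.constantCoeff a = 0 →
      PowerSeries.subst (PowerSeries.subst a θ) g = a := fun ha => by
    rw [← fg_psubst1 ha g h0, g3, PowerSeries.subst_X (fgS ha)]
  have θg : ∀ {τ : Type} {a : MvPowerSeries τ R}, MvPowerSeries.constantCoeff a = 0 →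
      PowerSeries.subst (PowerSeries.subst a g) θ = a := fun ha => by
    rw [← fg_psubst1 ha θ g0, g2, PowerSeries.subst_X (fgS ha)]
  have c0 : MvPowerSeries.constantCoeff G₀ = 0 := fg_const1 cF h0
  have z : PowerSeries.subst (0 : PowerSeries R) g = 0 :=
    PowerSeries.subst_zero_of_constantCoeff_zero g0
  have cx : MvPowerSeries.constantCoeff (PowerSeries.X : PowerSeries R) = 0 := fg_constX ()
  refine ⟨⟨G₀, c0, ?_, ?_, ?_⟩, h0, ?_⟩
  · rw [← coeff_one_Xzero', key cx (map_zero _), z, F.add_zero (fgS (fg_const1 cx g0)), θg cx,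
      PowerSeries.coeff_one_X]
  · rw [← coeff_one_zeroX', key (map_zero _) cx, z, F.zero_add (fgS (fg_const1 cx g0)), θg cx,
      PowerSeries.coeff_one_X]
  · have cY : ∀ t : Fin 3, MvPowerSeries.constantCoeff
        (PowerSeries.subst (MvPowerSeries.X t : MvPowerSeries (Fin 3) R) g) = 0 := fun t =>
      fg_const1 (fg_constX t) g0
    rw [key (fg_constX 0) (fg_constX 1), key (fg_constX 1) (fg_constX 2),
      key (fg_const1 (fg_const2 F (cY 0) (cY 1)) h0) (fg_constX 2),
      key (fg_constX 0) (fg_const1 (fg_const2 F (cY 1) (cY 2)) h0), gθ (fg_const2 F (cY 0) (cY 1)),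
      gθ (fg_const2 F (cY 1) (cY 2)), F.assoc' (fgS (cY 0)) (fgS (cY 1)) (fgS (cY 2))]
  · change _ = MvPowerSeries.subst _ G₀
    rw [key (fg_const1 (fg_constX 0) h0) (fg_const1 (fg_constX 1) h0), gθ (fg_constX 0),
      gθ (fg_constX 1), fg_subst_self]

/-- the target of an isomorphism is determined by the source and the series. -/
theorem transport_unique {F G G' : FormalGroup R} {θ : PowerSeries R}
    (h1 : IsUnit (PowerSeries.coeff 1 θ)) (h : IsFGHom F G θ) (h' : IsFGHom F G' θ) : G = G' := by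
  obtain ⟨g, g0, -, g2, -⟩ := exists_cmp_inv h.1 h1
  have c0 := fg_const1 (fg_constX (R := R) (0 : Fin 2)) g0
  have c1 := fg_const1 (fg_constX (R := R) (1 : Fin 2)) g0
  have e := (isFGHom_apply h c0 c1).symm.trans (isFGHom_apply h' c0 c1)
  rw [← fg_psubst1 (fg_constX _) θ g0, ← fg_psubst1 (fg_constX _) θ g0, g2,
    PowerSeries.subst_X (fgS (fg_constX _)), PowerSeries.subst_X (fgS (fg_constX _)),
    fg_subst_self, fg_subst_self] at e
  exact FormalGroup.ext e

theorem isComm_of_iso {F G : FormalGroup R} [F.IsComm] {θ : PowerSeries R}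
    (h1 : IsUnit (PowerSeries.coeff 1 θ)) (h : IsFGHom F G θ) : G.IsComm := by
  obtain ⟨g, g0, -, g2, -⟩ := exists_cmp_inv h.1 h1
  have c0 := fg_const1 (fg_constX (R := R) (0 : Fin 2)) g0
  have c1 := fg_const1 (fg_constX (R := R) (1 : Fin 2)) g0
  have e := isFGHom_apply h c0 c1
  rw [F.comm' (fgS c0) (fgS c1), isFGHom_apply h c1 c0, ← fg_psubst1 (fg_constX _) θ g0,
    ← fg_psubst1 (fg_constX _) θ g0, g2, PowerSeries.subst_X (fgS (fg_constX _)),
    PowerSeries.subst_X (fgS (fg_constX _)), fg_subst_self] at e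
  exact ⟨e.symm⟩

theorem mulSeries_succ (F : FormalGroup R) (m : ℕ) :
    mulSeries F (m + 1) = fadd F (mulSeries F m) PowerSeries.X := rfl

theorem const_mulSeries (F : FormalGroup R) (m : ℕ) :
    PowerSeries.constantCoeff (mulSeries F m) = 0 := by
  induction m with
  | zero => exact map_zero _
  | succ m ih => exact const_fadd F ih PowerSeries.constantCoeff_X

theorem map_mulSeries (ρ : R →+* S) (F : FormalGroup R) (m : ℕ) :
    PowerSeries.map ρ (mulSeries F m) = mulSeries (F.map ρ) m := by
  induction m with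
  | zero => exact map_zero _
  | succ m ih =>
    rw [mulSeries_succ, mulSeries_succ,
      map_fadd ρ F (const_mulSeries F m) PowerSeries.constantCoeff_X, ih, PowerSeries.map_X]

theorem coeff_one_mulSeries (F : FormalGroup R) (m : ℕ) :
    PowerSeries.coeff 1 (mulSeries F m) = (m : R) := by
  induction m with
  | zero => simp [mulSeries]
  | succ m ih =>
    rw [mulSeries_succ, coeff_one_fadd F (const_mulSeries F m) PowerSeries.constantCoeff_X, ih,
      PowerSeries.coeff_one_X, Nat.cast_succ]

theorem mulSeries_one (F : FormalGroup R) : mulSeries F 1 = PowerSeries.X := F.zero_add PowerSeries.HasSubst.X'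

theorem mulSeries_add (F : FormalGroup R) (a b : ℕ) :
    mulSeries F (a + b) = fadd F (mulSeries F a) (mulSeries F b) := by
  induction b with
  | zero => exact (F.add_zero (fgS (const_mulSeries F a))).symm
  | succ b ih =>
    rw [← add_assoc, mulSeries_succ, ih]
    exact F.assoc' (fgS (const_mulSeries F a)) (fgS (const_mulSeries F b)) PowerSeries.HasSubst.X'

theorem mulSeries_mul (F : FormalGroup R) (a b : ℕ) :
    mulSeries F (a * b) = cmp (mulSeries F a) (mulSeries F b) := by
  induction a with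
  | zero =>
    rw [zero_mul, cmp, ← PowerSeries.coe_substAlgHom (fgS (const_mulSeries F b))]
    exact (map_zero _).symm
  | succ a ih =>
    rw [Nat.succ_mul, mulSeries_add, ih, mulSeries_succ,
      fadd_cmp F (const_mulSeries F a) PowerSeries.constantCoeff_X (const_mulSeries F b),
      X_cmp (const_mulSeries F b)]

theorem isFGHom_mulSeries (F : FormalGroup R) [F.IsComm] (m : ℕ) :
    IsFGHom F F (mulSeries F m) := by
  induction m with
  | zero => exact isFGHom_zero F F
  | succ m ih => exact isFGHom_fadd ih (isFGHom_X F)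

/-- homomorphisms commute with multiplication by `m`. -/
theorem isFGHom_cmp_mulSeries {F G : FormalGroup R} {φ : PowerSeries R} (h : IsFGHom F G φ)
    (m : ℕ) : cmp φ (mulSeries F m) = cmp (mulSeries G m) φ := by
  induction m with
  | zero =>
    refine (PowerSeries.subst_zero_of_constantCoeff_zero h.1).trans ?_
    rw [cmp, ← PowerSeries.coe_substAlgHom (fgS h.1)]
    exact (map_zero _).symm
  | succ m ih =>
    rw [mulSeries_succ, mulSeries_succ,
      fadd_cmp G (const_mulSeries G m) PowerSeries.constantCoeff_X h.1, ← ih, X_cmp h.1]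
    refine (isFGHom_apply h (const_mulSeries F m) PowerSeries.constantCoeff_X).trans ?_
    rw [PowerSeries.X_subst]

end Crest.Agent.R227
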