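import Crest.Agent.R227.Pr
import Crest.Agent.R227.EvRoot

/-!
# R227 / Tors : torsion points and the Tate module

`[p] = V(X^{p^h})` with `V = z₀ X + ⋯` bounded (`exists_pser_charP`, `bd_expand_iff`), and `[p]` is within `μ < 1` of
`X^{p^n}` coefficientwise (`norm_coeff_mulSeries_sub`, `pser_hon`, `zseq_zero`).

Plan.
* `exists_pm_eq`: `exists_root` for `[p] - C y` with `d = p^n`.
* `norm_pm_small`: `‖V(t) - z₀ t‖ ≤ ‖t‖²`.
* `card_torsion`: `exists_zeros` for `V` with `d = p^r`.  Zeros are simple: if `V(y) = 0 = V'(y)`, `η = rt h y`, `t = z₀²`,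
  `s = rt h t`, then `V(t) = pm p s = pm p (gadd η s) = V(y + t')` with `‖t'‖ = ‖gadd η s - η‖^{p^h} ≤ ‖t‖`, so
  `‖V t‖ ≤ ‖t‖²` by `norm_ev1_taylor`, while `‖V t‖ = ‖z₀‖ ‖t‖`.
* `exists_torsion_basis`: the subgroup `T = {x | p • x = 0}` is a `ZMod p`-vector space with at least `p^r` elements.
  Elementary route: induction, if `η_1, …, η_j` (`j < r`) are independent, their span has at most `p^j < p^r`
  elements, pick `η_{j+1} ∈ T` outside it.
* `exists_TD`: choose `y 0 = 0`, `y 1 = η_i`, and `y (k+2)` by `exists_pm_eq`; apply `exists_prf`.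
-/

set_option autoImplicit false
set_option linter.unusedSectionVars false
open Crest.LubinTate Filter Topology

namespace Crest.Agent.R227

variable {p : ℕ} [hp : Fact p.Prime] {C : Type*} [NormedField C] [IsUltrametricDist C]
  [CompleteSpace C] [CharP C p] {n h r : ℕ} {z : Fin r → C}

theorem exists_V (hh : 1 ≤ h) (hr : h + r = n) (hr0 : 0 < r) (hz : ∀ i, ‖z i‖ ≤ 1) :
    ∃ V : PowerSeries C, Bd V ∧ PowerSeries.constantCoeff V = 0 ∧
      PowerSeries.coeff 1 V = z ⟨0, hr0⟩ ∧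
      (∀ i, PowerSeries.coeff i V =
        PowerSeries.coeff (p ^ h * i) (mulSeries (HL p n (zseq n h z)) p)) ∧
      ∀ w : C, ‖w‖ < 1 → pm p n (zseq n h z) p w = ev1 V (w ^ p ^ h) := by
  obtain ⟨V, h0, h1, hV⟩ := exists_pser_charP p (CharP.cast_eq_zero C p) hh (show h ≤ n by omega)
    (zseq n h z) fun j _ hj => zseq_eq_zero (by omega) z hj
  have hb : Bd V := (bd_expand_iff _).1 (hV ▸ bd_mulSeries p (norm_zseq_le' n h hz) _)
  exact ⟨V, hb, h0, h1.trans (zseq_at n h z ⟨0, hr0⟩),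
    fun i => by rw [hV, PowerSeries.coeff_expand_mul],
    fun w hw => by rw [pm, hV, ev1_expand hb.an _ hw]⟩

theorem norm_coeff_pser_sub (hh : 1 ≤ h) (hr : h + r = n) (hz : Sm z) (i : ℕ) :
    ‖PowerSeries.coeff i (mulSeries (HL p n (zseq n h z)) p) - if i = p ^ n then 1 else 0‖ < 1 := by
  obtain ⟨μ, h0, h1, h2⟩ := hz.exists_bound
  have := norm_coeff_mulSeries_sub p (n := n) (norm_zseq_le n h hz) (norm_hon_le n)
    (norm_zseq_sub_hon hr h0 h2) p i
  rw [pser_hon p (CharP.cast_eq_zero C p) (by omega), PowerSeries.coeff_X_pow] at this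
  exact this.trans_lt h1

theorem norm_coeff_pser_top (hh : 1 ≤ h) (hr : h + r = n) (hz : Sm z) :
    ‖PowerSeries.coeff (p ^ n) (mulSeries (HL p n (zseq n h z)) p)‖ = 1 := by
  have := norm_add_eq_one norm_one (norm_coeff_pser_sub (p := p) hh hr hz (p ^ n))
  rwa [if_pos rfl, add_sub_cancel] at this

theorem norm_pm_small (hh : 1 ≤ h) (hr : h + r = n) (hr0 : 0 < r) (hz : ∀ i, ‖z i‖ ≤ 1) {w : C}
    (hw : ‖w‖ < 1) (hw' : ‖w‖ ^ p ^ h < ‖z ⟨0, hr0⟩‖) :
    ‖pm p n (zseq n h z) p w‖ = ‖z ⟨0, hr0⟩‖ * ‖w‖ ^ p ^ h := by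
  obtain ⟨V, hb, h0, h1, -, hV⟩ := exists_V (p := p) hh hr hr0 hz
  rw [← norm_pow] at hw' ⊢
  rw [hV w hw]
  generalize w ^ p ^ h = t at hw'
  have ht := hw'.trans_le (hz _)
  have h2 := hb.norm_ev_sub_le_pow (G := PowerSeries.C (z ⟨0, hr0⟩) * PowerSeries.X ^ 1)
    ((bd_C (hz _)).mul ((bd_X ()).pow 1)) (N := 2) (forall_unit.2 fun i hi => by
      rw [Finsupp.degree_single] at hi
      change PowerSeries.coeff i V = PowerSeries.coeff i _
      interval_cases i <;> simp [h0, h1]) (norm_nonneg t) ht (y := fun _ => t) fun _ => le_rfl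
  change ‖ev1 V t - ev1 _ t‖ ≤ _ at h2
  rw [ev1_C_mul_X_pow, pow_one] at h2
  rw [← norm_mul]
  rcases (norm_nonneg t).eq_or_lt with h3 | h3
  · rw [← h3, zero_pow two_ne_zero, norm_le_zero_iff, sub_eq_zero] at h2
    rw [h2]
  · have h4 : ‖ev1 V t - z ⟨0, hr0⟩ * t‖ < ‖z ⟨0, hr0⟩ * t‖ := by
      rw [norm_mul]; exact h2.trans_lt (by rw [sq]; exact mul_lt_mul_of_pos_right hw' h3)
    rw [← sub_add_cancel (ev1 V t) (z ⟨0, hr0⟩ * t),
      IsUltrametricDist.norm_add_eq_max_of_norm_ne_norm h4.ne, max_eq_right h4.le]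

theorem norm_le_of_torsion (hh : 1 ≤ h) (hr : h + r = n) (hr0 : 0 < r) (hz : ∀ i, ‖z i‖ ≤ 1)
    {w : C} (hw : ‖w‖ < 1) (hw0 : w ≠ 0) (ht : pm p n (zseq n h z) p w = 0) :
    ‖z ⟨0, hr0⟩‖ ≤ ‖w‖ := by
  by_contra hc
  rw [not_le] at hc
  have h1 := norm_pm_small hh hr hr0 hz hw
    ((pow_le_of_le_one (norm_nonneg _) hw.le (pow_ne_zero h hp.out.ne_zero)).trans_lt hc)
  rw [ht, norm_zero] at h1
  exact (mul_pos ((norm_nonneg _).trans_lt hc) (pow_pos (norm_pos_iff.2 hw0) _)).ne h1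

variable (p n h z) in
/-- a basis `η` of the `p`-torsion and a basis `ζ` of the Tate module lying above it. -/
structure TD [PerfectRing C p] (η : Fin r → Pt p n (zseq n h z)) (ζ : Fin r → C) : Prop where
  tors : ∀ i, p • η i = 0
  indep : ∀ a : Fin r → ℤ, ∑ i, a i • η i = 0 → ∀ i, (p : ℤ) ∣ a i
  lt : ∀ i, ‖ζ i‖ < 1
  prf0 : ∀ i, prf p n (zseq n h z) (ζ i) = 0
  prf1 : ∀ i, prf p n (zseq n h z) (rt p n (ζ i)) = (η i).val

theorem TD.map [PerfectRing C p] {D : Type*} [NormedField D] [IsUltrametricDist D]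
    [CompleteSpace D] [CharP D p] [PerfectRing D p] (ι : C →+* D) (hι : ∀ a, ‖ι a‖ = ‖a‖)
    (hh : 1 ≤ h) (hr : h + r = n) (hz : Sm z) {η : Fin r → Pt p n (zseq n h z)} {ζ : Fin r → C}
    (hT : TD p n h z η ζ) :
    ∃ η', TD p n h (fun i => ι (z i)) η' (fun i => ι (ζ i)) := by
  have hc : Continuous ι := (AddMonoidHomClass.isometry_of_norm _ hι).continuous
  have hz' : Sm fun i => ι (z i) := fun i => by rw [hι]; exact hz i
  have e : (fun j => ι (zseq n h z j)) = zseq n h fun i => ι (z i) := funext (map_zseq ι n h z)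
  let Φ : Pt p n (zseq n h z) →+ Pt p n (zseq n h fun i => ι (z i)) :=
    AddMonoidHom.mk' (fun a => ⟨ι a.val, by rw [hι]; exact a.lt⟩) fun a b => Pt.ext (by
      rw [Pt.val_add (norm_zseq_le n h hz'), ← e]
      exact (congrArg ι (Pt.val_add (norm_zseq_le n h hz) a b)).trans
        (map_gadd ι hc (norm_zseq_le n h hz) a.lt b.lt))
  have hΦ : Function.Injective Φ := fun a b hab => Pt.ext (ι.injective (congrArg Pt.val hab))
  refine ⟨fun i => Φ (η i), fun i => by rw [← map_nsmul, hT.tors, map_zero], fun a ha =>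
    hT.indep a (hΦ (by simpa only [map_sum, map_zsmul, map_zero] using ha)),
    fun i => by rw [hι]; exact hT.lt i, fun i => ?_, fun i => ?_⟩
  · rw [← map_prf ι hc hh hr hz (hT.lt i), hT.prf0, map_zero]
  · rw [← map_rt, ← map_prf ι hc hh hr hz (norm_rt_lt_one _ (hT.lt i)), hT.prf1]; rfl

/-- the span of a torsion basis has `p^r` elements. -/
theorem TD.exists_finset [PerfectRing C p] {η : Fin r → Pt p n (zseq n h z)} {ζ : Fin r → C}
    (hT : TD p n h z η ζ) : ∃ S : Finset (Pt p n (zseq n h z)), S.card = p ^ r ∧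
      ∀ x ∈ S, ∃ a : Fin r → ℕ, x = ∑ i, a i • η i := by
  classical
  refine ⟨Finset.univ.image fun a : Fin r → Fin p => ∑ i, (a i : ℕ) • η i, ?_, fun x hx => ?_⟩
  · rw [Finset.card_image_of_injective _ fun a b hab => ?_]
    · simp
    funext i
    have h1 := hT.indep (fun i => (a i : ℤ) - b i) (by
      simp only [sub_zsmul, Finset.sum_add_distrib, Finset.sum_neg_distrib, natCast_zsmul]
      rw [show ∑ i, (a i : ℕ) • η i = _ from hab, add_neg_cancel]) i
    have h2 := (a i).2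
    have h3 := (b i).2
    have h4 := Int.eq_zero_of_abs_lt_dvd h1 (by rw [abs_lt]; constructor <;> omega)
    exact Fin.ext (by omega)
  · obtain ⟨a, -, rfl⟩ := Finset.mem_image.1 hx
    exact ⟨fun i => a i, rfl⟩

variable [IsAlgClosed C]

theorem exists_pm_eq (hh : 1 ≤ h) (hr : h + r = n) (hz : Sm z) {y : C} (hy : ‖y‖ < 1) :
    ∃ x : C, ‖x‖ < 1 ∧ pm p n (zseq n h z) p x = y := by
  have hb := bd_mulSeries p (n := n) (norm_zseq_le n h hz) p
  obtain ⟨x, hx, hx0⟩ := exists_root (f := mulSeries (HL p n (zseq n h z)) p - PowerSeries.C y)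
    (hb.sub (bd_C hy.le)) (d := p ^ n) (by
      rw [map_sub, PowerSeries.coeff_C, if_neg (pow_ne_zero _ hp.out.ne_zero), sub_zero]
      exact norm_coeff_pser_top hh hr hz) (by simpa [const_mulSeries] using hy)
  refine ⟨x, hx, sub_eq_zero.1 (Eq.trans ?_ hx0)⟩
  exact ((ev_sub hb.an (an_C y) fun _ => hx).trans (congrArg _ (ev_C _ _))).symm

theorem prf_surj (hh : 1 ≤ h) (hr : h + r = n) (hz : Sm z) {w : C} (hw : ‖w‖ < 1) :
    ∃ y : C, ‖y‖ < 1 ∧ prf p n (zseq n h z) y = w := by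
  choose! X hX using fun y (hy : ‖y‖ < 1) => exists_pm_eq (p := p) hh hr hz hy
  have h1 : ∀ k, ‖X^[k] w‖ < 1 := fun k => by
    induction k with
    | zero => exact hw
    | succ k ih => rw [Function.iterate_succ_apply']; exact (hX _ ih).1
  obtain ⟨ζ, h2, h3⟩ := exists_prf (p := p) hh hr hz h1 fun k => by
    rw [Function.iterate_succ_apply']; exact (hX _ (h1 k)).2
  exact ⟨ζ, h2, by simpa [rt_zero] using h3 0⟩

theorem card_torsion (hh : 1 ≤ h) (hr : h + r = n) (hr0 : 0 < r) (hz : Sm z)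
    (hz0 : z ⟨0, hr0⟩ ≠ 0) :
    ∃ S : Finset (Pt p n (zseq n h z)), S.card = p ^ r ∧ ∀ x ∈ S, p • x = 0 := by
  classical
  have hv := norm_zseq_le n h hz
  obtain ⟨V, hb, h0, h1, h2, hV⟩ := exists_V (p := p) hh hr hr0 fun i => (hz i).le
  have hV' : ∀ y : C, ‖y‖ < 1 → pm p n (zseq n h z) p (rt p h y) = ev1 V y := fun y hy => by
    rw [hV _ (norm_rt_lt_one h hy), rt_pow]
  obtain ⟨S, hS, hS'⟩ := exists_zeros hb (d := p ^ r)
    (by rw [h2, ← pow_add, hr]; exact norm_coeff_pser_top hh hr hz)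
    (fun i hi => by
      have := norm_coeff_pser_sub (p := p) hh hr hz (p ^ h * i)
      rwa [if_neg (by
        rw [← hr, pow_add]
        exact (Nat.mul_lt_mul_of_pos_left hi (pow_pos hp.out.pos h)).ne), sub_zero, ← h2] at this)
    fun y hy hy0 hy1 => by
      have z0 := norm_pos_iff.2 hz0
      have t1 : ‖z ⟨0, hr0⟩ ^ 2‖ < ‖z ⟨0, hr0⟩‖ := by
        rw [norm_pow, sq]; exact mul_lt_of_lt_one_left z0 (hz _)
      have t0 : 0 < ‖z ⟨0, hr0⟩ ^ 2‖ := by rw [norm_pow]; positivity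
      generalize z ⟨0, hr0⟩ ^ 2 = t at t0 t1
      have hs := norm_rt_lt_one (p := p) h (t1.trans (hz _))
      have hη := norm_rt_lt_one (p := p) h hy
      have e1 := norm_pm_small hh hr hr0 (fun i => (hz i).le) hs (by rwa [norm_rt_pow])
      have e2 := pm_gadd (p := p) (n := n) hv p hη hs
      rw [hV' y hy, hy0, zero_gadd hv ((norm_pm_le hv p hs).trans_lt hs),
        hV _ (norm_gadd_lt hv hη hs)] at e2
      have e3 : ‖gadd p n (zseq n h z) (rt p h y) (rt p h t) ^ p ^ h - y‖ ≤ ‖t‖ := by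
        nth_rw 2 [← rt_pow (p := p) h y]
        rw [← sub_pow_char_pow, norm_pow, ← norm_rt_pow (p := p) h t]
        refine pow_le_pow_left₀ (norm_nonneg _) ?_ _
        nth_rw 2 [← gadd_zero (p := p) (n := n) hv hη]
        exact norm_gadd_sub_gadd hv hv hη hs hη (by simp) (by simp) (by simp) (by simp)
      have e4 := norm_ev1_taylor hb hy (e3.trans_lt (t1.trans (hz _)))
      rw [add_sub_cancel, hy0, hy1, mul_zero, sub_zero, sub_zero, e2, e1, norm_rt_pow] at e4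
      have e5 := e4.trans (pow_le_pow_left₀ (norm_nonneg _) e3 2)
      rw [sq] at e5
      exact absurd (le_of_mul_le_mul_right e5 t0) (not_le.2 t1)
  refine ⟨S.image fun y => toPt p n _ (rt p h y), ?_, fun x hx => ?_⟩
  · rw [Finset.card_image_of_injOn fun a ha b hb hab => ?_, hS]
    have := congrArg Pt.val hab
    rw [val_toPt (norm_rt_lt_one h (hS' a ha).1), val_toPt (norm_rt_lt_one h (hS' b hb).1)] at this
    exact (rt p h).injective this
  · obtain ⟨y, hy, rfl⟩ := Finset.mem_image.1 hx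
    refine Pt.ext ?_
    rw [Pt.val_nsmul hv, val_toPt (norm_rt_lt_one h (hS' y hy).1), hV' y (hS' y hy).1, (hS' y hy).2,
      Pt.val_zero]

theorem le_rank_of_card {T ι : Type*} [AddCommGroup T] [Module (ZMod p) T] {f : ι → T}
    (hf : Function.Injective f) (hι : Nat.card ι = p ^ r) :
    ∃ v : Fin r → T, LinearIndependent (ZMod p) v := by
  refine Module.le_rank_iff.1 (not_lt.1 fun hc => ?_)
  have : Module.Finite (ZMod p) T :=
    Module.rank_lt_aleph0_iff.1 (hc.trans Cardinal.natCast_lt_aleph0)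
  have : Finite T := Module.finite_of_finite (ZMod p)
  have h2 := Nat.card_le_card_of_injective f hf
  rw [Module.natCard_eq_pow_finrank (K := ZMod p) (V := T), Nat.card_zmod, hι,
    Nat.pow_le_pow_iff_right hp.out.one_lt] at h2
  rw [← Module.finrank_eq_rank, Nat.cast_lt] at hc
  omega

theorem exists_indep_of_card {G : Type*} [AddCommGroup G] (S : Finset G) (hS : S.card = p ^ r)
    (h : ∀ x ∈ S, p • x = 0) : ∃ η : Fin r → G, (∀ i, p • η i = 0) ∧
      ∀ a : Fin r → ℤ, ∑ i, a i • η i = 0 → ∀ i, (p : ℤ) ∣ a i := by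
  let T : AddSubgroup G := (nsmulAddMonoidHom p).ker
  let _ : Module (ZMod p) T := AddCommGroup.zmodModule fun x => Subtype.ext x.2
  obtain ⟨f, hf⟩ := le_rank_of_card (p := p) (r := r) (f := fun x : S => (⟨x, h x x.2⟩ : T))
    (fun a b hab => Subtype.ext (Subtype.mk.inj hab)) (by rw [← hS]; simp)
  refine ⟨fun i => f i, fun i => (f i).2, fun a ha i => ?_⟩
  refine (ZMod.intCast_zmod_eq_zero_iff_dvd _ _).1
    (Fintype.linearIndependent_iff.1 hf (fun i => a i) (Subtype.ext ?_) i)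
  simpa [Int.cast_smul_eq_zsmul] using ha

theorem exists_torsion_basis (hh : 1 ≤ h) (hr : h + r = n) (hr0 : 0 < r) (hz : Sm z)
    (hz0 : z ⟨0, hr0⟩ ≠ 0) :
    ∃ η : Fin r → Pt p n (zseq n h z), (∀ i, p • η i = 0) ∧
      ∀ a : Fin r → ℤ, ∑ i, a i • η i = 0 → ∀ i, (p : ℤ) ∣ a i := by
  obtain ⟨S, hS, hS'⟩ := card_torsion (p := p) hh hr hr0 hz hz0
  exact exists_indep_of_card S hS hS'

theorem exists_TD (hh : 1 ≤ h) (hr : h + r = n) (hr0 : 0 < r) (hz : Sm z)
    (hz0 : z ⟨0, hr0⟩ ≠ 0) : ∃ η ζ, TD p n h z η ζ := by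
  obtain ⟨η, h1, h2⟩ := exists_torsion_basis (p := p) hh hr hr0 hz hz0
  choose ξ h3 h4 using fun i => prf_surj (p := p) hh hr hz (η i).lt
  refine ⟨η, fun i => ξ i ^ p ^ n, h1, h2, fun i => ?_, fun i => ?_, fun i => ?_⟩
  · rw [norm_pow]; exact pow_lt_one₀ (norm_nonneg _) (h3 i) (pow_ne_zero _ hp.out.ne_zero)
  · have := prf_pow (p := p) hh hr hz (h3 i) 1
    rwa [mul_one, pow_one, h4, ← Pt.val_nsmul (norm_zseq_le n h hz), h1] at this
  · rw [rt_pow', h4]

end Crest.Agent.R227
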