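import Crest.Agent.R227.Lam
import Crest.Agent.R227.Tors

/-!
# R227 / Indep : the period vectors of a basis of the Tate module are linearly independent

Plan.
* `exists_additive`: `A_0 = X`, `A_{j+1} = A_j^p - A_j(b_j)^{p-1} A_j`; these are additive polynomials
  `∑_{e ≤ j} α_e X^{p^e}` with `‖α_e‖ ≤ 1`, `A_j` kills `b_0, …, b_{j-1}`, and
  `A_{j+1}(x) = ∏_{a ∈ 𝔽_p} (A_j(x) - a A_j(b_j)) = ∏_a A_j(x - a b_j)`.  Induction over a `Finset` of indices not containing
  `i₀`, with the invariant: `r₀^{p^{|T|}} ≤ ‖A_T(∑ a_i b_i)‖` whenever `a_{i₀}` is prime to `p`.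
* `indep`: `η̄_i` from `exists_bar`.  For `a : Fin r → ℕ`, `‖lg τ(∑ a_i η_i) - τ(∑ a_i η̄_i)‖ ≤ ρ` (`lg_tau_gadd`, `norm_tau_add`,
  induction), so if some `a_i` is prime to `p` then `‖∑ a_i η̄_i‖ ≥ ‖z₀‖ =: r₀ > ρ` (`norm_le_norm_lg_tau`, `norm_le_of_torsion`,
  `TD.indep`).  For every `e`, with `z^{(e)} = z^{p^e}` and `y_i = (rt n ζ_i)^{p^e}`: `L_{e,i} = ∑_s φ_s(τ z^{(e)}) λ(y_i^{p^s})` satisfies
  `∑_i a_i L_{e,i} = 0` (`rel_all` for the family `rt n ζ_i` with `s₀ = n`), and `‖L_{e,i} - τ(η̄_i^{p^e})‖ ≤ ρ` (`per_lam` with `k = 0`,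
  `map_prf` for `iterateFrobenius`, `TD.prf1`, `lg_tau_frob`).  Take `i₀` with `‖a_{i₀}‖` maximal and
  `∑_e τ(α_e) ∑_i a_i L_{e,i} = 0`: `‖a_{i₀}‖ r₀^{p^r} ≤ ρ ‖a_{i₀}‖` (`norm_tau_sum`).
-/

set_option autoImplicit false
open Crest.LubinTate Filter Topology

namespace Crest.Agent.R227

variable {p : ℕ} [hp : Fact p.Prime] {D : Type*} [NormedField D] [IsUltrametricDist D] [CharP D p]

theorem pow_sub_self_eq_prod {K : Type*} [Field K] [CharP K p] (t : K) :
    t ^ p - t = ∏ c : ZMod p, (t + ((-c).val : K)) := by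
  have hm : (Polynomial.X ^ p - Polynomial.X : Polynomial (ZMod p)).Monic :=
    Polynomial.monic_X_pow_sub (by simpa using hp.out.one_lt)
  have hr := FiniteField.roots_X_pow_card_sub_X (ZMod p)
  rw [ZMod.card] at hr
  have h1 := Polynomial.prod_multiset_X_sub_C_of_monic_of_roots_card_eq hm (by
    rw [hr, FiniteField.X_pow_card_sub_X_natDegree_eq _ hp.out.one_lt]; simp)
  rw [hr] at h1
  have h2 := congrArg (Polynomial.eval₂RingHom (ZMod.castHom (dvd_refl p) K) t) h1
  rw [← Finset.prod_eq_multiset_prod, map_prod] at h2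
  simp only [map_sub, map_pow, Polynomial.coe_eval₂RingHom, Polynomial.eval₂_X,
    Polynomial.eval₂_C] at h2
  rw [← h2]
  refine Finset.prod_congr rfl fun c _ => ?_
  rw [ZMod.natCast_val, sub_eq_add_neg, ← map_neg]; rfl

omit [IsUltrametricDist D] in
theorem le_norm_pow_sub {y β : D} {m : ℝ} (hm : 0 ≤ m) (h : ∀ c : ℕ, m ≤ ‖y + c * β‖) :
    m ^ p ≤ ‖y ^ p - β ^ (p - 1) * y‖ := by
  by_cases hβ : β = 0
  · have := h 0
    rw [hβ, zero_pow (by have := hp.out.two_le; omega), zero_mul, sub_zero, norm_pow]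
    exact pow_le_pow_left₀ hm (by simpa using this) _
  have e : y ^ p - β ^ (p - 1) * y = ∏ c : ZMod p, (y + ((-c).val : D) * β) := by
    have h1 := pow_sub_self_eq_prod (p := p) (y / β)
    have h2 : β ^ p = β ^ (p - 1) * β := by
      rw [← pow_succ, Nat.sub_add_cancel hp.out.one_le]
    calc _ = β ^ p * ((y / β) ^ p - y / β) := by
          rw [mul_sub, ← mul_pow, mul_div_cancel₀ _ hβ, h2, mul_assoc, mul_div_cancel₀ _ hβ]
      _ = (∏ _c : ZMod p, β) * ∏ c : ZMod p, (y / β + ((-c).val : D)) := by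
          rw [h1]; simp
      _ = _ := by
          rw [← Finset.prod_mul_distrib]
          refine Finset.prod_congr rfl fun c _ => ?_
          field_simp
  rw [e, norm_prod]
  calc m ^ p = ∏ _c : ZMod p, m := by simp
    _ ≤ _ := Finset.prod_le_prod (fun _ _ => hm) fun c _ => h _

theorem exists_additive {r : ℕ} {b : Fin r → D} (hb : ∀ i, ‖b i‖ ≤ 1) {r₀ : ℝ} (h0 : 0 ≤ r₀)
    (h1 : r₀ ≤ 1) (hr₀ : ∀ a : Fin r → ℕ, (∃ i, ¬ p ∣ a i) → r₀ ≤ ‖∑ i, (a i : D) * b i‖)
    (i₀ : Fin r) :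
    ∃ α : ℕ → D, (∀ e, ‖α e‖ ≤ 1) ∧
      (∀ i, i ≠ i₀ → ∑ e ∈ Finset.range r, α e * b i ^ p ^ e = 0) ∧
      r₀ ^ p ^ r ≤ ‖∑ e ∈ Finset.range r, α e * b i₀ ^ p ^ e‖ := by
  classical
  have hadd : ∀ (N : ℕ) (α : ℕ → D) (x y : D) (c : ℕ),
      ∑ e ∈ Finset.range N, α e * (x + c * y) ^ p ^ e =
        ∑ e ∈ Finset.range N, α e * x ^ p ^ e + c * ∑ e ∈ Finset.range N, α e * y ^ p ^ e := by
    intro N α x y c
    rw [Finset.mul_sum, ← Finset.sum_add_distrib]
    refine Finset.sum_congr rfl fun e _ => ?_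
    have : (c : D) ^ p ^ e = c := by
      rw [← iterateFrobenius_def, map_natCast]
    rw [add_pow_char_pow, mul_pow, this]; ring
  have key : ∀ T : Finset (Fin r), i₀ ∉ T → ∃ α : ℕ → D, (∀ e, ‖α e‖ ≤ 1) ∧
      (∀ i ∈ T, ∑ e ∈ Finset.range (T.card + 1), α e * b i ^ p ^ e = 0) ∧
      ∀ a : Fin r → ℕ, ¬ p ∣ a i₀ → r₀ ^ p ^ T.card ≤
        ‖∑ e ∈ Finset.range (T.card + 1), α e * (∑ i, (a i : D) * b i) ^ p ^ e‖ := by
    intro T
    induction T using Finset.induction_on with
    | empty =>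
      intro _
      refine ⟨fun _ => 1, fun _ => by simp, fun i hi => absurd hi (Finset.notMem_empty _),
        fun a ha => ?_⟩
      simpa using hr₀ a ⟨i₀, ha⟩
    | insert j T hj ih =>
      intro hi
      obtain ⟨α, hα, hT, hbd⟩ := ih fun h => hi (Finset.mem_insert_of_mem h)
      set N := T.card + 1 with hN
      set β := ∑ e ∈ Finset.range N, α e * b j ^ p ^ e with hβ
      have hβ1 : ‖β‖ ≤ 1 :=
        IsUltrametricDist.norm_sum_le_of_forall_le_of_nonneg zero_le_one fun e _ => by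
          rw [norm_mul, norm_pow]
          exact mul_le_one₀ (hα e) (by positivity) (pow_le_one₀ (norm_nonneg _) (hb j))
      let α' : ℕ → D := fun e => (if e = 0 then 0 else α (e - 1) ^ p) -
        (if e < N then β ^ (p - 1) * α e else 0)
      have hA : ∀ x : D, ∑ e ∈ Finset.range (N + 1), α' e * x ^ p ^ e =
          (∑ e ∈ Finset.range N, α e * x ^ p ^ e) ^ p -
            β ^ (p - 1) * ∑ e ∈ Finset.range N, α e * x ^ p ^ e := fun x => by
        simp only [α', sub_mul, Finset.sum_sub_distrib]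
        congr 1
        · rw [Finset.sum_range_succ', sum_pow_char]
          simp only [if_true, zero_mul, add_zero, Nat.add_eq_zero_iff, one_ne_zero, and_false,
            if_false, Nat.add_sub_cancel]
          refine Finset.sum_congr rfl fun e _ => ?_
          rw [mul_pow, ← pow_mul, ← pow_succ]
        · rw [Finset.sum_range_succ, if_neg (lt_irrefl _), zero_mul, add_zero, Finset.mul_sum]
          refine Finset.sum_congr rfl fun e he => ?_
          rw [if_pos (Finset.mem_range.1 he), mul_assoc]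
      rw [Finset.card_insert_of_notMem hj, ← hN]
      refine ⟨α', fun e => ?_, fun i hi' => ?_, fun a ha => ?_⟩
      · simp only [α', sub_eq_add_neg]
        refine (IsUltrametricDist.norm_add_le_max _ _).trans (max_le ?_ ?_)
        · split_ifs
          · simp
          · rw [norm_pow]; exact pow_le_one₀ (norm_nonneg _) (hα _)
        · rw [norm_neg]
          split_ifs
          · rw [norm_mul, norm_pow]
            exact mul_le_one₀ (pow_le_one₀ (norm_nonneg _) hβ1) (norm_nonneg _) (hα _)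
          · simp
      · rw [hA]
        rcases Finset.mem_insert.1 hi' with rfl | hi'
        · rw [← hβ, ← pow_succ, Nat.sub_add_cancel hp.out.one_le, sub_self]
        · rw [hT i hi', zero_pow hp.out.ne_zero, mul_zero, sub_zero]
      · rw [hA, hN, pow_succ, pow_mul]
        refine le_norm_pow_sub (by positivity) fun c => ?_
        have hne : i₀ ≠ j := fun h => hi (h ▸ Finset.mem_insert_self _ _)
        have := hbd (a + Pi.single j c) (by simpa [Pi.single_eq_of_ne hne] using ha)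
        have e : ∑ i, (((a + Pi.single j c : Fin r → ℕ) i : ℕ) : D) * b i =
            ∑ i, (a i : D) * b i + c * b j := by
          simp only [Pi.add_apply, Nat.cast_add, add_mul, Finset.sum_add_distrib]
          congr 1
          rw [Finset.sum_eq_single j]
          · simp
          · intro i _ hij; simp [Pi.single_eq_of_ne hij]
          · simp
        rwa [e, hadd, ← hβ] at this
  obtain ⟨α, hα, hT, hbd⟩ := key (Finset.univ.erase i₀) (Finset.notMem_erase _ _)
  have hr : 0 < r := Fin.pos i₀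
  have hc : (Finset.univ.erase i₀).card + 1 = r := by
    rw [Finset.card_erase_of_mem (Finset.mem_univ _), Finset.card_univ, Fintype.card_fin]; omega
  rw [hc] at hT hbd
  refine ⟨α, hα, fun i hi => hT i (by simp [hi]), ?_⟩
  have := hbd (Pi.single i₀ 1) (by simpa using hp.out.one_lt.ne')
  have e : ∑ i, (((Pi.single i₀ 1 : Fin r → ℕ) i : ℕ) : D) * b i = b i₀ := by
    rw [Finset.sum_eq_single i₀]
    · simp
    · intro i _ hij; simp [Pi.single_eq_of_ne hij]
    · simp
  rw [e] at this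
  exact (pow_le_pow_of_le_one h0 h1 (Nat.pow_le_pow_right hp.out.pos (by omega))).trans this

variable [PerfectRing D p] [CompleteSpace D] {F : Type*} [NormedField F] [IsUltrametricDist F]
  [CompleteSpace F] {J : WittVector p (OO D) →+* F} {ρ : ℝ}

theorem IsPer.indep (hJ : IsPer p J ρ) (h0 : 0 < ρ) (h1 : ρ < 1) {n h r : ℕ} (hh : 1 ≤ h)
    (hr : h + r = n) (hr0 : 0 < r) {z : Fin r → D} (hz : Sm z)
    (hρ : ρ < ‖z ⟨0, hr0⟩‖ ^ p ^ r) {η : Fin r → Pt p n (zseq n h z)} {ζ : Fin r → D}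
    (hT : TD p n h z η ζ) {a : Fin r → F}
    (ha : ∀ e < n, ∑ i, a i * lam J n (ζ i ^ p ^ e) = 0) : a = 0 := by
  classical
  have hn : 1 ≤ n := by omega
  have hpe : ∀ e, p ^ e ≠ 0 := fun e => pow_ne_zero _ hp.out.ne_zero
  have hlt : ∀ {a : D}, ‖a‖ < 1 → ∀ e, ‖a ^ p ^ e‖ < 1 := fun ha e => by
    rw [norm_pow]; exact pow_lt_one₀ (norm_nonneg _) ha (hpe e)
  have hv := norm_zseq_le n h hz
  set r₀ := ‖z ⟨0, hr0⟩‖ with hr₀
  have hr1 : r₀ ≤ 1 := (hz _).le
  have hρ' : ρ < r₀ := hρ.trans_le (pow_le_of_le_one (norm_nonneg _) hr1 (hpe r))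
  have htri : ∀ {a b c : F}, ‖a - b‖ ≤ ρ → ‖b - c‖ ≤ ρ → ‖a - c‖ ≤ ρ := fun {a b c} h1 h2 => by
    have := IsUltrametricDist.norm_add_le_max (a - b) (b - c)
    rw [sub_add_sub_cancel] at this
    exact this.trans (max_le h1 h2)
  have htor : ∀ x : Pt p n (zseq n h z), p • x = 0 → pm p n (zseq n h z) p x.val = 0 := fun x hx => by
    rw [← Pt.val_nsmul hv, hx, Pt.val_zero]
  choose b hb hbl using fun i => hJ.exists_bar h0 h1 hv (η i).lt (htor _ (hT.tors i))
  -- approximate additivity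
  let R : Pt p n (zseq n h z) → D → Prop := fun x c => ‖c‖ ≤ 1 ∧
    ‖lg p n (fun j => tau J (zseq n h z j)) (tau J x.val) - tau J c‖ ≤ ρ
  have R0 : R 0 0 := ⟨by simp, by simp [tau_zero, lg_zero, h0.le]⟩
  have Radd : ∀ x c x' c', R x c → R x' c' → R (x + x') (c + c') := by
    rintro x c x' c' ⟨a1, a2⟩ ⟨a3, a4⟩
    refine ⟨(IsUltrametricDist.norm_add_le_max _ _).trans (max_le a1 a3), ?_⟩
    rw [Pt.val_add hv]
    refine htri (hJ.lg_tau_gadd h0 h1 hv x.lt x'.lt) (htri (b := tau J c + tau J c') ?_ ?_)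
    · rw [add_sub_add_comm]
      exact (IsUltrametricDist.norm_add_le_max _ _).trans (max_le a2 a4)
    · rw [norm_sub_rev]; exact hJ.norm_tau_add h0 h1 a1 a3
  have Rsmul : ∀ x c (m : ℕ), R x c → R (m • x) (m * c) := by
    intro x c m hx
    induction m with
    | zero => simpa using R0
    | succ m ih => rw [succ_nsmul, Nat.cast_succ, add_mul, one_mul]; exact Radd _ _ _ _ ih hx
  have Rsum : ∀ (a : Fin r → ℕ) (s : Finset (Fin r)),
      R (∑ i ∈ s, a i • η i) (∑ i ∈ s, (a i : D) * b i) := by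
    intro a s
    induction s using Finset.induction_on with
    | empty => simpa using R0
    | insert i s hi ih =>
      rw [Finset.sum_insert hi, Finset.sum_insert hi]
      exact Radd _ _ _ _ (Rsmul _ _ _ ⟨hb i, hbl i⟩) ih
  have hlow : ∀ a : Fin r → ℕ, (∃ i, ¬ p ∣ a i) → r₀ ≤ ‖∑ i, (a i : D) * b i‖ := by
    rintro a ⟨i, hi⟩
    set x := ∑ i, a i • η i with hx
    have hx0 : x.val ≠ 0 := fun h' => by
      have : x = 0 := Pt.ext h'
      refine hi (Int.natCast_dvd_natCast.1 (hT.indep (fun i => a i) ?_ i))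
      simpa [hx] using this
    have hxt : p • x = 0 := by
      rw [hx, Finset.smul_sum]
      exact Finset.sum_eq_zero fun i _ => by rw [smul_comm, hT.tors, smul_zero]
    have a1 := norm_le_of_torsion hh hr hr0 (fun i => (hz i).le) x.lt hx0 (htor x hxt)
    have a2 := hJ.norm_le_norm_lg_tau h0 h1 (n := n) hv x.lt
    obtain ⟨a3, a4⟩ := Rsum a Finset.univ
    rw [← hJ.norm_tau a3]
    by_contra hcon
    have := IsUltrametricDist.norm_add_le_max
      (lg p n (fun j => tau J (zseq n h z j)) (tau J x.val) - tau J (∑ i, (a i : D) * b i))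
      (tau J (∑ i, (a i : D) * b i))
    rw [sub_add_cancel] at this
    have h5 := (a1.trans a2).trans this
    rcases le_max_iff.1 h5 with h6 | h6
    · linarith
    · exact hcon h6
  -- the combinations
  let L : ℕ → Fin r → F := fun e i => ∑ s ∈ Finset.range n,
    per p n (zseq n h fun l => tau J (z l ^ p ^ e)) s * lam J n ((rt p n (ζ i) ^ p ^ e) ^ p ^ s)
  have hL0 : ∀ e, ∑ i, a i * L e i = 0 := fun e => by
    simp only [L, Finset.mul_sum]
    rw [Finset.sum_comm]
    refine Finset.sum_eq_zero fun s _ => ?_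
    have := hJ.rel_all h0 h1 hn Finset.univ a (y := fun i => rt p n (ζ i))
      (fun i => norm_rt_lt_one _ (hT.lt i)) n (fun s hs => by
        simpa only [pow_add, pow_mul, rt_pow] using ha s hs) (e + s)
    calc _ = per p n (zseq n h fun l => tau J (z l ^ p ^ e)) s *
          ∑ i, a i * lam J n (rt p n (ζ i) ^ p ^ (e + s)) := by
          rw [Finset.mul_sum]
          refine Finset.sum_congr rfl fun t _ => ?_
          rw [← pow_mul, ← pow_add]; ring
      _ = 0 := by rw [this, mul_zero]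
  have hL : ∀ e i, ‖L e i - tau J (b i ^ p ^ e)‖ ≤ ρ := fun e i => by
    have a1 := hJ.per_lam h0 h1 hh hr (z := fun l => z l ^ p ^ e) (fun l => hlt (hz l) e)
      (hlt (norm_rt_lt_one n (hT.lt i)) e) 0
    have a2 := map_prf (p := p) (iterateFrobenius D p e) (continuous_pow _) hh hr hz
      (norm_rt_lt_one (p := p) n (hT.lt i))
    simp only [iterateFrobenius_def] at a2
    rw [pow_zero, one_mul, mul_zero, rt_zero, zero_add, pow_one, ← a2, hT.prf1] at a1
    have a3 := hJ.lg_tau_frob h0 h1 hv (η i).lt (hb i) (hbl i) e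
    simp only [zseq_pow n h z (hpe e), tau_zseq] at a3
    exact htri a1 a3
  obtain ⟨i₀, -, hi₀⟩ := Finset.exists_max_image Finset.univ (fun i => ‖a i‖) ⟨⟨0, hr0⟩, by simp⟩
  obtain ⟨α, hα, hα0, hα1⟩ := exists_additive hb (norm_nonneg _) hr1 hlow i₀
  have hA : ∀ i, ‖∑ e ∈ Finset.range r, tau J (α e) * L e i -
      tau J (∑ e ∈ Finset.range r, α e * b i ^ p ^ e)‖ ≤ ρ := fun i => by
    have hbe : ∀ e, ‖b i ^ p ^ e‖ ≤ 1 := fun e => by
      rw [norm_pow]; exact pow_le_one₀ (norm_nonneg _) (hb i)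
    refine htri (b := ∑ e ∈ Finset.range r, tau J (α e * b i ^ p ^ e)) ?_ ?_
    · rw [← Finset.sum_sub_distrib]
      refine IsUltrametricDist.norm_sum_le_of_forall_le_of_nonneg h0.le fun e _ => ?_
      rw [tau_mul (hα e) (hbe e), ← mul_sub, norm_mul]
      exact (mul_le_of_le_one_left (norm_nonneg _) (hJ.norm_tau_le _)).trans (hL e i)
    · rw [norm_sub_rev]
      refine hJ.norm_tau_sum h0 h1 _ fun e => ?_
      rw [norm_mul]; exact mul_le_one₀ (hα e) (norm_nonneg _) (hbe e)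
  have h2 : ∑ i, a i * ∑ e ∈ Finset.range r, tau J (α e) * L e i = 0 := by
    simp only [Finset.mul_sum]
    rw [Finset.sum_comm]
    refine Finset.sum_eq_zero fun e _ => ?_
    calc _ = tau J (α e) * ∑ i, a i * L e i := by
          rw [Finset.mul_sum]; exact Finset.sum_congr rfl fun i _ => by ring
      _ = 0 := by rw [hL0, mul_zero]
  have h3 : a i₀ * tau J (∑ e ∈ Finset.range r, α e * b i₀ ^ p ^ e) =
      -∑ i, a i * (∑ e ∈ Finset.range r, tau J (α e) * L e i -
        tau J (∑ e ∈ Finset.range r, α e * b i ^ p ^ e)) := by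
    simp only [mul_sub, Finset.sum_sub_distrib, h2, zero_sub, neg_neg]
    rw [Finset.sum_eq_single i₀]
    · intro i _ hi; rw [hα0 i hi, tau_zero, mul_zero]
    · simp
  have h4 : ‖a i₀‖ * r₀ ^ p ^ r ≤ ‖a i₀‖ * ρ := by
    have h5 : ‖∑ e ∈ Finset.range r, α e * b i₀ ^ p ^ e‖ ≤ 1 :=
      IsUltrametricDist.norm_sum_le_of_forall_le_of_nonneg zero_le_one fun e _ => by
        rw [norm_mul, norm_pow]
        exact mul_le_one₀ (hα e) (by positivity) (pow_le_one₀ (norm_nonneg _) (hb i₀))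
    calc _ ≤ ‖a i₀ * tau J (∑ e ∈ Finset.range r, α e * b i₀ ^ p ^ e)‖ := by
          rw [norm_mul, hJ.norm_tau h5]
          exact mul_le_mul_of_nonneg_left hα1 (norm_nonneg _)
      _ ≤ _ := by
          rw [h3, norm_neg]
          refine IsUltrametricDist.norm_sum_le_of_forall_le_of_nonneg (by positivity) fun i _ => ?_
          rw [norm_mul]
          exact mul_le_mul (hi₀ i (Finset.mem_univ _)) (hA i) (norm_nonneg _) (norm_nonneg _)
  have h6 : ‖a i₀‖ = 0 := by
    by_contra hne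
    have hpos : 0 < ‖a i₀‖ := lt_of_le_of_ne (norm_nonneg _) (Ne.symm hne)
    have := le_of_mul_le_mul_left h4 hpos
    linarith
  funext i
  exact norm_le_zero_iff.1 ((hi₀ i (Finset.mem_univ _)).trans_eq h6)

end Crest.Agent.R227
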