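import Crest.Agent.R227.Span
import Crest.Agent.R227.Indep
import Crest.Agent.R227.Adapt
import Crest.Agent.R227.Ded

/-!
# R227 / Gfin : `Λ` satisfies no linear relation over the endomorphism ring

Plan.
* `exists_isHon_hend`: `IsHon.mapW jκ (isHon_hendW …)` and `IsHon.comp`; reduce mod `p` (`map_cmp`).
* `norm_ev1_eq`: `‖f(x) - f₁ x‖ ≤ ‖x‖²`.
* `no_relation`: choose `0 < ρ < ‖z₀‖^{p^r}` and `F, J` by `exists_per`.  For each `i` let `Θ_i` be given by `exists_isHon_hend` and
  `a_i` by `span`.  `wpt (single t [α]) 0 i = ψ^σ(π₀(j α · ζ_i^{p^t}))` (`hend_single`, `ev1_C_mul_X_pow`, `rt_zero`); applying `lam J h`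
  to the relation (`lam_sum`, `lam_zero`, `ev1_cmp`) gives `∑_i ∑_{s<n} a_{i,s} λ_n((ι(jα) ι ζ_i^{p^t})^{p^s}) = 0`; `lam_mul` and
  `dedekind_frob` (for `χ α = τ(ι j α)`, injective since `‖τ a - τ b‖ ≥ ‖τ(a-b)‖ = 1 > ρ`-type estimate from `norm_tau_add`) give
  `∑_i a_{i,s} λ_n(ιζ_i^{p^{s+t}}) = 0` for all `s, t < n`; `rel_all` with `s₀ = s`, `TD.map` and `indep` give `a_{i,s} = 0`.  For the
  index `i` with `(d i 0).coeff 0 ≠ 0` the series `Θ̄_i^σ` has linear coefficient of norm `1`, so `lam_ne_zero` and `norm_ev1_eq`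
  contradict `exists_pi0_ne_zero`.
-/

set_option autoImplicit false
open Crest.LubinTate Filter Topology

namespace Crest.Agent.R227

variable {p : ℕ} [hp : Fact p.Prime]

theorem exists_isHon_hend {C : Type*} [Field C] [CharP C p] [PerfectRing C p] {n h : ℕ}
    (hh : 1 ≤ h) (jκ : GaloisField p h →+* C) {v c : ℕ → WittVector p C}
    {Θ : PowerSeries (WittVector p C)} (hΘ : IsHon (wFrob p C) n h v c Θ)
    (d : ℕ → WittVector p (GaloisField p h)) :
    ∃ (c' : ℕ → WittVector p C) (Θ' : PowerSeries (WittVector p C)),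
      IsHon (wFrob p C) n h v c' Θ' ∧ PowerSeries.map WittVector.constantCoeff Θ' =
        cmp (PowerSeries.map jκ (hend p h d)) (PowerSeries.map WittVector.constantCoeff Θ) := by
  have h1 := (isHon_hendW hh (galois_pow h hh) d).mapW jκ
  have e : (fun j => WittVector.map jκ (hon h j : WittVector p (GaloisField p h))) = hon h :=
    funext fun j => map_hon _ h j
  rw [e] at h1
  obtain ⟨Θ', h2, w, hw⟩ := hΘ.comp h1
  refine ⟨_, Θ', h2, ?_⟩
  have h3 := congrArg (PowerSeries.map (WittVector.constantCoeff : WittVector p C →+* C)) hw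
  rw [map_sub, map_mul, map_natCast, map_cmp _ _ hΘ.1] at h3
  have hp0 : (p : PowerSeries C) = 0 := by
    rw [← map_natCast (PowerSeries.C (R := C)) p, CharP.cast_eq_zero, map_zero]
  rw [hp0, zero_mul, sub_eq_zero] at h3
  rw [← h3]
  congr 1

theorem norm_ev1_eq {D : Type*} [NormedField D] [IsUltrametricDist D] [CompleteSpace D]
    {f : PowerSeries D} (hf : Bd f) (h0 : PowerSeries.constantCoeff f = 0)
    (h1 : ‖PowerSeries.coeff 1 f‖ = 1) {x : D} (hx : ‖x‖ < 1) : ‖ev1 f x‖ = ‖x‖ := by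
  rcases eq_or_ne x 0 with rfl | hx0
  · rw [ev1_zero_right, h0]
  have hg : Bd (PowerSeries.C (PowerSeries.coeff 1 f) * PowerSeries.X ^ 1 : PowerSeries D) := by
    rw [bd1_iff]; intro i
    rw [PowerSeries.coeff_C_mul, PowerSeries.coeff_X_pow]
    split_ifs <;> simp [h1]
  have := Bd.norm_ev_sub_le_pow hf hg (N := 2) (y := fun _ => x) (ρ := ‖x‖) (by
    intro d hd
    obtain ⟨i, rfl⟩ : ∃ i, d = Finsupp.single () i := ⟨d (), by ext; simp⟩
    rw [Finsupp.degree_single] at hd
    change PowerSeries.coeff i f = PowerSeries.coeff i _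
    rw [PowerSeries.coeff_C_mul, PowerSeries.coeff_X_pow]
    interval_cases i
    · simp [h0]
    · simp) (norm_nonneg _) hx (fun _ => le_rfl)
  change ‖ev1 f x - ev1 _ x‖ ≤ _ at this
  rw [ev1_C_mul_X_pow, pow_one] at this
  have h2 : ‖PowerSeries.coeff 1 f * x‖ = ‖x‖ := by rw [norm_mul, h1, one_mul]
  have h3 : ‖ev1 f x - PowerSeries.coeff 1 f * x‖ < ‖PowerSeries.coeff 1 f * x‖ := by
    rw [h2]
    refine this.trans_lt ?_
    have : 0 < ‖x‖ := norm_pos_iff.2 hx0
    nlinarith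
  have h4 := IsUltrametricDist.norm_add_eq_max_of_norm_ne_norm h3.ne
  rw [sub_add_cancel, max_eq_right h3.le] at h4
  rw [h4, h2]

theorem UP.no_relation {C : Type*} {D : Type} [NormedField C] [IsUltrametricDist C] [CharP C p]
    [IsAlgClosed C] [CompleteSpace C] [NormedField D] [IsUltrametricDist D] [CharP D p]
    [PerfectRing D p] [CompleteSpace D] (u : UP C D) {n h r : ℕ} (hh : 1 ≤ h) (hr : h + r = n)
    (hr0 : 0 < r) (j : GaloisField p n →+* C) (jκ : GaloisField p h →+* C) {z ζ : Fin r → C}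
    (hz : Sm z) (hz0 : z ⟨0, hr0⟩ ≠ 0) {η : Fin r → Pt p n (zseq n h z)} (hT : TD p n h z η ζ)
    {c : ℕ → WittVector p C} {Θ : PowerSeries (WittVector p C)}
    (hΘ : IsHon (wFrob p C) n h (zseq n h (fun i => WittVector.teichmuller p (z i))) c Θ)
    (hc : (c 0).coeff 0 ≠ 0) {d : Fin r → ℕ → WittVector p (GaloisField p h)}
    (hd : ∃ i, (d i 0).coeff 0 ≠ 0)
    (hrel : ∀ t < n, ∀ α : GaloisField p n, comb p h ((u.sig p h).comp jκ) d
      (u.wpt p n h j z ζ (PowerSeries.map WittVector.constantCoeff Θ)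
        (Pi.single t (WittVector.teichmuller p α)) 0) = 0) : False := by
  have hn : 1 ≤ n := by omega
  have hzp : 0 < ‖z ⟨0, hr0⟩‖ ^ p ^ r := pow_pos (norm_pos_iff.2 hz0) _
  have hz1 : ‖z ⟨0, hr0⟩‖ ^ p ^ r ≤ 1 := pow_le_one₀ (norm_nonneg _) (hz _).le
  set ρ : ℝ := ‖z ⟨0, hr0⟩‖ ^ p ^ r / 2 with hρ
  have h0 : 0 < ρ := by positivity
  have h1 : ρ < 1 := by linarith
  obtain ⟨F, _, _, _, J, hJ⟩ := exists_per p (D := D) h0 h1
  choose c' Θ' hΘ' hred using fun i => exists_isHon_hend hh jκ hΘ (d i)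
  choose a ha using fun i => u.span hJ h0 h1 hh hr hz (hΘ' i)
  set ψ : PowerSeries C := PowerSeries.map WittVector.constantCoeff Θ with hψ
  have hψ0 : PowerSeries.constantCoeff ψ = 0 := by
    rw [hψ, ← PowerSeries.coeff_zero_eq_constantCoeff_apply, PowerSeries.coeff_map,
      PowerSeries.coeff_zero_eq_constantCoeff_apply, hΘ.1, map_zero]
  have hσ := u.norm_sig_le (p := p) hh
  have hψσ0 : PowerSeries.constantCoeff (PowerSeries.map (u.sig p h) ψ) = 0 := by
    rw [← PowerSeries.coeff_zero_eq_constantCoeff_apply, PowerSeries.coeff_map,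
      PowerSeries.coeff_zero_eq_constantCoeff_apply, hψ0, map_zero]
  have hmap : ∀ i, PowerSeries.map ((u.sig p h).comp WittVector.constantCoeff) (Θ' i) =
      cmp (PowerSeries.map ((u.sig p h).comp jκ) (hend p h (d i)))
        (PowerSeries.map (u.sig p h) ψ) := fun i => by
    rw [PowerSeries.map_comp, RingHom.comp_apply, hred i, map_cmp _ _ hψ0, PowerSeries.map_comp,
      RingHom.comp_apply]
  have hbd : ∀ i, Bd (PowerSeries.map ((u.sig p h).comp jκ) (hend p h (d i))) := fun i =>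
    bd_map _ (fun a => hσ _) _
  have hc0 : ∀ i, PowerSeries.constantCoeff
      (PowerSeries.map ((u.sig p h).comp jκ) (hend p h (d i))) = 0 := fun i => by
    rw [← PowerSeries.coeff_zero_eq_constantCoeff_apply, PowerSeries.coeff_map,
      PowerSeries.coeff_zero_eq_constantCoeff_apply, const_hend, map_zero]
  have hψbd : Bd (PowerSeries.map (u.sig p h) ψ) := bd_map _ hσ _
  -- fixed points
  have hjα : ∀ α, j α ^ p ^ n = j α := fun α => by rw [← map_pow, galois_pow n hn]
  have hjn : ∀ α, ‖j α‖ ≤ 1 := norm_galois_le hn j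
  have hιζ : ∀ i e, ‖u.iota (ζ i) ^ p ^ e‖ < 1 := fun i e => by
    rw [norm_pow, u.norm_iota]
    exact pow_lt_one₀ (norm_nonneg _) (hT.lt i) (pow_ne_zero _ hp.out.ne_zero)
  -- the relation
  have key : ∀ t < n, ∀ α : GaloisField p n, ∑ s ∈ Finset.range n,
      (∑ i, a i s * lam J n (u.iota (ζ i) ^ p ^ (s + t))) * tau J (u.iota (j α)) ^ p ^ s = 0 := by
    intro t ht α
    have hy : ∀ i, ‖j α * ζ i ^ p ^ t‖ < 1 := fun i => by
      rw [norm_mul, norm_pow]
      exact mul_lt_one_of_nonneg_of_lt_one_right (hjn α) (by positivity)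
        (pow_lt_one₀ (norm_nonneg _) (hT.lt i) (pow_ne_zero _ hp.out.ne_zero))
    have hw : ∀ i, u.wpt p n h j z ζ ψ (Pi.single t (WittVector.teichmuller p α)) 0 i =
        ev1 (PowerSeries.map (u.sig p h) ψ) (u.pi0 p n h z (j α * ζ i ^ p ^ t)) := fun i => by
      rw [UP.wpt, hend_single hn (galois_pow n hn), mul_zero, rt_zero, map_mul, map_pow,
        PowerSeries.map_C, PowerSeries.map_X, ev1_C_mul_X_pow]
    have h2 := congrArg (fun x : Pt p h (hon h : ℕ → D) => lam J h x.val) (hrel t ht α)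
    simp only [comb, Pt.val_zero, lam_zero] at h2
    rw [hJ.lam_sum h0 h1 hh] at h2
    rw [← h2]
    simp only [Finset.sum_mul]
    rw [Finset.sum_comm]
    refine Finset.sum_congr rfl fun i _ => ?_
    have hπ := u.norm_pi0_lt hh hr hz (hy i)
    have hlt : ‖ev1 (PowerSeries.map (u.sig p h) ψ) (u.pi0 p n h z (j α * ζ i ^ p ^ t))‖ < 1 :=
      (hψbd.norm_ev1_le hψσ0 hπ).trans_lt hπ
    rw [hw, val_toPt (((hbd i).norm_ev1_le (hc0 i) hlt).trans_lt hlt),
      ← ev1_cmp (hbd i).an hψbd hψσ0 hπ, ← hmap, ha i _ (hy i)]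
    refine Finset.sum_congr rfl fun s _ => ?_
    have hfix : (u.iota (j α) ^ p ^ s) ^ p ^ n = u.iota (j α) ^ p ^ s := by
      rw [← pow_mul, mul_comm, pow_mul, ← map_pow, hjα]
    rw [map_mul, map_pow, mul_pow, ← pow_mul, ← pow_add, hJ.lam_mul h0 h1 hn hfix (hιζ i _),
      tau_pow (by rw [u.norm_iota]; exact hjn α), add_comm t s]
    ring
  -- Dedekind
  let χ : GaloisField p n →* F :=
    { toFun := fun α => tau J (u.iota (j α))
      map_one' := by rw [map_one, map_one, tau_one]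
      map_mul' := fun α β => by
        rw [map_mul, map_mul, tau_mul] <;> rw [u.norm_iota] <;> exact hjn _ }
  have hχ : Function.Injective χ := by
    intro α β e
    by_contra hne
    have hn1 : ‖u.iota (j (α - β))‖ = 1 := by
      rw [u.norm_iota]
      have hne' : j (α - β) ≠ 0 := (map_ne_zero j).2 (sub_ne_zero.2 hne)
      have h5 := congrArg norm (hjα (α - β))
      rw [norm_pow] at h5
      have hpos : 0 < ‖j (α - β)‖ := norm_pos_iff.2 hne'
      have hq : p ^ n = (p ^ n - 1) + 1 := by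
        have := Nat.one_le_pow n p hp.out.pos; omega
      rw [hq, pow_succ] at h5
      have h6 : ‖j (α - β)‖ ^ (p ^ n - 1) = 1 := by
        have := mul_right_cancel₀ hpos.ne' (h5.trans (one_mul _).symm)
        exact this
      have hq1 : p ^ n - 1 ≠ 0 := by
        have := Nat.one_lt_pow (by omega : n ≠ 0) hp.out.one_lt; omega
      exact (pow_eq_one_iff_of_nonneg hpos.le hq1).1 h6
    have h7 := hJ.norm_tau_add h0 h1 (a := u.iota (j (α - β))) (b := u.iota (j β)) hn1.le
      (by rw [u.norm_iota]; exact hjn β)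
    rw [← map_add, ← map_add, sub_add_cancel] at h7
    have e' : tau J (u.iota (j α)) = tau J (u.iota (j β)) := e
    rw [e', sub_add_cancel_right, norm_neg, hJ.norm_tau hn1.le, hn1] at h7
    linarith
  have key2 : ∀ s < n, ∀ t < n, ∑ i, a i s * lam J n (u.iota (ζ i) ^ p ^ (s + t)) = 0 :=
    fun s hs t ht => dedekind_frob hn χ hχ
      (fun s => ∑ i, a i s * lam J n (u.iota (ζ i) ^ p ^ (s + t))) (key t ht) s hs
  obtain ⟨η', hT'⟩ := hT.map u.iota u.norm_iota hh hr hz
  have hz' : Sm (fun i => u.iota (z i)) := fun i => by rw [u.norm_iota]; exact hz i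
  have ha0 : ∀ s < n, (fun i => a i s) = 0 := fun s hs =>
    hJ.indep h0 h1 hh hr hr0 hz' (by rw [u.norm_iota]; linarith) hT' fun e _ =>
      hJ.rel_all h0 h1 hn Finset.univ (fun i => a i s) (y := fun i => u.iota (ζ i))
        (fun i => by rw [u.norm_iota]; exact hT.lt i) s (key2 s hs) e
  obtain ⟨i, hi⟩ := hd
  obtain ⟨y, hy, hy0⟩ := u.exists_pi0_ne_zero (p := p) hh hr hr0 hz hz0
  have hπ := u.norm_pi0_lt hh hr hz hy
  have h8 := ha i y hy
  rw [Finset.sum_eq_zero (fun s hs => by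
    rw [show a i s = 0 from congrFun (ha0 s (Finset.mem_range.1 hs)) i, zero_mul])] at h8
  have hb : Bd (PowerSeries.map ((u.sig p h).comp WittVector.constantCoeff) (Θ' i)) :=
    bd_map _ (fun a => hσ _) _
  have hb0 : PowerSeries.constantCoeff
      (PowerSeries.map ((u.sig p h).comp WittVector.constantCoeff) (Θ' i)) = 0 := by
    rw [hmap]; exact const_cmp (hc0 i) hψσ0
  have hb1 : ‖PowerSeries.coeff 1
      (PowerSeries.map ((u.sig p h).comp WittVector.constantCoeff) (Θ' i))‖ = 1 := by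
    rw [hmap, coeff_one_cmp _ hψσ0, PowerSeries.coeff_map, PowerSeries.coeff_map,
      coeff_one_hend hh (galois_pow h hh), hψ, PowerSeries.coeff_map, hΘ.coeff_one,
      RingHom.comp_apply, ← map_mul]
    exact u.norm_sig hh (mul_ne_zero ((map_ne_zero jκ).2 hi) hc)
  have h9 := norm_ev1_eq hb hb0 hb1 hπ
  refine hJ.lam_ne_zero h0 h1 hh (h9.trans_lt hπ) ?_ h8
  intro h10
  rw [h10, norm_zero] at h9
  exact hy0 (norm_eq_zero.1 h9.symm)

end Crest.Agent.R227
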