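import Crest.Agent.R227.Honda

/-!
# R227 / Hend : endomorphisms `∑ c_i T^i` of the Honda law over `κ`, `a^{p^N} = a` on `κ`

All statements follow from `IsHon.unique` and the lemmas of `Honda.lean`:
* `isHon_hendW`: `Cond` for `v = hon N`, `n = N` reads `c_l = σ^N c_l`, true because
  `frobenius ^ N = id` on `W κ` (`frobenius_eq_map_frobenius` / `coeff_frobenius_charP`).
* `hendW_single`: `ℓ([a] X^{p^j}) = [a] ℓ(X^{p^j})` as `[a]^{p^{Nk}} = [a]` (`bseq_hon`).
* `hend_pow_mul`: `IsHon.mulSeries` with `m = p^m` and `pser_hon_pow`, `X_pow_cmp`.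
* `hend_tw`: `IsHon.comp`.
* `coeff_hend_eq_zero`: write `c = p^M c' + tw c'' (single M 1)`; `hend (p^M c') = (hend c')^{p^{NM}}`,
  `hend (tw c'' (single M 1)) = hend c'' ∘ X^{p^M}`; then `coeff_fadd_of_order`.
-/

set_option autoImplicit false
open Crest.LubinTate

namespace Crest.Agent.R227

variable (p : ℕ) [hp : Fact p.Prime] {κ : Type*} [CommRing κ] [CharP κ p] [PerfectRing κ p]

open Classical in
/-- the series over `W κ` with `ℓ_N ∘ Θ = (∑ c_i T^i) ℓ_N`. -/
noncomputable def hendW (N : ℕ) (c : ℕ → WittVector p κ) : PowerSeries (WittVector p κ) :=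
  if h : ∃ Θ, IsHon (wFrob p κ) N N (hon N) c Θ then h.choose else 0

/-- the endomorphism `∑ c_i T^i` of the Honda law of height `N` over `κ`. -/
noncomputable def hend (N : ℕ) (c : ℕ → WittVector p κ) : PowerSeries κ :=
  PowerSeries.map WittVector.constantCoeff (hendW p N c)

/-- the element `1 + p^m c`. -/
noncomputable def pert (m : ℕ) (c : ℕ → WittVector p κ) (i : ℕ) : WittVector p κ :=
  (if i = 0 then 1 else 0) + (p : WittVector p κ) ^ m * c i

variable {p} {N : ℕ}

omit [PerfectRing κ p] in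
theorem frobenius_pow_eq_self (hκ : ∀ a : κ, a ^ p ^ N = a) (x : WittVector p κ) :
    ((WittVector.frobenius : WittVector p κ →+* WittVector p κ) ^ N) x = x := by
  ext i
  rw [RingHom.coe_pow, WittVector.iterate_frobenius_coeff, hκ]

theorem isHon_hendW (hN : 1 ≤ N) (hκ : ∀ a : κ, a ^ p ^ N = a) (c : ℕ → WittVector p κ) :
    IsHon (wFrob p κ) N N (hon N) c (hendW p N c) := by
  have h : ∃ Θ, IsHon (wFrob p κ) N N (hon N) c Θ := by
    refine exists_isHon _ hN (hon_frob _ N) (fun j _ hj => if_neg hj.ne) fun l => ?_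
    have e : (fun j => if N + j ≤ N then (hon N (N + j) : WittVector p κ) else 0) =
        Pi.single 0 1 := by
      funext j
      rcases Nat.eq_zero_or_pos j with rfl | hj
      · simp [hon]
      · rw [if_neg (by omega), Pi.single_eq_of_ne hj.ne']
    rw [e, tw_single_one_right, wFrob_σA, frobenius_pow_eq_self hκ]
    simp
  rw [hendW, dif_pos h]
  exact h.choose_spec

theorem const_hendW (c : ℕ → WittVector p κ) : PowerSeries.constantCoeff (hendW p N c) = 0 := by
  unfold hendW
  split_ifs with h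
  · exact h.choose_spec.1
  · exact map_zero _

theorem const_hend (c : ℕ → WittVector p κ) : PowerSeries.constantCoeff (hend p N c) = 0 := const_pmap _ (const_hendW c)

theorem coeff_one_hendW (hN : 1 ≤ N) (hκ : ∀ a : κ, a ^ p ^ N = a) (c : ℕ → WittVector p κ) :
    PowerSeries.coeff 1 (hendW p N c) = c 0 := (isHon_hendW hN hκ c).coeff_one

theorem coeff_one_hend (hN : 1 ≤ N) (hκ : ∀ a : κ, a ^ p ^ N = a) (c : ℕ → WittVector p κ) :
    PowerSeries.coeff 1 (hend p N c) = (c 0).coeff 0 := by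
  rw [hend, PowerSeries.coeff_map, coeff_one_hendW hN hκ]; rfl

theorem isFGHom_hend (hN : 1 ≤ N) (hκ : ∀ a : κ, a ^ p ^ N = a) (c : ℕ → WittVector p κ) :
    IsFGHom (HL p N (hon N)) (HL p N (hon N)) (hend p N c) := by
  simpa only [map_hon, hend] using (isHon_hendW hN hκ c).hom (hon_frob _ N)
    (CharP.cast_eq_zero κ p) WittVector.constantCoeff

theorem hend_add (hN : 1 ≤ N) (hκ : ∀ a : κ, a ^ p ^ N = a) (c c' : ℕ → WittVector p κ) :
    hend p N (c + c') = fadd (HL p N (hon N)) (hend p N c) (hend p N c') := by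
  rw [hend, (isHon_hendW hN hκ _).unique ((isHon_hendW hN hκ c).add (isHon_hendW hN hκ c')),
    map_fadd _ _ (const_hendW c) (const_hendW c'), HL_map_hon]
  rfl

theorem hendW_single (hN : 1 ≤ N) (hκ : ∀ a : κ, a ^ p ^ N = a) (j : ℕ) (a : κ) :
    hendW p N (Pi.single j (WittVector.teichmuller p a)) =
      PowerSeries.C (WittVector.teichmuller p a) * PowerSeries.X ^ (p ^ j) := by
  refine (isHon_hendW hN hκ _).unique ⟨by simp [hp.out.ne_zero], ?_⟩
  set D := wFrob p κ
  set t := algebraMap _ (Localization.Away (p : WittVector p κ)) (WittVector.teichmuller p a) with ht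
  have t1 : ∀ k, t ^ p ^ (N * k) = t := fun k => by
    induction k with
    | zero => simp
    | succ k ih => rw [mul_add, mul_one, pow_add, pow_mul, ih, ht, ← map_pow, ← map_pow, hκ]
  have e1 : PowerSeries.rescale t (hlog p N D.pinv (hon N)) = t • hlog p N D.pinv (hon N) := by
    rw [hlog, ← ptyp_smul]
    refine eq_ptyp (fun l => ?_) fun i hi => ?_
    · rw [PowerSeries.coeff_rescale, coeff_ptyp_pow, bseq_hon hp.out.ne_zero hN]
      split_ifs with h
      · obtain ⟨k, rfl⟩ := h
        rw [t1]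
      · simp
    · rw [PowerSeries.coeff_rescale, coeff_ptyp_of_not_pow _ hi, mul_zero]
  have e2 : PowerSeries.map (algebraMap _ (Localization.Away (p : WittVector p κ)))
      (PowerSeries.C (WittVector.teichmuller p a) * PowerSeries.X ^ p ^ j) =
      PowerSeries.expand (p ^ j) (pow_ne_zero j hp.out.ne_zero) (t • PowerSeries.X) := by
    rw [map_mul, map_pow, PowerSeries.map_C, PowerSeries.map_X, map_smul, PowerSeries.expand_X,
      PowerSeries.smul_eq_C_mul]
  have e3 : (D.Tact j (hlog p N D.pinv (hon N)) : PowerSeries _) =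
      PowerSeries.expand (p ^ j) (pow_ne_zero j hp.out.ne_zero) (hlog p N D.pinv (hon N)) := by
    change PowerSeries.expand (p ^ j) _ (PowerSeries.map (D.σK ^ j) _) = _
    simp only [map_hlog, map_hon, D.σK_pow_pinv]
  rw [e2]
  refine (PowerSeries.expand_subst _ _ (PowerSeries.HasSubst.smul_X' t) _).symm.trans ?_
  rw [← PowerSeries.rescale_eq_subst, e1, map_smul]
  refine (congrArg _ e3.symm).trans ?_
  rw [hlog, Tact_ptyp, ← ptyp_smul]
  congr 1
  funext l
  simp only [map_hon, ← tw_mul_left]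
  congr 1
  funext i
  simp only [Pi.single_apply]
  split_ifs <;> simp [ht]

theorem hend_single (hN : 1 ≤ N) (hκ : ∀ a : κ, a ^ p ^ N = a) (j : ℕ) (a : κ) :
    hend p N (Pi.single j (WittVector.teichmuller p a)) =
      PowerSeries.C a * PowerSeries.X ^ (p ^ j) := by
  rw [hend, hendW_single hN hκ, map_mul, map_pow, PowerSeries.map_C, PowerSeries.map_X]; rfl

theorem hend_zero (hN : 1 ≤ N) (hκ : ∀ a : κ, a ^ p ^ N = a) :
    hend p N (0 : ℕ → WittVector p κ) = 0 := by
  simpa using hend_single hN hκ 0 0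

theorem hend_tw (hN : 1 ≤ N) (hκ : ∀ a : κ, a ^ p ^ N = a) (d c : ℕ → WittVector p κ) :
    hend p N (tw WittVector.frobenius d c) = cmp (hend p N d) (hend p N c) := by
  obtain ⟨Θ, h1, W, hW⟩ := (isHon_hendW hN hκ c).comp (isHon_hendW hN hκ d)
  rw [wFrob_σA] at h1
  have := congrArg (PowerSeries.map WittVector.constantCoeff) hW
  rw [map_sub, map_mul, map_natCast, map_cmp _ _ (const_hendW c), ← map_natCast PowerSeries.C,
    CharP.cast_eq_zero, map_zero, zero_mul, sub_eq_zero] at this
  rw [hend, (isHon_hendW hN hκ _).unique h1]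
  exact this.symm

theorem hend_pow_mul (hN : 1 ≤ N) (hκ : ∀ a : κ, a ^ p ^ N = a) (m : ℕ)
    (c : ℕ → WittVector p κ) :
    hend p N (fun i => (p : WittVector p κ) ^ m * c i) = hend p N c ^ (p ^ (N * m)) := by
  have h := (isHon_hendW hN hκ c).mulSeries (p ^ m)
  rw [Nat.cast_pow] at h
  rw [hend, (isHon_hendW hN hκ _).unique h, map_cmp _ _ (const_hendW c), map_mulSeries, HL_map_hon,
    pser_hon_pow p (CharP.cast_eq_zero κ p) hN]
  exact X_pow_cmp (const_hend c) _

theorem hend_pert (hN : 1 ≤ N) (hκ : ∀ a : κ, a ^ p ^ N = a) (m : ℕ) (c : ℕ → WittVector p κ) :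
    hend p N (pert p m c) = fadd (HL p N (hon N)) PowerSeries.X (hend p N c ^ (p ^ (N * m))) := by
  have e : pert p m c = (Pi.single 0 (WittVector.teichmuller p 1) : ℕ → WittVector p κ) +
      fun i => (p : WittVector p κ) ^ m * c i := by
    funext i; simp [pert, Pi.single_apply]
  rw [e, hend_add hN hκ, hend_single hN hκ, hend_pow_mul hN hκ]
  simp

theorem coeff_pow_of_lt {R : Type*} [CommRing R] {a : PowerSeries R}
    (ha : PowerSeries.constantCoeff a = 0) (k : ℕ) : ∀ i < k, PowerSeries.coeff i (a ^ k) = 0 :=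
  PowerSeries.X_pow_dvd_iff.1 (pow_dvd_pow_of_dvd (PowerSeries.X_dvd_iff.2 ha) k)

theorem coeff_hend_pert (hN : 1 ≤ N) (hκ : ∀ a : κ, a ^ p ^ N = a) (m : ℕ)
    (c : ℕ → WittVector p κ) (i : ℕ) (hi : i < p ^ (N * m)) :
    PowerSeries.coeff i (hend p N (pert p m c)) = PowerSeries.coeff i PowerSeries.X := by
  rw [hend_pert hN hκ]
  exact coeff_fadd_of_order _ PowerSeries.constantCoeff_X
    (by rw [map_pow, const_hend, zero_pow (pow_ne_zero _ hp.out.ne_zero)])
    (coeff_pow_of_lt (const_hend c) _) i hi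

theorem coeff_hend_eq_zero (hN : 1 ≤ N) (hκ : ∀ a : κ, a ^ p ^ N = a) (M : ℕ)
    {c : ℕ → WittVector p κ} (hc : ∀ i < M, (p : WittVector p κ) ^ M ∣ c i) :
    ∀ i < p ^ M, PowerSeries.coeff i (hend p N c) = 0 := by
  intro i hi
  choose! c' hc' using hc
  have e : c = (fun i => (p : WittVector p κ) ^ M * if i < M then c' i else 0) +
      tw WittVector.frobenius (fun j => c (j + M)) (Pi.single M (WittVector.teichmuller p 1)) := by
    funext l
    rw [map_one, Pi.add_apply, tw_single_one_right]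
    by_cases h : l < M
    · rw [if_pos h, if_neg (by omega), add_zero, ← hc' l h]
    · rw [if_neg h, if_pos (by omega), mul_zero, zero_add, Nat.sub_add_cancel (by omega)]
  rw [e, hend_add hN hκ, coeff_fadd_of_order _ (const_hend _) (const_hend _) (N := p ^ M) _ i hi,
    hend_pow_mul hN hκ]
  · exact coeff_pow_of_lt (const_hend _) _ i
      (hi.trans_le (Nat.pow_le_pow_right hp.out.pos (Nat.le_mul_of_pos_left _ hN)))
  · intro k hk
    rw [hend_tw hN hκ, hend_single hN hκ, map_one, one_mul, cmp,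
      PowerSeries.coeff_subst_X_pow (pow_ne_zero _ hp.out.ne_zero), Nat.div_eq_of_lt hk,
      PowerSeries.coeff_zero_eq_constantCoeff_apply, const_hend, map_zero, ite_self]

/-- continuity of `c ↦ hend c`. -/
theorem coeff_hend_congr (hN : 1 ≤ N) (hκ : ∀ a : κ, a ^ p ^ N = a) (M : ℕ)
    {c c' : ℕ → WittVector p κ} (hc : ∀ i < M, ∀ j < M, (c i).coeff j = (c' i).coeff j) :
    ∀ i < p ^ M, PowerSeries.coeff i (hend p N c) = PowerSeries.coeff i (hend p N c') := by
  have e : c = c' + (c - c') := (add_sub_cancel _ _).symm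
  rw [e, hend_add hN hκ]
  refine coeff_fadd_of_order _ (const_hend _) (const_hend _) (coeff_hend_eq_zero hN hκ M
    fun i hi => ?_)
  rw [← Ideal.mem_span_singleton, WittVector.mem_span_p_pow_iff_le_coeff_eq_zero]
  exact WittVector.le_coeff_eq_iff_le_sub_coeff_eq_zero.1 (hc i hi)

theorem galois_pow (n : ℕ) (hn : 1 ≤ n) (a : GaloisField p n) : a ^ p ^ n = a := by
  have := Fintype.ofFinite (GaloisField p n)
  rw [← GaloisField.card p n (by omega), Nat.card_eq_fintype_card, FiniteField.pow_card]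

end Crest.Agent.R227
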