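import Crest.Agent.R227.PSer

/-!
# R227 / Honda : homomorphisms to the Honda law from twisted power series

`IsHon D n N v c Θ` says `ℓ_N ∘ Θ = (∑ c_i T^i) f_v`, where `ℓ_N` is the Honda logarithm of height `N`.

Plan.
* `exists_isHon`: with `u_N = p - T^N` and `u_v = p - ∑ v_j T^j`, the condition `Cond` says exactly
  `tw u_N c = tw c u_v` (as sequences over `K`); so
  `tw u_N (tw c b) = tw c (tw u_v b) = tw c (single 0 p) = p c` (`tw_assoc`, `tw_uc_bseq`), hence
  `uact N (hon N) (ptyp (tw c b)) = p • ptyp c` is `PInt` (`uact_ptyp`).  Put `H = ℓ_N⁻¹ ∘ ptyp(..)`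
  (`exists_cmp_inv`) and apply `intg_of_uact` (for `ℓ_N`: `pint_uact_hlog`, `σ (hon N j) = hon N j ^ p`).
* `IsHon.hom`: `F = HL n v`, `G = HL N (hon N)` over `A`.  By `dvd_of_pint_subst` (for `ℓ_N`, `Den` from
  `den_of_uact`) it suffices to see `ℓ(Θ(F)) ≡ ℓ(G(ΘX,ΘY)) = (c f)(X) + (c f)(Y) mod p`.  For a fixed
  coefficient of degree `< p^M` replace `ptyp (tw c b)` by the finite sum `∑_{i<M} c_i T^i f`
  (`Tact_ptyp`, `tw_single_left`), and use `pint_Tact_subst`, `isLog_HL`, `Tact_add`, `Tact_subst_X`.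
* `IsHon.comp`: same truncation; `ℓ∘E∘Θ = (d ℓ)(Θ) ≡ d (ℓ∘Θ) = (d c) f mod p`; existence of `Θ'` by
  `pint_uact_subst` + `intg_of_uact`, congruence by `dvd_of_pint_subst`.
* `IsHon.push`: extend `ρ` to `K` (`IsLocalization.Away.lift`), use `map_cmp`, `map_hlog`,
  `map_ptyp`, `map_bseq` (`σK pinv = pinv`).
-/

set_option autoImplicit false
open Crest.LubinTate

namespace Crest.Agent.R227

section general
variable {p : ℕ} [hp : Fact p.Prime] {A K : Type*} [CommRing A] [CommRing K] [Algebra A K]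

/-- `ℓ_N ∘ Θ = (∑ c_i T^i) f_v`. -/
def IsHon (D : Frob p A K) (n N : ℕ) (v c : ℕ → A) (Θ : PowerSeries A) : Prop :=
  PowerSeries.constantCoeff Θ = 0 ∧
    cmp (hlog p N D.pinv (hon N)) (PowerSeries.map (algebraMap A K) Θ) =
      ptyp p (tw D.σK (fun i => algebraMap A K (c i))
        (bseq p n D.pinv (fun j => algebraMap A K (v j))))

/-- `(p - T^N) c = c (p - ∑ v_j T^j)`. -/
def Cond (σ : A →+* A) (n N : ℕ) (v c : ℕ → A) : Prop :=
  ∀ l, tw σ c (fun j => if N + j ≤ n then v (N + j) else 0) l = (σ ^ N) (c l)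

theorem const_pmap {R S : Type*} [CommRing R] [CommRing S] (ρ : R →+* S) {a : PowerSeries R}
    (ha : PowerSeries.constantCoeff a = 0) :
    PowerSeries.constantCoeff (PowerSeries.map ρ a) = 0 := const_map ρ ha

omit hp in
theorem tw_single_one_right (σ : K →+* K) (a : ℕ → K) (N l : ℕ) :
    tw σ a (Pi.single N 1) l = if N ≤ l then a (l - N) else 0 := by
  unfold tw
  split_ifs with h
  · rw [Finset.sum_eq_single (l - N, N)]
    · simp
    · rintro ⟨x, y⟩ hx hne
      have := Finset.HasAntidiagonal.mem_antidiagonal.1 hx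
      rw [Pi.single_eq_of_ne, map_zero, mul_zero]
      rintro rfl
      exact hne (by simp only [Prod.mk.injEq, and_true]; simp only at this; omega)
    · intro hj
      exact absurd (Finset.HasAntidiagonal.mem_antidiagonal.2 (by simp only; omega)) hj
  · refine Finset.sum_eq_zero fun x hx => ?_
    have := Finset.HasAntidiagonal.mem_antidiagonal.1 hx
    rw [Pi.single_eq_of_ne (by omega), map_zero, mul_zero]

omit hp in
theorem tw_sub_right (σ : K →+* K) (a b b' : ℕ → K) : tw σ a (b - b') = tw σ a b - tw σ a b' := by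
  funext l
  simp only [tw, Pi.sub_apply, map_sub, mul_sub, Finset.sum_sub_distrib]

omit hp in
theorem tw_mul_left (σ : K →+* K) (m : K) (a b : ℕ → K) (l : ℕ) :
    tw σ (fun i => m * a i) b l = m * tw σ a b l := by
  simp only [tw, Finset.mul_sum, mul_assoc]

omit hp in
theorem map_tw (D : Frob p A K) (a b : ℕ → A) (l : ℕ) :
    algebraMap A K (tw D.σA a b l) =
      tw D.σK (fun i => algebraMap A K (a i)) (fun i => algebraMap A K (b i)) l := by
  simp only [tw, map_sum, map_mul, D.comm_pow]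

theorem ptyp_smul (m : K) (a : ℕ → K) : ptyp p (fun l => m * a l) = m • ptyp p a :=
  (eq_ptyp (fun l => by rw [map_smul, coeff_ptyp_pow, smul_eq_mul]) fun i hi => by
    rw [map_smul, coeff_ptyp_of_not_pow a hi, smul_zero]).symm

theorem pint_uact_hon (D : Frob p A K) (N : ℕ) :
    PInt p A (D.uact N (hon N) (hlog p N D.pinv (hon N))) := by
  simpa only [map_hon] using pint_uact_hlog D N (hon_frob D.σA N)

theorem den_hon (D : Frob p A K) (N : ℕ) : Den p A (hlog p N D.pinv (hon N)) :=
  den_of_uact D (const_hlog _ _ _) (pint_uact_hon D N)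

theorem exists_isHon_of_pint (D : Frob p A K) {n N : ℕ} {v c : ℕ → A}
    (h : PInt p A (D.uact N (hon N) (ptyp p (tw D.σK (fun i => algebraMap A K (c i))
      (bseq p n D.pinv (fun j => algebraMap A K (v j))))))) : ∃ Θ, IsHon D n N v c Θ := by
  have f0 := const_hlog (p := p) N D.pinv (hon N)
  have f1 := coeff_one_hlog (p := p) N D.pinv (hon N)
  obtain ⟨g, g0, -, g2, -⟩ := exists_cmp_inv f0 (f1 ▸ isUnit_one)
  set ψ := ptyp p (tw D.σK (fun i => algebraMap A K (c i))
    (bseq p n D.pinv (fun j => algebraMap A K (v j)))) with hψ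
  have ψ0 : PowerSeries.constantCoeff ψ = 0 := const_ptyp _
  have e : cmp (hlog p N D.pinv (hon N)) (cmp g ψ) = ψ := by
    rw [← cmp_assoc _ g0 ψ0, g2, X_cmp ψ0]
  obtain ⟨Θ, hΘ⟩ := intg_of_uact D f0 f1 (pint_uact_hon D N) (H := cmp g ψ) (const_cmp g0 ψ0)
    ((congrArg (fun t => PInt p A (D.uact N (hon N) t)) e).mpr h)
  change PowerSeries.map (algebraMap A K) Θ = _ at hΘ
  refine ⟨Θ, D.inj ?_, by rw [hΘ, e]⟩
  rw [← PowerSeries.coeff_zero_eq_constantCoeff_apply, ← PowerSeries.coeff_map, hΘ,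
    PowerSeries.coeff_zero_eq_constantCoeff_apply, const_cmp g0 ψ0, map_zero]

/-- truncation of `(∑ c_j T^j) g`. -/
theorem coeff_ptyp_tw (D : Frob p A K) (c b : ℕ → K) {M i : ℕ} (hi : i < p ^ M) :
    PowerSeries.coeff i (ptyp p (tw D.σK c b)) = PowerSeries.coeff i
      (∑ j ∈ Finset.range M, c j • (D.Tact j (ptyp p b) : PowerSeries K)) := by
  simp only [map_sum, map_smul, Tact_ptyp, smul_eq_mul]
  by_cases h : ∃ l, p ^ l = i
  · obtain ⟨l, rfl⟩ := h
    have hl : l < M := (Nat.pow_lt_pow_iff_right hp.out.one_lt).1 hi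
    simp only [coeff_ptyp_pow, tw_single_left, one_mul]
    rw [tw, Finset.Nat.sum_antidiagonal_eq_sum_range_succ_mk,
      ← Finset.sum_subset (s₁ := Finset.range (l + 1)) (Finset.range_mono hl)]
    · exact Finset.sum_congr rfl fun j hj => by
        rw [if_pos (Nat.lt_succ_iff.1 (Finset.mem_range.1 hj))]
    · intro j _ hj
      rw [if_neg (fun h => hj (Finset.mem_range.2 (by omega))), mul_zero]
  · push Not at h
    simp [coeff_ptyp_of_not_pow _ h]

theorem coeff_subst_ptyp_tw {τ : Type*} (D : Frob p A K) (c b : ℕ → K) {H : MvPowerSeries τ K}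
    (hH : MvPowerSeries.constantCoeff H = 0) (e : τ →₀ ℕ) :
    MvPowerSeries.coeff e (PowerSeries.subst H (ptyp p (tw D.σK c b))) = MvPowerSeries.coeff e
      (∑ j ∈ Finset.range e.degree, c j •
        PowerSeries.subst H (D.Tact j (ptyp p b) : PowerSeries K)) := by
  have e1 : ∑ j ∈ Finset.range e.degree, c j •
      PowerSeries.subst H (D.Tact j (ptyp p b) : PowerSeries K) = PowerSeries.subst H
        (∑ j ∈ Finset.range e.degree, c j • (D.Tact j (ptyp p b) : PowerSeries K)) := by
    simp only [← PowerSeries.coe_substAlgHom (hasS hH), map_sum, map_smul]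
  have hlt : e.degree < p ^ e.degree := Nat.lt_pow_self hp.out.one_lt
  rw [e1, coeff_subst_range hH _ e hlt, coeff_subst_range hH _ e hlt]
  exact Finset.sum_congr rfl fun i hi => by rw [coeff_ptyp_tw D c b (Finset.mem_range.1 hi)]

omit hp in
theorem pint_of_coeff {τ : Type*} {F : MvPowerSeries τ K}
    (h : ∀ e, ∃ G, PInt p A G ∧ MvPowerSeries.coeff e F = MvPowerSeries.coeff e G) :
    PInt p A F := (pint_iff _).2 fun e => by
  obtain ⟨G, h1, h2⟩ := h e
  rw [h2]; exact (pint_iff _).1 h1 e

theorem exists_isHon (D : Frob p A K) {n N : ℕ} (hN : 1 ≤ N) {v c : ℕ → A}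
    (hv : ∀ j, D.σA (v j) = v j ^ p) (hv0 : ∀ j, 1 ≤ j → j < N → v j = 0)
    (hc : Cond D.σA n N v c) : ∃ Θ, IsHon D n N v c Θ := by
  refine exists_isHon_of_pint D (N := N) ?_
  have key : tw D.σK (uc p N (fun j => algebraMap A K (hon N j))) (fun i => algebraMap A K (c i)) =
      tw D.σK (fun i => algebraMap A K (c i)) (uc p n (fun j => algebraMap A K (v j))) := by
    have e : uc p n (fun j => algebraMap A K (v j)) = Pi.single 0 (p : K) -
        tw D.σK (fun j => algebraMap A K (if N + j ≤ n then v (N + j) else 0)) (Pi.single N 1) := by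
      funext l
      rw [Pi.sub_apply, tw_single_one_right, uc]
      by_cases h0 : l = 0
      · subst h0; rw [if_pos rfl, if_neg (by omega)]; simp
      rw [if_neg h0, Pi.single_eq_of_ne h0, zero_sub]
      by_cases h1 : N ≤ l
      · rw [if_pos h1, Nat.add_sub_cancel' h1]; split_ifs <;> simp
      · rw [if_neg h1, hv0 l (by omega) (by omega)]; simp
    rw [e, tw_sub_right, ← tw_assoc]
    funext l
    rw [tw_uc, Pi.sub_apply, tw_single_zero_right, tw_single_one_right]
    simp only [← smul_eq_mul (a := algebraMap A K _)]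
    rw [sum_hon_smul hN fun j => tw D.σK (Pi.single j 1) _ l, tw_single_left, one_mul]
    split_ifs
    · rw [← map_tw, hc, D.comm_pow]
    · rfl
  rw [uact_ptyp, ← tw_assoc, key, tw_assoc,
    tw_uc_bseq p n D.σK D.mul_pinv fun j => by rw [D.comm, hv, map_pow]]
  refine ⟨ptyp p c, (map_p_smul _).trans ?_⟩
  refine ((congrArg _ (map_ptyp _ c)).trans (ptyp_smul _ _).symm).trans (congrArg _ ?_)
  funext l
  rw [tw_single_zero_right]

theorem IsHon.coeff_one {D : Frob p A K} {n N : ℕ} {v c : ℕ → A} {Θ : PowerSeries A}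
    (h : IsHon D n N v c Θ) : PowerSeries.coeff 1 Θ = c 0 := by
  have := congrArg (PowerSeries.coeff 1) h.2
  rw [coeff_one_cmp _ (const_pmap _ h.1), coeff_one_hlog, one_mul, PowerSeries.coeff_map,
    ← pow_zero p, coeff_ptyp_pow, pow_zero] at this
  exact D.inj (by simpa [tw, bseq] using this)

theorem IsHon.unique {D : Frob p A K} {n N : ℕ} {v c : ℕ → A} {Θ Θ' : PowerSeries A}
    (h : IsHon D n N v c Θ) (h' : IsHon D n N v c Θ') : Θ = Θ' := mv_map_injective D.inj (subst_injective_of_coeff_one (const_hlog N D.pinv (hon N))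
    (coeff_one_hlog _ _ _) (const_map _ h.1) (const_map _ h'.1) (h.2.trans h'.2.symm))

theorem IsHon.add {D : Frob p A K} {n N : ℕ} {v c c' : ℕ → A} {Θ Θ' : PowerSeries A}
    (h : IsHon D n N v c Θ) (h' : IsHon D n N v c' Θ') :
    IsHon D n N v (c + c') (fadd (HL p N (hon N)) Θ Θ') := by
  refine ⟨const_fadd _ h.1 h'.1, ?_⟩
  rw [map_fadd _ _ h.1 h'.1, HL_map_hon]
  refine ((isLog_HL p N D.mul_pinv (hon N)).apply (const_map _ h.1) (const_map _ h'.1)).trans ?_
  refine (congrArg₂ (· + ·) h.2 h'.2).trans ?_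
  rw [← ptyp_add, ← tw_add_left]
  congr 2
  funext i
  simp

theorem IsHon.mulSeries {D : Frob p A K} {n N : ℕ} {v c : ℕ → A} {Θ : PowerSeries A}
    (h : IsHon D n N v c Θ) (m : ℕ) :
    IsHon D n N v (fun i => (m : A) * c i) (cmp (mulSeries (HL p N (hon N)) m) Θ) := by
  have c0 : PowerSeries.constantCoeff (PowerSeries.map (algebraMap A K) Θ) = 0 := const_map _ h.1
  refine ⟨const_cmp (const_mulSeries _ _) h.1, ?_⟩
  rw [map_cmp _ _ h.1, map_mulSeries, HL_map_hon, ← cmp_assoc _ (const_mulSeries _ _) c0,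
    (isLog_HL p N D.mul_pinv (hon N)).cmp_mulSeries (const_hlog _ _ _), cmp,
    PowerSeries.subst_smul (hasS c0)]
  refine (congrArg _ h.2).trans ?_
  rw [← ptyp_smul]
  congr 1
  funext l
  simp only [map_mul, map_natCast, tw_mul_left]

theorem IsHon.hom {D : Frob p A K} {n N : ℕ} {v c : ℕ → A} {Θ : PowerSeries A}
    (h : IsHon D n N v c Θ) (hv : ∀ j, D.σA (v j) = v j ^ p)
    {R : Type*} [CommRing R] (hR : (p : R) = 0) (ρ : A →+* R) :
    IsFGHom (HL p n (fun j => ρ (v j))) (HL p N (hon N)) (PowerSeries.map ρ Θ) := by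
  have c0 : PowerSeries.constantCoeff (PowerSeries.map (algebraMap A K) Θ) = 0 := const_map _ h.1
  have cX : ∀ t : Fin 2, MvPowerSeries.constantCoeff
      (PowerSeries.subst (MvPowerSeries.X t : MvPowerSeries (Fin 2) A) Θ) = 0 := fun t =>
    fg_const1 (fg_constX t) h.1
  have hd := den_of_uact D (const_hlog _ _ _) (pint_uact_hlog D n hv)
  obtain ⟨W, hW⟩ := dvd_of_pint_subst D (den_hon D N) (coeff_one_hlog _ _ _)
    (fg_const1 (HL p n v).zero_constantCoeff h.1) (fg_const2 (HL p N (hon N)) (cX 0) (cX 1)) (by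
      rw [map_hom_lhs, map_hom_rhs _ _ h.1, HL_map_hon,
        (isLog_HL p N D.mul_pinv (hon N)).apply (fg_const1 (fg_constX _) c0)
          (fg_const1 (fg_constX _) c0), ← subst_cmp (FormalGroup.zero_constantCoeff _) _ c0,
        ← subst_cmp (fg_constX _) _ c0, ← subst_cmp (fg_constX _) _ c0, h.2]
      refine pint_of_coeff fun e => ⟨_, PInt.sum (s := Finset.range e.degree) fun j _ =>
        (pint_Tact_subst D hd (HL p n v).zero_constantCoeff j).neg.smul (c j), ?_⟩
      have e1 := isLog_HL p n D.mul_pinv fun j => algebraMap A K (v j)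
      rw [← HL_map] at e1
      rw [map_sub, map_add, coeff_subst_ptyp_tw D _ _ (FormalGroup.zero_constantCoeff _),
        coeff_subst_ptyp_tw D _ _ (fg_constX _), coeff_subst_ptyp_tw D _ _ (fg_constX _), ← map_add,
        ← map_sub, ← Finset.sum_add_distrib, ← Finset.sum_sub_distrib]
      congr 1
      refine Finset.sum_congr rfl fun j _ => ?_
      rw [neg_sub, ← smul_add, ← smul_sub, ← D.Tact_subst_X, ← D.Tact_subst_X, ← D.Tact_add]
      exact congrArg (fun t => _ • (_ - D.Tact j t)) e1.symm)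
  refine ⟨const_map ρ h.1, ?_⟩
  have := congrArg (MvPowerSeries.map ρ) hW
  rw [map_sub, map_mul, map_natCast, map_hom_lhs, map_hom_rhs _ _ h.1, HL_map, HL_map_hon,
    ← map_natCast (MvPowerSeries.C (R := R)), hR, map_zero, zero_mul, sub_eq_zero] at this
  exact this

theorem IsHon.comp {D : Frob p A K} {n N : ℕ} {v c d : ℕ → A} {Θ E : PowerSeries A}
    (h : IsHon D n N v c Θ) (hE : IsHon D N N (hon N) d E) :
    ∃ Θ', IsHon D n N v (tw D.σA d c) Θ' ∧ (p : PowerSeries A) ∣ cmp E Θ - Θ' := by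
  have c0 : PowerSeries.constantCoeff (PowerSeries.map (algebraMap A K) Θ) = 0 := const_map _ h.1
  have cE : PowerSeries.constantCoeff (PowerSeries.map (algebraMap A K) E) = 0 := const_map _ hE.1
  have key : PInt p A (cmp (hlog p N D.pinv (hon N)) (PowerSeries.map (algebraMap A K) (cmp E Θ)) -
      ptyp p (tw D.σK (fun i => algebraMap A K (tw D.σA d c i))
        (bseq p n D.pinv (fun j => algebraMap A K (v j))))) := by
    rw [map_cmp _ _ h.1, ← cmp_assoc _ cE c0, hE.2]
    simp only [map_tw, map_hon]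
    rw [tw_assoc]
    refine pint_of_coeff fun e => ⟨_, PInt.sum (s := Finset.range e.degree) fun j _ =>
      (pint_Tact_subst D (den_hon D N) h.1 j).neg.smul (d j), ?_⟩
    have e2 := coeff_subst_ptyp_tw D (fun i => algebraMap A K (d i))
      (tw D.σK (fun i => algebraMap A K (c i)) (bseq p n D.pinv fun j => algebraMap A K (v j)))
      (H := (PowerSeries.X : PowerSeries K)) PowerSeries.constantCoeff_X e
    simp only [PowerSeries.X_subst] at e2
    refine (map_sub _ _ _).trans ?_
    rw [e2, coeff_subst_ptyp_tw D _ _ c0, ← map_sub, ← Finset.sum_sub_distrib]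
    congr 1
    refine Finset.sum_congr rfl fun j _ => ?_
    rw [neg_sub, ← smul_sub, ← h.2]
    rfl
  have cc := const_cmp hE.1 h.1
  obtain ⟨Θ', h'⟩ := exists_isHon_of_pint D (n := n) (N := N) (v := v) (c := tw D.σA d c) (by
    have := (pint_uact_subst D (const_hlog _ _ _) (pint_uact_hon D N) cc).sub
      (PInt.uact D N (hon N) key)
    rw [← D.uact_sub] at this
    exact (congrArg (fun t => PInt p A (D.uact N (hon N) t)) (sub_sub_cancel _ _)).mp this)
  refine ⟨Θ', h', dvd_of_pint_subst D (den_hon D N) (coeff_one_hlog _ _ _) cc h'.1 ?_⟩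
  rw [← h'.2] at key
  exact key

theorem IsHon.push [IsLocalization.Away (p : A) K] {D : Frob p A K} {n N : ℕ} {v c : ℕ → A}
    {Θ : PowerSeries A} (h : IsHon D n N v c Θ) {L : Type*} [CommRing L] (ρ : A →+* L) {pinv : L}
    (hL : (p : L) * pinv = 1) :
    cmp (hlog p N pinv (hon N)) (PowerSeries.map ρ Θ) =
      ptyp p (fun l => ∑ x ∈ Finset.HasAntidiagonal.antidiagonal l,
        ρ (c x.1) * bseq p n pinv (fun j => ρ ((D.σA ^ x.1) (v j))) x.2) := by
  have hu : IsUnit (ρ (p : A)) := by rw [map_natCast]; exact IsUnit.of_mul_eq_one _ hL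
  let ψ : K →+* L := IsLocalization.Away.lift _ hu
  have e : ψ D.pinv = pinv := by
    have h1 := congrArg ψ D.mul_pinv
    rw [map_mul, map_natCast, map_one] at h1
    rw [← one_mul pinv, ← h1, mul_right_comm, hL, one_mul]
  have e2 : ∀ a, ψ (algebraMap A K a) = ρ a := IsLocalization.Away.lift_eq _ hu
  have e3 : PowerSeries.map ψ (PowerSeries.map (algebraMap A K) Θ) = PowerSeries.map ρ Θ := by
    ext i; simp only [PowerSeries.coeff_map, e2]
  have := congrArg (PowerSeries.map ψ) h.2
  rw [map_cmp _ _ (const_pmap _ h.1), e3, map_hlog, map_ptyp, e] at this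
  simpa only [map_hon, tw, map_sum, map_mul, map_bseq, D.σK_pow_pinv, D.comm_pow, e, e2] using this

end general

section witt
variable (p : ℕ) [hp : Fact p.Prime] (κ : Type*) [CommRing κ] [CharP κ p] [PerfectRing κ p]

theorem witt_p_mem_nonZeroDivisors : (p : WittVector p κ) ∈ nonZeroDivisors (WittVector p κ) := mem_nonZeroDivisors_iff_right.2 WittVector.eq_zero_of_p_mul_eq_zero

theorem witt_frobenius_lift (a : WittVector p κ) :
    (p : WittVector p κ) ∣ WittVector.frobenius a - a ^ p := by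
  rw [← Ideal.mem_span_singleton, ← WittVector.ker_constantCoeff, RingHom.mem_ker, map_sub, map_pow]
  simp

/-- Frobenius data on the Witt vectors of a perfect ring. -/
noncomputable def wFrob : Frob p (WittVector p κ) (Localization.Away (p : WittVector p κ)) :=
  Frob.away p (witt_p_mem_nonZeroDivisors p κ) WittVector.frobenius (witt_frobenius_lift p κ)

theorem wFrob_σA : (wFrob p κ).σA = WittVector.frobenius := Frob.away_σA _ _ _ _

variable {p κ}

omit [PerfectRing κ p] in
theorem map_frobenius_pow {κ' : Type*} [CommRing κ'] [CharP κ' p] (f : κ →+* κ') (e : ℕ)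
    (a : WittVector p κ) :
    WittVector.map f (((WittVector.frobenius : WittVector p κ →+* WittVector p κ) ^ e) a) =
      ((WittVector.frobenius : WittVector p κ' →+* WittVector p κ') ^ e) (WittVector.map f a) := by
  ext i
  simp only [RingHom.coe_pow, WittVector.map_coeff, WittVector.iterate_frobenius_coeff, map_pow]

omit [PerfectRing κ p] in
theorem frobenius_pow_teichmuller (e : ℕ) (a : κ) :
    ((WittVector.frobenius : WittVector p κ →+* WittVector p κ) ^ e) (WittVector.teichmuller p a) =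
      WittVector.teichmuller p (a ^ p ^ e) := by
  ext i
  rw [RingHom.coe_pow, WittVector.iterate_frobenius_coeff]
  rcases Nat.eq_zero_or_pos i with rfl | hi
  · simp only [WittVector.teichmuller_coeff_zero]
  · rw [WittVector.teichmuller_coeff_pos _ _ _ hi, WittVector.teichmuller_coeff_pos _ _ _ hi,
      zero_pow (pow_ne_zero _ hp.out.ne_zero)]

/-- functoriality in the perfect ring (use `IsHon.push` with `ρ = algebraMap ∘ WittVector.map f`,
and `map_bseq`). -/
theorem IsHon.mapW {κ' : Type*} [CommRing κ'] [CharP κ' p] [PerfectRing κ' p] (f : κ →+* κ')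
    {n N : ℕ} {v c : ℕ → WittVector p κ} {Θ : PowerSeries (WittVector p κ)}
    (h : IsHon (wFrob p κ) n N v c Θ) :
    IsHon (wFrob p κ') n N (fun j => WittVector.map f (v j)) (fun i => WittVector.map f (c i))
      (PowerSeries.map (WittVector.map f) Θ) := by
  refine ⟨const_map _ h.1, ?_⟩
  have := h.push ((algebraMap _ (Localization.Away (p : WittVector p κ'))).comp (WittVector.map f))
    (wFrob p κ').mul_pinv
  rw [PowerSeries.map_comp, RingHom.comp_apply] at this
  refine this.trans (congrArg _ (funext fun l => ?_))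
  simp only [tw, map_bseq, Frob.σK_pow_pinv, Frob.comm_pow, wFrob_σA, RingHom.comp_apply,
    map_frobenius_pow]

theorem frobenius_zseq_teichmuller (n h : ℕ) {r : ℕ} (z : Fin r → κ) (j : ℕ) :
    WittVector.frobenius (zseq n h (fun i => WittVector.teichmuller p (z i)) j) =
      (zseq n h (fun i => WittVector.teichmuller p (z i)) j) ^ p := by
  unfold zseq
  split_ifs
  · have := frobenius_pow_teichmuller (p := p) 1 (z ⟨j - h, ‹_ ∧ _›.2⟩)
    rwa [pow_one, pow_one, map_pow] at this
  · exact hon_frob _ n j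

theorem frobenius_pow_zseq_teichmuller (n h : ℕ) {r : ℕ} (z : Fin r → κ) (e j : ℕ) :
    ((WittVector.frobenius : WittVector p κ →+* WittVector p κ) ^ e)
        (zseq n h (fun i => WittVector.teichmuller p (z i)) j) =
      zseq n h (fun i => WittVector.teichmuller p (z i ^ p ^ e)) j := by
  simp only [map_zseq, frobenius_pow_teichmuller]

end witt

end Crest.Agent.R227
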