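import Crest.Agent.R227.WBasic

/-!
# R227 / Lam : the periods `λ_N(y) = ∑_{a ∈ ℤ} p^{-a} [y^{p^{Na}}]`

`lam N y = lim_k p^k ℓ_N(τ (y^{1/p^{Nk}}))`.

Plan.  `hasSum_lg` + `bseq_hon` give `p ℓ(x) = p x + ℓ(x^{p^N})` (`lg_hon_step`), so consecutive terms of the sequence differ by
`p^{k+1} τ(rt (N(k+1)) y)`, of norm `≤ ρ^{k+1}`.  `lam_gadd`: `map_gadd` for `rt`, `lg_tau_gadd`.  `lam_ne_zero`:
`norm_le_norm_lg_tau` and `‖rt (Nk) y‖ → 1 > ρ`.
`tendsto_per_lam`: with `x_k = rt (nk) y`,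
`p^k lg_v(τ x_k) - ∑_s φ_s p^k ℓ_n(τ x_k^{p^s}) = ∑_i (β_i - φ_{i % n}) p^{k - ⌊i/n⌋} τ(x_k)^{p^i}`; the factors
`ρ^{k-⌊i/n⌋} ‖x_k‖^{p^i}` are bounded by a constant `M(y)` (`‖x_k‖^{p^{na}} = ‖y‖^{p^{n(a-k)}}`), the terms with `i ≥ I` are `≤ ε M`
(`beta_tendsto_unif`), those with `i < I` tend to `0`.
`per_lam`: `p^k lg(τ rt(nk) y) = lg (pm (p^k) (τ rt(nk) y))` is within `ρ` of `lg (τ (prf y))` for large `k` (`lg_pm`, `pm_tau`,
`norm_tau_sub`, `norm_lg_sub_le`, `tendsto_prf`); apply this to `rt (nk) y` and use `lam_pow`.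
-/

set_option autoImplicit false
open Crest.LubinTate Filter Topology

namespace Crest.Agent.R227

variable {p : ℕ} [hp : Fact p.Prime] {D : Type*} [NormedField D] [IsUltrametricDist D] [CharP D p]
  [PerfectRing D p] {F : Type*} [NormedField F]

/-- the period `λ_N`. -/
noncomputable def lam (J : WittVector p (OO D) →+* F) (N : ℕ) (y : D) : F :=
  limUnder atTop (fun k => (p : F) ^ k * lg p N (hon N) (tau J (rt p (N * k) y)))

variable [IsUltrametricDist F] [CompleteSpace F] {J : WittVector p (OO D) →+* F} {ρ : ℝ} {N : ℕ}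

theorem lg_hon_step (hp0 : (p : F) ≠ 0) (hN : 1 ≤ N) {x : F} (hx : ‖x‖ < 1) :
    (p : F) * lg p N (hon N) x = (p : F) * x + lg p N (hon N) (x ^ p ^ N) := by
  have hx' : ‖x ^ p ^ N‖ < 1 := by
    rw [norm_pow]; exact pow_lt_one₀ (norm_nonneg _) hx (pow_ne_zero _ hp.out.ne_zero)
  have h1 := (hasSum_lg (n := N) hp0 (norm_hon_le N) hx).mul_left (p : F)
  have h2 := hasSum_lg (n := N) hp0 (norm_hon_le N) hx'
  have h3 := (hasSum_nat_add_iff' N).2 h1
  have e1 : (fun l => (p : F) * (bseq p N (p : F)⁻¹ (hon N) (l + N) * x ^ p ^ (l + N))) =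
      fun l => bseq p N (p : F)⁻¹ (hon N) l * (x ^ p ^ N) ^ p ^ l := by
    funext l
    rw [bseq_hon hp.out.ne_zero hN, bseq_hon hp.out.ne_zero hN, ← pow_mul, ← pow_add, add_comm N l]
    by_cases hl : N ∣ l
    · rw [if_pos hl, if_pos ((Nat.dvd_add_self_right).2 hl), Nat.add_div_right _ hN, pow_succ]
      field_simp
    · rw [if_neg hl, if_neg (fun h => hl ((Nat.dvd_add_self_right).1 h))]; simp
  rw [e1] at h3
  have e2 : ∑ l ∈ Finset.range N, (p : F) * (bseq p N (p : F)⁻¹ (hon N) l * x ^ p ^ l) =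
      (p : F) * x := by
    rw [Finset.sum_eq_single 0]
    · rw [bseq_hon hp.out.ne_zero hN]; simp
    · intro l hl hl0
      rw [bseq_hon hp.out.ne_zero hN, if_neg (fun h => by
        have := Nat.le_of_dvd (Nat.pos_of_ne_zero hl0) h
        have := Finset.mem_range.1 hl
        omega)]
      simp
    · intro h; exact absurd (Finset.mem_range.2 hN) h
  rw [e2] at h3
  rw [h2.unique h3]; ring

theorem IsPer.norm_step (hJ : IsPer p J ρ) (h0 : 0 < ρ) (hN : 1 ≤ N) {y : D}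
    (hy : ‖y‖ < 1) (k : ℕ) :
    ‖(p : F) ^ (k + 1) * lg p N (hon N) (tau J (rt p (N * (k + 1)) y)) -
      (p : F) ^ k * lg p N (hon N) (tau J (rt p (N * k) y))‖ ≤ ρ ^ (k + 1) := by
  have h1 := norm_rt_lt_one (p := p) (N * (k + 1)) hy
  have h2 := lg_hon_step (hJ.p_ne_zero h0) hN (x := tau J (rt p (N * (k + 1)) y))
    (by rw [hJ.norm_tau h1.le]; exact h1)
  rw [← tau_pow h1.le, show rt p (N * (k + 1)) y ^ p ^ N = rt p (N * k) y by
    rw [mul_add, mul_one, rt_add_pow]] at h2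
  rw [pow_succ, mul_assoc, h2, ← mul_sub, add_sub_cancel_right, norm_mul, norm_mul, norm_pow,
    hJ.norm_p h0, pow_succ]
  exact mul_le_mul_of_nonneg_left (mul_le_of_le_one_right h0.le (hJ.norm_tau_le _))
    (pow_nonneg h0.le _)

theorem IsPer.tendsto_lam (hJ : IsPer p J ρ) (h0 : 0 < ρ) (h1 : ρ < 1) (hN : 1 ≤ N) {y : D}
    (hy : ‖y‖ < 1) : Tendsto (fun k => (p : F) ^ k * lg p N (hon N) (tau J (rt p (N * k) y)))
      atTop (𝓝 (lam J N y)) := by
  refine CauchySeq.tendsto_limUnder (cauchySeq_of_le_geometric ρ ρ h1 fun k => ?_)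
  rw [dist_comm, dist_eq_norm, ← pow_succ']
  exact hJ.norm_step h0 hN hy k

theorem IsPer.norm_lam_sub (hJ : IsPer p J ρ) (h0 : 0 < ρ) (h1 : ρ < 1) (hN : 1 ≤ N) {y : D}
    (hy : ‖y‖ < 1) (k : ℕ) :
    ‖lam J N y - (p : F) ^ k * lg p N (hon N) (tau J (rt p (N * k) y))‖ ≤ ρ ^ (k + 1) := by
  have key : ∀ j, ‖(p : F) ^ (k + j) * lg p N (hon N) (tau J (rt p (N * (k + j)) y)) -
      (p : F) ^ k * lg p N (hon N) (tau J (rt p (N * k) y))‖ ≤ ρ ^ (k + 1) := by
    intro j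
    induction j with
    | zero => simp; positivity
    | succ j ih =>
      have h2 := hJ.norm_step h0 hN hy (k + j)
      have := IsUltrametricDist.norm_add_le_max
        ((p : F) ^ (k + j + 1) * lg p N (hon N) (tau J (rt p (N * (k + j + 1)) y)) -
          (p : F) ^ (k + j) * lg p N (hon N) (tau J (rt p (N * (k + j)) y)))
        ((p : F) ^ (k + j) * lg p N (hon N) (tau J (rt p (N * (k + j)) y)) -
          (p : F) ^ k * lg p N (hon N) (tau J (rt p (N * k) y)))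
      rw [sub_add_sub_cancel] at this
      exact this.trans (max_le (h2.trans (pow_le_pow_of_le_one h0.le h1.le (by omega))) ih)
  have h2 := (((hJ.tendsto_lam h0 h1 hN hy).comp (tendsto_add_atTop_nat k)).sub_const
    ((p : F) ^ k * lg p N (hon N) (tau J (rt p (N * k) y)))).norm
  refine le_of_tendsto' h2 fun j => ?_
  simpa only [Function.comp, add_comm j k] using key j

theorem lam_zero : lam J N (0 : D) = 0 := by
  simp only [lam, map_zero, tau_zero, lg_zero, mul_zero]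
  exact tendsto_const_nhds.limUnder_eq

theorem IsPer.lam_pow (hJ : IsPer p J ρ) (h0 : 0 < ρ) (h1 : ρ < 1) (hN : 1 ≤ N) {y : D}
    (hy : ‖y‖ < 1) (k : ℕ) : lam J N (y ^ p ^ (N * k)) = (p : F) ^ k * lam J N y := by
  have hy' : ‖y ^ p ^ (N * k)‖ < 1 := by
    rw [norm_pow]; exact pow_lt_one₀ (norm_nonneg _) hy (pow_ne_zero _ hp.out.ne_zero)
  have h2 := (hJ.tendsto_lam h0 h1 hN hy').comp (tendsto_add_atTop_nat k)
  have h3 := (hJ.tendsto_lam h0 h1 hN hy).const_mul ((p : F) ^ k)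
  refine tendsto_nhds_unique h2 (h3.congr fun j => ?_)
  simp only [Function.comp]
  rw [mul_add, rt_add, rt_pow', pow_add]; ring

theorem IsPer.lam_mul (hJ : IsPer p J ρ) (h0 : 0 < ρ) (h1 : ρ < 1) (hN : 1 ≤ N) {α y : D}
    (hα : α ^ p ^ N = α) (hy : ‖y‖ < 1) : lam J N (α * y) = tau J α * lam J N y := by
  have hα1 : ‖α‖ ≤ 1 := norm_le_one_of_fixed hN hα
  have hy' : ‖α * y‖ < 1 := by
    rw [norm_mul]; exact mul_lt_one_of_nonneg_of_lt_one_right hα1 (norm_nonneg _) hy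
  have hp0 := hJ.p_ne_zero h0
  have hfix : ∀ k, α ^ p ^ (N * k) = α := fun k => by
    induction k with
    | zero => simp
    | succ k ih => rw [mul_add, mul_one, pow_add, pow_mul, ih, hα]
  refine tendsto_nhds_unique (hJ.tendsto_lam h0 h1 hN hy')
    (((hJ.tendsto_lam h0 h1 hN hy).const_mul (tau J α)).congr fun k => ?_)
  have h2 := norm_rt_lt_one (p := p) (N * k) hy
  have h3 : ‖tau J (rt p (N * k) y)‖ < 1 := by rw [hJ.norm_tau h2.le]; exact h2
  rw [map_mul, rt_of_fixed hα, tau_mul hα1 h2.le, mul_left_comm]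
  congr 1
  have h4 : ‖tau J α * tau J (rt p (N * k) y)‖ < 1 := by
    rw [norm_mul]
    exact mul_lt_one_of_nonneg_of_lt_one_right (hJ.norm_tau_le _) (norm_nonneg _) h3
  refine ((hasSum_lg (n := N) hp0 (norm_hon_le N) h3).mul_left (tau J α)).unique ?_
  have := hasSum_lg (n := N) hp0 (norm_hon_le N) h4
  have e : (fun l => bseq p N (p : F)⁻¹ (hon N) l * (tau J α * tau J (rt p (N * k) y)) ^ p ^ l) =
      fun l => tau J α * (bseq p N (p : F)⁻¹ (hon N) l * tau J (rt p (N * k) y) ^ p ^ l) := by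
    funext l
    rw [bseq_hon hp.out.ne_zero hN]
    split_ifs with hl
    · obtain ⟨j, rfl⟩ := hl
      rw [mul_pow, ← tau_pow hα1, hfix]; ring
    · simp
  rwa [e] at this

/-- a linear relation between the period vectors propagates to all exponents. -/
theorem IsPer.rel_all (hJ : IsPer p J ρ) (h0 : 0 < ρ) (h1 : ρ < 1) (hN : 1 ≤ N) {ι : Type*}
    (T : Finset ι) (a : ι → F) {y : ι → D} (hy : ∀ t, ‖y t‖ < 1) (s₀ : ℕ)
    (h : ∀ s < N, ∑ t ∈ T, a t * lam J N (y t ^ p ^ (s₀ + s)) = 0) (e : ℕ) :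
    ∑ t ∈ T, a t * lam J N (y t ^ p ^ e) = 0 := by
  have hp0 := hJ.p_ne_zero h0
  have key : ∀ e k, ∑ t ∈ T, a t * lam J N (y t ^ p ^ (e + N * k)) =
      (p : F) ^ k * ∑ t ∈ T, a t * lam J N (y t ^ p ^ e) := fun e k => by
    rw [Finset.mul_sum]
    refine Finset.sum_congr rfl fun t _ => ?_
    rw [pow_add, pow_mul, hJ.lam_pow h0 h1 hN (by
      rw [norm_pow]; exact pow_lt_one₀ (norm_nonneg _) (hy t) (pow_ne_zero _ hp.out.ne_zero))]
    ring
  have h2 := key e s₀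
  have hle : s₀ ≤ e + N * s₀ := by nlinarith
  have h3 := key (s₀ + (e + N * s₀ - s₀) % N) ((e + N * s₀ - s₀) / N)
  rw [h _ (Nat.mod_lt _ hN), mul_zero, add_assoc, Nat.mod_add_div, Nat.add_sub_cancel' hle,
    h2] at h3
  exact (mul_eq_zero.1 h3).resolve_left (pow_ne_zero _ hp0)

/-- `λ_N(y)` lies in every closed subfield containing the Teichmüller lifts of the roots of `y`. -/
theorem IsPer.lam_mem (hJ : IsPer p J ρ) (h0 : 0 < ρ) (h1 : ρ < 1) (hN : 1 ≤ N) (K : Subfield F)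
    (hK : IsClosed (K : Set F)) {y : D} (hy : ‖y‖ < 1) (h : ∀ j, tau J (rt p j y) ∈ K) :
    lam J N y ∈ K := by
  have hp0 := hJ.p_ne_zero h0
  refine hK.mem_of_tendsto (hJ.tendsto_lam h0 h1 hN hy) (Eventually.of_forall fun k => ?_)
  refine K.mul_mem (K.pow_mem (natCast_mem K p) _) ?_
  have h2 := norm_rt_lt_one (p := p) (N * k) hy
  have h3 : ‖tau J (rt p (N * k) y)‖ < 1 := by rw [hJ.norm_tau h2.le]; exact h2
  refine hK.mem_of_tendsto (hasSum_lg (n := N) hp0 (norm_hon_le N) h3).tendsto_sum_nat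
    (Eventually.of_forall fun m => K.sum_mem fun l _ => K.mul_mem ?_ (K.pow_mem (h _) _))
  rw [bseq_hon hp.out.ne_zero hN]
  split_ifs
  · exact K.pow_mem (K.inv_mem (natCast_mem K p)) _
  · exact K.zero_mem

variable [CompleteSpace D]

theorem IsPer.lam_gadd (hJ : IsPer p J ρ) (h0 : 0 < ρ) (h1 : ρ < 1) (hN : 1 ≤ N) {y y' : D}
    (hy : ‖y‖ < 1) (hy' : ‖y'‖ < 1) :
    lam J N (gadd p N (hon N) y y') = lam J N y + lam J N y' := by
  have h2 := (hJ.tendsto_lam h0 h1 hN (norm_gadd_lt (p := p) (n := N) (norm_hon_le N) hy hy')).sub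
    ((hJ.tendsto_lam h0 h1 hN hy).add (hJ.tendsto_lam h0 h1 hN hy'))
  rw [← sub_eq_zero]
  refine tendsto_nhds_unique h2 (squeeze_zero_norm (fun k => ?_)
    (tendsto_pow_atTop_nhds_zero_of_lt_one h0.le h1))
  have e1 := map_gadd (p := p) (n := N) (rt p (N * k)) (continuous_rt _) (norm_hon_le N) hy hy'
  simp only [map_hon] at e1
  have h3 := hJ.lg_tau_gadd h0 h1 (n := N) (norm_hon_le N) (norm_rt_lt_one (p := p) (N * k) hy)
    (norm_rt_lt_one (p := p) (N * k) hy')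
  simp only [tau_hon] at h3
  rw [e1, ← mul_add, ← mul_sub, norm_mul, norm_pow, hJ.norm_p h0]
  exact mul_le_of_le_one_right (pow_nonneg h0.le _) (h3.trans h1.le)

theorem IsPer.lam_sum (hJ : IsPer p J ρ) (h0 : 0 < ρ) (h1 : ρ < 1) (hN : 1 ≤ N) {ι : Type*}
    (s : Finset ι) (x : ι → Pt p N (hon N : ℕ → D)) :
    lam J N (∑ i ∈ s, x i).val = ∑ i ∈ s, lam J N (x i).val := by
  classical
  induction s using Finset.induction_on with
  | empty => simp [lam_zero]
  | insert i s hi ih =>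
    rw [Finset.sum_insert hi, Finset.sum_insert hi, Pt.val_add (norm_hon_le N),
      hJ.lam_gadd h0 h1 hN (x i).lt (Pt.lt _), ih]

theorem IsPer.lam_ne_zero (hJ : IsPer p J ρ) (h0 : 0 < ρ) (h1 : ρ < 1) (hN : 1 ≤ N) {y : D}
    (hy : ‖y‖ < 1) (hy0 : y ≠ 0) : lam J N y ≠ 0 := by
  intro h
  have key : ∀ k, ‖y‖ ≤ ρ ^ k := fun k => by
    have h2 := hJ.norm_lam_sub h0 h1 hN hy k
    have h3 := hJ.norm_le_norm_lg_tau h0 h1 (n := N) (norm_hon_le N)
      (norm_rt_lt_one (p := p) (N * k) hy)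
    simp only [tau_hon] at h3
    rw [h, zero_sub, norm_neg, norm_mul, norm_pow, hJ.norm_p h0, pow_succ,
      mul_le_mul_iff_right₀ (pow_pos h0 k)] at h2
    have h4 := (norm_rt_le_iff _ _ h0.le).1 (h3.trans h2)
    refine h4.trans (pow_le_pow_of_le_one h0.le h1.le ?_)
    calc k ≤ N * k := by nlinarith
      _ ≤ p ^ (N * k) := (Nat.lt_pow_self hp.out.one_lt).le
  exact hy0 (norm_le_zero_iff.1
    (ge_of_tendsto' (tendsto_pow_atTop_nhds_zero_of_lt_one h0.le h1) key))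

omit [CompleteSpace D] in
theorem hasSum_per_hon (hp0 : (p : F) ≠ 0) (hN : 1 ≤ N) (φ : ℕ → F) {X : F} (hX : ‖X‖ < 1) :
    HasSum (fun l => φ (l % N) * (p : F)⁻¹ ^ (l / N) * X ^ p ^ l)
      (∑ s ∈ Finset.range N, φ s * lg p N (hon N) (X ^ p ^ s)) := by
  have key : ∀ s ∈ Finset.range N, HasSum (fun l => if l % N = s then
      φ (l % N) * (p : F)⁻¹ ^ (l / N) * X ^ p ^ l else 0) (φ s * lg p N (hon N) (X ^ p ^ s)) := by
    intro s hs
    have hs' := Finset.mem_range.1 hs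
    have hX' : ‖X ^ p ^ s‖ < 1 := by
      rw [norm_pow]; exact pow_lt_one₀ (norm_nonneg _) hX (pow_ne_zero _ hp.out.ne_zero)
    have h1 := (hasSum_lg (n := N) hp0 (norm_hon_le N) hX').mul_left (φ s)
    rw [← hasSum_nat_add_iff' s, Finset.sum_eq_zero (fun l hl => if_neg (by
      have := Finset.mem_range.1 hl
      rw [Nat.mod_eq_of_lt (by omega)]; omega)), sub_zero]
    refine (funext fun l => ?_ : (fun l => _) = fun l => _) ▸ h1
    symm
    rw [bseq_hon hp.out.ne_zero hN]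
    by_cases hl : N ∣ l
    · obtain ⟨a, rfl⟩ := hl
      have e1 : (N * a + s) % N = s := by rw [Nat.mul_add_mod, Nat.mod_eq_of_lt hs']
      have e2 : (N * a + s) / N = a := by
        rw [Nat.mul_add_div (by omega), Nat.div_eq_of_lt hs', add_zero]
      rw [if_pos e1, if_pos (dvd_mul_right _ _), e1, e2, Nat.mul_div_cancel_left _ (by omega),
        ← pow_mul, ← pow_add, add_comm s, mul_assoc]
    · rw [if_neg hl, if_neg]
      · simp
      · intro h
        apply hl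
        have h2 : (l + s) % N = (0 + s) % N := by rw [h, zero_add, Nat.mod_eq_of_lt hs']
        exact Nat.dvd_of_mod_eq_zero (by simpa [Nat.ModEq] using Nat.ModEq.add_right_cancel' s h2)
  convert hasSum_sum key using 2 with l
  rw [Finset.sum_ite_eq, if_pos (Finset.mem_range.2 (Nat.mod_lt _ hN))]

omit [CompleteSpace D] in
theorem IsPer.tendsto_per_lam (hJ : IsPer p J ρ) (h0 : 0 < ρ) (h1 : ρ < 1) {n h r : ℕ}
    (hh : 1 ≤ h) (hr : h + r = n) {z : Fin r → D} (hz : Sm z) {y : D} (hy : ‖y‖ < 1) :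
    Tendsto (fun k => (p : F) ^ k * lg p n (zseq n h fun i => tau J (z i)) (tau J (rt p (n * k) y)))
      atTop (𝓝 (∑ s ∈ Finset.range n,
        per p n (zseq n h fun i => tau J (z i)) s * lam J n (y ^ p ^ s))) := by
  have hn : 1 ≤ n := by omega
  have hp0 := hJ.p_ne_zero h0
  have hpn := hJ.norm_p h0
  have hpe : ∀ e, p ^ e ≠ 0 := fun e => pow_ne_zero _ hp.out.ne_zero
  set v : ℕ → F := zseq n h fun i => tau J (z i) with hv
  have hv1 : ∀ j, ‖v j‖ ≤ 1 := norm_zseq_le' n h fun i => hJ.norm_tau_le _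
  obtain ⟨μ, hμ0, hμ1, hμ⟩ := hz.exists_bound
  have hvμ : ∀ j, 1 ≤ j → j < n → ‖v j‖ ≤ μ := fun j _ hj =>
    norm_zseq_le_of_lt hμ0 (fun i => by rw [hJ.norm_tau (hz i).le]; exact hμ i) hj.ne
  have hvn : v n = 1 := zseq_self hr _
  have hys : ∀ s, ‖y ^ p ^ s‖ < 1 := fun s => by
    rw [norm_pow]; exact pow_lt_one₀ (norm_nonneg _) hy (hpe s)
  have hB := tendsto_finset_sum (Finset.range n) fun s _ =>
    (hJ.tendsto_lam h0 h1 hn (hys s)).const_mul (per p n v s)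
  obtain ⟨M, hM⟩ : ∃ M : ℝ, ∀ j, ρ⁻¹ ^ j * ‖y‖ ^ p ^ j ≤ M := by
    have h2 : An (ptyp p fun l => (p : F)⁻¹ ^ l) :=
      an_ptyp (B := 1) (R := ‖(p : F)⁻¹‖) fun l => by rw [norm_pow, one_mul]
    have h3 : ‖tau J y‖ < 1 := by rw [hJ.norm_tau hy.le]; exact hy
    obtain ⟨M, hM⟩ := (hasSum_ptyp h2 h3).summable.tendsto_atTop_zero.norm.bddAbove_range
    refine ⟨M, fun j => ?_⟩
    have := hM ⟨j, rfl⟩
    beta_reduce at this
    rwa [norm_mul, norm_pow, norm_pow, norm_inv, hpn, hJ.norm_tau hy.le] at this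
  have hM0 : 0 ≤ M := le_trans (by positivity) (hM 0)
  have hρi : 1 ≤ ρ⁻¹ := (one_le_inv₀ h0).2 h1.le
  have hfac : ∀ k l, ρ ^ k * ρ⁻¹ ^ (l / n) * ‖rt p (n * k) y‖ ^ p ^ l ≤ max M 1 := by
    intro k l
    have hx := (norm_rt_lt_one (p := p) (n * k) hy).le
    rcases le_or_gt (l / n) k with hk | hk
    · refine le_trans ?_ (le_max_right _ _)
      obtain ⟨c, hc⟩ := Nat.exists_eq_add_of_le hk
      have e : ρ ^ k * ρ⁻¹ ^ (l / n) = ρ ^ c := by
        rw [hc, pow_add, inv_pow]; field_simp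
      rw [e]
      exact mul_le_one₀ (pow_le_one₀ h0.le h1.le) (by positivity) (pow_le_one₀ (norm_nonneg _) hx)
    · refine le_trans ?_ (le_max_left _ _)
      obtain ⟨c, hc⟩ := Nat.exists_eq_add_of_le hk.le
      have e : ρ ^ k * ρ⁻¹ ^ (l / n) = ρ⁻¹ ^ c := by
        rw [hc, pow_add, inv_pow, inv_pow]; field_simp
      rw [e]
      refine le_trans (mul_le_mul_of_nonneg_left ?_ (by positivity)) (hM c)
      rw [← norm_rt_pow (p := p) (n * k) y, ← pow_mul, ← pow_add]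
      refine pow_le_pow_of_le_one (norm_nonneg _) hx (Nat.pow_le_pow_right hp.out.pos ?_)
      have := Nat.mul_div_le l n
      rw [hc] at this
      nlinarith
  suffices Tendsto (fun k => (p : F) ^ k * lg p n v (tau J (rt p (n * k) y)) -
      ∑ s ∈ Finset.range n, per p n v s *
        ((p : F) ^ k * lg p n (hon n) (tau J (rt p (n * k) (y ^ p ^ s))))) atTop (𝓝 0) by
    simpa using this.add hB
  rw [Metric.tendsto_atTop]
  intro ε hε
  have hM1 : 0 < max M 1 := lt_max_of_lt_right one_pos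
  obtain ⟨I, hI⟩ := beta_tendsto_unif (L := F) hp0 hn hμ1 (ε := ε / 2 / max M 1) (by positivity)
  set K' := ∑ l ∈ Finset.range I, ‖beta p n v l - per p n v (l % n)‖
  have hK' : 0 ≤ K' := Finset.sum_nonneg fun _ _ => norm_nonneg _
  obtain ⟨k₀, hk₀⟩ := eventually_atTop.1 (((tendsto_pow_atTop_nhds_zero_of_lt_one h0.le h1).const_mul
    (K' * ρ⁻¹ ^ I)).eventually (ge_mem_nhds (show K' * ρ⁻¹ ^ I * 0 < ε / 2 by
      rw [mul_zero]; positivity)))
  refine ⟨k₀, fun k hk => ?_⟩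
  have hx := norm_rt_lt_one (p := p) (n * k) hy
  have hX : ‖tau J (rt p (n * k) y)‖ < 1 := by rw [hJ.norm_tau hx.le]; exact hx
  have s1 := ((hasSum_lg (n := n) hp0 hv1 hX).sub (hasSum_per_hon hp0 hn (per p n v) hX)).mul_left
    ((p : F) ^ k)
  have e1 : (p : F) ^ k * lg p n v (tau J (rt p (n * k) y)) - ∑ s ∈ Finset.range n, per p n v s *
        ((p : F) ^ k * lg p n (hon n) (tau J (rt p (n * k) (y ^ p ^ s)))) =
      (p : F) ^ k * (lg p n v (tau J (rt p (n * k) y)) - ∑ s ∈ Finset.range n, per p n v s *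
        lg p n (hon n) (tau J (rt p (n * k) y) ^ p ^ s)) := by
    rw [mul_sub, Finset.mul_sum]
    congr 1
    refine Finset.sum_congr rfl fun s _ => ?_
    rw [map_pow, tau_pow hx.le]; ring
  rw [dist_zero_right, e1, ← s1.tsum_eq]
  refine lt_of_le_of_lt (IsUltrametricDist.norm_tsum_le_of_forall_le_of_nonneg
    (C := ε / 2) (by positivity) fun l => ?_) (by linarith)
  have e2 : (p : F) ^ k * (bseq p n (p : F)⁻¹ v l * tau J (rt p (n * k) y) ^ p ^ l -
      per p n v (l % n) * (p : F)⁻¹ ^ (l / n) * tau J (rt p (n * k) y) ^ p ^ l) =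
      (beta p n v l - per p n v (l % n)) *
        ((p : F) ^ k * (p : F)⁻¹ ^ (l / n) * tau J (rt p (n * k) y) ^ p ^ l) := by
    rw [beta, inv_pow]; field_simp
  rw [e2, norm_mul, norm_mul, norm_mul, norm_pow, norm_pow, norm_pow, norm_inv, hpn,
    hJ.norm_tau hx.le]
  rcases le_or_gt I l with hl | hl
  · calc _ ≤ ε / 2 / max M 1 * max M 1 :=
          mul_le_mul (hI v hvμ hvn l hl) (hfac k l) (by positivity) (by positivity)
      _ = ε / 2 := by field_simp
  · refine le_trans ?_ (hk₀ k hk)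
    have a1 : ‖beta p n v l - per p n v (l % n)‖ ≤ K' :=
      Finset.single_le_sum (f := fun l => ‖beta p n v l - per p n v (l % n)‖)
        (fun _ _ => norm_nonneg _) (Finset.mem_range.2 hl)
    have a2 : ρ⁻¹ ^ (l / n) ≤ ρ⁻¹ ^ I :=
      pow_le_pow_right₀ hρi ((Nat.div_le_self _ _).trans hl.le)
    have a3 : ‖rt p (n * k) y‖ ^ p ^ l ≤ 1 := pow_le_one₀ (norm_nonneg _) hx.le
    calc _ ≤ K' * (ρ ^ k * ρ⁻¹ ^ I * 1) := by gcongr
      _ = _ := by ring

theorem IsPer.per_lam (hJ : IsPer p J ρ) (h0 : 0 < ρ) (h1 : ρ < 1) {n h r : ℕ}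
    (hh : 1 ≤ h) (hr : h + r = n) {z : Fin r → D} (hz : Sm z) {y : D} (hy : ‖y‖ < 1) (k : ℕ) :
    ‖∑ s ∈ Finset.range n, per p n (zseq n h fun i => tau J (z i)) s * lam J n (y ^ p ^ s) -
      (p : F) ^ k * lg p n (zseq n h fun i => tau J (z i))
        (tau J (prf p n (zseq n h z) (rt p (n * k) y)))‖ ≤ ρ ^ (k + 1) := by
  have hn : 1 ≤ n := by omega
  have hp0 := hJ.p_ne_zero h0
  have hpn := hJ.norm_p h0
  have hpe : ∀ e, p ^ e ≠ 0 := fun e => pow_ne_zero _ hp.out.ne_zero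
  set v : ℕ → F := zseq n h fun i => tau J (z i) with hv
  have hv1 : ∀ j, ‖v j‖ ≤ 1 := norm_zseq_le' n h fun i => hJ.norm_tau_le _
  have hw1 := norm_zseq_le n h hz
  have hve : (fun j => tau J (zseq n h z j)) = v := funext fun j => tau_zseq n h z j
  have base : ∀ y : D, ‖y‖ < 1 → ‖∑ s ∈ Finset.range n, per p n v s * lam J n (y ^ p ^ s) -
      lg p n v (tau J (prf p n (zseq n h z) y))‖ ≤ ρ := by
    intro y hy
    have t1 := ((hJ.tendsto_per_lam h0 h1 hh hr hz hy).sub_const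
      (lg p n v (tau J (prf p n (zseq n h z) y)))).norm
    refine le_of_tendsto t1 ?_
    have t2 := Metric.tendsto_nhds.1 (tendsto_prf (p := p) hh hr hz hy) ρ h0
    filter_upwards [t2] with k hk
    rw [dist_eq_norm] at hk
    have hx := norm_rt_lt_one (p := p) (n * k) hy
    have hX : ‖tau J (rt p (n * k) y)‖ < 1 := by rw [hJ.norm_tau hx.le]; exact hx
    have hpr := norm_prf_lt (p := p) hh hr hz hy
    have hpm := (norm_pm_le (p := p) (n := n) hw1 (p ^ k) hx).trans_lt hx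
    rw [← hv, ← Nat.cast_pow, ← lg_pm hp0 hv1 _ hX, ← hpn]
    refine norm_lg_sub_le hp0 hv1 ((norm_pm_le hv1 _ hX).trans_lt hX)
      (by rw [hJ.norm_tau hpr.le]; exact hpr) ?_
    have a1 := hJ.pm_tau h0 h1 (n := n) hw1 (p ^ k) hx
    have a2 := (hJ.norm_tau_sub h0 h1 hpm.le hpr.le).trans (max_le hk.le le_rfl)
    rw [hve] at a1
    have := IsUltrametricDist.norm_add_le_max
      (pm p n v (p ^ k) (tau J (rt p (n * k) y)) -
        tau J (pm p n (zseq n h z) (p ^ k) (rt p (n * k) y)))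
      (tau J (pm p n (zseq n h z) (p ^ k) (rt p (n * k) y)) - tau J (prf p n (zseq n h z) y))
    rw [sub_add_sub_cancel] at this
    rw [hpn]
    exact this.trans (max_le a1 a2)
  have hx := norm_rt_lt_one (p := p) (n * k) hy
  have e : ∑ s ∈ Finset.range n, per p n v s * lam J n (y ^ p ^ s) =
      (p : F) ^ k * ∑ s ∈ Finset.range n, per p n v s * lam J n (rt p (n * k) y ^ p ^ s) := by
    rw [Finset.mul_sum]
    refine Finset.sum_congr rfl fun s _ => ?_
    rw [mul_left_comm, ← hJ.lam_pow h0 h1 hn (by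
      rw [norm_pow]; exact pow_lt_one₀ (norm_nonneg _) hx (hpe s)), ← pow_mul, mul_comm (p ^ s),
      pow_mul, rt_pow]
  rw [e, ← mul_sub, norm_mul, norm_pow, hpn, pow_succ]
  exact mul_le_mul_of_nonneg_left (base _ hx) (pow_nonneg h0.le _)

end Crest.Agent.R227
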