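import Crest.Agent.R227.Pi0
import Crest.Agent.R227.Hend

/-!
# R227 / LamDef : the set `Λ`

`wpt c k = (ψ^σ π₀ ((c ζ_i)^{1/p^{nk}}))_i`; the set of all these is a `ℚ_p`-vector space of points of the `r`-th power
of the Honda group of height `h`.

Plan for `isLam_wpt`.  Write `e(c) = map j (hend p n c)`, a bounded endomorphism of the Honda law of height `n`
(`isFGHom_hend`, `isFGHom_map`, `HL_map_hon`; `‖j a‖ ≤ 1` by `norm_le_one_of_fixed`, `galois_pow`), and
`ψ^σ = map (sig) ψ`, a bounded homomorphism.  `wpt_succ`: `ψ^σ(π₀(y^{p^n})) = ψ^σ([p] π₀ y) = (ψ^σ π₀ y)^{p^h}`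
(`pi0_pow`, `ev1_hom_pm`, `pm_hon`).  `wpt_pow_mul`: `e(p^l c) = e(c)^{p^{nl}}` (`hend_pow_mul`, `rt_pow_add`).
`wpt_add`: `hend_add`, `ev1_fadd`, `map_gadd` for `rt`, `pi0_gadd`, `ev1_hom_gadd`.
-/

set_option autoImplicit false
open Crest.LubinTate Filter Topology

namespace Crest.Agent.R227

variable (p : ℕ) [hp : Fact p.Prime]

/-- a set of points of the `r`-th power of the Honda group of height `h`, closed under addition,
multiplication by `p` and division by `p`. -/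
structure IsLam {D : Type*} [NormedField D] [CharP D p] [PerfectRing D p] (h : ℕ) {r : ℕ}
    (Λ : Set (Fin r → D)) : Prop where
  sm : ∀ w ∈ Λ, Sm w
  zero : (0 : Fin r → D) ∈ Λ
  add : ∀ w ∈ Λ, ∀ w' ∈ Λ, (fun i => gadd p h (hon h) (w i) (w' i)) ∈ Λ
  frob : ∀ w ∈ Λ, (fun i => w i ^ p ^ h) ∈ Λ
  root : ∀ w ∈ Λ, (fun i => rt p h (w i)) ∈ Λ

variable {C D : Type*} [NormedField C] [CharP C p] [PerfectRing C p] [NormedField D]

/-- the points `w(c, k)`. -/
noncomputable def UP.wpt (u : UP C D) (n h : ℕ) {r : ℕ} (j : GaloisField p n →+* C)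
    (z ζ : Fin r → C) (ψ : PowerSeries C) (c : ℕ → WittVector p (GaloisField p n)) (k : ℕ)
    (i : Fin r) : D :=
  ev1 (PowerSeries.map (u.sig p h) ψ)
    (u.pi0 p n h z (rt p (n * k) (ev1 (PowerSeries.map j (hend p n c)) (ζ i))))

variable {p} [IsUltrametricDist C] [CompleteSpace C] [IsUltrametricDist D] [CompleteSpace D]
  [CharP D p] [PerfectRing D p] {n h r : ℕ} {z ζ : Fin r → C} {ψ : PowerSeries C}

omit [CharP C p] [PerfectRing C p] [IsUltrametricDist C] [CompleteSpace C] in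
theorem norm_galois_le {N : ℕ} (hN : 1 ≤ N) (j : GaloisField p N →+* C) (a : GaloisField p N) :
    ‖j a‖ ≤ 1 :=
  norm_le_one_of_fixed (p := p) hN (by rw [← map_pow, galois_pow N hN])

theorem const_map_eq_zero {R S : Type*} [CommRing R] [CommRing S] (g : R →+* S)
    {f : PowerSeries R} (hf : PowerSeries.constantCoeff f = 0) :
    PowerSeries.constantCoeff (PowerSeries.map g f) = 0 := by
  rw [← PowerSeries.coeff_zero_eq_constantCoeff_apply, PowerSeries.coeff_map,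
    PowerSeries.coeff_zero_eq_constantCoeff_apply, hf, map_zero]

omit [CharP C p] [PerfectRing C p] in
theorem norm_ev1_hend_lt {N : ℕ} (hN : 1 ≤ N) (j : GaloisField p N →+* C)
    (c : ℕ → WittVector p (GaloisField p N)) {y : C} (hy : ‖y‖ < 1) :
    ‖ev1 (PowerSeries.map j (hend p N c)) y‖ < 1 :=
  ((bd_map j (norm_galois_le hN j) _).norm_ev1_le (const_map_eq_zero j (const_hend c)) hy).trans_lt hy

omit [IsUltrametricDist C] [CompleteSpace C] [IsUltrametricDist D] [CompleteSpace D]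
  [CharP D p] [PerfectRing D p] in
theorem UP.isFGHom_sig (u : UP C D) (hψ : IsFGHom (HL p n (zseq n h z)) (HL p h (hon h)) ψ) :
    IsFGHom (HL p n (zseq n h fun i => u.sig p h (z i))) (HL p h (hon h))
      (PowerSeries.map (u.sig p h) ψ) := by
  have := isFGHom_map (u.sig p h) hψ
  rwa [HL_map_zseq, HL_map_hon] at this

theorem UP.wpt_succ (u : UP C D) (hh : 1 ≤ h) (hr : h + r = n) (j : GaloisField p n →+* C)
    (hz : Sm z) (hζ : Sm ζ) (hψ : IsFGHom (HL p n (zseq n h z)) (HL p h (hon h)) ψ)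
    (c : ℕ → WittVector p (GaloisField p n)) (k : ℕ) (i : Fin r) :
    u.wpt p n h j z ζ ψ c (k + 1) i ^ p ^ h = u.wpt p n h j z ζ ψ c k i := by
  have hσ := u.norm_sig_le (p := p) hh
  have hw := norm_rt_lt_one (p := p) (n * (k + 1)) (norm_ev1_hend_lt (by omega) j c (hζ i))
  have h1 := u.pi0_pow hh hr hz hw 1
  have h2 := ev1_hom_pm (norm_hon_le h) (norm_zseq_le' n h fun i => hσ _) (u.isFGHom_sig hψ)
    (bd_map _ hσ _) (p ^ 1) (u.norm_pi0_lt hh hr hz hw)
  rw [← h1, pm_hon (CharP.cast_eq_zero D p) hh, mul_one, mul_one, mul_add, mul_one,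
    rt_add_pow] at h2
  rw [UP.wpt, UP.wpt, h2, mul_add, mul_one]

theorem UP.wpt_pow_mul (u : UP C D) (hh : 1 ≤ h) (hr : h + r = n) (j : GaloisField p n →+* C)
    (hζ : Sm ζ) (c : ℕ → WittVector p (GaloisField p n)) (k l : ℕ) :
    u.wpt p n h j z ζ ψ (fun t => (p : WittVector p (GaloisField p n)) ^ l * c t) (k + l) =
      u.wpt p n h j z ζ ψ c k := by
  have hn : 1 ≤ n := by omega
  funext i
  rw [UP.wpt, UP.wpt, hend_pow_mul hn (galois_pow n hn), map_pow]
  have e3 : ev1 (PowerSeries.map j (hend p n c) ^ p ^ (n * l)) (ζ i) =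
      ev1 (PowerSeries.map j (hend p n c)) (ζ i) ^ p ^ (n * l) :=
    ev_pow (bd_map j (norm_galois_le hn j) _).an _ (fun _ => hζ i)
  rw [e3, mul_add, rt_add, rt_pow']

theorem UP.wpt_add (u : UP C D) (hh : 1 ≤ h) (hr : h + r = n) (j : GaloisField p n →+* C)
    (hz : Sm z) (hζ : Sm ζ) (hψ : IsFGHom (HL p n (zseq n h z)) (HL p h (hon h)) ψ)
    (c c' : ℕ → WittVector p (GaloisField p n)) (k : ℕ) (i : Fin r) :
    u.wpt p n h j z ζ ψ (c + c') k i =
      gadd p h (hon h) (u.wpt p n h j z ζ ψ c k i) (u.wpt p n h j z ζ ψ c' k i) := by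
  have hn : 1 ≤ n := by omega
  have hσ := u.norm_sig_le (p := p) hh
  have hw := norm_ev1_hend_lt hn j c (hζ i)
  have hw' := norm_ev1_hend_lt hn j c' (hζ i)
  rw [UP.wpt, UP.wpt, UP.wpt, hend_add hn (galois_pow n hn),
    map_fadd _ _ (const_hend _) (const_hend _), HL_map_hon,
    ev1_fadd (A := PowerSeries.map j (hend p n c)) (B := PowerSeries.map j (hend p n c'))
      (norm_hon_le n) (bd_map j (norm_galois_le hn j) _) (bd_map j (norm_galois_le hn j) _)
      (const_map_eq_zero j (const_hend c)) (const_map_eq_zero j (const_hend c')) (hζ i),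
    map_gadd _ (continuous_rt _) (norm_hon_le n) hw hw']
  simp only [map_hon]
  rw [u.pi0_gadd hh hr hz (norm_rt_lt_one _ hw) (norm_rt_lt_one _ hw'),
    ev1_hom_gadd (norm_hon_le h) (norm_zseq_le' n h fun i => hσ _) (u.isFGHom_sig hψ)
      (bd_map _ hσ _) (u.norm_pi0_lt hh hr hz (norm_rt_lt_one _ hw))
      (u.norm_pi0_lt hh hr hz (norm_rt_lt_one _ hw'))]

theorem UP.isLam_wpt (u : UP C D) (hh : 1 ≤ h) (hr : h + r = n) (j : GaloisField p n →+* C)
    (hz : Sm z) (hζ : Sm ζ) (hψ : IsFGHom (HL p n (zseq n h z)) (HL p h (hon h)) ψ) :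
    IsLam p h {w : Fin r → D | ∃ c k, w = u.wpt p n h j z ζ ψ c k} := by
  have hn : 1 ≤ n := by omega
  have hσ := u.norm_sig_le (p := p) hh
  refine ⟨?_, ⟨0, 0, ?_⟩, ?_, ?_, ?_⟩
  · rintro _ ⟨c, k, rfl⟩ i
    have := u.norm_pi0_lt hh hr hz (norm_rt_lt_one (p := p) (n * k) (norm_ev1_hend_lt hn j c (hζ i)))
    exact ((bd_map _ hσ ψ).norm_ev1_le (u.isFGHom_sig hψ).1 this).trans_lt this
  · funext i
    have e : ev1 (0 : PowerSeries C) (ζ i) = 0 := ev_zero_left _
    rw [UP.wpt, hend_zero hn (galois_pow n hn), map_zero, e, map_zero, u.pi0_zero, ev1_zero_right,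
      (u.isFGHom_sig hψ).1, Pi.zero_apply]
  · rintro _ ⟨c, k, rfl⟩ _ ⟨c', k', rfl⟩
    refine ⟨(fun t => (p : WittVector p (GaloisField p n)) ^ k' * c t) +
      (fun t => (p : WittVector p (GaloisField p n)) ^ k * c' t), k + k', funext fun i => ?_⟩
    rw [u.wpt_add hh hr j hz hζ hψ, u.wpt_pow_mul hh hr j hζ, add_comm k k',
      u.wpt_pow_mul hh hr j hζ]
  · rintro _ ⟨c, k, rfl⟩
    refine ⟨fun t => (p : WittVector p (GaloisField p n)) ^ 1 * c t, k, funext fun i => ?_⟩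
    rw [← u.wpt_succ hh hr j hz hζ hψ (fun t => (p : WittVector p (GaloisField p n)) ^ 1 * c t) k,
      u.wpt_pow_mul hh hr j hζ]
  · rintro _ ⟨c, k, rfl⟩
    refine ⟨c, k + 1, funext fun i => ?_⟩
    rw [← u.wpt_succ hh hr j hz hζ hψ c k, rt_pow']

end Crest.Agent.R227
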