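import Crest.Agent.R227.Acc

/-!
# R227 / Point : rank one points of a Noetherian local ring

Plan.
* `exists_prime_radical`: let `Q ⊇ P` be maximal among ideals containing `P` and disjoint from the powers
  of `w` (Noetherian: `set_has_maximal_iff_noetherian`; prime: as in `Ideal.exists_le_prime_disjoint`).
  In the local domain `R' = R ⧸ Q` every nonzero prime (indeed, a power of `w` lies in every nonzero ideal)
  contains `w`.  The minimal primes `𝔭_1, …, 𝔭_s` over `(w)` are finitely many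
  (`Ideal.finite_minimalPrimes_of_isNoetherianRing`).  If `𝔪` is none of them pick `a ∈ 𝔪 \ ⋃ 𝔭_i`
  (`Ideal.subset_union_prime`); a minimal prime `𝔮` over `(a)` has height `≤ 1`
  (`Ideal.height_le_one_of_isPrincipal_of_mem_minimalPrimes`), is nonzero, so contains `w` and some `𝔭_i ≠ 0`,
  so `𝔮 = 𝔭_i ∋ a`, absurd.  Hence `𝔪` is minimal over `(w)`, so it is the radical of `(w)`.
* `exists_seminorm`: take a valuation subring `V` of `K = FractionRing R'` dominating `R'`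
  (`IsLocalRing.exists_factor_valuationRing` / `LocalSubring.exists_le_valuationSubring`), `v` its valuation,
  `0 < v w < 1`.  For `a ≠ 0` in `R'`: `v w ^ N ≤ v a ≤ 1` for some `N`.  Define
  `s(a) = sSup {i / j | v a ^ j ≤ v w ^ i, j > 0}` and `N a = exp (-s a)`, `N 0 = 0`; `s` is additive
  (Hölder's argument: `s(a) = inf {i/j | v w ^ i ≤ v a ^ j}` as well), `s(a + b) ≥ min`, `s w = 1`, and `s a > 0` on `𝔪`.
* `exists_point`: combine with `exists_acc`.
-/

set_option autoImplicit false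

namespace Crest.Agent.R227

theorem radical_of_dvd {R : Type*} [CommRing R] [IsLocalRing R] [IsNoetherianRing R] [IsDomain R]
    {w : R} (hw : w ∈ IsLocalRing.maximalIdeal R) (hw0 : w ≠ 0)
    (h₁ : ∀ a : R, a ≠ 0 → ∃ m : ℕ, a ∣ w ^ m) :
    ∀ a ∈ IsLocalRing.maximalIdeal R, ∃ m : ℕ, w ∣ a ^ m := by
  have hwt : Ideal.span {w} ≠ ⊤ := by
    rw [Ne, Ideal.span_singleton_eq_top]; exact hw
  have hsub : (IsLocalRing.maximalIdeal R : Set R) ⊆
      ⋃ p ∈ (Ideal.span {w}).minimalPrimes, ((id p : Ideal R) : Set R) := by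
    intro a ha
    simp only [Set.mem_iUnion, id, SetLike.mem_coe]
    by_cases ha0 : a = 0
    · obtain ⟨p, hp⟩ := (Ideal.span {w}).nonempty_minimalPrimes hwt
      exact ⟨p, hp, ha0 ▸ p.zero_mem⟩
    · have hat : Ideal.span {a} ≠ ⊤ := by
        rw [Ne, Ideal.span_singleton_eq_top]; exact ha
      obtain ⟨q, hq⟩ := (Ideal.span {a}).nonempty_minimalPrimes hat
      have hqp : q.IsPrime := hq.isPrime
      have hq1 := Ideal.height_le_one_of_isPrincipal_of_mem_minimalPrimes _ q hq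
      have haq : a ∈ q := hq.1.2 (Ideal.mem_span_singleton_self a)
      obtain ⟨m, c, hc⟩ := h₁ a ha0
      have hwq : w ∈ q := hqp.mem_of_pow_mem m (hc ▸ q.mul_mem_right c haq)
      obtain ⟨p, hp, hpq⟩ := Ideal.exists_minimalPrimes_le
        ((Ideal.span_singleton_le_iff_mem q).mpr hwq)
      have hpp : p.IsPrime := hp.isPrime
      have hwp : w ∈ p := hp.1.2 (Ideal.mem_span_singleton_self w)
      refine ⟨p, hp, ?_⟩
      by_contra hap
      have hlt : p < q := lt_of_le_of_ne hpq (fun h => hap (h ▸ haq))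
      have h2 := Ideal.height_add_one_le_of_lt_of_isPrime hlt
      have h3 : p.height ≠ 0 := by
        rw [Ne, Ideal.height_eq_zero_iff_eq_bot]
        intro h
        rw [h] at hwp
        exact hw0 hwp
      have h4 : 1 ≤ p.height := Order.one_le_iff_ne_zero.mpr h3
      have h5 : (1 : ℕ∞) + 1 ≤ 1 := (add_le_add h4 le_rfl).trans (h2.trans hq1)
      exact absurd h5 (by decide)
  obtain ⟨p, hp, hmp⟩ := (Ideal.subset_union_prime_finite
    (Ideal.finite_minimalPrimes_of_isNoetherianRing R (Ideal.span {w})) (f := id) ⊥ ⊥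
    (fun i hi _ _ => hi.isPrime)).mp hsub
  intro a ha
  have hrad : a ∈ (Ideal.span {w}).radical := by
    rw [← Ideal.sInf_minimalPrimes, Ideal.mem_sInf]
    intro q hq
    have hqp : q.IsPrime := hq.isPrime
    have hqm : q ≤ p := (IsLocalRing.le_maximalIdeal hqp.ne_top).trans hmp
    exact hp.2 hq.1 hqm (hmp ha)
  obtain ⟨m, hm⟩ := hrad
  exact ⟨m, Ideal.mem_span_singleton.mp hm⟩

theorem exists_prime_radical {R : Type*} [CommRing R] [IsLocalRing R] [IsNoetherianRing R]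
    (P : Ideal R) [P.IsPrime] {w : R} (hw : w ∈ IsLocalRing.maximalIdeal R) (hwP : w ∉ P) :
    ∃ Q : Ideal R, Q.IsPrime ∧ P ≤ Q ∧ w ∉ Q ∧
      (∀ a, a ∉ Q → ∃ (m : ℕ) (b : R), w ^ m - a * b ∈ Q) ∧
      (∀ a ∈ IsLocalRing.maximalIdeal R, ∃ (m : ℕ) (b : R), a ^ m - w * b ∈ Q) := by
  have hPd : Disjoint (P : Set R) (Submonoid.powers w) := by
    rw [Set.disjoint_right]
    rintro _ ⟨n, rfl⟩ h
    exact hwP (Ideal.IsPrime.mem_of_pow_mem ‹_› n h)
  obtain ⟨Q, ⟨hPQ, hQd⟩, hmax⟩ : ∃ Q : Ideal R,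
      (P ≤ Q ∧ Disjoint (Q : Set R) (Submonoid.powers w)) ∧
      ∀ I : Ideal R, (P ≤ I ∧ Disjoint (I : Set R) (Submonoid.powers w)) → ¬ Q < I :=
    set_has_maximal_iff_noetherian.mpr (inferInstance : IsNoetherian R R)
      {I : Ideal R | P ≤ I ∧ Disjoint (I : Set R) (Submonoid.powers w)} ⟨P, le_rfl, hPd⟩
  have hQp : Q.IsPrime := Ideal.isPrime_of_maximally_disjoint Q _ hQd
    (fun J hJ hJd => hmax J ⟨hPQ.trans hJ.le, hJd⟩ hJ)
  have hwQ : w ∉ Q := fun h => Set.disjoint_left.mp hQd h (Submonoid.mem_powers w)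
  have h1 : ∀ a, a ∉ Q → ∃ (m : ℕ) (b : R), w ^ m - a * b ∈ Q := by
    intro a ha
    have hlt : Q < Q ⊔ Ideal.span {a} := by
      refine lt_of_le_of_ne le_sup_left (fun h => ha ?_)
      rw [h]
      exact Ideal.mem_sup_right (Ideal.mem_span_singleton_self a)
    have hnd : ¬ Disjoint ((Q ⊔ Ideal.span {a} : Ideal R) : Set R) (Submonoid.powers w) :=
      fun h => hmax _ ⟨hPQ.trans le_sup_left, h⟩ hlt
    obtain ⟨x, hx, m, rfl⟩ := Set.not_disjoint_iff.mp hnd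
    obtain ⟨y, hy, z, hz, hyz⟩ := Submodule.mem_sup.mp hx
    obtain ⟨b, rfl⟩ := Ideal.mem_span_singleton.mp hz
    refine ⟨m, b, ?_⟩
    have : w ^ m - a * b = y := by
      have : y + a * b = w ^ m := hyz
      rw [← this]; ring
    rwa [this]
  refine ⟨Q, hQp, hPQ, hwQ, h1, ?_⟩
  have : Nontrivial (R ⧸ Q) := Ideal.Quotient.nontrivial_iff.mpr hQp.ne_top
  have hloc : IsLocalRing (R ⧸ Q) :=
    IsLocalRing.of_surjective' (Ideal.Quotient.mk Q) Ideal.Quotient.mk_surjective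
  have hlh : IsLocalHom (Ideal.Quotient.mk Q) :=
    IsLocalHom.of_surjective _ Ideal.Quotient.mk_surjective
  intro a ha
  obtain ⟨m, c, hc⟩ := radical_of_dvd (R := R ⧸ Q) (w := Ideal.Quotient.mk Q w)
    (map_nonunit (Ideal.Quotient.mk Q) w hw) (by rwa [Ne, Ideal.Quotient.eq_zero_iff_mem])
    (by
      intro x hx
      obtain ⟨x, rfl⟩ := Ideal.Quotient.mk_surjective x
      obtain ⟨m, b, hb⟩ := h1 x (by rwa [Ne, Ideal.Quotient.eq_zero_iff_mem] at hx)
      refine ⟨m, Ideal.Quotient.mk Q b, ?_⟩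
      rw [← map_pow, ← map_mul, Ideal.Quotient.eq]
      exact hb)
    (Ideal.Quotient.mk Q a) (map_nonunit (Ideal.Quotient.mk Q) a ha)
  obtain ⟨b, rfl⟩ := Ideal.Quotient.mk_surjective c
  refine ⟨m, b, ?_⟩
  rw [← map_pow, ← map_mul, Ideal.Quotient.eq] at hc
  exact hc

section Hoelder

variable {Γ : Type*} [LinearOrderedCommGroupWithZero Γ]

/-- the real "logarithm" in base `γ` -/
noncomputable def hoelLog (γ x : Γ) : ℝ :=
  sSup {t : ℝ | ∃ i j : ℕ, 0 < j ∧ x ^ j ≤ γ ^ i ∧ t = (i : ℝ) / j}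

theorem hoelLog_aux {γ x : Γ} (h0 : γ ≠ 0) (h1 : γ < 1) {i j i' j' : ℕ} (hj : 0 < j) (hj' : 0 < j')
    (h : γ ^ i ≤ x ^ j) (h' : x ^ j' ≤ γ ^ i') : (i' : ℝ) / j' ≤ (i : ℝ) / j := by
  have e1 : γ ^ (i * j') ≤ γ ^ (i' * j) := by
    calc γ ^ (i * j') = (γ ^ i) ^ j' := pow_mul _ _ _
      _ ≤ (x ^ j) ^ j' := pow_le_pow_left₀ zero_le h _
      _ = (x ^ j') ^ j := by rw [← pow_mul, ← pow_mul, mul_comm]
      _ ≤ (γ ^ i') ^ j := pow_le_pow_left₀ zero_le h' _
      _ = γ ^ (i' * j) := (pow_mul _ _ _).symm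
  have e2 : i' * j ≤ i * j' := by
    by_contra hlt
    push Not at hlt
    exact absurd e1 (not_le.mpr (pow_lt_pow_right_of_lt_one₀ (zero_lt_iff.mpr h0) h1 hlt))
  rw [div_le_div_iff₀ (by exact_mod_cast hj') (by exact_mod_cast hj)]
  exact_mod_cast e2

theorem hoelLog_le {γ x : Γ} (h0 : γ ≠ 0) (h1 : γ < 1) (hx : x ≤ 1) {i j : ℕ} (hj : 0 < j)
    (h : γ ^ i ≤ x ^ j) : hoelLog γ x ≤ (i : ℝ) / j := by
  apply csSup_le
  · exact ⟨0, 0, 1, one_pos, by simpa using hx, by simp⟩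
  · rintro _ ⟨i', j', hj', h', rfl⟩
    exact hoelLog_aux h0 h1 hj hj' h h'

theorem le_hoelLog {γ x : Γ} (h0 : γ ≠ 0) (h1 : γ < 1) {N : ℕ} (hN : γ ^ N ≤ x) {i j : ℕ}
    (hj : 0 < j) (h : x ^ j ≤ γ ^ i) : (i : ℝ) / j ≤ hoelLog γ x := by
  apply le_csSup
  · refine ⟨(N : ℝ) / (1 : ℕ), ?_⟩
    rintro _ ⟨i', j', hj', h', rfl⟩
    exact hoelLog_aux h0 h1 one_pos hj' (by simpa using hN) h'
  · exact ⟨i, j, hj, h, rfl⟩

theorem exists_sandwich {γ x : Γ} (_h0 : γ ≠ 0) (h1 : γ < 1) {N : ℕ} (hN : γ ^ N ≤ x) (hx : x ≤ 1) :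
    ∃ i : ℕ, γ ^ (i + 1) ≤ x ∧ x ≤ γ ^ i := by
  classical
  have hex : ∃ n, γ ^ (n + 1) ≤ x := ⟨N, (pow_le_pow_of_le_one zero_le h1.le (Nat.le_succ N)).trans hN⟩
  refine ⟨Nat.find hex, Nat.find_spec hex, ?_⟩
  rcases h : Nat.find hex with _ | k
  · simpa using hx
  · have := Nat.find_min hex (m := k) (by omega)
    exact (not_le.mp this).le

theorem hoelLog_mul {γ x y : Γ} (h0 : γ ≠ 0) (h1 : γ < 1) {N M : ℕ} (hN : γ ^ N ≤ x) (hx : x ≤ 1)
    (hM : γ ^ M ≤ y) (hy : y ≤ 1) : hoelLog γ (x * y) = hoelLog γ x + hoelLog γ y := by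
  have hxy : x * y ≤ 1 := mul_le_one' hx hy
  have hNM : γ ^ (N + M) ≤ x * y := by rw [pow_add]; exact mul_le_mul' hN hM
  have key : ∀ j : ℕ, 0 < j → |hoelLog γ (x * y) - (hoelLog γ x + hoelLog γ y)| ≤ 2 / (j : ℝ) := by
    intro j hj
    obtain ⟨i, hi1, hi2⟩ := exists_sandwich (x := x ^ j) (N := N * j) h0 h1
      (by rw [pow_mul]; exact pow_le_pow_left₀ zero_le hN _) (pow_le_one₀ zero_le hx)
    obtain ⟨k, hk1, hk2⟩ := exists_sandwich (x := y ^ j) (N := M * j) h0 h1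
      (by rw [pow_mul]; exact pow_le_pow_left₀ zero_le hM _) (pow_le_one₀ zero_le hy)
    have a1 := hoelLog_le h0 h1 hx hj hi1
    have a2 := le_hoelLog h0 h1 hN hj hi2
    have b1 := hoelLog_le h0 h1 hy hj hk1
    have b2 := le_hoelLog h0 h1 hM hj hk2
    have c1 := hoelLog_le h0 h1 hxy (i := (i + 1) + (k + 1)) hj
      (by rw [pow_add, mul_pow]; exact mul_le_mul' hi1 hk1)
    have c2 := le_hoelLog h0 h1 hNM (i := i + k) hj
      (by rw [pow_add, mul_pow]; exact mul_le_mul' hi2 hk2)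
    push_cast at a1 b1 c1 c2
    simp only [add_div] at a1 b1 c1 c2
    have e : 2 / (j : ℝ) = 1 / j + 1 / j := by ring
    rw [abs_le, e]
    constructor <;> linarith
  have : |hoelLog γ (x * y) - (hoelLog γ x + hoelLog γ y)| ≤ 0 := by
    apply le_of_forall_pos_le_add
    intro ε hε
    obtain ⟨j, hj⟩ := exists_nat_gt (2 / ε)
    have hj0 : (0 : ℝ) < j := lt_trans (by positivity) hj
    refine (key j (by exact_mod_cast hj0)).trans ?_
    rw [zero_add, div_le_iff₀ hj0]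
    rw [div_lt_iff₀ hε] at hj
    linarith
  have := abs_nonpos_iff.mp this
  linarith

theorem hoelLog_anti {γ x y : Γ} (h0 : γ ≠ 0) (h1 : γ < 1) {N : ℕ} (hN : γ ^ N ≤ x) (hxy : x ≤ y)
    (hy : y ≤ 1) : hoelLog γ y ≤ hoelLog γ x := by
  apply csSup_le
  · exact ⟨0, 0, 1, one_pos, by simpa using hy, by simp⟩
  · rintro _ ⟨i, j, hj, h, rfl⟩
    exact le_hoelLog h0 h1 hN hj ((pow_le_pow_left₀ zero_le hxy j).trans h)

end Hoelder

theorem exists_seminorm {R : Type*} [CommRing R] [IsLocalRing R] [IsDomain R] {w : R}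
    (hw : w ∈ IsLocalRing.maximalIdeal R) (hw0 : w ≠ 0)
    (h₁ : ∀ a : R, a ≠ 0 → ∃ m : ℕ, a ∣ w ^ m)
    (h₂ : ∀ a ∈ IsLocalRing.maximalIdeal R, ∃ m : ℕ, w ∣ a ^ m) :
    ∃ N : R → ℝ, N 0 = 0 ∧ N 1 = 1 ∧ (∀ a, 0 ≤ N a) ∧ (∀ a b, N (a * b) = N a * N b) ∧
      (∀ a b, N (a + b) ≤ max (N a) (N b)) ∧ (∀ a, N a ≤ 1) ∧
      (∀ a ∈ IsLocalRing.maximalIdeal R, N a < 1) ∧ 0 < N w := by
  classical
  obtain ⟨A, hA, hloc⟩ :=
    IsLocalRing.exists_factor_valuationRing (algebraMap R (FractionRing R))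
  let v : Valuation R A.ValueGroup := A.valuation.comap (algebraMap R (FractionRing R))
  have hv1 : ∀ a, v a ≤ 1 := fun a => (A.valuation_le_one_iff _).mpr (hA a)
  have hv0 : ∀ a, a ≠ 0 → v a ≠ 0 := fun a ha => by
    simp only [v, Valuation.comap_apply]
    rw [Ne, Valuation.zero_iff]
    simpa using ha
  have hvm : ∀ a ∈ IsLocalRing.maximalIdeal R, v a < 1 := by
    intro a ha
    have : ¬ IsUnit ((algebraMap R (FractionRing R)).codRestrict A.toSubring hA a) :=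
      fun hu => ha (hloc.map_nonunit a hu)
    exact (ValuationSubring.valuation_lt_one_iff A ⟨_, hA a⟩).mp this
  have g0 := hv0 w hw0
  have g1 := hvm w hw
  have hb : ∀ a, a ≠ 0 → ∃ m, v w ^ m ≤ v a := by
    intro a ha
    obtain ⟨m, c, hc⟩ := h₁ a ha
    refine ⟨m, ?_⟩
    rw [← map_pow, hc, map_mul]
    exact mul_le_of_le_one_right' (hv1 c)
  have hnn : ∀ a, a ≠ 0 → 0 ≤ hoelLog (v w) (v a) := by
    intro a ha
    obtain ⟨m, hm⟩ := hb a ha
    have := le_hoelLog g0 g1 hm (i := 0) (j := 1) one_pos (by simpa using hv1 a)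
    simpa using this
  let N : R → ℝ := fun a => if a = 0 then 0 else Real.exp (-hoelLog (v w) (v a))
  have hN0 : ∀ a, 0 ≤ N a := fun a => by
    simp only [N]; split_ifs
    · exact le_rfl
    · exact (Real.exp_pos _).le
  have hmono : ∀ a b, v a ≤ v b → N a ≤ N b := by
    intro a b hab
    by_cases ha : a = 0
    · have : N a = 0 := by simp [N, ha]
      rw [this]; exact hN0 b
    · have hb0 : b ≠ 0 := by
        rintro rfl
        exact hv0 a ha (by simpa using hab)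
      obtain ⟨m, hm⟩ := hb a ha
      simp only [N, if_neg ha, if_neg hb0]
      exact Real.exp_le_exp.mpr (neg_le_neg (hoelLog_anti g0 g1 hm hab (hv1 b)))
  refine ⟨N, by simp [N], ?_, hN0, ?_, ?_, ?_, ?_, ?_⟩
  · have h1 := hoelLog_le g0 g1 (hv1 1) (i := 0) (j := 1) one_pos (by simp)
    have h2 := hnn 1 one_ne_zero
    have : hoelLog (v w) (v 1) = 0 := le_antisymm (by simpa using h1) h2
    simp only [N, if_neg (one_ne_zero (α := R)), this]
    simp
  · intro a b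
    by_cases ha : a = 0
    · simp [N, ha]
    by_cases hb0 : b = 0
    · simp [N, hb0]
    obtain ⟨m, hm⟩ := hb a ha
    obtain ⟨n, hn⟩ := hb b hb0
    simp only [N, if_neg ha, if_neg hb0, if_neg (mul_ne_zero ha hb0)]
    rw [map_mul, hoelLog_mul g0 g1 hm (hv1 a) hn (hv1 b), neg_add, Real.exp_add]
  · intro a b
    rcases le_max_iff.mp (v.map_add a b) with h | h
    · exact le_max_of_le_left (hmono _ _ h)
    · exact le_max_of_le_right (hmono _ _ h)
  · intro a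
    simp only [N]; split_ifs with ha
    · exact zero_le_one
    · exact Real.exp_le_one_iff.mpr (neg_nonpos.mpr (hnn a ha))
  · intro a ha
    simp only [N]; split_ifs with ha0
    · exact zero_lt_one
    · obtain ⟨m, c, hc⟩ := h₂ a ha
      obtain ⟨n, hn⟩ := hb a ha0
      have h1 : v a ^ (m + 1) ≤ v w ^ 1 := by
        rw [pow_succ, ← map_pow, hc, map_mul, pow_one, mul_assoc]
        exact mul_le_of_le_one_right' (mul_le_one' (hv1 c) (hv1 a))
      have h2 := le_hoelLog g0 g1 hn (Nat.succ_pos m) h1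
      have h3 : (0 : ℝ) < ((1 : ℕ) : ℝ) / ((m + 1 : ℕ) : ℝ) := by positivity
      exact Real.exp_lt_one_iff.mpr (neg_lt_zero.mpr (h3.trans_le h2))
  · simp only [N, if_neg hw0]
    exact Real.exp_pos _

theorem exists_point {R : Type} [CommRing R] [IsLocalRing R] [IsNoetherianRing R]
    (P : Ideal R) [P.IsPrime] {w : R} (hw : w ∈ IsLocalRing.maximalIdeal R) (hwP : w ∉ P) :
    ∃ (C : Type) (_ : NontriviallyNormedField C) (_ : IsUltrametricDist C) (_ : CompleteSpace C)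
      (_ : IsAlgClosed C) (x : R →+* C), (∀ a ∈ P, x a = 0) ∧ (∀ a, ‖x a‖ ≤ 1) ∧
      (∀ a ∈ IsLocalRing.maximalIdeal R, ‖x a‖ < 1) ∧ x w ≠ 0 := by
  obtain ⟨Q, hQp, hPQ, hwQ, h1, h2⟩ := exists_prime_radical P hw hwP
  have : Nontrivial (R ⧸ Q) := Ideal.Quotient.nontrivial_iff.mpr hQp.ne_top
  have hloc : IsLocalRing (R ⧸ Q) :=
    IsLocalRing.of_surjective' (Ideal.Quotient.mk Q) Ideal.Quotient.mk_surjective
  have hlh : IsLocalHom (Ideal.Quotient.mk Q) :=
    IsLocalHom.of_surjective _ Ideal.Quotient.mk_surjective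
  obtain ⟨N, n0, n1, nnn, nmul, nadd, nle, nlt, npos⟩ := exists_seminorm (R := R ⧸ Q)
    (w := Ideal.Quotient.mk Q w)
    (map_nonunit (Ideal.Quotient.mk Q) w hw) (by rwa [Ne, Ideal.Quotient.eq_zero_iff_mem])
    (by
      intro x hx
      obtain ⟨x, rfl⟩ := Ideal.Quotient.mk_surjective x
      obtain ⟨m, b, hb⟩ := h1 x (by rwa [Ne, Ideal.Quotient.eq_zero_iff_mem] at hx)
      refine ⟨m, Ideal.Quotient.mk Q b, ?_⟩
      rw [← map_pow, ← map_mul, Ideal.Quotient.eq]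
      exact hb)
    (by
      intro x hx
      obtain ⟨x, rfl⟩ := Ideal.Quotient.mk_surjective x
      obtain ⟨m, b, hb⟩ := h2 x (fun hu => hx (hu.map _))
      refine ⟨m, Ideal.Quotient.mk Q b, ?_⟩
      rw [← map_pow, ← map_mul, Ideal.Quotient.eq]
      exact hb)
  obtain ⟨F, i1, i2, i3, i4, J, hJ⟩ := exists_acc N n0 n1 nnn nmul nadd
    ⟨_, npos, nlt _ (map_nonunit (Ideal.Quotient.mk Q) w hw)⟩
  refine ⟨F, i1, i2, i3, i4, J.comp (Ideal.Quotient.mk Q), fun a ha => ?_, fun a => ?_,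
    fun a ha => ?_, ?_⟩
  · rw [RingHom.comp_apply, Ideal.Quotient.eq_zero_iff_mem.mpr (hPQ ha), map_zero]
  · rw [RingHom.comp_apply, hJ]; exact nle _
  · rw [RingHom.comp_apply, hJ]; exact nlt _ (map_nonunit (Ideal.Quotient.mk Q) a ha)
  · rw [← norm_pos_iff, RingHom.comp_apply, hJ]; exact npos

end Crest.Agent.R227
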