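import Crest.Agent.R227.Orbit
import Crest.Agent.R227.Point
import Crest.Agent.R227.Char0
import Crest.Agent.R227.CharP

/-!
# R227 / Main : stable primes of the standard deformation
-/

set_option autoImplicit false
open Crest.LubinTate

namespace Crest.Agent.R227

variable {p : ℕ} [hp : Fact p.Prime] {n : ℕ}

theorem witt_injective_of_p_ne_zero {C : Type*} [Field C] (hp0 : (p : C) ≠ 0)
    (jW : WittVector p (GaloisField p n) →+* C) : Function.Injective jW := by
  rw [injective_iff_map_eq_zero]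
  intro a ha
  by_contra h0
  obtain ⟨m, b, hb⟩ := WittVector.exists_eq_pow_p_mul' a h0
  rw [hb, map_mul, map_pow, map_natCast] at ha
  rcases mul_eq_zero.1 ha with h | h
  · exact hp0 (pow_eq_zero_iff_of_pos_or h)
  · exact (b.isUnit.map jW).ne_zero h
where pow_eq_zero_iff_of_pos_or {C : Type _} [Field C] {a : C} {m : ℕ} (h : a ^ m = 0) : a = 0 :=
  pow_eq_zero_iff'.1 h |>.1

theorem prime_eq_Jid (hn : 1 ≤ n) (hU : IsUniversalDeformation p n (GG p n) (HH p n))
    (P : Ideal (LTRing p n)) (hP : P.IsPrime) (hS : WStable P) : ∃ h ≤ n, P = Jid p n h := by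
  classical
  have hex : ∃ h, h ≤ n ∧ (h = n ∨ useq p n h ∉ P) := ⟨n, le_rfl, Or.inl rfl⟩
  obtain ⟨hhn, hor⟩ := Nat.find_spec hex
  set h := Nat.find hex with hdef
  have hJP : Jid p n h ≤ P := by
    rw [Jid, Ideal.span_le]
    rintro _ ⟨j, hj, rfl⟩
    have := Nat.find_min hex (m := j) hj
    by_contra hcon
    exact this ⟨(le_of_lt hj).trans hhn, Or.inr hcon⟩
  refine ⟨h, hhn, le_antisymm ?_ hJP⟩
  rcases eq_or_lt_of_le hhn with e | hlt
  · rw [e, Jid_self p n hn]
    exact IsLocalRing.le_maximalIdeal hP.ne_top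
  have hw : useq p n h ∉ P := hor.resolve_left hlt.ne
  obtain ⟨C, _, _, _, _, x, hxP, hx1, hx2, hxw⟩ := exists_point P (useq_mem_max p n hlt) hw
  have hx : IsPoint x := ⟨hx1, hx2⟩
  intro f hf
  rcases Nat.eq_zero_or_pos h with h0 | hh
  · have hp0 : (p : C) ≠ 0 := by
      rw [h0] at hxw
      simpa [useq] using hxw
    have hp1 : ‖(p : C)‖ < 1 := by
      have := hx2 _ (useq_mem_max p n (j := 0) hn)
      simpa [useq] using this
    have hz : Sm (fun i => x (MvPowerSeries.X i)) := fun i => hx2 _ (by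
      rw [← ker_residue, RingHom.mem_ker]; simp [LTRing.residue])
    have := char0 hp0 hp1 hn (x.comp MvPowerSeries.C) (fun w => hx1 _) hz
      (bd_map (x.comp MvPowerSeries.C) (fun w => hx1 _) f) (orb0_of_wstable hn hU hS hx hxP hp0 hf)
    have hf0 : f = 0 := by
      ext d
      have h2 := congrArg (MvPowerSeries.coeff d) this
      rw [MvPowerSeries.coeff_map, map_zero] at h2
      have h3 := witt_injective_of_p_ne_zero hp0 (x.comp MvPowerSeries.C)
        (h2.trans (map_zero _).symm)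
      rw [h3, map_zero]
    rw [hf0]; exact Ideal.zero_mem _
  · have hr : h + (n - h) = n := by omega
    have hJ : ∀ a ∈ Jid p n h, x a = 0 := fun a ha => hxP a (hJP ha)
    have hp0 : (p : C) = 0 := by
      have := hJ (useq p n 0) (Ideal.subset_span ⟨0, hh, rfl⟩)
      simpa [useq] using this
    have : CharP C p := (CharP.charP_iff_prime_eq_zero hp.out).2 hp0
    obtain ⟨j, hj⟩ := exists_residue_map (x := x) hp0
    have hz : Sm (fun i : Fin (n - h) => x (useq p n (h + i))) := fun i =>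
      hx2 _ (useq_mem_max p n (by have := i.2; omega))
    have := charP_dense hh hr (by omega) j hz (by simpa using hxw)
      (bd_map j (norm_galois_le hn j) _) (orbP_of_wstable hU hS hx hxP hh hr hJ hj hf)
    rw [← ker_red p n hh hr, RingHom.mem_ker]
    ext d
    have h2 := congrArg (MvPowerSeries.coeff d) this
    rw [MvPowerSeries.coeff_map, map_zero] at h2
    rw [(map_eq_zero j).1 h2, map_zero]

theorem main_std (hn : 1 ≤ n) (hU : IsUniversalDeformation p n (GG p n) (HH p n)) (M : ℕ) :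
    (∀ P : Ideal (LTRing p n),
        (P.IsPrime ∧ IsStableIdeal p n (GG p n) (HH p n) M P) ↔ ∃ h : ℕ, h ≤ n ∧ P = Jid p n h) ∧
    (∀ J : Ideal (LTRing p n),
        (J.IsRadical ∧ IsStableIdeal p n (GG p n) (HH p n) M J) ↔
          (∃ h : ℕ, h ≤ n ∧ J = Jid p n h) ∨ J = ⊤) := by
  refine ⟨fun P => ⟨fun ⟨h1, h2⟩ => prime_eq_Jid hn hU P h1 (wstable_of_stable hn h2), ?_⟩,
    fun J => ⟨fun ⟨h1, h2⟩ => ?_, ?_⟩⟩
  · rintro ⟨h, hh, rfl⟩
    exact ⟨Jid_isPrime p n hh, Jid_stable hn M hh⟩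
  · by_cases ht : J = ⊤
    · exact Or.inr ht
    · exact Or.inl (radical_eq_Jid hn hU (prime_eq_Jid hn hU) h1 (wstable_of_stable hn h2) ht)
  · rintro (⟨h, hh, rfl⟩ | rfl)
    · exact ⟨(Jid_isPrime p n hh).isRadical, Jid_stable hn M hh⟩
    · exact ⟨fun _ _ => trivial, fun _ _ _ _ _ => Ideal.comap_top⟩

end Crest.Agent.R227
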