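import Crest.Agent.R227.Radical
import Crest.Agent.R227.OrbDef

/-!
# R227 / Orbit : a stable prime ideal gives `Orb0` / `OrbP` at each of its points

Plan.  For `m ≥ max m₀ 1` and `c` take `φ`, `θ` from `exists_stab` (`isFGAut_pert`); `x' = x ∘ φ` is again a point
(`IsPoint.comp`) with the same restriction to `W k` (`φ.commutes`), `z' = x' ∘ X`, `θ' = map x θ`
(`isFGHom_map`, `fg_map_map`, `HH_map_point(_red)`).  `f ∈ P ⇒ φ f ∈ P ⇒ x' f = 0`, and `x' f = ev … z'`.
`coeff i θ - C (coeff i hendW) ∈ ker residue = 𝔪`, norm `≤ μ` (`IsPoint.bound` with `N = 1`).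
* characteristic zero: `norm_chain0_le`: if `ρ_j` bounds `‖x‖` on `chain0 j` then `max (‖p‖ ρ_j) (ρ_j^p)` bounds it on
  `chain0 (j+1)`; `ρ_j ≤ μ^{j+1}`, so eventually `ρ_j^{p-1} ≤ ‖p‖` and `ρ_{j+1} ≤ ‖p‖ ρ_j`.
* characteristic `p`: `x` kills `Jid h`, and so does `x'` (`stab_bijective`); on `chainP h m` one has
  `‖x a‖ ≤ μ^{p^{hm}}`.  The image under `x` of `[p^m] ∘ e` has order `≥ p^{hm}` (`exists_pser_pow_charP`), so
  `coeff_fadd_of_order` gives the estimate for `coeff i θ`, `i < p^{hm}`.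
-/

set_option autoImplicit false
open Crest.LubinTate

namespace Crest.Agent.R227

variable {p : ℕ} [hp : Fact p.Prime] {n : ℕ} {C : Type*} [NormedField C] [IsUltrametricDist C]

theorem orb_bd_sup {R : Type*} [CommRing R] {x : R →+* C} {I J : Ideal R} {r : ℝ}
    (hI : ∀ a ∈ I, ‖x a‖ ≤ r) (hJ : ∀ a ∈ J, ‖x a‖ ≤ r) : ∀ a ∈ I ⊔ J, ‖x a‖ ≤ r := by
  intro a ha
  obtain ⟨b, hb, c, hc, rfl⟩ := Submodule.mem_sup.1 ha
  rw [map_add]
  exact (IsUltrametricDist.norm_add_le_max _ _).trans (max_le (hI b hb) (hJ c hc))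

theorem orb_bd_mul {R : Type*} [CommRing R] {x : R →+* C} {I J : Ideal R} {r s : ℝ}
    (hI : ∀ a ∈ I, ‖x a‖ ≤ r) (hJ : ∀ a ∈ J, ‖x a‖ ≤ s) (hr : 0 ≤ r) (_hs : 0 ≤ s) :
    ∀ a ∈ I * J, ‖x a‖ ≤ r * s := by
  intro a ha
  refine Submodule.mul_induction_on ha (fun b hb c hc => ?_) fun b c hb hc => ?_
  · rw [map_mul, norm_mul]
    exact mul_le_mul (hI b hb) (hJ c hc) (norm_nonneg _) hr
  · rw [map_add]
    exact (IsUltrametricDist.norm_add_le_max _ _).trans (max_le hb hc)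

theorem orb_coeff_mem {θ : PowerSeries (LTRing p n)} {c : ℕ → WittVector p (GaloisField p n)}
    (h : PowerSeries.map (LTRing.residue p n) θ = hend p n c) (i : ℕ) :
    PowerSeries.coeff i θ - MvPowerSeries.C (PowerSeries.coeff i (hendW p n c)) ∈
      IsLocalRing.maximalIdeal (LTRing p n) ^ 1 := by
  rw [pow_one, ← ker_residue, RingHom.mem_ker, map_sub, ← PowerSeries.coeff_map, h, hend,
    PowerSeries.coeff_map, LTRing.residue, RingHom.comp_apply, MvPowerSeries.constantCoeff_C,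
    sub_self]

theorem orb_phi_C (φ : LTRing p n →ₐ[WittVector p (GaloisField p n)] LTRing p n)
    (w : WittVector p (GaloisField p n)) : φ (MvPowerSeries.C w) = MvPowerSeries.C w :=
  φ.commutes w

theorem norm_chain0_le {x : LTRing p n →+* C} (hx : IsPoint x) (hp0 : (p : C) ≠ 0) :
    ∃ K : ℝ, ∀ m, ∀ a ∈ chain0 p n m, ‖x a‖ ≤ K * ‖(p : C)‖ ^ m := by
  obtain ⟨μ, hμ0, hμ1, hμ⟩ := hx.bound
  have hq0 : 0 < ‖(p : C)‖ := norm_pos_iff.2 hp0
  have hq1 : ‖(p : C)‖ ≤ 1 := IsUltrametricDist.norm_natCast_le_one C p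
  obtain ⟨j₀, hj₀⟩ := exists_pow_lt_of_lt_one hq0 hμ1
  refine ⟨(‖(p : C)‖ ^ j₀)⁻¹, fun m => ?_⟩
  have h1 : ∀ m ≤ j₀, ∀ a ∈ chain0 p n m, ‖x a‖ ≤ (‖(p : C)‖ ^ j₀)⁻¹ * ‖(p : C)‖ ^ m := by
    intro m hm a _
    refine (hx.1 a).trans ?_
    rw [le_inv_mul_iff₀ (by positivity), mul_one]
    exact pow_le_pow_of_le_one hq0.le hq1 hm
  induction m with
  | zero => exact h1 0 (Nat.zero_le _)
  | succ m ih =>
    rcases le_or_gt (m + 1) j₀ with hm | hm
    · exact h1 _ hm
    · have e : (‖(p : C)‖ ^ j₀)⁻¹ * ‖(p : C)‖ ^ (m + 1) =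
          ‖(p : C)‖ * ((‖(p : C)‖ ^ j₀)⁻¹ * ‖(p : C)‖ ^ m) := by ring
      rw [e, chain0]
      refine orb_bd_sup (orb_bd_mul (fun a ha => ?_) ih hq0.le (by positivity)) fun a ha => ?_
      · obtain ⟨b, rfl⟩ := Ideal.mem_span_singleton'.1 ha
        rw [map_mul, map_natCast, norm_mul]
        exact mul_le_of_le_one_left hq0.le (hx.1 b)
      · have h2 : chain0 p n m ^ p ≤ chain0 p n m * chain0 p n m := by
          rw [← sq]; exact Ideal.pow_le_pow_right hp.out.two_le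
        refine orb_bd_mul (fun b hb => ?_) ih hq0.le (by positivity) a (h2 ha)
        exact (hμ _ b (chain0_le m hb)).trans
          ((pow_le_pow_of_le_one hμ0 hμ1.le (by omega)).trans hj₀.le)

variable [CompleteSpace C]

theorem orb0_of_wstable (hn : 1 ≤ n) (hU : IsUniversalDeformation p n (GG p n) (HH p n))
    {P : Ideal (LTRing p n)} (hP : WStable P) {x : LTRing p n →+* C} (hx : IsPoint x)
    (hxP : ∀ a ∈ P, x a = 0) (hp0 : (p : C) ≠ 0) {f : LTRing p n} (hf : f ∈ P) :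
    Orb0 p n (x.comp MvPowerSeries.C) (fun i => x (MvPowerSeries.X i))
      (MvPowerSeries.map (x.comp MvPowerSeries.C) f) := by
  obtain ⟨m₀, hP⟩ := hP
  obtain ⟨μ, hμ0, hμ1, hμ⟩ := hx.bound
  obtain ⟨K, hK⟩ := norm_chain0_le hx hp0
  refine ⟨μ, K, max m₀ 1, hμ0, hμ1, fun m hm c => ?_⟩
  have hm1 : 1 ≤ m := (le_max_right _ _).trans hm
  obtain ⟨φ, hres, θ, hθ, hθg⟩ := exists_stab hU (isFGAut_pert hn hm1 c)
  have hx' := hx.comp φ hres
  refine ⟨fun i => (x.comp φ.toRingHom) (MvPowerSeries.X i), PowerSeries.map x θ,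
    fun i => hx'.2 _ ?_, bd_map x hx.1 θ, ?_, fun i => ?_, fun i => ?_, ?_⟩
  · rw [← ker_residue, RingHom.mem_ker, LTRing.residue, RingHom.comp_apply,
      MvPowerSeries.constantCoeff_X, map_zero]
  · have := isFGHom_map x hθ
    rwa [fg_map_map, HH_map_point, HH_map_point] at this
  · have := hμ 1 _ (orb_coeff_mem hθg i)
    rwa [map_sub, pow_one] at this
  · have := hK m _ ((rigid hn hU (isChn_chain0 hn) hm1 c φ hres hθ hθg).1 (MvPowerSeries.X i))
    rwa [map_sub] at this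
  · have e : (x.comp φ.toRingHom).comp MvPowerSeries.C = x.comp MvPowerSeries.C := by
      ext1 w; exact congrArg x (orb_phi_C φ w)
    rw [← e, ← hx'.eq_ev f]
    refine hxP _ ?_
    rw [← hP m ((le_max_left _ _).trans hm) c φ ⟨hres, θ, hθ, hθg⟩] at hf
    exact hf

theorem orbP_of_wstable (hU : IsUniversalDeformation p n (GG p n) (HH p n))
    {P : Ideal (LTRing p n)} (hP : WStable P) {x : LTRing p n →+* C} (hx : IsPoint x)
    (hxP : ∀ a ∈ P, x a = 0) {h r : ℕ} (hh : 1 ≤ h) (hr : h + r = n)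
    (hJ : ∀ a ∈ Jid p n h, x a = 0) {j : GaloisField p n →+* C}
    (hj : ∀ w, x (MvPowerSeries.C w) = j (w.coeff 0)) {f : LTRing p n} (hf : f ∈ P) :
    OrbP p n h j (fun i : Fin r => x (useq p n (h + i)))
      (MvPowerSeries.map j (red p hh hr f)) := by
  have hn : 1 ≤ n := by omega
  obtain ⟨m₀, hP⟩ := hP
  obtain ⟨μ, hμ0, hμ1, hμ⟩ := hx.bound
  refine ⟨μ, max m₀ 1, hμ0, hμ1, fun m hm c => ?_⟩
  have hm1 : 1 ≤ m := (le_max_right _ _).trans hm
  obtain ⟨φ, hres, θ, hθ, hθg⟩ := exists_stab hU (isFGAut_pert hn hm1 c)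
  have hx' := hx.comp φ hres
  have hJ' : ∀ a ∈ Jid p n h, (x.comp φ.toRingHom) a = 0 := by
    intro a ha
    rw [← (stab_bijective hn (isFGAut_pert hn hm1 c).2 ⟨hres, θ, hθ, hθg⟩).2 h (by omega)] at ha
    exact hJ _ ha
  have hch : ∀ a ∈ chainP p n h m, ‖x a‖ ≤ μ ^ p ^ (h * m) :=
    orb_bd_sup (fun a ha => by rw [hJ a ha, norm_zero]; positivity) (hμ _)
  obtain ⟨hr1, e, he0, hr2⟩ := rigid hn hU (isChn_chainP hh (by omega)) hm1 c φ hres hθ hθg
  refine ⟨fun i => (x.comp φ.toRingHom) (useq p n (h + i)), PowerSeries.map x θ,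
    fun i => hx'.2 _ (useq_mem_max p n (by have := i.2; omega)), bd_map x hx.1 θ, ?_, fun i => ?_,
    fun i => ?_, fun i hi => ?_, ?_⟩
  · have := isFGHom_map x hθ
    rwa [fg_map_map, HH_map_point_red _ hh hr hJ', HH_map_point_red _ hh hr hJ] at this
  · have := hμ 1 _ (orb_coeff_mem hθg i)
    rwa [map_sub, pow_one, hj] at this
  · have := hch _ (hr1 (useq p n (h + i)))
    rwa [map_sub] at this
  · have h1 := hch _ (hr2 (Finsupp.single () i))
    rw [map_sub] at h1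
    have hz : ∀ j < h, x (useq p n j) = 0 := fun j hj => hJ _ (Ideal.subset_span ⟨j, hj, rfl⟩)
    obtain ⟨V, hV0, hV⟩ := exists_pser_pow_charP p (R := C) (n := n) (h := h)
      (by have := hz 0 hh; rwa [useq, if_pos rfl, map_natCast] at this) hh (by omega)
      (fun j => x (uv p n j))
      (fun j h1 h2 => by have := hz j h2; rwa [useq, if_neg (by omega)] at this) m
    have he' : PowerSeries.constantCoeff (PowerSeries.map x e) = 0 := by
      rw [← PowerSeries.coeff_zero_eq_constantCoeff_apply, PowerSeries.coeff_map,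
        PowerSeries.coeff_zero_eq_constantCoeff_apply, he0, map_zero]
    have h2 : x (PowerSeries.coeff i (fadd (HH p n) PowerSeries.X
        (cmp (mulSeries (HH p n) (p ^ m)) e))) = PowerSeries.coeff i PowerSeries.X := by
      rw [← PowerSeries.coeff_map, map_fadd x _ PowerSeries.constantCoeff_X
        (const_cmp (const_mulSeries _ _) he0), map_cmp _ _ he0, map_mulSeries, PowerSeries.map_X,
        HH, HL_map]
      refine coeff_fadd_of_order _ PowerSeries.constantCoeff_X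
        (const_cmp (const_mulSeries _ _) he') (N := p ^ (h * m)) (fun l hl => ?_) i hi
      rw [coeff_cmp_congr_left (f' := 0) he' (M := p ^ (h * m)) (fun k hk => ?_) l hl]
      · rw [cmp, ← PowerSeries.coe_substAlgHom (PowerSeries.HasSubst.of_constantCoeff_zero' he'),
          map_zero, map_zero]
      · rw [hV, map_zero]
        rcases Nat.eq_zero_or_pos k with rfl | hk0
        · rw [PowerSeries.coeff_zero_eq_constantCoeff_apply, PowerSeries.constantCoeff_expand, hV0]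
        · exact PowerSeries.coeff_expand_of_not_dvd _ _ _ (Nat.not_dvd_of_pos_of_lt hk0 hk)
    rw [PowerSeries.coeff_map, ← h2]
    exact h1
  · rw [← hx'.eq_ev_red hh hr hJ' (fun w => (congrArg x (orb_phi_C φ w)).trans (hj w)) f]
    refine hxP _ ?_
    rw [← hP m ((le_max_left _ _).trans hm) c φ ⟨hres, θ, hθ, hθg⟩] at hf
    exact hf

end Crest.Agent.R227
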