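import Crest.Agent.R227.Univ

/-!
# R227 / PSer : the `p`-series of `HL p n v`

Plan for `exists_pser`: work over `A = MvPolynomial ℕ ℤ`, `D = Frob.away p _ (expand p) _`, with the
parameters `v' j = if j < h then 0 else X j` (still `σ v' j = v' j ^ p`), `f = hlog p n D.pinv v'`,
`g` the compositional inverse of `f` over `K`.  By `uact_hlog`,
`G := p f - p X = ∑_{h ≤ j ≤ n} v_j T^j f = expand (p^h) G''` with `coeff 1 G'' = v_h`
(`G'' = ∑ v_j expand (p^{j-h}) (f^{σ^j})`).  `γ := g ∘ G` satisfies `f ∘ γ = G` and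
`u G = p (u f) - u (p X) ≡ 0 mod p`, so `γ` is integral (`intg_of_uact`); `f ∘ [p] = p f ≡ G`, so
`[p] ≡ γ mod p` (`dvd_of_pint_subst`).  Also `γ = expand (p^h) (g ∘ G'')`, and `V₀ = g ∘ G''` is
integral (its coefficients are coefficients of `γ`), constant term `0`, linear coefficient `v_h`.
Finally map along `eval₂Hom _ v : A → R`, which sends `v'` to `v` except at `j = 0`; to avoid the
index `0` problem take instead `v' j = if 1 ≤ j ∧ j < h then 0 else X j`.
For the Honda law use `A = ℤ`-like data (`v' = hon N` over `MvPolynomial ℕ ℤ`): there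
`G = T^N f = f(X^{p^N})` (the coefficients of `f` are fixed by `σ`), so `γ = X^{p^N}`.
-/

set_option autoImplicit false
open Crest.LubinTate

namespace Crest.Agent.R227

variable (p : ℕ) [hp : Fact p.Prime] {R : Type*} [CommRing R]

section frob
variable {p} {A K : Type*} [CommRing A] [CommRing K] [Algebra A K]

omit hp in
theorem map_natCast_smul {S : Type*} [CommRing S] (ρ : R →+* S) (m : ℕ) (W : PowerSeries R) :
    PowerSeries.map ρ ((m : R) • W) = (m : S) • PowerSeries.map ρ W := by
  ext i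
  simp only [PowerSeries.coeff_map, map_smul, smul_eq_mul, map_mul, map_natCast]

theorem PInt.uact {τ : Type*} (D : Frob p A K) (n : ℕ) (v : ℕ → A) {F : MvPowerSeries τ K}
    (hF : PInt p A F) : PInt p A (D.uact n v F) := by
  have := hF.smul (p : A)
  rw [map_natCast] at this
  exact this.sub (PInt.sum fun j _ => (hF.Tact D _).smul _)

omit hp in
theorem pint_p_X : PInt p A ((p : K) • (PowerSeries.X : PowerSeries K)) :=
  ⟨(PowerSeries.X : PowerSeries A), by
    rw [map_p_smul]; congr 1; exact PowerSeries.map_X _⟩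

theorem pser_core (D : Frob p A K) {n : ℕ} {v : ℕ → A} (hv : ∀ j, D.σA (v j) = v j ^ p)
    {γ : PowerSeries A} (h0 : PowerSeries.constantCoeff γ = 0)
    (hγ : cmp (hlog p n D.pinv fun j => algebraMap A K (v j)) (PowerSeries.map (algebraMap A K) γ) =
      (p : K) • hlog p n D.pinv (fun j => algebraMap A K (v j)) - (p : K) • PowerSeries.X) :
    ∃ W : PowerSeries A, PowerSeries.constantCoeff W = 0 ∧
      mulSeries (HL p n v) p = γ + (p : A) • W := by
  have hu := pint_uact_hlog D n hv
  have e := (isLog_HL p n D.mul_pinv fun j => algebraMap A K (v j)).cmp_mulSeries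
    (const_hlog _ _ _) p
  rw [← HL_map, ← map_mulSeries] at e
  obtain ⟨W, hW⟩ := dvd_of_pint_subst D (den_of_uact D (const_hlog _ _ _) hu) (coeff_one_hlog _ _ _)
    (α := mulSeries (HL p n v) p) (β := γ) (const_mulSeries _ _) h0 (by
      have : (cmp (hlog p n D.pinv fun j => algebraMap A K (v j))
          (PowerSeries.map (algebraMap A K) (mulSeries (HL p n v) p)) -
          cmp (hlog p n D.pinv fun j => algebraMap A K (v j))
            (PowerSeries.map (algebraMap A K) γ)) = (p : K) • PowerSeries.X := by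
        rw [e, hγ, sub_sub_cancel]
      exact this ▸ pint_p_X)
  have hW' : mulSeries (HL p n v) p = γ + (p : A) • (W : PowerSeries A) := by
    rw [← sub_eq_iff_eq_add', Nat.cast_smul_eq_nsmul, nsmul_eq_mul]; exact hW
  refine ⟨W, D.inj (D.cancel ?_), hW'⟩
  have := congrArg PowerSeries.constantCoeff hW'
  rw [const_mulSeries, map_add, h0, zero_add, PowerSeries.constantCoeff_smul, smul_eq_mul] at this
  rw [← map_natCast (algebraMap A K), ← map_mul, ← this, ← map_mul, mul_zero]

theorem pser_frob (D : Frob p A K) {n h : ℕ} (hh : 1 ≤ h) (hhn : h ≤ n) {v : ℕ → A}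
    (hv : ∀ j, D.σA (v j) = v j ^ p) (hv0 : ∀ j, 1 ≤ j → j < h → v j = 0) :
    ∃ V W : PowerSeries A, PowerSeries.constantCoeff V = 0 ∧ PowerSeries.coeff 1 V = v h ∧
      PowerSeries.constantCoeff W = 0 ∧
      mulSeries (HL p n v) p =
        PowerSeries.expand (p ^ h) (pow_ne_zero h hp.out.ne_zero) V + (p : A) • W := by
  have hu := pint_uact_hlog D n hv
  have hu' := uact_hlog D n hv
  set f := hlog p n D.pinv fun j => algebraMap A K (v j) with hf
  have f0 : PowerSeries.constantCoeff f = 0 := const_hlog _ _ _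
  have f1 : PowerSeries.coeff 1 f = 1 := coeff_one_hlog _ _ _
  obtain ⟨g, g0, g1, g2, -⟩ := exists_cmp_inv f0 (f1 ▸ isUnit_one)
  rw [f1, one_mul] at g1
  let G : PowerSeries K := ∑ j ∈ Finset.range n, algebraMap A K (v (j + 1)) •
    PowerSeries.expand (p ^ (j + 1 - h)) (pow_ne_zero _ hp.out.ne_zero)
      (PowerSeries.map (D.σK ^ (j + 1)) f)
  have G0 : PowerSeries.constantCoeff G = 0 := by
    simp only [G, map_sum, PowerSeries.constantCoeff_smul, PowerSeries.constantCoeff_expand]
    exact Finset.sum_eq_zero fun j _ => by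
      rw [show PowerSeries.constantCoeff (PowerSeries.map (D.σK ^ (j + 1)) f) = 0 from
        const_map _ f0, smul_zero]
  have G1 : PowerSeries.coeff 1 G = algebraMap A K (v h) := by
    simp only [G, map_sum, map_smul, PowerSeries.coeff_expand, smul_eq_mul]
    rw [Finset.sum_eq_single (h - 1)]
    · simp [Nat.sub_add_cancel hh, f1]
    · intro j _ hj
      rcases lt_or_gt_of_ne hj with h1 | h1
      · rw [hv0 _ (by omega) (by omega), map_zero, zero_mul]
      · rw [if_neg, mul_zero]
        rw [Nat.dvd_one]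
        exact (Nat.one_lt_pow (by omega) hp.out.one_lt).ne'
    · intro hj; exact absurd (Finset.mem_range.2 (by omega)) hj
  have G2 : PowerSeries.expand (p ^ h) (pow_ne_zero h hp.out.ne_zero) G =
      (p : K) • f - (p : K) • PowerSeries.X := by
    rw [← hu']
    refine Eq.trans ?_ (sub_sub_cancel _ _).symm
    simp only [G, map_sum, map_smul]
    refine Finset.sum_congr rfl fun j _ => ?_
    by_cases hj : j + 1 < h
    · rw [hv0 _ (by omega) hj, map_zero, zero_smul, zero_smul]
    · rw [← PowerSeries.expand_mul]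
      congr 1
      change _ = PowerSeries.expand (p ^ (j + 1)) _ (PowerSeries.map (D.σK ^ (j + 1)) f)
      congr 2
      rw [← pow_add]; congr 1; omega
  have G3 : PowerSeries.constantCoeff ((p : K) • f - (p : K) • PowerSeries.X) = 0 := by simp [f0]
  have e1 : cmp f (cmp g ((p : K) • f - (p : K) • PowerSeries.X)) =
      (p : K) • f - (p : K) • PowerSeries.X := by
    rw [← cmp_assoc f g0 G3, g2, X_cmp G3]
  obtain ⟨γ, hγ⟩ := intg_of_uact D f0 f1 hu (H := cmp g ((p : K) • f - (p : K) • PowerSeries.X))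
    (const_cmp g0 G3) (by
      change PInt p A (D.uact n v (cmp f (cmp g ((p : K) • f - (p : K) • PowerSeries.X))))
      rw [e1]
      refine D.uact_sub n v _ _ ▸ PInt.sub ?_ (PInt.uact D n v pint_p_X)
      refine D.uact_p_smul n v _ ▸ ?_
      have := hu.smul (p : A)
      rwa [map_natCast] at this)
  change PowerSeries.map (algebraMap A K) γ = _ at hγ
  have e2 : PowerSeries.expand (p ^ h) (pow_ne_zero h hp.out.ne_zero) (cmp g G) =
      PowerSeries.map (algebraMap A K) γ := by
    rw [hγ, ← G2]; exact PowerSeries.expand_subst _ _ (hasS G0) g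
  obtain ⟨V, hV⟩ : Intg A (cmp g G) := (intg_iff _).2 fun d => ⟨PowerSeries.coeff (p ^ h * d ()) γ, by
    rw [← PowerSeries.coeff_map, ← e2, PowerSeries.coeff_expand_mul, PowerSeries.coeff_def rfl]⟩
  change PowerSeries.map (algebraMap A K) V = _ at hV
  have e3 : PowerSeries.expand (p ^ h) (pow_ne_zero h hp.out.ne_zero) V = γ :=
    mv_map_injective D.inj (by
      change PowerSeries.map _ _ = PowerSeries.map _ _
      rw [PowerSeries.map_expand, hV, e2])
  have V0 : PowerSeries.constantCoeff V = 0 := D.inj (by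
    rw [← PowerSeries.coeff_zero_eq_constantCoeff_apply, ← PowerSeries.coeff_map, hV,
      PowerSeries.coeff_zero_eq_constantCoeff_apply, const_cmp g0 G0, map_zero])
  obtain ⟨W, w1, w2⟩ := pser_core D hv (γ := γ)
    (by rw [← e3, PowerSeries.constantCoeff_expand, V0]) (by rw [hγ]; exact e1)
  exact ⟨V, W, V0, D.inj (by rw [← PowerSeries.coeff_map, hV, coeff_one_cmp g G0, g1, G1, one_mul]),
    w1, by rw [e3, w2]⟩

omit hp in
theorem Frob.σK_pinv (D : Frob p A K) : D.σK D.pinv = D.pinv :=
  D.cancel (by rw [← map_natCast D.σK, ← map_mul, D.mul_pinv, map_one, map_natCast, D.mul_pinv])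

omit hp in
theorem Frob.σK_pow_pinv (D : Frob p A K) (j : ℕ) : (D.σK ^ j) D.pinv = D.pinv := by
  induction j with
  | zero => rfl
  | succ j ih => rw [pow_succ, RingHom.mul_def, RingHom.comp_apply, D.σK_pinv, ih]

theorem hon_frob (σ : A →+* A) (N j : ℕ) : σ (hon N j) = hon N j ^ p := by
  rw [map_hon, hon]; split_ifs
  · rw [one_pow]
  · rw [zero_pow hp.out.ne_zero]

theorem sum_hon_smul {M : Type*} [AddCommGroup M] [Module K M] {N : ℕ} (hN : 1 ≤ N) (F : ℕ → M) :
    ∑ j ∈ Finset.range N, algebraMap A K (hon N (j + 1)) • F (j + 1) = F N := by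
  rw [Finset.sum_eq_single (N - 1), Nat.sub_add_cancel hN, hon, if_pos rfl, map_one, one_smul]
  · intro j _ hj
    rw [hon, if_neg (by omega), map_zero, zero_smul]
  · intro hj; exact absurd (Finset.mem_range.2 (by omega)) hj

theorem pser_hon_frob (D : Frob p A K) {N : ℕ} (hN : 1 ≤ N) :
    ∃ W : PowerSeries A,
      mulSeries (HL p N (hon N : ℕ → A)) p = PowerSeries.X ^ (p ^ N) + (p : A) • W := by
  have hu' := uact_hlog D N (hon_frob D.σA N)
  obtain ⟨W, -, hW⟩ := pser_core D (n := N) (hon_frob D.σA N) (γ := PowerSeries.X ^ (p ^ N))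
    (by simp [hp.out.ne_zero]) (by
      rw [← hu']
      refine Eq.trans ?_ (sub_sub_cancel _ _).symm
      rw [sum_hon_smul hN fun j => D.Tact j _, map_pow, PowerSeries.map_X, cmp,
        ← PowerSeries.expand_apply _ (pow_ne_zero N hp.out.ne_zero)]
      change _ = PowerSeries.expand (p ^ N) _ (PowerSeries.map (D.σK ^ N) _)
      simp only [map_hlog, map_hon, D.σK_pow_pinv])
  exact ⟨W, hW⟩

end frob

/-- general form: `[p] = V(X^{p^h}) + p W` when `v_1 = ⋯ = v_{h-1} = 0`. -/
theorem exists_pser {n h : ℕ} (hh : 1 ≤ h) (hhn : h ≤ n) (v : ℕ → R)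
    (hv : ∀ j, 1 ≤ j → j < h → v j = 0) :
    ∃ V W : PowerSeries R, PowerSeries.constantCoeff V = 0 ∧ PowerSeries.coeff 1 V = v h ∧
      PowerSeries.constantCoeff W = 0 ∧
      mulSeries (HL p n v) p =
        PowerSeries.expand (p ^ h) (pow_ne_zero h hp.out.ne_zero) V + (p : R) • W := by
  let D := Frob.away p (p_mem_nonZeroDivisors_poly p) _ (expand_lift p)
  let v' : ℕ → MvPolynomial ℕ ℤ := fun j => if 1 ≤ j ∧ j < h then 0 else MvPolynomial.X j
  have hv' : ∀ j, D.σA (v' j) = v' j ^ p := fun j => by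
    rw [Frob.away_σA]
    simp only [v']
    split_ifs
    · rw [map_zero, zero_pow hp.out.ne_zero]
    · exact MvPolynomial.expand_X p j
  obtain ⟨V, W, a1, a2, a3, a4⟩ := pser_frob D hh hhn hv' fun j h1 h2 => if_pos ⟨h1, h2⟩
  let ρ := MvPolynomial.eval₂Hom (Int.castRingHom R) v
  have e : ∀ j, ρ (v' j) = v j := fun j => by
    simp only [v']
    split_ifs with hj
    · rw [map_zero, hv j hj.1 hj.2]
    · exact MvPolynomial.eval₂Hom_X' _ _ _
  refine ⟨PowerSeries.map ρ V, PowerSeries.map ρ W, const_map ρ a1,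
    by rw [PowerSeries.coeff_map, a2, e], const_map ρ a3, ?_⟩
  have := congrArg (PowerSeries.map ρ) a4
  rw [map_mulSeries, HL_map, map_add, PowerSeries.map_expand, map_natCast_smul] at this
  simpa only [e] using this

/-- characteristic `p` form. -/
theorem exists_pser_charP (hR : (p : R) = 0) {n h : ℕ} (hh : 1 ≤ h) (hhn : h ≤ n) (v : ℕ → R)
    (hv : ∀ j, 1 ≤ j → j < h → v j = 0) :
    ∃ V : PowerSeries R, PowerSeries.constantCoeff V = 0 ∧ PowerSeries.coeff 1 V = v h ∧
      mulSeries (HL p n v) p = PowerSeries.expand (p ^ h) (pow_ne_zero h hp.out.ne_zero) V := by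
  obtain ⟨V, W, a1, a2, -, a4⟩ := exists_pser p hh hhn v hv
  exact ⟨V, a1, a2, by rw [a4, hR, zero_smul, add_zero]⟩

theorem pser_hon (hR : (p : R) = 0) {N : ℕ} (hN : 1 ≤ N) :
    mulSeries (HL p N (hon N : ℕ → R)) p = PowerSeries.X ^ (p ^ N) := by
  obtain ⟨W, hW⟩ := pser_hon_frob (Frob.away p (p_mem_nonZeroDivisors_poly p) _ (expand_lift p)) hN
  have := congrArg (PowerSeries.map (MvPolynomial.eval₂Hom (Int.castRingHom R) 0)) hW
  rwa [map_mulSeries, HL_map_hon, map_add, map_natCast_smul, hR, zero_smul, add_zero, map_pow,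
    PowerSeries.map_X] at this

theorem pser_hon_pow (hR : (p : R) = 0) {N : ℕ} (hN : 1 ≤ N) (m : ℕ) :
    mulSeries (HL p N (hon N : ℕ → R)) (p ^ m) = PowerSeries.X ^ (p ^ (N * m)) := by
  induction m with
  | zero => simp [mulSeries_one]
  | succ m ih =>
    rw [pow_succ, mulSeries_mul, ih, pser_hon p hR hN, X_pow_cmp (by simp [hp.out.ne_zero]),
      ← pow_mul, ← pow_add, mul_add, mul_one, add_comm]

/-- in characteristic `p`, `[p^m] = V(X^{p^{hm}})`. -/
theorem exists_pser_pow_charP (hR : (p : R) = 0) {n h : ℕ} (hh : 1 ≤ h) (hhn : h ≤ n) (v : ℕ → R)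
    (hv : ∀ j, 1 ≤ j → j < h → v j = 0) (m : ℕ) :
    ∃ V : PowerSeries R, PowerSeries.constantCoeff V = 0 ∧
      mulSeries (HL p n v) (p ^ m) =
        PowerSeries.expand (p ^ (h * m)) (pow_ne_zero _ hp.out.ne_zero) V := by
  rcases subsingleton_or_nontrivial R with hs | hs
  · exact ⟨0, map_zero _, PowerSeries.ext fun _ => Subsingleton.elim _ _⟩
  have : CharP R p := (CharP.charP_iff_prime_eq_zero hp.out).2 hR
  obtain ⟨V, V0, -, hV⟩ := exists_pser_charP p hR hh hhn v hv
  induction m with
  | zero => exact ⟨PowerSeries.X, PowerSeries.constantCoeff_X, by simp [mulSeries_one]⟩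
  | succ m ih =>
    obtain ⟨U, U0, hU⟩ := ih
    have V1 : PowerSeries.constantCoeff (PowerSeries.map (iterateFrobenius R p (h * m)) V) = 0 :=
      const_map _ V0
    refine ⟨cmp U (PowerSeries.map (iterateFrobenius R p (h * m)) V), const_cmp U0 V1, ?_⟩
    have V2 : PowerSeries.constantCoeff
        (PowerSeries.expand (p ^ h) (pow_ne_zero h hp.out.ne_zero) V) = 0 := by
      rw [PowerSeries.constantCoeff_expand, V0]
    rw [pow_succ, mulSeries_mul, hU, hV, PowerSeries.expand_apply (p ^ (h * m)),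
      cmp_assoc U (by simp [hp.out.ne_zero]) V2, X_pow_cmp V2, ← map_pow]
    refine Eq.trans ?_ (PowerSeries.expand_subst _ _ (hasS V1) U).symm
    congr 1
    rw [← show PowerSeries.map (iterateFrobenius R p (h * m)) (PowerSeries.expand (p ^ (h * m))
      (pow_ne_zero _ hp.out.ne_zero) V) = V ^ p ^ (h * m) from
        MvPowerSeries.map_iterateFrobenius_expand p hp.out.ne_zero V (h * m),
      PowerSeries.map_expand, ← PowerSeries.expand_mul]
    change _ = PowerSeries.expand _ _ _
    congr 2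
    rw [← pow_add, mul_add, mul_one, add_comm]

theorem HL_quot (n : ℕ) (I : Ideal R) {v v' : ℕ → R} (h : ∀ j, v j - v' j ∈ I) :
    (HL p n v).map (Ideal.Quotient.mk I) = (HL p n v').map (Ideal.Quotient.mk I) := by
  rw [HL_map, HL_map]
  congr 1
  funext j
  exact Ideal.Quotient.eq.2 (h j)

/-- the coefficients of `HL` and of its multiplication series are integer polynomials in `v`:
congruent parameters give congruent laws (map to `R ⧸ I` and use `HL_map`). -/
theorem HL_congr (n : ℕ) (I : Ideal R) {v v' : ℕ → R} (h : ∀ j, v j - v' j ∈ I) (d : Fin 2 →₀ ℕ) :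
    MvPowerSeries.coeff d (HL p n v).toPowerSeries -
      MvPowerSeries.coeff d (HL p n v').toPowerSeries ∈ I := by
  have := congrArg (fun F : FormalGroup (R ⧸ I) => MvPowerSeries.coeff d F.toPowerSeries)
    (HL_quot p n I h)
  simp only [FormalGroup.map_toPowerSeries, MvPowerSeries.coeff_map] at this
  exact Ideal.Quotient.eq.1 this

theorem mulSeries_HL_congr (n : ℕ) (I : Ideal R) {v v' : ℕ → R} (h : ∀ j, v j - v' j ∈ I)
    (m i : ℕ) :
    PowerSeries.coeff i (mulSeries (HL p n v) m) -
      PowerSeries.coeff i (mulSeries (HL p n v') m) ∈ I := by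
  refine Ideal.Quotient.eq.1 ?_
  rw [← PowerSeries.coeff_map, ← PowerSeries.coeff_map, map_mulSeries, map_mulSeries,
    HL_quot p n I h]

end Crest.Agent.R227
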