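import Crest.Agent.R227.Pr
import Crest.Agent.R227.EvMax

/-!
# R227 / Per : the logarithm as an analytic function; Gross–Hopkins periods

`L` is a complete ultrametric field with `0 < ‖p‖ < 1`.  `β_i = p^{⌊i/n⌋} b_i` and `φ_s = lim_k β_{nk+s}`.

Plan.
* `norm_bseq_le`: `p^i b_i = bint i` is an integer polynomial in `v` (induction on `bint`).
* `norm_hlog_sub_le`: `‖a - b‖ ≤ ‖p‖^j` (`j ≥ 1`) implies `‖a^p - b^p‖ ≤ ‖p‖^{j+1}` (binomial theorem), so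
  `‖b_l (a^{p^l} - b^{p^l})‖ ≤ ‖p‖^{-l} ‖p‖^{l+1}`.
* recursion: for `i ≥ n`, `β_i - β_{i-n} = ∑_{1 ≤ j < n} p^{e_j} β_{i-j} v_j^{p^{i-j}}` with
  `e_j = ⌊i/n⌋ - ⌊(i-j)/n⌋ - 1 ∈ {-1, 0}`, so `‖β_i - β_{i-n}‖ ≤ ‖p‖⁻¹ μ^{p^{i-n}} W_i`, `W_i = max_{1≤j≤n} ‖β_{i-j}‖`.
  Once `‖p‖⁻¹ μ^{p^{i-n}} < 1` (`i ≥ i₀(μ)`), `W_{i+1} = W_i`; before that `‖β_i‖ ≤ ‖p‖^{-i}`.
  `W_i ≠ 0`: `n` consecutive zeros `b_{i-1}, …, b_{i-n}` propagate backwards (`b_{i-1-n} = p b_{i-1} - ⋯`) to `b_0 = 1`.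
* `per_taylor`: pick `ϖ ≠ 0` small and `ϖ'` with `‖ϖ'‖ K ≤ 1`; `δ ↦ ϖ' β_i(z + ϖ δ)` is a polynomial function
  bounded by `1` on the open polydisc (`bdFun_of_poly`), the convergence is uniform (`BdFun.of_limit`), then
  `Bd.taylor`.
-/

set_option autoImplicit false
set_option linter.unusedSectionVars false
open Crest.LubinTate Filter Topology

namespace Crest.Agent.R227

variable (p : ℕ) [hp : Fact p.Prime] {L : Type*} [NormedField L]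

/-- `β_i = p^{⌊i/n⌋} b_i`. -/
noncomputable def beta (n : ℕ) (v : ℕ → L) (i : ℕ) : L :=
  (p : L) ^ (i / n) * bseq p n (p : L)⁻¹ v i

/-- the periods `φ_s = lim_k β_{nk+s}`. -/
noncomputable def per (n : ℕ) (v : ℕ → L) (s : ℕ) : L :=
  limUnder atTop (fun k => beta p n v (n * k + s))

/-- the logarithm as a function. -/
noncomputable def lg (n : ℕ) (v : ℕ → L) (y : L) : L := ev1 (hlog p n (p : L)⁻¹ v) y

variable {p} [IsUltrametricDist L] {n : ℕ} {v : ℕ → L}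

theorem bseq_congr {K : Type*} [CommRing K] (p n : ℕ) (pinv : K) {v v' : ℕ → K}
    (h : ∀ j, 1 ≤ j → j ≤ n → v j = v' j) : bseq p n pinv v = bseq p n pinv v' := by
  funext i
  induction i using Nat.strong_induction_on with
  | _ i ih =>
    cases i with
    | zero => rw [bseq, bseq]
    | succ i =>
      rw [bseq, bseq]
      congr 1
      refine Finset.sum_congr rfl fun j hj => ?_
      have := Finset.mem_range.1 hj
      rw [ih _ (by omega), h _ (by omega) (by omega)]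

theorem norm_bint_le (hv : ∀ j, ‖v j‖ ≤ 1) (i : ℕ) : ‖bint p n v i‖ ≤ 1 := by
  have := map_bint (OO L).subtype p n (fun j => (⟨v j, hv j⟩ : OO L)) i
  have e : (fun j => (OO L).subtype (⟨v j, hv j⟩ : OO L)) = v := rfl
  rw [e] at this
  rw [← this]
  exact (bint p n (fun j => (⟨v j, hv j⟩ : OO L)) i).2

theorem norm_bseq_le (hp0 : (p : L) ≠ 0) (hv : ∀ j, ‖v j‖ ≤ 1) (i : ℕ) :
    ‖bseq p n (p : L)⁻¹ v i‖ ≤ ‖(p : L)‖⁻¹ ^ i := by
  have h1 := norm_bint_le (p := p) (n := n) hv i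
  rw [← pow_mul_bseq p n (mul_inv_cancel₀ hp0), norm_mul, norm_pow] at h1
  have h2 : 0 < ‖(p : L)‖ ^ i := pow_pos (norm_pos_iff.2 hp0) i
  rw [inv_pow, ← mul_one (‖(p : L)‖ ^ i)⁻¹, le_inv_mul_iff₀ h2]
  exact h1

theorem tendsto_pow_mul_pow_pow {R ρ : ℝ} (hR : 0 ≤ R) (h0 : 0 ≤ ρ) (h1 : ρ < 1) :
    Tendsto (fun l : ℕ => R ^ l * ρ ^ p ^ l) atTop (𝓝 0) := by
  obtain ⟨k, hk⟩ := pow_unbounded_of_one_lt R (one_lt_two (α := ℝ))
  have h2 : Tendsto (fun l : ℕ => p ^ l) atTop atTop :=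
    tendsto_atTop_mono (fun l => (Nat.lt_pow_self hp.out.one_lt).le) tendsto_id
  have h3 := (tendsto_pow_const_mul_const_pow_of_abs_lt_one k (r := ρ)
    (by rwa [abs_of_nonneg h0])).comp h2
  refine squeeze_zero (fun l => by positivity) (fun l => ?_) h3
  simp only [Function.comp_apply]
  refine mul_le_mul_of_nonneg_right ?_ (by positivity)
  have h4 : (2 : ℝ) ≤ p := by exact_mod_cast hp.out.two_le
  calc R ^ l ≤ ((p : ℝ) ^ k) ^ l :=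
        pow_le_pow_left₀ hR (hk.le.trans (pow_le_pow_left₀ zero_le_two h4 k)) l
    _ = ((p ^ l : ℕ) : ℝ) ^ k := by rw [Nat.cast_pow, ← pow_mul, ← pow_mul, mul_comm]

theorem an_ptyp {a : ℕ → L} {B R : ℝ} (ha : ∀ l, ‖a l‖ ≤ B * R ^ l) : An (ptyp p a) := by
  refine (an1_iff _).2 fun ρ h0 h1 => ?_
  obtain ⟨M, hM⟩ := (tendsto_pow_mul_pow_pow (p := p) (abs_nonneg R) h0 h1).bddAbove_range
  have hM' : ∀ l, |R| ^ l * ρ ^ p ^ l ≤ M := fun l => hM ⟨l, rfl⟩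
  have hM0 : 0 ≤ M := le_trans (by positivity) (hM' 0)
  refine ⟨|B| * M, fun i => ?_⟩
  by_cases hi : ∃ l, p ^ l = i
  · obtain ⟨l, rfl⟩ := hi
    rw [coeff_ptyp_pow]
    have h2 : ‖a l‖ ≤ |B| * |R| ^ l := by
      rw [← abs_pow, ← abs_mul]; exact (ha l).trans (le_abs_self _)
    calc ‖a l‖ * ρ ^ p ^ l ≤ |B| * |R| ^ l * ρ ^ p ^ l :=
          mul_le_mul_of_nonneg_right h2 (by positivity)
      _ = |B| * (|R| ^ l * ρ ^ p ^ l) := by ring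
      _ ≤ |B| * M := mul_le_mul_of_nonneg_left (hM' l) (abs_nonneg B)
  · rw [coeff_ptyp_of_not_pow _ (fun l hl => hi ⟨l, hl⟩), norm_zero, zero_mul]
    positivity

theorem an_hlog (hp0 : (p : L) ≠ 0) (hv : ∀ j, ‖v j‖ ≤ 1) : An (hlog p n (p : L)⁻¹ v) := by
  exact an_ptyp (B := 1) (fun l => by rw [one_mul]; exact norm_bseq_le hp0 hv l)

theorem norm_pow_prime_pow_sub_le {a b : L} (ha : ‖a‖ ≤ 1) (hb : ‖b‖ ≤ 1)
    (h : ‖a - b‖ ≤ ‖(p : L)‖) (l : ℕ) : ‖a ^ p ^ l - b ^ p ^ l‖ ≤ ‖(p : L)‖ ^ (l + 1) := by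
  by_cases hp0 : (p : L) = 0
  · rw [hp0, norm_zero, norm_le_zero_iff, sub_eq_zero] at h
    rw [h, sub_self, norm_zero]
    positivity
  · have hc : ‖(a - b) / p‖ ≤ 1 := by
      rw [norm_div]; exact div_le_one_of_le₀ h (norm_nonneg _)
    have h1 : ((p : ℕ) : OO L) ∣ (⟨a, ha⟩ : OO L) - ⟨b, hb⟩ := by
      refine ⟨⟨(a - b) / p, hc⟩, Subtype.ext ?_⟩
      simp only [AddSubgroupClass.coe_sub, Subring.coe_mul, Subring.coe_natCast]
      field_simp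
    obtain ⟨c, hc⟩ := dvd_sub_pow_of_dvd_sub h1 l
    have h2 := congrArg (fun z : OO L => (z : L)) hc
    simp only [AddSubgroupClass.coe_sub, Subring.coe_mul, Subring.coe_natCast,
      SubmonoidClass.coe_pow] at h2
    rw [h2, norm_mul, norm_pow]
    exact mul_le_of_le_one_right (by positivity) c.2

theorem one_le_inv_norm_p (hp0 : (p : L) ≠ 0) : 1 ≤ ‖(p : L)‖⁻¹ :=
  (one_le_inv₀ (norm_pos_iff.2 hp0)).2 (IsUltrametricDist.norm_natCast_le_one L p)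

theorem exists_q_mul_le (q : ℝ) {μ : ℝ} (hμ0 : 0 ≤ μ) (hμ1 : μ < 1) {ε : ℝ} (hε : 0 < ε) :
    ∃ m₀ : ℕ, ∀ m ≥ m₀, q * μ ^ p ^ m ≤ ε := by
  have h1 := (tendsto_mu (p := p) hμ0 hμ1 (le_refl 1)).const_mul q
  simp only [one_mul, mul_zero] at h1
  exact eventually_atTop.1 (h1.eventually (ge_mem_nhds hε))

theorem norm_beta_le (hp0 : (p : L) ≠ 0) {μ : ℝ} (hμ1 : μ ≤ 1)
    (hv : ∀ j, 1 ≤ j → j < n → ‖v j‖ ≤ μ) (hvn : v n = 1) (i : ℕ) :
    ‖beta p n v i‖ ≤ ‖(p : L)‖⁻¹ ^ i := by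
  have e : bseq p n (p : L)⁻¹ v =
      bseq p n (p : L)⁻¹ (fun j => if 1 ≤ j ∧ j ≤ n then v j else 0) :=
    bseq_congr p n _ fun j h1 h2 => by rw [if_pos ⟨h1, h2⟩]
  unfold beta
  rw [e, norm_mul, norm_pow]
  refine (mul_le_of_le_one_left (norm_nonneg _) (pow_le_one₀ (norm_nonneg _)
    (IsUltrametricDist.norm_natCast_le_one L p))).trans (norm_bseq_le hp0 (fun j => ?_) i)
  split_ifs with hj
  · rcases hj.2.eq_or_lt with rfl | hj'
    · rw [hvn, norm_one]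
    · exact (hv j hj.1 hj').trans hμ1
  · simp

theorem beta_rec (hp0 : (p : L) ≠ 0) (hn : 1 ≤ n) {μ : ℝ} (hμ0 : 0 ≤ μ) (hμ1 : μ ≤ 1)
    (hv : ∀ j, 1 ≤ j → j < n → ‖v j‖ ≤ μ) (hvn : v n = 1) (m : ℕ) {W : ℝ} (hW : 0 ≤ W)
    (hβ : ∀ t, m < t → t < m + n → ‖beta p n v t‖ ≤ W) :
    ‖beta p n v (m + n) - beta p n v m‖ ≤ ‖(p : L)‖⁻¹ * μ ^ p ^ m * W := by
  obtain ⟨n', rfl⟩ : ∃ n', n = n' + 1 := ⟨n - 1, by omega⟩
  have hp1 : ‖(p : L)‖ ≤ 1 := IsUltrametricDist.norm_natCast_le_one L p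
  have hpp : 0 < ‖(p : L)‖ := norm_pos_iff.2 hp0
  have e : beta p (n' + 1) v (m + (n' + 1)) - beta p (n' + 1) v m =
      ∑ j ∈ Finset.range n', (p : L) ^ (m / (n' + 1)) *
        (bseq p (n' + 1) (p : L)⁻¹ v (m + n' - j) * v (j + 1) ^ p ^ (m + n' - j)) := by
    unfold beta
    rw [Nat.add_div_right m (Nat.succ_pos n'), ← add_assoc, bseq,
      min_eq_left (by omega), Finset.sum_range_succ, hvn, one_pow, mul_one, Nat.add_sub_cancel,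
      ← Finset.mul_sum, pow_succ]
    field_simp
    ring
  rw [e]
  refine IsUltrametricDist.norm_sum_le_of_forall_le_of_nonneg (by positivity) fun j hj => ?_
  have hj' := Finset.mem_range.1 hj
  have h1 := hβ (m + n' - j) (by omega) (by omega)
  unfold beta at h1
  rw [norm_mul, norm_pow] at h1
  have h2 : (m + n' - j) / (n' + 1) ≤ m / (n' + 1) + 1 := by
    rw [← Nat.add_div_right m (Nat.succ_pos n')]
    exact Nat.div_le_div_right (by omega)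
  have h3 : ‖(p : L)‖ ^ (m / (n' + 1)) ≤ ‖(p : L)‖⁻¹ * ‖(p : L)‖ ^ ((m + n' - j) / (n' + 1)) := by
    rw [le_inv_mul_iff₀ hpp, ← pow_succ']
    exact pow_le_pow_of_le_one hpp.le hp1 h2
  have h4 : ‖v (j + 1)‖ ^ p ^ (m + n' - j) ≤ μ ^ p ^ m :=
    (pow_le_pow_left₀ (norm_nonneg _) (hv _ (by omega) (by omega)) _).trans
      (pow_le_pow_of_le_one hμ0 hμ1 (Nat.pow_le_pow_right hp.out.pos (by omega)))
  rw [norm_mul, norm_mul, norm_pow, norm_pow]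
  calc _ ≤ (‖(p : L)‖⁻¹ * ‖(p : L)‖ ^ ((m + n' - j) / (n' + 1))) *
        (‖bseq p (n' + 1) (p : L)⁻¹ v (m + n' - j)‖ * μ ^ p ^ m) := by gcongr
    _ = ‖(p : L)‖⁻¹ * μ ^ p ^ m * (‖(p : L)‖ ^ ((m + n' - j) / (n' + 1)) *
        ‖bseq p (n' + 1) (p : L)⁻¹ v (m + n' - j)‖) := by ring
    _ ≤ _ := mul_le_mul_of_nonneg_left h1 (by positivity)

theorem exists_beta_bound (hp0 : (p : L) ≠ 0) (hn : 1 ≤ n) {μ : ℝ} (hμ : μ < 1) :
    ∃ K : ℝ, ∀ v : ℕ → L, (∀ j, 1 ≤ j → j < n → ‖v j‖ ≤ μ) → v n = 1 →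
      ∀ i, ‖beta p n v i‖ ≤ K := by
  have hq := one_le_inv_norm_p hp0
  have hμ0 : 0 ≤ max μ 0 := le_max_right _ _
  have hμ1 : max μ 0 < 1 := max_lt hμ zero_lt_one
  obtain ⟨m₀, hm₀⟩ := exists_q_mul_le (p := p) ‖(p : L)‖⁻¹ hμ0 hμ1 zero_lt_one
  refine ⟨‖(p : L)‖⁻¹ ^ (m₀ + n), fun v hv hvn i => ?_⟩
  have hv' : ∀ j, 1 ≤ j → j < n → ‖v j‖ ≤ max μ 0 :=
    fun j h1 h2 => (hv j h1 h2).trans (le_max_left _ _)
  induction i using Nat.strong_induction_on with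
  | _ i ih =>
    rcases lt_or_ge i (m₀ + n) with hi | hi
    · exact (norm_beta_le hp0 hμ1.le hv' hvn i).trans (pow_le_pow_right₀ hq hi.le)
    · obtain ⟨m, rfl⟩ : ∃ m, i = m + n := ⟨i - n, by omega⟩
      have h1 := beta_rec hp0 hn hμ0 hμ1.le hv' hvn m (W := ‖(p : L)‖⁻¹ ^ (m₀ + n))
        (by positivity) fun t _ ht => ih t ht
      have h2 := ultra_sub_le (c := 0) (h1.trans (mul_le_of_le_one_left (by positivity)
        (hm₀ m (by omega)))) (by rw [sub_zero]; exact ih m (by omega))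
      rwa [sub_zero] at h2

variable [CompleteSpace L]

theorem hasSum_ptyp {a : ℕ → L} (ha : An (ptyp p a)) {y : L} (hy : ‖y‖ < 1) :
    HasSum (fun l => a l * y ^ p ^ l) (ev1 (ptyp p a) y) := by
  have h1 := ((Nat.pow_right_injective hp.out.two_le).hasSum_iff
    (f := fun i : ℕ => PowerSeries.coeff i (ptyp p a) * y ^ i) (fun i hi => by
      rw [coeff_ptyp_of_not_pow _ (fun l hl => hi ⟨l, hl⟩), zero_mul])).2 (ha.hasSum1 hy)
  simpa only [Function.comp_def, coeff_ptyp_pow] using h1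

theorem hasSum_lg (hp0 : (p : L) ≠ 0) (hv : ∀ j, ‖v j‖ ≤ 1) {y : L} (hy : ‖y‖ < 1) :
    HasSum (fun l => bseq p n (p : L)⁻¹ v l * y ^ p ^ l) (lg p n v y) := by
  exact hasSum_ptyp (an_hlog hp0 hv) hy

theorem lg_zero : lg p n v 0 = 0 := by
  unfold lg
  rw [ev1_zero_right, const_hlog]

theorem lg_gadd (hp0 : (p : L) ≠ 0) (hv : ∀ j, ‖v j‖ ≤ 1) {a b : L} (ha : ‖a‖ < 1)
    (hb : ‖b‖ < 1) : lg p n v (gadd p n v a b) = lg p n v a + lg p n v b := by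
  have hs : Sm ![a, b] := by
    intro i; fin_cases i
    · exact ha
    · exact hb
  have hf := an_hlog (n := n) hp0 hv
  have h1 := congrArg (fun G => ev G ![a, b]) (isLog_HL p n (mul_inv_cancel₀ hp0) v)
  rw [ev_subst1 hf (bd_HL p hv) (HL p n v).zero_constantCoeff hs,
    ev_add (hf.subst1 (bd_X 0) (by simp)) (hf.subst1 (bd_X 1) (by simp)) hs,
    ev_subst1 hf (bd_X 0) (by simp) hs, ev_subst1 hf (bd_X 1) (by simp) hs, ev_X, ev_X] at h1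
  exact h1

theorem lg_pm (hp0 : (p : L) ≠ 0) (hv : ∀ j, ‖v j‖ ≤ 1) (m : ℕ) {a : L} (ha : ‖a‖ < 1) :
    lg p n v (pm p n v m a) = (m : L) * lg p n v a := by
  induction m with
  | zero =>
    have : pm p n v 0 a = 0 := ev_zero_left _
    rw [this, lg_zero, Nat.cast_zero, zero_mul]
  | succ m ih =>
    rw [pm_succ hv m ha, lg_gadd hp0 hv ((norm_pm_le hv m ha).trans_lt ha) ha, ih]
    push_cast
    ring

theorem norm_lg_sub_le (hp0 : (p : L) ≠ 0) (hv : ∀ j, ‖v j‖ ≤ 1) {a b : L} (ha : ‖a‖ < 1)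
    (hb : ‖b‖ < 1) (h : ‖a - b‖ ≤ ‖(p : L)‖) : ‖lg p n v a - lg p n v b‖ ≤ ‖(p : L)‖ := by
  rw [← ((hasSum_lg (n := n) hp0 hv ha).sub (hasSum_lg hp0 hv hb)).tsum_eq]
  refine IsUltrametricDist.norm_tsum_le_of_forall_le fun l => ?_
  rw [← mul_sub, norm_mul]
  refine (mul_le_mul (norm_bseq_le hp0 hv l) (norm_pow_prime_pow_sub_le ha.le hb.le h l)
    (norm_nonneg _) (by positivity)).trans_eq ?_
  rw [pow_succ, ← mul_assoc, ← mul_pow, inv_mul_cancel₀ (norm_ne_zero_iff.2 hp0), one_pow, one_mul]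

theorem norm_lg_term_le (hp0 : (p : L) ≠ 0) (hv : ∀ j, ‖v j‖ ≤ 1) {y : L} {ρ : ℝ} (hy : ‖y‖ ≤ ρ)
    (l : ℕ) : ‖bseq p n (p : L)⁻¹ v l * y ^ p ^ l‖ ≤ ‖(p : L)‖⁻¹ ^ l * ρ ^ p ^ l := by
  rw [norm_mul, norm_pow]
  exact mul_le_mul (norm_bseq_le hp0 hv l) (pow_le_pow_left₀ (norm_nonneg _) hy _)
    (by positivity) (by positivity)

/-- uniform bound and uniform tail estimate for the logarithm on a disc of radius `ρ < 1`. -/
theorem exists_lg_tail (hp0 : (p : L) ≠ 0) {ρ : ℝ} (hρ : ρ < 1) {ε : ℝ} (hε : 0 < ε) :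
    ∃ N : ℕ, ∀ (n : ℕ) (v : ℕ → L), (∀ j, ‖v j‖ ≤ 1) → ∀ y : L, ‖y‖ ≤ ρ →
      ‖lg p n v y - ∑ l ∈ Finset.range N, bseq p n (p : L)⁻¹ v l * y ^ p ^ l‖ ≤ ε := by
  obtain ⟨N, hN⟩ := eventually_atTop.1 ((tendsto_pow_mul_pow_pow (p := p)
    (R := ‖(p : L)‖⁻¹) (by positivity) (le_max_right ρ 0) (max_lt hρ zero_lt_one)).eventually
    (ge_mem_nhds hε))
  refine ⟨N, fun n v hv y hy => ?_⟩
  rw [← ((hasSum_nat_add_iff' N).2 (hasSum_lg (n := n) hp0 hv (hy.trans_lt hρ))).tsum_eq]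
  exact IsUltrametricDist.norm_tsum_le_of_forall_le fun l =>
    (norm_lg_term_le hp0 hv (hy.trans (le_max_left ρ 0)) _).trans (hN _ (by omega))

theorem exists_lg_bound (hp0 : (p : L) ≠ 0) {ρ : ℝ} (hρ : ρ < 1) :
    ∃ B : ℝ, ∀ (n : ℕ) (v : ℕ → L), (∀ j, ‖v j‖ ≤ 1) → ∀ y : L, ‖y‖ ≤ ρ → ‖lg p n v y‖ ≤ B := by
  obtain ⟨M, hM⟩ := (tendsto_pow_mul_pow_pow (p := p)
    (R := ‖(p : L)‖⁻¹) (by positivity) (le_max_right ρ 0) (max_lt hρ zero_lt_one)).bddAbove_range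
  refine ⟨M, fun n v hv y hy => ?_⟩
  rw [← (hasSum_lg (n := n) hp0 hv (hy.trans_lt hρ)).tsum_eq]
  exact IsUltrametricDist.norm_tsum_le_of_forall_le fun l =>
    (norm_lg_term_le hp0 hv (hy.trans (le_max_left ρ 0)) _).trans (hM ⟨l, rfl⟩)

theorem exists_lg_pow_small (hp0 : (p : L) ≠ 0) {ρ : ℝ} (hρ : ρ < 1) {ε : ℝ} (hε : 0 < ε) :
    ∃ I : ℕ, ∀ i ≥ I, ∀ (n : ℕ) (v : ℕ → L), (∀ j, ‖v j‖ ≤ 1) → ∀ y : L, ‖y‖ ≤ ρ →
      ‖lg p n v (y ^ p ^ i)‖ ≤ ε := by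
  obtain ⟨N, hN⟩ := eventually_atTop.1 ((tendsto_pow_mul_pow_pow (p := p)
    (R := ‖(p : L)‖⁻¹) (by positivity) (le_max_right ρ 0) (max_lt hρ zero_lt_one)).eventually
    (ge_mem_nhds hε))
  refine ⟨N, fun i hi n v hv y hy => ?_⟩
  have h1 : ‖y ^ p ^ i‖ ≤ max ρ 0 ^ p ^ i := by
    rw [norm_pow]; exact pow_le_pow_left₀ (norm_nonneg _) (hy.trans (le_max_left ρ 0)) _
  have h2 : max ρ 0 ^ p ^ i < 1 :=
    pow_lt_one₀ (le_max_right ρ 0) (max_lt hρ zero_lt_one) (pow_ne_zero _ hp.out.ne_zero)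
  rw [← (hasSum_lg (n := n) hp0 hv (h1.trans_lt h2)).tsum_eq]
  refine IsUltrametricDist.norm_tsum_le_of_forall_le fun l =>
    (norm_lg_term_le hp0 hv h1 _).trans (le_trans ?_ (hN (i + l) (by omega)))
  rw [← pow_mul, ← pow_add]
  exact mul_le_mul_of_nonneg_right (pow_le_pow_right₀ (one_le_inv_norm_p hp0) (by omega))
    (pow_nonneg (le_max_right ρ 0) _)

theorem per_aux (hp0 : (p : L) ≠ 0) (hn : 1 ≤ n) {μ : ℝ} (hμ0 : 0 ≤ μ) (hμ1 : μ < 1)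
    (hv : ∀ j, 1 ≤ j → j < n → ‖v j‖ ≤ μ) (hvn : v n = 1) {K : ℝ} (hK : ∀ i, ‖beta p n v i‖ ≤ K)
    (s : ℕ) : Tendsto (fun k => beta p n v (n * k + s)) atTop (𝓝 (per p n v s)) ∧
      ∀ k, ‖per p n v s - beta p n v (n * k + s)‖ ≤ ‖(p : L)‖⁻¹ * K * μ ^ p ^ (n * k + s) := by
  have hK0 : 0 ≤ K := (norm_nonneg _).trans (hK 0)
  refine ultra_lim (x := fun k => beta p n v (n * k + s))
    (e := fun k => ‖(p : L)‖⁻¹ * K * μ ^ p ^ (n * k + s)) (fun a b hab => ?_) ?_ fun k => ?_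
  · refine mul_le_mul_of_nonneg_left (pow_le_pow_of_le_one hμ0 hμ1.le
      (Nat.pow_le_pow_right hp.out.pos ?_)) (by positivity)
    exact Nat.add_le_add_right (Nat.mul_le_mul_left n hab) s
  · have h1 := ((tendsto_mu (p := p) hμ0 hμ1 (le_refl 1)).comp
      (tendsto_atTop_mono (f := id) (g := fun k => n * k + s)
        (fun k => (Nat.le_mul_of_pos_left k hn).trans (Nat.le_add_right _ _))
        tendsto_id)).const_mul (‖(p : L)‖⁻¹ * K)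
    simpa only [mul_zero, Function.comp_apply, one_mul] using h1
  · have h1 := beta_rec hp0 hn hμ0 hμ1.le hv hvn (n * k + s) hK0 fun t _ _ => hK t
    rw [show n * (k + 1) + s = n * k + s + n by ring]
    exact h1.trans_eq (by ring)

theorem beta_tendsto_unif (hp0 : (p : L) ≠ 0) (hn : 1 ≤ n) {μ : ℝ} (hμ : μ < 1) {ε : ℝ}
    (hε : 0 < ε) : ∃ I : ℕ, ∀ v : ℕ → L, (∀ j, 1 ≤ j → j < n → ‖v j‖ ≤ μ) → v n = 1 →
      ∀ i ≥ I, ‖beta p n v i - per p n v (i % n)‖ ≤ ε := by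
  have hμ0 : 0 ≤ max μ 0 := le_max_right _ _
  have hμ1 : max μ 0 < 1 := max_lt hμ zero_lt_one
  obtain ⟨K, hK⟩ := exists_beta_bound hp0 hn hμ1
  obtain ⟨I, hI⟩ := exists_q_mul_le (p := p) (‖(p : L)‖⁻¹ * K) hμ0 hμ1 hε
  refine ⟨I, fun v hv hvn i hi => ?_⟩
  have hv' : ∀ j, 1 ≤ j → j < n → ‖v j‖ ≤ max μ 0 :=
    fun j h1 h2 => (hv j h1 h2).trans (le_max_left _ _)
  have h1 := (per_aux hp0 hn hμ0 hμ1 hv' hvn (hK v hv' hvn) (i % n)).2 (i / n)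
  rw [Nat.div_add_mod, norm_sub_rev] at h1
  exact h1.trans (hI i hi)

theorem down_ind {P : ℕ → Prop} (m₀ I : ℕ) (h1 : ∀ t ≥ I, P t)
    (h2 : ∀ m ≥ m₀, (∀ t > m, P t) → P m) : ∀ t ≥ m₀, P t := by
  have key : ∀ d, ∀ t ≥ m₀, I ≤ t + d → P t := by
    intro d
    induction d with
    | zero => exact fun t _ ht => h1 t ht
    | succ d ih => exact fun t ht htd => h2 t ht fun t' ht' => ih t' (by omega) (by omega)
  exact fun t ht => key I t ht (by omega)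

theorem exists_per_ne_zero (hp0 : (p : L) ≠ 0) (hn : 1 ≤ n)
    (hv : ∀ j, 1 ≤ j → j < n → ‖v j‖ < 1) (hvn : v n = 1) : ∃ s < n, per p n v s ≠ 0 := by
  obtain ⟨μ, hμ0, hμ1, hμ⟩ := Sm.exists_bound
    (y := fun j : Fin n => if 1 ≤ (j : ℕ) then v j else 0) fun j => by
      dsimp only
      split_ifs with hj
      · exact hv j hj j.2
      · simp
  have hv' : ∀ j, 1 ≤ j → j < n → ‖v j‖ ≤ μ := fun j h1 h2 => by
    have := hμ ⟨j, h2⟩
    rwa [if_pos h1] at this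
  by_contra hne
  push Not at hne
  obtain ⟨m₀, hm₀⟩ := exists_q_mul_le (p := p) ‖(p : L)‖⁻¹ hμ0 hμ1 zero_lt_one
  have h1 : ∀ t ≥ m₀, beta p n v t = 0 := by
    intro t ht
    refine norm_le_zero_iff.1 (le_of_forall_pos_le_add fun ε hε => ?_)
    rw [zero_add]
    obtain ⟨I, hI⟩ := beta_tendsto_unif hp0 hn hμ1 hε
    refine down_ind (P := fun t => ‖beta p n v t‖ ≤ ε) m₀ I (fun t ht => ?_) (fun m hm ih => ?_) t ht
    · have := hI v hv' hvn t ht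
      rwa [hne _ (Nat.mod_lt _ hn), sub_zero] at this
    · have h2 := beta_rec hp0 hn hμ0 hμ1.le hv' hvn m hε.le fun t ht _ => ih t ht
      rw [norm_sub_rev] at h2
      have h3 := ultra_sub_le (c := 0) (h2.trans (mul_le_of_le_one_left hε.le (hm₀ m hm)))
        (by rw [sub_zero]; exact ih _ (by omega))
      rwa [sub_zero] at h3
  have h2 : beta p n v 0 = 0 := by
    refine down_ind (P := fun t => beta p n v t = 0) 0 m₀ h1 (fun m _ ih => ?_) 0 le_rfl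
    have h2 := beta_rec hp0 hn hμ0 hμ1.le hv' hvn m le_rfl fun t ht _ => by
      rw [ih t ht, norm_zero]
    rwa [ih _ (by omega), mul_zero, zero_sub, norm_neg, norm_le_zero_iff] at h2
  unfold beta at h2
  rw [Nat.zero_div, pow_zero, one_mul, bseq] at h2
  exact one_ne_zero h2

theorem zseq_self {K : Type*} [CommRing K] {n h r : ℕ} (hr : h + r = n) (z : Fin r → K) :
    zseq n h z n = 1 := by
  unfold zseq hon
  rw [dif_neg (by omega), if_pos rfl]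

omit [IsUltrametricDist L] [CompleteSpace L] in
theorem norm_zseq_le_of_lt {n h r : ℕ} {z : Fin r → L} {μ : ℝ} (hμ : 0 ≤ μ) (hz : ∀ i, ‖z i‖ ≤ μ)
    {j : ℕ} (hj : j ≠ n) : ‖zseq n h z j‖ ≤ μ := by
  unfold zseq hon
  split_ifs
  · exact hz _
  · rwa [norm_zero]

theorem per_taylor {C : Type*} [NontriviallyNormedField C] [IsUltrametricDist C] [CompleteSpace C]
    [IsAlgClosed C] (hp0 : (p : C) ≠ 0) {n h r : ℕ} (hn : 1 ≤ n) (hr : h + r = n) {z : Fin r → C}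
    (hz : Sm z) :
    ∃ (D : ℕ → Fin r → C) (K ρ : ℝ), 0 < ρ ∧ ∀ (δ : Fin r → C) (t : ℝ), 0 ≤ t → t ≤ ρ →
      (∀ i, ‖δ i‖ ≤ t) → ∀ s < n,
        ‖per p n (zseq n h (z + δ)) s - per p n (zseq n h z) s - ∑ i, D s i * δ i‖ ≤ K * t ^ 2 := by
  classical
  obtain ⟨μ, hμ0, hμ1, hμ⟩ := hz.exists_bound
  obtain ⟨ϖ, hϖ0, hϖ1⟩ := NormedField.exists_norm_lt_one C
  have hν0 : 0 ≤ max μ ‖ϖ‖ := le_max_of_le_left hμ0
  have hν1 : max μ ‖ϖ‖ < 1 := max_lt hμ1 hϖ1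
  obtain ⟨K, hK⟩ := exists_beta_bound hp0 hn hν1
  obtain ⟨ϖ', hϖ'0, hϖ'1⟩ := NormedField.exists_norm_lt C (r := 1 / (|K| + 1)) (by positivity)
  have hK1 : ‖ϖ'‖ * K ≤ 1 := by
    rw [lt_div_iff₀ (by positivity)] at hϖ'1
    nlinarith [le_abs_self K]
  have hzs : ∀ δ : Fin r → C, Sm δ → ∀ j, 1 ≤ j → j < n →
      ‖zseq n h (z + ϖ • δ) j‖ ≤ max μ ‖ϖ‖ := by
    intro δ hδ j _ hj
    refine norm_zseq_le_of_lt hν0 (fun i => ?_) hj.ne
    refine (IsUltrametricDist.norm_add_le_max _ _).trans (max_le_max (hμ i) ?_)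
    rw [Pi.smul_apply, smul_eq_mul, norm_mul]
    exact mul_le_of_le_one_right (norm_nonneg _) (hδ i).le
  have hG : ∀ s, BdFun (fun δ : Fin r → C => ϖ' * per p n (zseq n h (z + ϖ • δ)) s) := by
    intro s
    refine BdFun.of_limit
      (φ := fun k δ => ϖ' * beta p n (zseq n h (z + ϖ • δ)) (n * k + s)) (fun k => ?_)
      (fun δ hδ => ((per_aux hp0 hn hν0 hν1 (hzs δ hδ) (zseq_self hr _)
        (hK _ (hzs δ hδ) (zseq_self hr _)) s).1.const_mul _)) zero_lt_one fun ε hε => ?_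
    · set P : MvPolynomial (Fin r) C := MvPolynomial.C ϖ' *
        ((p : MvPolynomial (Fin r) C) ^ ((n * k + s) / n) *
          bseq p n (MvPolynomial.C (p : C)⁻¹) (zseq n h fun i =>
            MvPolynomial.C (z i) + MvPolynomial.C ϖ * MvPolynomial.X i) (n * k + s)) with hP
      have e : ∀ δ : Fin r → C, MvPolynomial.eval δ P =
          ϖ' * beta p n (zseq n h (z + ϖ • δ)) (n * k + s) := by
        intro δ
        rw [hP, map_mul, map_mul, map_pow, map_natCast, map_bseq]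
        simp only [map_zseq, MvPolynomial.eval_C, map_add, map_mul, MvPolynomial.eval_X]
        rfl
      refine (bdFun_of_poly P fun δ hδ => ?_).congr fun δ _ => e δ
      rw [e, norm_mul]
      exact (mul_le_mul_of_nonneg_left (hK _ (hzs δ hδ) (zseq_self hr _) _)
        (norm_nonneg _)).trans hK1
    · obtain ⟨I, hI⟩ := exists_q_mul_le (p := p) (‖ϖ'‖ * (‖(p : C)‖⁻¹ * K)) hν0 hν1 hε
      refine ⟨I, fun k hk δ hδ _ => ?_⟩
      have h1 := (per_aux hp0 hn hν0 hν1 (hzs δ hδ) (zseq_self hr _)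
        (hK _ (hzs δ hδ) (zseq_self hr _)) s).2 k
      rw [← mul_sub, norm_mul, norm_sub_rev]
      refine (mul_le_mul_of_nonneg_left h1 (norm_nonneg _)).trans ?_
      rw [← mul_assoc]
      exact hI _ (hk.trans ((Nat.le_mul_of_pos_left k hn).trans (Nat.le_add_right _ _)))
  choose G hGb hGe using hG
  have hϖ : ϖ ≠ 0 := norm_pos_iff.1 hϖ0
  have hϖ' : ϖ' ≠ 0 := norm_pos_iff.1 hϖ'0
  refine ⟨fun s i => MvPowerSeries.coeff (Finsupp.single i 1) (G s) / (ϖ' * ϖ),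
    1 / (‖ϖ'‖ * ‖ϖ‖ ^ 2), ‖ϖ‖ / 2, by positivity, fun δ t ht0 ht hδ s _ => ?_⟩
  have ht1 : t / ‖ϖ‖ < 1 := by rw [div_lt_one hϖ0]; linarith
  have hδ' : ∀ i, ‖(ϖ⁻¹ • δ) i‖ ≤ t / ‖ϖ‖ := fun i => by
    rw [Pi.smul_apply, smul_eq_mul, norm_mul, norm_inv, mul_comm, div_eq_mul_inv]
    exact mul_le_mul_of_nonneg_right (hδ i) (by positivity)
  have h1 := (hGb s).taylor (by positivity) ht1 hδ'
  rw [hGe s _ (fun i => (hδ' i).trans_lt ht1), ← ev_zero_right, hGe s 0 (fun i => by simp)] at h1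
  dsimp only at h1 ⊢
  rw [smul_inv_smul₀ hϖ, smul_zero, add_zero] at h1
  have e : ϖ' * per p n (zseq n h (z + δ)) s - ϖ' * per p n (zseq n h z) s -
      ∑ i, MvPowerSeries.coeff (Finsupp.single i 1) (G s) * (ϖ⁻¹ • δ) i =
      ϖ' * (per p n (zseq n h (z + δ)) s - per p n (zseq n h z) s -
        ∑ i, MvPowerSeries.coeff (Finsupp.single i 1) (G s) / (ϖ' * ϖ) * δ i) := by
    rw [mul_sub, mul_sub, Finset.mul_sum]
    congr 1
    refine Finset.sum_congr rfl fun i _ => ?_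
    rw [Pi.smul_apply, smul_eq_mul]
    field_simp
  rw [e, norm_mul, ← le_div_iff₀' hϖ'0] at h1
  refine h1.trans_eq ?_
  field_simp

end Crest.Agent.R227
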