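import Crest.Agent.R227.UP
import Crest.Agent.R227.Tors

/-!
# R227 / Pi0 : the map `π₀` from the universal cover to the generic fibre in the ultrapower

`π₀ y = ulim_m (prf (y^{p^{nm}}))^{1/p^{hm}}`, a point of `HL p n (zseq n h (σ z))` over `D`.

Plan.  `‖prf (y^{p^{nm}})‖ ≤ ‖prf y‖^{p^{hm}}` (`norm_prf_pow_le`).  For `pi0_gadd`, `pi0_pow` use `UP.Ur_ev` with
`F = HL p n (zseq n h (cst ∘ z))` (resp. its multiplication series) over `BS C` (`HL_map_zseq`, `map_mulSeries`), and
`(gadd hon y y')^{p^{nm}} = gadd hon (y^{..}) (y'^{..})` (`map_gadd` for `iterateFrobenius`, or `pm_hon`, `pm_gadd`).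
`exists_pi0_ne_zero`: take `w = z₀²`, `prf y = w` (`prf_surj`); by `norm_pm_small` and induction
`(‖z₀‖ ‖w‖)^{p^{hm}} ≤ ‖z₀‖ ‖pm (p^m) w‖` (this is the form that inducts, as `p^h ≥ 2`), and `‖pm (p^m) w‖ ≤ ‖w‖`.
-/

set_option autoImplicit false
open Crest.LubinTate Filter Topology

namespace Crest.Agent.R227

variable (p : ℕ) [hp : Fact p.Prime] {C D : Type*} [NormedField C] [CharP C p] [PerfectRing C p]
  [NormedField D]

/-- the map `π₀`. -/
noncomputable def UP.pi0 (u : UP C D) (n h : ℕ) {r : ℕ} (z : Fin r → C) (y : C) : D :=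
  u.Ur p h (bs fun m => prf p n (zseq n h z) (y ^ p ^ (n * m)))

variable {p} [IsUltrametricDist C] [CompleteSpace C] [IsUltrametricDist D] [CompleteSpace D]
  {n h r : ℕ} {z : Fin r → C}

omit [CharP C p] [PerfectRing C p] [IsUltrametricDist C] [CompleteSpace C] in
theorem norm_pow_p_lt {a : C} (ha : ‖a‖ < 1) (e : ℕ) : ‖a ^ p ^ e‖ < 1 := by
  rw [norm_pow]; exact pow_lt_one₀ (norm_nonneg _) ha (pow_ne_zero _ hp.out.ne_zero)

theorem evm_bs_prf (hh : 1 ≤ h) (hr : h + r = n) (hz : Sm z) {y : C} (hy : ‖y‖ < 1) (m : ℕ) :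
    evm m (bs fun m => prf p n (zseq n h z) (y ^ p ^ (n * m))) =
      prf p n (zseq n h z) (y ^ p ^ (n * m)) :=
  bs_apply (B := 1) (fun m => (norm_prf_lt hh hr hz (norm_pow_p_lt hy _)).le) m

theorem UP.norm_pi0_le (u : UP C D) (hh : 1 ≤ h) (hr : h + r = n) (hz : Sm z) {y : C}
    (hy : ‖y‖ < 1) : ‖u.pi0 p n h z y‖ ≤ ‖prf p n (zseq n h z) y‖ := by
  refine u.norm_Ur_le h (norm_nonneg _) (Eventually.of_forall fun m => ?_)
  rw [evm_bs_prf hh hr hz hy]
  exact norm_prf_pow_le hh hr hz hy m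

theorem UP.norm_pi0_lt (u : UP C D) (hh : 1 ≤ h) (hr : h + r = n) (hz : Sm z) {y : C}
    (hy : ‖y‖ < 1) : ‖u.pi0 p n h z y‖ < 1 :=
  (u.norm_pi0_le hh hr hz hy).trans_lt (norm_prf_lt hh hr hz hy)

theorem UP.pi0_zero (u : UP C D) : u.pi0 p n h z 0 = 0 := by
  have : (bs fun m => prf p n (zseq n h z) ((0 : C) ^ p ^ (n * m))) = 0 := by
    have e : (fun m => prf p n (zseq n h z) ((0 : C) ^ p ^ (n * m))) = fun _ => 0 := by
      funext m
      rw [zero_pow (pow_ne_zero _ hp.out.ne_zero), prf_zero]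
    rw [e]
    exact bs_ext fun m => bs_apply (B := 0) (fun _ => by simp) m
  rw [UP.pi0, this, map_zero]

theorem UP.pi0_gadd (u : UP C D) (hh : 1 ≤ h) (hr : h + r = n) (hz : Sm z) {y y' : C}
    (hy : ‖y‖ < 1) (hy' : ‖y'‖ < 1) :
    u.pi0 p n h z (gadd p n (hon n) y y') =
      gadd p n (zseq n h (fun i => u.sig p h (z i))) (u.pi0 p n h z y) (u.pi0 p n h z y') := by
  have hv := norm_zseq_le n h hz
  have hF : MvPowerSeries.map (u.Ur p h)
      (HL p n (zseq n h fun i => (cst (z i) : BS C))).toPowerSeries =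
        (HL p n (zseq n h fun i => u.Ur p h (cst (z i)))).toPowerSeries :=
    congrArg FormalGroup.toPowerSeries (HL_map_zseq p n h (u.Ur p h) fun i => cst (z i))
  have hF' : ∀ m, MvPowerSeries.map (evm m)
      (HL p n (zseq n h fun i => (cst (z i) : BS C))).toPowerSeries =
        (HL p n (zseq n h z)).toPowerSeries := fun m =>
    congrArg FormalGroup.toPowerSeries (HL_map_zseq p n h (evm m : BS C →+* C) fun i => cst (z i))
  have hρ1 : max ‖prf p n (zseq n h z) y‖ ‖prf p n (zseq n h z) y'‖ < 1 :=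
    max_lt (norm_prf_lt hh hr hz hy) (norm_prf_lt hh hr hz hy')
  have := u.Ur_ev (p := p) h (F := (HL p n (zseq n h fun i => (cst (z i) : BS C))).toPowerSeries)
    (fun m => by rw [hF']; exact bd_HL p hv)
    (y := ![bs fun m => prf p n (zseq n h z) (y ^ p ^ (n * m)),
      bs fun m => prf p n (zseq n h z) (y' ^ p ^ (n * m))])
    (le_max_of_le_left (norm_nonneg _)) hρ1 (Eventually.of_forall fun m i => by
      fin_cases i
      · simp only [Fin.zero_eta, Matrix.cons_val_zero]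
        rw [evm_bs_prf hh hr hz hy]
        exact (norm_prf_pow_le hh hr hz hy m).trans
          (pow_le_pow_left₀ (norm_nonneg _) (le_max_left _ _) _)
      · simp only [Fin.mk_one, Matrix.cons_val_one, Matrix.cons_val_zero]
        rw [evm_bs_prf hh hr hz hy']
        exact (norm_prf_pow_le hh hr hz hy' m).trans
          (pow_le_pow_left₀ (norm_nonneg _) (le_max_right _ _) _))
    (b := bs fun m => prf p n (zseq n h z) (gadd p n (hon n) y y' ^ p ^ (n * m)))
    (Eventually.of_forall fun m => by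
      rw [evm_bs_prf hh hr hz (norm_gadd_lt (norm_hon_le n) hy hy'), hF']
      have e1 := map_gadd (p := p) (n := n) (iterateFrobenius C p (n * m))
        (continuous_pow _) (norm_hon_le n) hy hy'
      simp only [map_hon] at e1
      simp only [iterateFrobenius_def] at e1
      rw [e1, prf_gadd hh hr hz (norm_pow_p_lt hy _) (norm_pow_p_lt hy' _), gadd]
      congr 1
      funext i
      fin_cases i
      · exact (evm_bs_prf hh hr hz hy m).symm
      · exact (evm_bs_prf hh hr hz hy' m).symm)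
  rw [UP.pi0, this, hF, gadd]
  congr 1
  funext i
  fin_cases i <;> rfl

theorem UP.pi0_pow (u : UP C D) (hh : 1 ≤ h) (hr : h + r = n) (hz : Sm z) {y : C}
    (hy : ‖y‖ < 1) (k : ℕ) :
    u.pi0 p n h z (y ^ p ^ (n * k)) =
      pm p n (zseq n h (fun i => u.sig p h (z i))) (p ^ k) (u.pi0 p n h z y) := by
  have hv := norm_zseq_le n h hz
  have hF : PowerSeries.map (u.Ur p h)
      (mulSeries (HL p n (zseq n h fun i => (cst (z i) : BS C))) (p ^ k)) =
        mulSeries (HL p n (zseq n h fun i => u.sig p h (z i))) (p ^ k) := by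
    rw [map_mulSeries, HL_map_zseq]; rfl
  have hF' : ∀ m, PowerSeries.map (evm m)
      (mulSeries (HL p n (zseq n h fun i => (cst (z i) : BS C))) (p ^ k)) =
        mulSeries (HL p n (zseq n h z)) (p ^ k) := fun m => by
    rw [map_mulSeries, HL_map_zseq]; rfl
  have := u.Ur_ev (p := p) h (τ := Unit)
    (F := mulSeries (HL p n (zseq n h fun i => (cst (z i) : BS C))) (p ^ k))
    (fun m => by
      have := bd_mulSeries p (n := n) hv (p ^ k)
      rw [← hF' m] at this
      exact this)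
    (y := fun _ => bs fun m => prf p n (zseq n h z) (y ^ p ^ (n * m)))
    (norm_nonneg _) (norm_prf_lt hh hr hz hy) (Eventually.of_forall fun m _ => by
      rw [evm_bs_prf hh hr hz hy]
      exact norm_prf_pow_le hh hr hz hy m)
    (b := bs fun m => prf p n (zseq n h z) ((y ^ p ^ (n * k)) ^ p ^ (n * m)))
    (Eventually.of_forall fun m => by
      rw [evm_bs_prf hh hr hz (norm_pow_p_lt hy _)]
      change _ = ev1 (PowerSeries.map (evm m) _) _
      rw [hF', evm_bs_prf hh hr hz hy, ← pow_mul, mul_comm, pow_mul,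
        prf_pow hh hr hz (norm_pow_p_lt hy _), pm])
  rw [UP.pi0, this, pm, ← hF]
  rfl

theorem UP.exists_pi0_ne_zero {C : Type*} [NormedField C] [CharP C p] [IsAlgClosed C]
    [IsUltrametricDist C] [CompleteSpace C] {z : Fin r → C} (u : UP C D) (hh : 1 ≤ h)
    (hr : h + r = n) (hr0 : 0 < r) (hz : Sm z) (hz0 : z ⟨0, hr0⟩ ≠ 0) :
    ∃ y : C, ‖y‖ < 1 ∧ u.pi0 p n h z y ≠ 0 := by
  set a := ‖z ⟨0, hr0⟩‖ with ha
  have ha0 : 0 < a := norm_pos_iff.2 hz0
  have ha1 : a < 1 := hz _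
  have hw : ‖z ⟨0, hr0⟩ ^ 2‖ = a ^ 2 := norm_pow _ _
  have hw1 : ‖z ⟨0, hr0⟩ ^ 2‖ < 1 := by rw [hw]; nlinarith
  obtain ⟨y, hy, hyw⟩ := prf_surj (p := p) hh hr hz hw1
  have hv := norm_zseq_le n h hz
  have hQ : 2 ≤ p ^ h := le_trans hp.out.two_le (by
    simpa using Nat.pow_le_pow_right hp.out.pos hh)
  have key : ∀ m, (a * a ^ 2) ^ p ^ (h * m) ≤
      a * ‖pm p n (zseq n h z) (p ^ m) (z ⟨0, hr0⟩ ^ 2)‖ := by
    intro m
    induction m with
    | zero => simp [pm_one, ha]
    | succ m ih =>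
      set b := pm p n (zseq n h z) (p ^ m) (z ⟨0, hr0⟩ ^ 2) with hb
      have hb1 : ‖b‖ ≤ a ^ 2 := (norm_pm_le hv _ hw1).trans_eq hw
      have hb2 : ‖b‖ < 1 := (norm_pm_le hv _ hw1).trans_lt hw1
      have hb3 : ‖b‖ ^ p ^ h < a := by
        refine (pow_le_of_le_one (norm_nonneg _) hb2.le (by omega)).trans_lt (hb1.trans_lt ?_)
        nlinarith
      rw [pow_succ' p m, pm_mul hv _ _ hw1, ← hb,
        norm_pm_small hh hr hr0 (fun i => (hz i).le) hb2 hb3, mul_add, mul_one, pow_add, pow_mul]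
      refine (pow_le_pow_left₀ (by positivity) ih _).trans ?_
      rw [mul_pow, ← mul_assoc, ← ha]
      refine mul_le_mul_of_nonneg_right ?_ (by positivity)
      rw [← pow_two]
      exact pow_le_pow_of_le_one ha0.le ha1.le hQ
  refine ⟨y, hy, fun h0 => ?_⟩
  have := u.le_norm_Ur (p := p) h (a := bs fun m => prf p n (zseq n h z) (y ^ p ^ (n * m)))
    (B := a * a ^ 2) (by positivity) (Eventually.of_forall fun m => by
      rw [evm_bs_prf hh hr hz hy, prf_pow hh hr hz hy, hyw]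
      exact (key m).trans (mul_le_of_le_one_left (norm_nonneg _) ha1.le))
  rw [UP.pi0] at h0
  rw [h0, norm_zero] at this
  have : 0 < a * a ^ 2 := by positivity
  linarith

end Crest.Agent.R227
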