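import Crest.Agent.R227.Pt

/-!
# R227 / Pr : the projection from the universal cover, characteristic `p`

`prf y = lim_k [p^k]_v (y^{1/p^{nk}})` for `v = zseq n h z`, a small deformation of the Honda law of height `n`.

Plan.  With `a_k = pm (p^k) (rt (nk) y)`: `a_{k+1} = pm (p^k) (pm p (rt (n(k+1)) y))` (`pm_mul`) and
`‖pm v p w - w^{p^n}‖ ≤ μ` (`norm_pm_sub_pm` against `hon n = zseq n h 0`, `pm_hon`), so
`‖a_{k+1} - a_k‖ ≤ μ^{p^{hk}}` by `norm_pm_sub_le_pow`.  All other statements are limits of the corresponding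
approximate statements at level `k`: `rt` commutes with `gadd (hon n)` (`map_gadd`, `map_hon`),
`‖gadd hon a b - gadd v a b‖ ≤ μ`, `pm_gadd`.
`exists_prf`: `ζ = lim y_k^{p^{nk}}`, `‖rt (nk) ζ - y_k‖ ≤ μ`.
-/

set_option autoImplicit false
set_option linter.unusedSectionVars false
open Crest.LubinTate Filter Topology

namespace Crest.Agent.R227

variable (p : ℕ) [hp : Fact p.Prime]

/-- `p^j`-th roots. -/
noncomputable def rt {R : Type*} [CommRing R] [CharP R p] [PerfectRing R p] (j : ℕ) : R →+* R :=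
  ((iterateFrobeniusEquiv R p j).symm : R ≃+* R)

section alg
variable {p} {R : Type*} [CommRing R] [CharP R p] [PerfectRing R p]

theorem rt_pow (j : ℕ) (a : R) : rt p j a ^ p ^ j = a := by
  have := (iterateFrobeniusEquiv R p j).apply_symm_apply a
  rwa [iterateFrobeniusEquiv_def] at this

theorem rt_pow' (j : ℕ) (a : R) : rt p j (a ^ p ^ j) = a := by
  have := (iterateFrobeniusEquiv R p j).symm_apply_apply a
  rwa [iterateFrobeniusEquiv_def] at this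

theorem eq_of_pow_eq (j : ℕ) {a b : R} (h : a ^ p ^ j = b ^ p ^ j) : a = b := by
  rw [← rt_pow' (p := p) j a, h, rt_pow']

theorem rt_zero (a : R) : rt p 0 a = a := by
  simpa using rt_pow (p := p) 0 a

theorem rt_add (i j : ℕ) (a : R) : rt p (i + j) a = rt p i (rt p j a) := by
  apply eq_of_pow_eq (p := p) (i + j)
  rw [rt_pow, pow_add, pow_mul, rt_pow, rt_pow]

theorem rt_add_pow (i j : ℕ) (a : R) : rt p (i + j) a ^ p ^ j = rt p i a := by
  rw [add_comm, rt_add, rt_pow]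

theorem rt_pow_add (i j : ℕ) (a : R) : rt p i (a ^ p ^ (i + j)) = a ^ p ^ j := by
  rw [add_comm, pow_add, pow_mul, rt_pow']

theorem map_rt {S : Type*} [CommRing S] [CharP S p] [PerfectRing S p] (ι : R →+* S) (j : ℕ)
    (a : R) : ι (rt p j a) = rt p j (ι a) := by
  apply eq_of_pow_eq (p := p) j
  rw [← map_pow, rt_pow, rt_pow]

theorem rt_of_fixed {N : ℕ} {a : R} (ha : a ^ p ^ N = a) (k : ℕ) : rt p (N * k) a = a := by
  have h : a ^ p ^ (N * k) = a := by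
    induction k with
    | zero => simp
    | succ k ih => rw [mul_add, mul_one, pow_add, pow_mul, ih, ha]
  conv_lhs => rw [← h]
  exact rt_pow' _ _

end alg

variable {C : Type*} [NormedField C] [CharP C p] [PerfectRing C p]

/-- projection from the universal cover. -/
noncomputable def prf (n : ℕ) (v : ℕ → C) (y : C) : C :=
  limUnder atTop (fun k => pm p n v (p ^ k) (rt p (n * k) y))

variable {p}

theorem norm_rt_pow (j : ℕ) (a : C) : ‖rt p j a‖ ^ p ^ j = ‖a‖ := by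
  rw [← norm_pow, rt_pow]

theorem norm_rt_le_iff (j : ℕ) (a : C) {B : ℝ} (hB : 0 ≤ B) : ‖rt p j a‖ ≤ B ↔ ‖a‖ ≤ B ^ p ^ j := by
  rw [← norm_rt_pow (p := p) j a]
  exact (pow_le_pow_iff_left₀ (norm_nonneg _) hB (pow_ne_zero _ hp.out.ne_zero)).symm

theorem le_norm_rt_iff (j : ℕ) (a : C) {B : ℝ} (hB : 0 ≤ B) : B ≤ ‖rt p j a‖ ↔ B ^ p ^ j ≤ ‖a‖ := by
  rw [← norm_rt_pow (p := p) j a]
  exact (pow_le_pow_iff_left₀ hB (norm_nonneg _) (pow_ne_zero _ hp.out.ne_zero)).symm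

theorem norm_rt_lt_one (j : ℕ) {a : C} (ha : ‖a‖ < 1) : ‖rt p j a‖ < 1 := by
  by_contra h
  have := (le_norm_rt_iff j a zero_le_one).1 (not_lt.1 h)
  rw [one_pow] at this
  exact absurd ha (not_lt.2 this)

theorem norm_rt_le_one (j : ℕ) {a : C} (ha : ‖a‖ ≤ 1) : ‖rt p j a‖ ≤ 1 := by
  exact (norm_rt_le_iff j a zero_le_one).2 (by rwa [one_pow])

theorem continuous_rt (j : ℕ) : Continuous (rt p j : C → C) := by
  refine Metric.continuous_iff.2 fun b ε hε => ⟨ε ^ p ^ j, by positivity, fun a ha => ?_⟩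
  rw [dist_eq_norm] at *
  rw [← map_sub]
  by_contra h
  exact absurd ha (not_lt.2 ((le_norm_rt_iff j _ hε.le).1 (not_lt.1 h)))

omit [CharP C p] [PerfectRing C p] in
theorem norm_le_one_of_fixed {N : ℕ} (hN : 1 ≤ N) {a : C} (ha : a ^ p ^ N = a) : ‖a‖ ≤ 1 := by
  by_contra h
  have h1 : 1 < ‖a‖ := not_le.1 h
  have h2 : 1 < p ^ N := Nat.one_lt_pow (by omega) hp.out.one_lt
  have h3 := pow_lt_pow_right₀ h1 h2
  rw [pow_one, ← norm_pow, ha] at h3
  exact lt_irrefl _ h3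

variable [IsUltrametricDist C] [CompleteSpace C] {n h r : ℕ} {z : Fin r → C}

theorem ultra_sub_le {E : Type*} [NormedField E] [IsUltrametricDist E] {a b c : E} {e : ℝ}
    (h1 : ‖a - b‖ ≤ e) (h2 : ‖b - c‖ ≤ e) : ‖a - c‖ ≤ e := by
  have := IsUltrametricDist.norm_add_le_max (a - b) (b - c)
  rw [sub_add_sub_cancel] at this
  exact this.trans (max_le h1 h2)

theorem ultra_lt_one {E : Type*} [NormedField E] [IsUltrametricDist E] {a b : E} {e : ℝ}
    (h1 : ‖a - b‖ ≤ e) (he : e < 1) (h2 : ‖b‖ < 1) : ‖a‖ < 1 := by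
  have := IsUltrametricDist.norm_add_le_max (a - b) b
  rw [sub_add_cancel] at this
  exact this.trans_lt (max_lt (h1.trans_lt he) h2)

theorem ultra_lim {E : Type*} [NormedField E] [IsUltrametricDist E] [CompleteSpace E] {x : ℕ → E}
    {e : ℕ → ℝ} (he : Antitone e) (he0 : Tendsto e atTop (𝓝 0))
    (hx : ∀ k, ‖x (k + 1) - x k‖ ≤ e k) :
    Tendsto x atTop (𝓝 (limUnder atTop x)) ∧ ∀ k, ‖limUnder atTop x - x k‖ ≤ e k := by
  have h1 : ∀ k m, k ≤ m → ‖x m - x k‖ ≤ e k := by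
    intro k m hm
    induction m, hm using Nat.le_induction with
    | base => rw [sub_self, norm_zero]; exact (norm_nonneg _).trans (hx k)
    | succ m hm ih => exact ultra_sub_le ((hx m).trans (he hm)) ih
  have h2 : Tendsto x atTop (𝓝 (limUnder atTop x)) :=
    (cauchySeq_of_le_tendsto_0' e (fun k m hm => by
      rw [dist_comm, dist_eq_norm]; exact h1 k m hm) he0).tendsto_limUnder
  exact ⟨h2, fun k => le_of_tendsto (h2.sub_const (x k)).norm
    ((eventually_ge_atTop k).mono fun m hm => h1 k m hm)⟩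

theorem tendsto_of_norm_sub_le {E : Type*} [NormedField E] {x : ℕ → E} {L : E} {e : ℕ → ℝ}
    (he0 : Tendsto e atTop (𝓝 0)) (hx : ∀ k, ‖x k - L‖ ≤ e k) : Tendsto x atTop (𝓝 L) :=
  tendsto_iff_norm_sub_tendsto_zero.2 (squeeze_zero (fun _ => norm_nonneg _) hx he0)

theorem antitone_mu {μ : ℝ} (hμ0 : 0 ≤ μ) (hμ1 : μ < 1) (h : ℕ) :
    Antitone fun k : ℕ => μ ^ p ^ (h * k) := fun _ _ hab =>
  pow_le_pow_of_le_one hμ0 hμ1.le (Nat.pow_le_pow_right hp.out.pos (Nat.mul_le_mul_left h hab))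

theorem tendsto_mu {μ : ℝ} (hμ0 : 0 ≤ μ) (hμ1 : μ < 1) {h : ℕ} (hh : 1 ≤ h) :
    Tendsto (fun k : ℕ => μ ^ p ^ (h * k)) atTop (𝓝 0) := by
  refine (tendsto_pow_atTop_nhds_zero_of_lt_one hμ0 hμ1).comp
    (tendsto_atTop_mono (fun k => ?_) tendsto_id)
  exact (Nat.le_mul_of_pos_left k hh).trans (Nat.lt_pow_self hp.out.one_lt).le

theorem norm_zseq_sub_hon (hr : h + r = n) {μ : ℝ} (hμ0 : 0 ≤ μ) (hμ : ∀ i, ‖z i‖ ≤ μ) (j : ℕ) :
    ‖zseq n h z j - hon n j‖ ≤ μ := by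
  rw [← zseq_zero n h r hr]
  exact norm_zseq_sub_le n h hμ0 (fun i => by simpa using hμ i) j

theorem norm_pm_close (hh : 1 ≤ h) (hr : h + r = n) (hz : Sm z) (k : ℕ) {a b : C} (ha : ‖a‖ < 1)
    (hb : ‖b‖ < 1) {μ : ℝ} (e : ‖a - b‖ ≤ μ) :
    ‖pm p n (zseq n h z) (p ^ k) a - pm p n (zseq n h z) (p ^ k) b‖ ≤ μ ^ p ^ (h * k) :=
  (norm_pm_sub_le_pow (CharP.cast_eq_zero C p) hh (by omega) (norm_zseq_le n h hz)
    (fun _ _ hj => zseq_eq_zero (by omega) z hj) k ha hb).trans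
    (pow_le_pow_left₀ (norm_nonneg _) e _)

theorem norm_pm_sub_pow (hr : h + r = n) (hn : 1 ≤ n) (hz : Sm z) {μ : ℝ} (hμ0 : 0 ≤ μ)
    (hμ : ∀ i, ‖z i‖ ≤ μ) {w : C} (hw : ‖w‖ < 1) : ‖pm p n (zseq n h z) p w - w ^ p ^ n‖ ≤ μ := by
  have h1 := pm_hon (p := p) (C := C) (CharP.cast_eq_zero C p) hn 1 w
  rw [pow_one, mul_one] at h1
  rw [← h1]
  exact norm_pm_sub_pm (norm_zseq_le n h hz) (norm_hon_le n) p hw hw (norm_zseq_sub_hon hr hμ0 hμ)
    (by rwa [sub_self, norm_zero])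

theorem prf_aux (hh : 1 ≤ h) (hr : h + r = n) {μ : ℝ} (hμ0 : 0 ≤ μ) (hμ1 : μ < 1)
    (hμ : ∀ i, ‖z i‖ ≤ μ) {y : C} (hy : ‖y‖ < 1) :
    Tendsto (fun k => pm p n (zseq n h z) (p ^ k) (rt p (n * k) y)) atTop
      (𝓝 (prf p n (zseq n h z) y)) ∧ ∀ k,
    ‖prf p n (zseq n h z) y - pm p n (zseq n h z) (p ^ k) (rt p (n * k) y)‖ ≤ μ ^ p ^ (h * k) := by
  have hz : Sm z := fun i => (hμ i).trans_lt hμ1
  refine ultra_lim (x := fun k => pm p n (zseq n h z) (p ^ k) (rt p (n * k) y))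
    (antitone_mu hμ0 hμ1 h) (tendsto_mu hμ0 hμ1 hh) fun k => ?_
  have hw := norm_rt_lt_one (p := p) (n * (k + 1)) hy
  rw [pow_succ, pm_mul (norm_zseq_le n h hz) _ _ hw]
  refine norm_pm_close hh hr hz k ((norm_pm_le (norm_zseq_le n h hz) p hw).trans_lt hw)
    (norm_rt_lt_one _ hy) ?_
  have := norm_pm_sub_pow (p := p) hr (by omega) hz hμ0 hμ hw
  rwa [mul_add, mul_one, rt_add_pow, ← mul_add_one] at this

theorem tendsto_prf (hh : 1 ≤ h) (hr : h + r = n) (hz : Sm z) {y : C} (hy : ‖y‖ < 1) :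
    Tendsto (fun k => pm p n (zseq n h z) (p ^ k) (rt p (n * k) y)) atTop
      (𝓝 (prf p n (zseq n h z) y)) := by
  obtain ⟨μ, hμ0, hμ1, hμ⟩ := hz.exists_bound
  exact (prf_aux hh hr hμ0 hμ1 hμ hy).1

theorem norm_prf_sub_pm (hh : 1 ≤ h) (hr : h + r = n) {μ : ℝ} (hμ0 : 0 ≤ μ) (hμ1 : μ < 1)
    (hμ : ∀ i, ‖z i‖ ≤ μ) {y : C} (hy : ‖y‖ < 1) (k : ℕ) :
    ‖prf p n (zseq n h z) y - pm p n (zseq n h z) (p ^ k) (rt p (n * k) y)‖ ≤ μ ^ p ^ (h * k) := by
  exact (prf_aux hh hr hμ0 hμ1 hμ hy).2 k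

theorem norm_prf_sub (hh : 1 ≤ h) (hr : h + r = n) {μ : ℝ} (hμ0 : 0 ≤ μ) (hμ1 : μ < 1)
    (hμ : ∀ i, ‖z i‖ ≤ μ) {y : C} (hy : ‖y‖ < 1) : ‖prf p n (zseq n h z) y - y‖ ≤ μ := by
  have := norm_prf_sub_pm (p := p) hh hr hμ0 hμ1 hμ hy 0
  simpa only [mul_zero, pow_zero, pow_one, rt_zero, pm_one] using this

theorem norm_prf_lt (hh : 1 ≤ h) (hr : h + r = n) (hz : Sm z) {y : C} (hy : ‖y‖ < 1) :
    ‖prf p n (zseq n h z) y‖ < 1 := by
  obtain ⟨μ, hμ0, hμ1, hμ⟩ := hz.exists_bound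
  exact ultra_lt_one (norm_prf_sub hh hr hμ0 hμ1 hμ hy) hμ1 hy

theorem prf_zero : prf p n (zseq n h z) 0 = 0 := by
  unfold prf
  simp only [map_zero, pm_zero_right]
  exact tendsto_const_nhds.limUnder_eq

theorem norm_prf_sub_prf (hh : 1 ≤ h) (hr : h + r = n) (hz : Sm z) {z' : Fin r → C} (hz' : Sm z')
    {ε : ℝ} (hε : 0 ≤ ε) (e : ∀ i, ‖z i - z' i‖ ≤ ε) {y : C} (hy : ‖y‖ < 1) :
    ‖prf p n (zseq n h z) y - prf p n (zseq n h z') y‖ ≤ ε := by
  refine le_of_tendsto' ((tendsto_prf hh hr hz hy).sub (tendsto_prf hh hr hz' hy)).norm fun k => ?_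
  exact norm_pm_sub_pm (norm_zseq_le n h hz) (norm_zseq_le n h hz') _ (norm_rt_lt_one _ hy)
    (norm_rt_lt_one _ hy) (norm_zseq_sub_le n h hε e) (by rwa [sub_self, norm_zero])

theorem tendsto_prf_of (hh : 1 ≤ h) (hr : h + r = n) (hz : Sm z) {y : C} (hy : ‖y‖ < 1)
    {b : ℕ → C} {μ : ℝ} (hμ1 : μ < 1) (hb : ∀ k, ‖b k - rt p (n * k) y‖ ≤ μ) :
    Tendsto (fun k => pm p n (zseq n h z) (p ^ k) (b k)) atTop (𝓝 (prf p n (zseq n h z) y)) := by
  have hμ0 : 0 ≤ μ := (norm_nonneg _).trans (hb 0)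
  have h1 : Tendsto (fun k => pm p n (zseq n h z) (p ^ k) (b k) -
      pm p n (zseq n h z) (p ^ k) (rt p (n * k) y)) atTop (𝓝 0) :=
    tendsto_of_norm_sub_le (tendsto_mu (p := p) hμ0 hμ1 hh) fun k => by
      rw [sub_zero]
      exact norm_pm_close hh hr hz k (ultra_lt_one (hb k) hμ1 (norm_rt_lt_one _ hy))
        (norm_rt_lt_one _ hy) (hb k)
  simpa using h1.add (tendsto_prf hh hr hz hy)

theorem prf_gadd (hh : 1 ≤ h) (hr : h + r = n) (hz : Sm z) {y y' : C} (hy : ‖y‖ < 1)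
    (hy' : ‖y'‖ < 1) : prf p n (zseq n h z) (gadd p n (hon n) y y') =
      gadd p n (zseq n h z) (prf p n (zseq n h z) y) (prf p n (zseq n h z) y') := by
  obtain ⟨μ, hμ0, hμ1, hμ⟩ := hz.exists_bound
  have hv := norm_zseq_le n h hz
  have h1 := tendsto_prf_of (p := p) hh hr hz (norm_gadd_lt (p := p) (n := n) (norm_hon_le n) hy hy')
    (b := fun k => gadd p n (zseq n h z) (rt p (n * k) y) (rt p (n * k) y')) hμ1 fun k => by
      rw [map_gadd (rt p (n * k)) (continuous_rt _) (norm_hon_le n) hy hy']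
      simp only [map_hon]
      exact norm_gadd_sub_gadd hv (norm_hon_le n) (norm_rt_lt_one _ hy) (norm_rt_lt_one _ hy')
        (norm_rt_lt_one _ hy) (norm_rt_lt_one _ hy') (norm_zseq_sub_hon hr hμ0 hμ)
        (by rwa [sub_self, norm_zero]) (by rwa [sub_self, norm_zero])
  refine tendsto_nhds_unique h1 (tendsto_of_norm_sub_le (tendsto_mu (p := p) hμ0 hμ1 hh) fun k => ?_)
  rw [pm_gadd hv _ (norm_rt_lt_one _ hy) (norm_rt_lt_one _ hy')]
  refine norm_gadd_sub_gadd hv hv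
    ((norm_pm_le hv _ (norm_rt_lt_one _ hy)).trans_lt (norm_rt_lt_one _ hy))
    ((norm_pm_le hv _ (norm_rt_lt_one _ hy')).trans_lt (norm_rt_lt_one _ hy'))
    (norm_prf_lt hh hr hz hy) (norm_prf_lt hh hr hz hy')
    (fun j => by rw [sub_self, norm_zero]; positivity) ?_ ?_
  · rw [norm_sub_rev]; exact norm_prf_sub_pm hh hr hμ0 hμ1 hμ hy k
  · rw [norm_sub_rev]; exact norm_prf_sub_pm hh hr hμ0 hμ1 hμ hy' k

theorem prf_pow (hh : 1 ≤ h) (hr : h + r = n) (hz : Sm z) {y : C} (hy : ‖y‖ < 1) (k : ℕ) :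
    prf p n (zseq n h z) (y ^ p ^ (n * k)) =
      pm p n (zseq n h z) (p ^ k) (prf p n (zseq n h z) y) := by
  obtain ⟨μ, hμ0, hμ1, hμ⟩ := hz.exists_bound
  have hv := norm_zseq_le n h hz
  have hy' : ‖y ^ p ^ (n * k)‖ < 1 := by
    rw [norm_pow]; exact pow_lt_one₀ (norm_nonneg _) hy (pow_ne_zero _ hp.out.ne_zero)
  have h1 := (tendsto_prf (p := p) hh hr hz hy').comp (tendsto_add_atTop_nat k)
  refine tendsto_nhds_unique h1 (tendsto_of_norm_sub_le (tendsto_mu (p := p) hμ0 hμ1 hh) fun j => ?_)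
  simp only [Function.comp_apply]
  rw [mul_add, rt_add, rt_pow', add_comm j k, pow_add, pm_mul hv _ _ (norm_rt_lt_one _ hy)]
  refine norm_pm_sub_pm hv hv _
    ((norm_pm_le hv _ (norm_rt_lt_one _ hy)).trans_lt (norm_rt_lt_one _ hy))
    (norm_prf_lt hh hr hz hy) (fun j => by rw [sub_self, norm_zero]; positivity) ?_
  rw [norm_sub_rev]; exact norm_prf_sub_pm hh hr hμ0 hμ1 hμ hy j

theorem norm_prf_pow_le (hh : 1 ≤ h) (hr : h + r = n) (hz : Sm z) {y : C} (hy : ‖y‖ < 1) (k : ℕ) :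
    ‖prf p n (zseq n h z) (y ^ p ^ (n * k))‖ ≤ ‖prf p n (zseq n h z) y‖ ^ p ^ (h * k) := by
  have := norm_pm_close (p := p) hh hr hz k (norm_prf_lt (p := p) hh hr hz hy) (b := 0) (by simp)
    le_rfl
  rwa [pm_zero_right, sub_zero, sub_zero, ← prf_pow hh hr hz hy] at this

theorem map_prf {C' : Type*} [NormedField C'] [CharP C' p] [PerfectRing C' p] (ι : C →+* C')
    (hι : Continuous ι) (hh : 1 ≤ h) (hr : h + r = n) (hz : Sm z) {y : C} (hy : ‖y‖ < 1) :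
    ι (prf p n (zseq n h z) y) = prf p n (zseq n h (fun i => ι (z i))) (ι y) := by
  have h1 := (hι.tendsto _).comp (tendsto_prf (p := p) hh hr hz hy)
  symm
  refine Tendsto.limUnder_eq (h1.congr fun k => ?_)
  simp only [Function.comp_apply]
  rw [map_pm ι hι (norm_zseq_le n h hz) _ (norm_rt_lt_one _ hy), map_rt]
  simp only [map_zseq]

theorem prf_hom (hh : 1 ≤ h) (hr : h + r = n) (hz : Sm z) {z' : Fin r → C} (hz' : Sm z')
    {θ g : PowerSeries C} (hθ : IsFGHom (HL p n (zseq n h z')) (HL p n (zseq n h z)) θ)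
    (hb : Bd θ) (hg : Bd g) (hg0 : PowerSeries.constantCoeff g = 0)
    (hgq : ∀ i, PowerSeries.coeff i g ^ p ^ n = PowerSeries.coeff i g) {μ : ℝ} (hμ : μ < 1)
    (e : ∀ i, ‖PowerSeries.coeff i θ - PowerSeries.coeff i g‖ ≤ μ) {y : C} (hy : ‖y‖ < 1) :
    ev1 θ (prf p n (zseq n h z') y) = prf p n (zseq n h z) (ev1 g y) := by
  obtain ⟨ν, hν0, hν1, hν⟩ := hz'.exists_bound
  have hv := norm_zseq_le n h hz
  have hv' := norm_zseq_le n h hz'
  have h1 := tendsto_prf_of (p := p) hh hr hz ((hg.norm_ev1_le hg0 hy).trans_lt hy)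
    (b := fun k => ev1 θ (rt p (n * k) y)) hμ fun k => by
      have e1 : PowerSeries.map (rt p (n * k)) g = g := by
        ext i
        rw [PowerSeries.coeff_map, rt_of_fixed (hgq i)]
      rw [map_ev1 (rt p (n * k)) (continuous_rt _) hg.an hy, e1]
      refine norm_ev_sub_le_of_coeff hb.an hg.an (fun d => ?_) fun _ => norm_rt_lt_one _ hy
      rw [Finsupp.unique_single d]
      exact e _
  refine tendsto_nhds_unique (tendsto_of_norm_sub_le (tendsto_mu (p := p) hν0 hν1 hh) fun k => ?_) h1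
  rw [← ev1_hom_pm hv hv' hθ hb _ (norm_rt_lt_one _ hy)]
  refine hb.norm_ev_sub_le
    (fun _ => (norm_pm_le hv' _ (norm_rt_lt_one _ hy)).trans_lt (norm_rt_lt_one _ hy))
    (fun _ => norm_prf_lt hh hr hz' hy) (by positivity) fun _ => ?_
  rw [norm_sub_rev]; exact norm_prf_sub_pm hh hr hν0 hν1 hν hy k

theorem exists_prf (hh : 1 ≤ h) (hr : h + r = n) (hz : Sm z) {y : ℕ → C} (hy : ∀ k, ‖y k‖ < 1)
    (hc : ∀ k, pm p n (zseq n h z) p (y (k + 1)) = y k) :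
    ∃ ζ : C, ‖ζ‖ < 1 ∧ ∀ k, prf p n (zseq n h z) (rt p (n * k) ζ) = y k := by
  obtain ⟨μ, hμ0, hμ1, hμ⟩ := hz.exists_bound
  have hv := norm_zseq_le n h hz
  have hn : 1 ≤ n := by omega
  obtain ⟨-, h2⟩ := ultra_lim (x := fun k => y k ^ p ^ (n * k)) (antitone_mu (p := p) hμ0 hμ1 n)
    (tendsto_mu hμ0 hμ1 hn) fun k => by
      rw [mul_add, mul_one, add_comm (n * k) n, pow_add, pow_mul, ← sub_pow_char_pow, norm_pow]
      refine pow_le_pow_left₀ (norm_nonneg _) ?_ _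
      have := norm_pm_sub_pow (p := p) hr hn hz hμ0 hμ (hy (k + 1))
      rwa [hc, norm_sub_rev] at this
  set ζ := limUnder atTop fun k => y k ^ p ^ (n * k) with hζ
  have h3 : ∀ k, ‖y k - rt p (n * k) ζ‖ ≤ μ := by
    intro k
    rw [norm_sub_rev]
    conv_lhs => rw [← rt_pow' (p := p) (n * k) (y k)]
    rw [← map_sub, norm_rt_le_iff _ _ hμ0]
    exact h2 k
  have hζ1 : ‖ζ‖ < 1 := by
    have := h3 0
    rw [mul_zero, rt_zero, norm_sub_rev] at this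
    exact ultra_lt_one this hμ1 (hy 0)
  refine ⟨ζ, hζ1, fun k => ?_⟩
  have h4 := tendsto_prf_of (p := p) hh hr hz (norm_rt_lt_one (p := p) (n * k) hζ1)
    (b := fun j => y (j + k)) hμ1 fun j => by
      rw [← rt_add, ← mul_add]; exact h3 _
  have h5 : ∀ j, pm p n (zseq n h z) (p ^ j) (y (j + k)) = y k := by
    intro j
    induction j with
    | zero => rw [pow_zero, pm_one, zero_add]
    | succ j ih => rw [pow_succ, pm_mul hv _ _ (hy _), add_right_comm, hc, ih]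
  simp only [h5] at h4
  exact tendsto_nhds_unique h4 tendsto_const_nhds

end Crest.Agent.R227
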