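import Crest.Agent.R227.PSer
import Crest.Agent.R227.EvSub

/-!
# R227 / Pt : the group of points of `HL p n v` in the open unit disc

Plan.  `HL p n v = (HL p n v').map (OO C).subtype` with `v'` valued in `OO C` (`HL_map`, `bd_map`), so all series are
`Bd`; closeness of coefficients: `HL_congr`, `mulSeries_HL_congr` for the ideal `{a : OO C | ‖a‖ ≤ ε}`.
Group laws: evaluate `FormalGroup.assoc`, `IsComm.comm`, `add_zero`, `isFGHom` identities with `ev_subst`.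
`norm_gadd_sub_add`: `coeff (single 0 i) F = coeff i (F(X,0)) = coeff i X` and similarly for `Y`, so every other
monomial is divisible by `XY`.  `exists_gadd_neg`: Banach fixed point for `x ↦ x - F(a, x)` on `‖x‖ ≤ ‖a‖`
(it is `‖a‖`-Lipschitz), or construct a formal inverse over `OO C`.
-/

set_option autoImplicit false
set_option linter.unusedSectionVars false
open Crest.LubinTate Filter Topology

namespace Crest.Agent.R227

variable (p : ℕ) [hp : Fact p.Prime] {C : Type*} [NormedField C]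

/-- the formal sum of two points. -/
noncomputable def gadd (n : ℕ) (v : ℕ → C) (a b : C) : C := ev (HL p n v).toPowerSeries ![a, b]

/-- the formal multiple of a point. -/
noncomputable def pm (n : ℕ) (v : ℕ → C) (m : ℕ) (a : C) : C := ev1 (mulSeries (HL p n v) m) a

/-- junk-free parameters. -/
noncomputable def clip (v : ℕ → C) (j : ℕ) : C := if ‖v j‖ ≤ 1 then v j else 0

theorem clip_eq {v : ℕ → C} (hv : ∀ j, ‖v j‖ ≤ 1) : clip v = v := by
  funext j; simp [clip, hv j]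

theorem norm_clip_le (v : ℕ → C) (j : ℕ) : ‖clip v j‖ ≤ 1 := by
  unfold clip; split_ifs with h
  · exact h
  · simp

theorem norm_hon_le (N j : ℕ) : ‖(hon N j : C)‖ ≤ 1 := by
  unfold hon; split_ifs <;> simp

theorem norm_zseq_le (n h : ℕ) {r : ℕ} {z : Fin r → C} (hz : Sm z) (j : ℕ) :
    ‖zseq n h z j‖ ≤ 1 := by
  unfold zseq; split_ifs
  · exact (hz _).le
  · exact norm_hon_le _ _

theorem norm_zseq_le' (n h : ℕ) {r : ℕ} {z : Fin r → C} (hz : ∀ i, ‖z i‖ ≤ 1) (j : ℕ) :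
    ‖zseq n h z j‖ ≤ 1 := by
  unfold zseq; split_ifs
  · exact hz _
  · exact norm_hon_le _ _

theorem zseq_eq_zero {K : Type*} [CommRing K] {n h r : ℕ} (hhn : h ≤ n) (z : Fin r → K) {j : ℕ}
    (hj : j < h) : zseq n h z j = 0 := by
  rw [zseq, dif_neg (by omega), hon, if_neg (by omega)]

theorem zseq_at {K : Type*} [CommRing K] (n h : ℕ) {r : ℕ} (z : Fin r → K) (i : Fin r) :
    zseq n h z (h + i) = z i := by
  rw [zseq, dif_pos ⟨by omega, by simp⟩]; simp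

theorem norm_zseq_sub_le (n h : ℕ) {r : ℕ} {z z' : Fin r → C} {ε : ℝ} (hε : 0 ≤ ε)
    (e : ∀ i, ‖z i - z' i‖ ≤ ε) (j : ℕ) : ‖zseq n h z j - zseq n h z' j‖ ≤ ε := by
  unfold zseq; split_ifs
  · exact e _
  · simpa using hε

variable [IsUltrametricDist C] {n : ℕ} {v : ℕ → C}

theorem coeff_fg_sub {R : Type*} [CommRing R] (F : FormalGroup R) {d : Fin 2 →₀ ℕ}
    (h : d 0 = 0 ∨ d 1 = 0) :
    MvPowerSeries.coeff d (F.toPowerSeries - MvPowerSeries.X 0 - MvPowerSeries.X 1) = 0 := by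
  have h0 := congrArg (MvPowerSeries.coeff d) ((MvPowerSeries.rescale_eq_subst ![1, 0] _).trans
    ((congrArg (MvPowerSeries.subst · F.toPowerSeries) (by
      funext i; fin_cases i <;> simp)).trans (F.add_zero (fgS (fg_constX (0 : Fin 2))))))
  have h1 := congrArg (MvPowerSeries.coeff d) ((MvPowerSeries.rescale_eq_subst ![0, 1] _).trans
    ((congrArg (MvPowerSeries.subst · F.toPowerSeries) (by
      funext i; fin_cases i <;> simp)).trans (F.zero_add (fgS (fg_constX (1 : Fin 2))))))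
  rw [MvPowerSeries.coeff_rescale, Finsupp.prod_fintype _ _ (by simp), Fin.prod_univ_two] at h0 h1
  rw [map_sub, map_sub]
  rcases h with h | h
  · rw [← h1, MvPowerSeries.coeff_X, if_neg (by rintro rfl; simp at h)]; simp [h]
  · rw [← h0, MvPowerSeries.coeff_X, if_neg (by rintro rfl; simp at h)]; simp [h]

theorem coeff_single_fg {R τ : Type*} [CommRing R] (F : FormalGroup R) {A B : MvPowerSeries τ R}
    (hA : MvPowerSeries.constantCoeff A = 0) (hB : MvPowerSeries.constantCoeff B = 0) (t : τ) :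
    MvPowerSeries.coeff (Finsupp.single t 1)
      (MvPowerSeries.subst ![A, B] F.toPowerSeries : MvPowerSeries τ R) =
      MvPowerSeries.coeff (Finsupp.single t 1) A + MvPowerSeries.coeff (Finsupp.single t 1) B := by
  have hs := fgS2 hA hB
  have h1 := MvPowerSeries.le_order_subst hs
    (F.toPowerSeries - MvPowerSeries.X 0 - MvPowerSeries.X 1)
  have h2 : ((2 : ℕ) : ℕ∞) ≤ (F.toPowerSeries - MvPowerSeries.X 0 - MvPowerSeries.X 1).order :=
    MvPowerSeries.nat_le_order fun d hd => coeff_fg_sub F (by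
      rw [Finsupp.degree_eq_sum, Fin.sum_univ_two] at hd; omega)
  have h3 : 1 ≤ ⨅ i, (![A, B] i).order := le_iInf fun i =>
    MvPowerSeries.one_le_order_iff_constCoeff_eq_zero.2 (by fin_cases i <;> assumption)
  have h4 := MvPowerSeries.coeff_of_lt_order (d := Finsupp.single t 1)
    (lt_of_lt_of_le (by simp) ((h2.trans (le_mul_of_one_le_left' h3)).trans h1))
  rw [MvPowerSeries.subst_sub hs, MvPowerSeries.subst_sub hs, MvPowerSeries.subst_X hs,
    MvPowerSeries.subst_X hs, map_sub, map_sub, sub_sub, sub_eq_zero] at h4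
  exact h4

omit hp in
theorem sm2 {a b : C} (ha : ‖a‖ < 1) (hb : ‖b‖ < 1) : Sm ![a, b] := fun i => by
  fin_cases i <;> assumption

theorem HL_eq_map (hv : ∀ j, ‖v j‖ ≤ 1) :
    HL p n v = (HL p n fun j => (⟨v j, hv j⟩ : OO C)).map (OO C).subtype := by
  rw [HL_map]; exact congrArg (HL p n) rfl

/-- a closed ball as an ideal of `OO C`. -/
def ballI (C : Type*) [NormedField C] [IsUltrametricDist C] {ε : ℝ} (hε : 0 ≤ ε) :
    Ideal (OO C) where
  carrier := {a | ‖(a : C)‖ ≤ ε}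
  add_mem' := fun {a b} ha hb =>
    (IsUltrametricDist.norm_add_le_max (a : C) b).trans (max_le ha hb)
  zero_mem' := by simpa using hε
  smul_mem' := fun c a ha => by
    change ‖(c : C) * a‖ ≤ ε
    rw [norm_mul]
    exact (mul_le_of_le_one_left (norm_nonneg _) c.2).trans ha

theorem bd_HL (hv : ∀ j, ‖v j‖ ≤ 1) : Bd (HL p n v).toPowerSeries := by
  rw [HL_eq_map p hv]; exact bd_map _ (fun a => a.2) _

theorem bd_mulSeries (hv : ∀ j, ‖v j‖ ≤ 1) (m : ℕ) : Bd (mulSeries (HL p n v) m) := by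
  rw [HL_eq_map p hv, ← map_mulSeries]; exact bd_map _ (fun a => a.2) _

theorem norm_coeff_HL_sub {v' : ℕ → C} (hv : ∀ j, ‖v j‖ ≤ 1) (hv' : ∀ j, ‖v' j‖ ≤ 1) {ε : ℝ}
    (e : ∀ j, ‖v j - v' j‖ ≤ ε) (d : Fin 2 →₀ ℕ) :
    ‖MvPowerSeries.coeff d (HL p n v).toPowerSeries -
      MvPowerSeries.coeff d (HL p n v').toPowerSeries‖ ≤ ε := by
  rw [HL_eq_map p hv, HL_eq_map p hv']
  exact HL_congr p n (ballI C ((norm_nonneg _).trans (e 0))) (v := fun j => ⟨v j, hv j⟩)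
    (v' := fun j => ⟨v' j, hv' j⟩) e d

theorem norm_coeff_mulSeries_sub {v' : ℕ → C} (hv : ∀ j, ‖v j‖ ≤ 1) (hv' : ∀ j, ‖v' j‖ ≤ 1) {ε : ℝ}
    (e : ∀ j, ‖v j - v' j‖ ≤ ε) (m i : ℕ) :
    ‖PowerSeries.coeff i (mulSeries (HL p n v) m) -
      PowerSeries.coeff i (mulSeries (HL p n v') m)‖ ≤ ε := by
  rw [HL_eq_map p hv, HL_eq_map p hv', ← map_mulSeries, ← map_mulSeries]
  exact mulSeries_HL_congr p n (ballI C ((norm_nonneg _).trans (e 0))) (v := fun j => ⟨v j, hv j⟩)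
    (v' := fun j => ⟨v' j, hv' j⟩) e m i

variable {p} [CompleteSpace C]

theorem norm_gadd_sub_add (hv : ∀ j, ‖v j‖ ≤ 1) {a b : C} (ha : ‖a‖ < 1) (hb : ‖b‖ < 1) :
    ‖gadd p n v a b - (a + b)‖ ≤ ‖a‖ * ‖b‖ := by
  have h1 := (bd_HL p (n := n) hv).sub (bd_X 0)
  have h2 := ev_sub h1.an (bd_X 1).an (sm2 ha hb)
  rw [ev_sub (bd_HL p hv).an (bd_X 0).an (sm2 ha hb), ev_X, ev_X] at h2
  rw [← sub_sub]
  refine le_of_eq_of_le (congrArg _ h2.symm) (norm_ev_le fun d => ?_)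
  by_cases h : d 0 = 0 ∨ d 1 = 0
  · rw [coeff_fg_sub _ h, norm_zero, zero_mul]; positivity
  · rw [not_or] at h
    refine (mul_le_of_le_one_left (norm_nonneg _) (h1.sub (bd_X 1) d)).trans ?_
    rw [mono, Finsupp.prod_fintype _ _ (by simp), Fin.prod_univ_two, norm_mul, norm_pow, norm_pow]
    exact mul_le_mul (pow_le_of_le_one (norm_nonneg _) ha.le h.1)
      (pow_le_of_le_one (norm_nonneg _) hb.le h.2) (by positivity) (norm_nonneg _)

theorem norm_gadd_le (hv : ∀ j, ‖v j‖ ≤ 1) {a b : C} (ha : ‖a‖ < 1) (hb : ‖b‖ < 1) :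
    ‖gadd p n v a b‖ ≤ max ‖a‖ ‖b‖ := by
  exact (bd_HL p hv).norm_ev_le (HL p n v).zero_constantCoeff (le_max_of_le_left (norm_nonneg _))
    (max_le ha.le hb.le) fun i => by fin_cases i <;> simp

theorem norm_gadd_lt (hv : ∀ j, ‖v j‖ ≤ 1) {a b : C} (ha : ‖a‖ < 1) (hb : ‖b‖ < 1) :
    ‖gadd p n v a b‖ < 1 := (norm_gadd_le hv ha hb).trans_lt (max_lt ha hb)

theorem gadd_zero (hv : ∀ j, ‖v j‖ ≤ 1) {a : C} (ha : ‖a‖ < 1) : gadd p n v a 0 = a := by
  simpa [sub_eq_zero] using norm_gadd_sub_add (p := p) (n := n) hv ha (b := 0) (by simp)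

theorem zero_gadd (hv : ∀ j, ‖v j‖ ≤ 1) {a : C} (ha : ‖a‖ < 1) : gadd p n v 0 a = a := by
  simpa [sub_eq_zero] using norm_gadd_sub_add (p := p) (n := n) hv (a := 0) (by simp) ha

theorem ev_subst_HL' {τ : Type*} [Finite τ] (hv : ∀ j, ‖v j‖ ≤ 1) {A B : MvPowerSeries τ C}
    (hA : Bd A) (hB : Bd B) (hA0 : MvPowerSeries.constantCoeff A = 0)
    (hB0 : MvPowerSeries.constantCoeff B = 0) {y : τ → C} (hy : Sm y) :
    ev (MvPowerSeries.subst ![A, B] (HL p n v).toPowerSeries : MvPowerSeries τ C) y =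
      gadd p n v (ev A y) (ev B y) := by
  rw [ev_subst (bd_HL p hv).an (fun i => by fin_cases i <;> assumption)
    (fun i => by fin_cases i <;> assumption) hy, gadd]
  congr 1
  funext i; fin_cases i <;> rfl

theorem bd_subst_HL {τ : Type*} [Finite τ] (hv : ∀ j, ‖v j‖ ≤ 1) {A B : MvPowerSeries τ C}
    (hA : Bd A) (hB : Bd B) (hA0 : MvPowerSeries.constantCoeff A = 0)
    (hB0 : MvPowerSeries.constantCoeff B = 0) :
    Bd (MvPowerSeries.subst ![A, B] (HL p n v).toPowerSeries : MvPowerSeries τ C) :=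
  (bd_HL p hv).subst (fun i => by fin_cases i <;> assumption)
    (fun i => by fin_cases i <;> assumption)

theorem gadd_comm (hv : ∀ j, ‖v j‖ ≤ 1) {a b : C} (ha : ‖a‖ < 1) (hb : ‖b‖ < 1) :
    gadd p n v a b = gadd p n v b a := by
  have h := congrArg (ev · ![a, b]) (FormalGroup.IsComm.comm (F := HL p n v))
  refine h.trans ((ev_subst_HL' hv (bd_X 1) (bd_X 0) (fg_constX _) (fg_constX _)
    (sm2 ha hb)).trans ?_)
  rw [ev_X, ev_X]; rfl

theorem gadd_assoc (hv : ∀ j, ‖v j‖ ≤ 1) {a b c : C} (ha : ‖a‖ < 1) (hb : ‖b‖ < 1)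
    (hc : ‖c‖ < 1) : gadd p n v (gadd p n v a b) c = gadd p n v a (gadd p n v b c) := by
  have hs : Sm ![a, b, c] := fun i => by fin_cases i <;> assumption
  have h := congrArg (ev · ![a, b, c]) ((HL p n v).assoc' (fgS (fg_constX (0 : Fin 3)))
    (fgS (fg_constX (1 : Fin 3))) (fgS (fg_constX (2 : Fin 3))))
  have x := fun i : Fin 3 => fg_constX (R := C) i
  simp only [ev_subst_HL' hv (bd_subst_HL hv (bd_X _) (bd_X _) (x _) (x _)) (bd_X _)
    (fg_const2 _ (x _) (x _)) (x _) hs, ev_subst_HL' hv (bd_X _)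
    (bd_subst_HL hv (bd_X _) (bd_X _) (x _) (x _)) (x _) (fg_const2 _ (x _) (x _)) hs,
    ev_subst_HL' hv (bd_X _) (bd_X _) (x _) (x _) hs, ev_X] at h
  exact h

theorem exists_gadd_neg (hv : ∀ j, ‖v j‖ ≤ 1) {a : C} (ha : ‖a‖ < 1) :
    ∃ b : C, ‖b‖ < 1 ∧ gadd p n v b a = 0 := by
  have ha0 := norm_nonneg a
  set b : ℕ → C := fun k => (fun b => gadd p n v (-gadd p n v b a) b)^[k] 0 with hb
  have hs : ∀ k, b (k + 1) = gadd p n v (-gadd p n v (b k) a) (b k) := fun k =>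
    Function.iterate_succ_apply' _ _ _
  have hle : ∀ k, ‖a‖ * ‖a‖ ^ k ≤ ‖a‖ := fun k => mul_le_of_le_one_right ha0 (pow_le_one₀ ha0 ha.le)
  have inv : ∀ k, ‖b k‖ ≤ ‖a‖ ∧ ‖gadd p n v (b k) a‖ ≤ ‖a‖ * ‖a‖ ^ k := fun k => by
    induction k with
    | zero => rw [show b 0 = 0 from rfl, zero_gadd hv ha]; simp
    | succ k ih =>
      have h1 := ih.2.trans (hle k)
      have h2 : ‖-gadd p n v (b k) a‖ < 1 := by rw [norm_neg]; exact h1.trans_lt ha
      rw [hs, gadd_assoc hv h2 (ih.1.trans_lt ha) ha]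
      refine ⟨(norm_gadd_le hv h2 (ih.1.trans_lt ha)).trans
        (max_le (by rw [norm_neg]; exact h1) ih.1), ?_⟩
      have h3 := norm_gadd_sub_add (p := p) (n := n) hv h2 (h1.trans_lt ha)
      rw [neg_add_cancel, sub_zero, norm_neg] at h3
      rw [pow_succ, ← mul_assoc]
      exact h3.trans (mul_le_mul ih.2 h1 (norm_nonneg _) (by positivity))
  have lip : ∀ {x x' y y' : C} {ε : ℝ}, ‖x‖ < 1 → ‖x'‖ < 1 → ‖y‖ < 1 → ‖y'‖ < 1 → ‖x - x'‖ ≤ ε →
      ‖y - y'‖ ≤ ε → ‖gadd p n v x y - gadd p n v x' y'‖ ≤ ε := fun h1 h2 h3 h4 h5 h6 =>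
    (bd_HL p hv).norm_ev_sub_le (sm2 h1 h3) (sm2 h2 h4) ((norm_nonneg _).trans h5)
      fun i => by fin_cases i <;> assumption
  obtain ⟨w, hw⟩ := cauchySeq_tendsto_of_complete (cauchySeq_of_le_geometric ‖a‖ ‖a‖ ha
    (f := b) fun k => by
      have h1 := (inv k).1.trans_lt ha
      rw [dist_comm, dist_eq_norm, hs]
      nth_rw 3 [← zero_gadd (p := p) (n := n) hv h1]
      exact lip (by rw [norm_neg]; exact ((inv k).2.trans (hle k)).trans_lt ha) (by simp) h1 h1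
        (by rw [sub_zero, norm_neg]; exact (inv k).2) (by rw [sub_self, norm_zero]; positivity))
  have hw1 : ‖w‖ < 1 := (le_of_tendsto' hw.norm fun k => (inv k).1).trans_lt ha
  refine ⟨w, hw1, tendsto_nhds_unique (f := fun k => gadd p n v (b k) a) (l := atTop) ?_ ?_⟩
  · rw [tendsto_iff_norm_sub_tendsto_zero] at hw ⊢
    exact squeeze_zero (fun _ => norm_nonneg _) (fun k => lip ((inv k).1.trans_lt ha) hw1 ha ha
      le_rfl (by simp)) hw
  · exact squeeze_zero_norm (fun k => (inv k).2.trans (mul_le_of_le_one_left (by positivity) ha.le))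
      (tendsto_pow_atTop_nhds_zero_of_lt_one ha0 ha)

omit hp [CompleteSpace C] in
theorem norm_sub_le_of_le {a b c : C} {ε : ℝ} (h1 : ‖a - b‖ ≤ ε) (h2 : ‖b - c‖ ≤ ε) :
    ‖a - c‖ ≤ ε := by
  rw [← sub_add_sub_cancel a b c]
  exact (IsUltrametricDist.norm_add_le_max _ _).trans (max_le h1 h2)

theorem norm_gadd_sub_gadd {v' : ℕ → C} (hv : ∀ j, ‖v j‖ ≤ 1) (hv' : ∀ j, ‖v' j‖ ≤ 1)
    {a b a' b' : C} (ha : ‖a‖ < 1) (hb : ‖b‖ < 1) (ha' : ‖a'‖ < 1) (hb' : ‖b'‖ < 1) {ε : ℝ}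
    (e : ∀ j, ‖v j - v' j‖ ≤ ε) (ea : ‖a - a'‖ ≤ ε) (eb : ‖b - b'‖ ≤ ε) :
    ‖gadd p n v a b - gadd p n v' a' b'‖ ≤ ε := by
  exact norm_sub_le_of_le ((bd_HL p hv).norm_ev_sub_le (sm2 ha hb) (sm2 ha' hb')
    ((norm_nonneg _).trans ea) fun i => by fin_cases i <;> assumption)
    (norm_ev_sub_le_of_coeff (bd_HL p hv).an (bd_HL p hv').an (norm_coeff_HL_sub p hv hv' e)
      (sm2 ha' hb'))

theorem ev_subst_HL {τ : Type*} [Finite τ] (hv : ∀ j, ‖v j‖ ≤ 1) {A B : MvPowerSeries τ C}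
    (hA : Bd A) (hB : Bd B) (hA0 : MvPowerSeries.constantCoeff A = 0)
    (hB0 : MvPowerSeries.constantCoeff B = 0) {y : τ → C} (hy : Sm y) :
    ev (MvPowerSeries.subst ![A, B] (HL p n v).toPowerSeries : MvPowerSeries τ C) y =
      gadd p n v (ev A y) (ev B y) := by
  exact ev_subst_HL' hv hA hB hA0 hB0 hy

theorem ev1_fadd (hv : ∀ j, ‖v j‖ ≤ 1) {A B : PowerSeries C} (hA : Bd A) (hB : Bd B)
    (hA0 : PowerSeries.constantCoeff A = 0) (hB0 : PowerSeries.constantCoeff B = 0) {y : C}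
    (hy : ‖y‖ < 1) : ev1 (fadd (HL p n v) A B) y = gadd p n v (ev1 A y) (ev1 B y) := by
  exact ev_subst_HL' hv hA hB hA0 hB0 fun _ => hy

theorem norm_pm_le (hv : ∀ j, ‖v j‖ ≤ 1) (m : ℕ) {a : C} (ha : ‖a‖ < 1) :
    ‖pm p n v m a‖ ≤ ‖a‖ := by
  exact (bd_mulSeries p hv m).norm_ev1_le (const_mulSeries _ m) ha

theorem pm_zero_right (m : ℕ) : pm p n v m 0 = 0 := by
  rw [pm, ev1_zero_right, const_mulSeries]

theorem pm_one {a : C} : pm p n v 1 a = a := by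
  rw [pm, mulSeries_one, ev1_X]

theorem pm_succ (hv : ∀ j, ‖v j‖ ≤ 1) (m : ℕ) {a : C} (ha : ‖a‖ < 1) :
    pm p n v (m + 1) a = gadd p n v (pm p n v m a) a := by
  rw [pm, mulSeries_succ, ev1_fadd (B := PowerSeries.X) hv (bd_mulSeries p hv m) (bd_X ())
    (const_mulSeries _ m)
    PowerSeries.constantCoeff_X ha, ev1_X, pm]

theorem pm_mul (hv : ∀ j, ‖v j‖ ≤ 1) (m m' : ℕ) {a : C} (ha : ‖a‖ < 1) :
    pm p n v (m * m') a = pm p n v m (pm p n v m' a) := by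
  rw [pm, mulSeries_mul, ev1_cmp (bd_mulSeries p hv m).an (bd_mulSeries p hv m')
    (const_mulSeries _ m') ha, pm, pm]

theorem ev1_hom_gadd' {n' : ℕ} {v' : ℕ → C} (hv : ∀ j, ‖v j‖ ≤ 1) (hv' : ∀ j, ‖v' j‖ ≤ 1)
    {θ : PowerSeries C} (hθ : IsFGHom (HL p n' v') (HL p n v) θ) (hb : Bd θ) {a b : C}
    (ha : ‖a‖ < 1) (hb' : ‖b‖ < 1) :
    ev1 θ (gadd p n' v' a b) = gadd p n v (ev1 θ a) (ev1 θ b) := by
  have h := congrArg (ev · ![a, b]) hθ.2
  have x := fun i : Fin 2 => fg_constX (R := C) i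
  simp only [ev_subst1 hb.an (bd_HL p hv') (HL p n' v').zero_constantCoeff (sm2 ha hb'),
    ev_subst_HL' hv (hb.subst1 (bd_X _) (x _)) (hb.subst1 (bd_X _) (x _)) (fg_const1 (x _) hθ.1)
      (fg_const1 (x _) hθ.1) (sm2 ha hb'), ev_subst1 hb.an (bd_X _) (x _) (sm2 ha hb'), ev_X] at h
  exact h

theorem pm_gadd (hv : ∀ j, ‖v j‖ ≤ 1) (m : ℕ) {a b : C} (ha : ‖a‖ < 1) (hb : ‖b‖ < 1) :
    pm p n v m (gadd p n v a b) = gadd p n v (pm p n v m a) (pm p n v m b) := by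
  exact ev1_hom_gadd' hv hv (isFGHom_mulSeries _ m) (bd_mulSeries p hv m) ha hb

theorem norm_pm_sub_pm {v' : ℕ → C} (hv : ∀ j, ‖v j‖ ≤ 1) (hv' : ∀ j, ‖v' j‖ ≤ 1) (m : ℕ)
    {a a' : C} (ha : ‖a‖ < 1) (ha' : ‖a'‖ < 1) {ε : ℝ} (e : ∀ j, ‖v j - v' j‖ ≤ ε)
    (ea : ‖a - a'‖ ≤ ε) : ‖pm p n v m a - pm p n v' m a'‖ ≤ ε := by
  exact norm_sub_le_of_le ((bd_mulSeries p hv m).norm_ev_sub_le (fun _ => ha) (fun _ => ha')
    ((norm_nonneg _).trans ea) fun _ => ea)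
    (norm_ev_sub_le_of_coeff (bd_mulSeries p hv m).an (bd_mulSeries p hv' m).an
      (forall_unit.2 (norm_coeff_mulSeries_sub p hv hv' e m)) fun _ => ha')

theorem ev1_hom_gadd {n' : ℕ} {v' : ℕ → C} (hv : ∀ j, ‖v j‖ ≤ 1) (hv' : ∀ j, ‖v' j‖ ≤ 1)
    {θ : PowerSeries C} (hθ : IsFGHom (HL p n' v') (HL p n v) θ) (hb : Bd θ) {a b : C}
    (ha : ‖a‖ < 1) (hb' : ‖b‖ < 1) :
    ev1 θ (gadd p n' v' a b) = gadd p n v (ev1 θ a) (ev1 θ b) := by
  exact ev1_hom_gadd' hv hv' hθ hb ha hb'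

theorem ev1_hom_pm {n' : ℕ} {v' : ℕ → C} (hv : ∀ j, ‖v j‖ ≤ 1) (hv' : ∀ j, ‖v' j‖ ≤ 1)
    {θ : PowerSeries C} (hθ : IsFGHom (HL p n' v') (HL p n v) θ) (hb : Bd θ) (m : ℕ) {a : C}
    (ha : ‖a‖ < 1) : ev1 θ (pm p n' v' m a) = pm p n v m (ev1 θ a) := by
  rw [pm, pm, ← ev1_cmp hb.an (bd_mulSeries p hv' m) (const_mulSeries _ m) ha,
    isFGHom_cmp_mulSeries hθ, ev1_cmp (bd_mulSeries p hv m).an hb hθ.1 ha]

theorem map_gadd {C' : Type*} [NormedField C'] (ι : C →+* C') (hι : Continuous ι)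
    (hv : ∀ j, ‖v j‖ ≤ 1) {a b : C} (ha : ‖a‖ < 1) (hb : ‖b‖ < 1) :
    ι (gadd p n v a b) = gadd p n (fun j => ι (v j)) (ι a) (ι b) := by
  rw [gadd, map_ev ι hι (bd_HL p hv).an (sm2 ha hb), gadd, ← HL_map]
  congr 1
  funext i; fin_cases i <;> rfl

theorem map_pm {C' : Type*} [NormedField C'] (ι : C →+* C') (hι : Continuous ι)
    (hv : ∀ j, ‖v j‖ ≤ 1) (m : ℕ) {a : C} (ha : ‖a‖ < 1) :
    ι (pm p n v m a) = pm p n (fun j => ι (v j)) m (ι a) := by
  rw [pm, map_ev1 ι hι (bd_mulSeries p hv m).an ha, map_mulSeries, HL_map, pm]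

theorem pm_hon (hC : (p : C) = 0) {N : ℕ} (hN : 1 ≤ N) (k : ℕ) (a : C) :
    pm p N (hon N) (p ^ k) a = a ^ p ^ (N * k) := by
  simpa [pm, pser_hon_pow p hC hN] using ev1_C_mul_X_pow 1 (p ^ (N * k)) a

/-- in characteristic `p` and height `≥ h`, `[p^k]` contracts. -/
theorem norm_pm_sub_le_pow (hC : (p : C) = 0) {h : ℕ} (hh : 1 ≤ h) (hhn : h ≤ n)
    (hv : ∀ j, ‖v j‖ ≤ 1) (hv0 : ∀ j, 1 ≤ j → j < h → v j = 0) (k : ℕ) {a b : C}
    (ha : ‖a‖ < 1) (hb : ‖b‖ < 1) :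
    ‖pm p n v (p ^ k) a - pm p n v (p ^ k) b‖ ≤ ‖a - b‖ ^ p ^ (h * k) := by
  have : CharP C p := (CharP.charP_iff_prime_eq_zero hp.out).2 hC
  obtain ⟨V, -, hV⟩ := exists_pser_pow_charP p hC hh hhn v hv0 k
  have hq : p ^ (h * k) ≠ 0 := pow_ne_zero _ hp.out.ne_zero
  have hb' : Bd V := (bd_expand_iff hq).1 (hV ▸ bd_mulSeries p hv _)
  have hl : ∀ {x : C}, ‖x‖ < 1 → ‖x ^ p ^ (h * k)‖ < 1 := fun hx => by
    rw [norm_pow]; exact pow_lt_one₀ (norm_nonneg _) hx hq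
  rw [pm, pm, hV, ev1_expand hb'.an hq ha, ev1_expand hb'.an hq hb]
  exact hb'.norm_ev_sub_le (fun _ => hl ha) (fun _ => hl hb) (by positivity) fun _ => by
    rw [← sub_pow_char_pow, norm_pow]

/-- points of the open unit disc, with the group law `HL p n v`. -/
@[ext] structure Pt {C : Type*} [NormedField C] (p n : ℕ) (v : ℕ → C) where
  val : C
  lt : ‖val‖ < 1

namespace Pt

instance : Zero (Pt p n v) := ⟨⟨0, by simp⟩⟩

noncomputable instance : Add (Pt p n v) :=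
  ⟨fun a b => ⟨gadd p n (clip v) a.val b.val, norm_gadd_lt (norm_clip_le v) a.lt b.lt⟩⟩

noncomputable instance : Neg (Pt p n v) :=
  ⟨fun a => ⟨(exists_gadd_neg (p := p) (n := n) (norm_clip_le v) a.lt).choose,
    (exists_gadd_neg (p := p) (n := n) (norm_clip_le v) a.lt).choose_spec.1⟩⟩

noncomputable instance : AddCommGroup (Pt p n v) where
  add_assoc a b c := Pt.ext (gadd_assoc (norm_clip_le v) a.lt b.lt c.lt)
  zero_add a := Pt.ext (zero_gadd (norm_clip_le v) a.lt)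
  add_zero a := Pt.ext (gadd_zero (norm_clip_le v) a.lt)
  nsmul := nsmulRec
  zsmul := zsmulRec
  neg_add_cancel a :=
    Pt.ext (exists_gadd_neg (p := p) (n := n) (norm_clip_le v) a.lt).choose_spec.2
  add_comm a b := Pt.ext (gadd_comm (norm_clip_le v) a.lt b.lt)

@[simp] theorem val_zero : (0 : Pt p n v).val = 0 := rfl

theorem val_add (hv : ∀ j, ‖v j‖ ≤ 1) (a b : Pt p n v) :
    (a + b).val = gadd p n v a.val b.val := by
  show gadd p n (clip v) a.val b.val = _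
  rw [clip_eq hv]

theorem val_nsmul (hv : ∀ j, ‖v j‖ ≤ 1) (m : ℕ) (a : Pt p n v) :
    (m • a).val = pm p n v m a.val := by
  induction m with
  | zero => rw [zero_nsmul, val_zero]; exact (ev_zero_left _).symm
  | succ m ih => rw [succ_nsmul, val_add hv, ih, pm_succ hv m a.lt]

theorem norm_val_add_sub (a b : Pt p n v) : ‖(a + b).val - (a.val + b.val)‖ ≤ ‖a.val‖ * ‖b.val‖ :=
  norm_gadd_sub_add (norm_clip_le v) a.lt b.lt

theorem norm_val_add_sub' (a b : Pt p n v) : ‖(a + b).val - b.val‖ = ‖a.val‖ := by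
  have h := norm_val_add_sub a b
  rcases (norm_nonneg a.val).eq_or_lt with h0 | h0
  · rw [← h0, zero_mul, norm_le_zero_iff, sub_eq_zero] at h
    rw [h, add_sub_cancel_right]
  · have h1 := h.trans_lt (mul_lt_of_lt_one_right h0 b.lt)
    rw [show (a + b).val - b.val = (a + b).val - (a.val + b.val) + a.val by ring,
      IsUltrametricDist.norm_add_eq_max_of_norm_ne_norm h1.ne, max_eq_right h1.le]

theorem norm_val_neg (a : Pt p n v) : ‖(-a).val‖ = ‖a.val‖ := by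
  simpa using (norm_val_add_sub' (-a) a).symm

theorem norm_val_sub (a b : Pt p n v) : ‖(a - b).val‖ = ‖a.val - b.val‖ := by
  simpa using (norm_val_add_sub' (a - b) b).symm

theorem norm_val_sum_le {ι : Type*} (s : Finset ι) (a : ι → Pt p n v) {ρ : ℝ} (hρ : 0 ≤ ρ)
    (h : ∀ i ∈ s, ‖(a i).val‖ ≤ ρ) : ‖(∑ i ∈ s, a i).val‖ ≤ ρ := by
  exact Finset.sum_induction _ (fun x : Pt p n v => ‖x.val‖ ≤ ρ) (fun x y hx hy =>
    (norm_gadd_le (norm_clip_le v) x.lt y.lt).trans (max_le hx hy)) (by simpa using hρ) h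

theorem norm_val_sum_sub_le {ι : Type*} (s : Finset ι) (a b : ι → Pt p n v) {ε : ℝ} (hε : 0 ≤ ε)
    (h : ∀ i ∈ s, ‖(a i).val - (b i).val‖ ≤ ε) :
    ‖(∑ i ∈ s, a i).val - (∑ i ∈ s, b i).val‖ ≤ ε := by
  rw [← norm_val_sub, ← Finset.sum_sub_distrib]
  exact norm_val_sum_le _ _ hε fun i hi => by rw [norm_val_sub]; exact h i hi

/-- the formal sum agrees with the ordinary sum to first order. -/
theorem norm_val_sum_sub_sum_le {ι : Type*} (s : Finset ι) (a : ι → Pt p n v) {ρ : ℝ} (hρ : 0 ≤ ρ)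
    (h : ∀ i ∈ s, ‖(a i).val‖ ≤ ρ) : ‖(∑ i ∈ s, a i).val - ∑ i ∈ s, (a i).val‖ ≤ ρ ^ 2 := by
  classical
  induction s using Finset.induction_on with
  | empty => simpa using sq_nonneg ρ
  | insert i s hi ih =>
    have h' := fun j hj => h j (Finset.mem_insert_of_mem hj)
    rw [Finset.sum_insert hi, Finset.sum_insert hi]
    refine norm_sub_le_of_le ((norm_val_add_sub _ _).trans ?_) (by simpa using ih h')
    rw [sq]
    exact mul_le_mul (h i (Finset.mem_insert_self _ _)) (norm_val_sum_le s a hρ h')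
      (norm_nonneg _) hρ

end Pt

open Classical in
/-- a field element as a point (junk value `0`). -/
noncomputable def toPt {C : Type*} [NormedField C] (p n : ℕ) (v : ℕ → C) (a : C) : Pt p n v :=
  if h : ‖a‖ < 1 then ⟨a, h⟩ else 0

theorem val_toPt {a : C} (ha : ‖a‖ < 1) : (toPt p n v a).val = a := by
  simp [toPt, ha]

theorem toPt_val (a : Pt p n v) : toPt p n v a.val = a := by
  simp [toPt, a.lt]

theorem toPt_gadd (hv : ∀ j, ‖v j‖ ≤ 1) {a b : C} (ha : ‖a‖ < 1) (hb : ‖b‖ < 1) :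
    toPt p n v (gadd p n v a b) = toPt p n v a + toPt p n v b := by
  exact Pt.ext (by rw [Pt.val_add hv, val_toPt ha, val_toPt hb, val_toPt (norm_gadd_lt hv ha hb)])

/-- the homomorphism on points induced by a bounded homomorphism of laws. -/
theorem exists_homPt {n' : ℕ} {v' : ℕ → C} (hv : ∀ j, ‖v j‖ ≤ 1) (hv' : ∀ j, ‖v' j‖ ≤ 1)
    {θ : PowerSeries C} (hθ : IsFGHom (HL p n' v') (HL p n v) θ) (hb : Bd θ) :
    ∃ Φ : Pt p n' v' →+ Pt p n v, ∀ a, (Φ a).val = ev1 θ a.val := by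
  refine ⟨AddMonoidHom.mk' (fun a => ⟨ev1 θ a.val, (hb.norm_ev1_le hθ.1 a.lt).trans_lt a.lt⟩)
    fun a b => Pt.ext ?_, fun _ => rfl⟩
  rw [Pt.val_add hv]
  exact (congrArg (ev1 θ) (Pt.val_add hv' a b)).trans (ev1_hom_gadd hv hv' hθ hb a.lt b.lt)

/-- the formal sum of finitely many series over a ring `κ → O_C`, for the Honda law. -/
theorem exists_fsum {κ τ ι : Type*} [CommRing κ] [Finite τ] (N : ℕ) (s : Finset ι)
    (A : ι → MvPowerSeries τ κ) (hA : ∀ i, MvPowerSeries.constantCoeff (A i) = 0)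
    (j : κ →+* C) (hj : ∀ a, ‖j a‖ ≤ 1) :
    ∃ B : MvPowerSeries τ κ, MvPowerSeries.constantCoeff B = 0 ∧
      (∀ t, MvPowerSeries.coeff (Finsupp.single t 1) B =
        ∑ i ∈ s, MvPowerSeries.coeff (Finsupp.single t 1) (A i)) ∧
      ∀ w : τ → C, Sm w → ev (MvPowerSeries.map j B) w =
        (∑ i ∈ s, toPt p N (hon N) (ev (MvPowerSeries.map j (A i)) w)).val := by
  classical
  have c0 : ∀ {B : MvPowerSeries τ κ}, MvPowerSeries.constantCoeff B = 0 →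
      MvPowerSeries.constantCoeff (MvPowerSeries.map j B) = 0 := fun h => by
    rw [MvPowerSeries.constantCoeff_map, h, map_zero]
  induction s using Finset.induction_on with
  | empty => exact ⟨0, map_zero _, by simp, fun w _ => by simp [ev_zero_left]⟩
  | insert i s hi ih =>
    obtain ⟨B, h0, h1, h2⟩ := ih
    refine ⟨MvPowerSeries.subst ![A i, B] (HL p N (hon N : ℕ → κ)).toPowerSeries,
      fg_const2 _ (hA i) h0, fun t => ?_, fun w hw => ?_⟩
    · rw [coeff_single_fg _ (hA i) h0, Finset.sum_insert hi, h1]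
    · rw [fg_map2 j (hA i) h0, ← FormalGroup.map_toPowerSeries, HL_map_hon,
        ev_subst_HL (norm_hon_le N) (bd_map j hj _) (bd_map j hj _) (c0 (hA i)) (c0 h0) hw,
        Finset.sum_insert hi, Pt.val_add (norm_hon_le N), h2 w hw,
        val_toPt ((bd_map j hj _).norm_ev_lt_one (c0 (hA i)) hw)]

end Crest.Agent.R227
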