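import Crest.Agent.R227.Rigid

/-!
# R227 / Radical : reduction of the radical case to the prime case

Plan.
* `wstable_minimalPrimes`: the minimal primes over `J` form a finite set; for `P ≠ P'` among them `P' ⊄ P`, and by
  Krull's intersection theorem in `E ⧸ P` (`Ideal.iInf_pow_eq_bot_of_isLocalRing`, or
  `Ideal.iInf_pow_smul_eq_bot…`) there is `N` with `P' ⊄ P + 𝔪^N`; take `N` uniform.  For `m ≥ max m₀ N 1` and a
  stabilizer map `φ` (bijective by `stab_bijective`, `φ a - a ∈ chain0 m ≤ 𝔪^{m+1}` by `rigid`),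
  `P' = comap φ P` is a minimal prime over `comap φ J = J` and `P' ≤ P + 𝔪^N`, so `P' = P`.
* `radical_eq_Jid`: all minimal primes are `Jid h`'s, which are totally ordered, so there is exactly one,
  and `J = radical J = sInf minimalPrimes` (`Ideal.sInf_minimalPrimes`).
-/

set_option autoImplicit false
open Crest.LubinTate

namespace Crest.Agent.R227

variable {p : ℕ} [hp : Fact p.Prime] {n : ℕ}

/-- stability under the elements `1 + p^m c`, `m` large. -/
def WStable (J : Ideal (LTRing p n)) : Prop :=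
  ∃ m₀ : ℕ, ∀ m ≥ m₀, ∀ (c : ℕ → WittVector p (GaloisField p n))
    (φ : LTRing p n →ₐ[WittVector p (GaloisField p n)] LTRing p n),
    IsStabilizerMap p n (HH p n) (hend p n (pert p m c)) φ → Ideal.comap φ.toRingHom J = J

theorem wstable_of_stable (hn : 1 ≤ n) {M : ℕ} {J : Ideal (LTRing p n)}
    (hJ : IsStableIdeal p n (GG p n) (HH p n) M J) : WStable J := by
  refine ⟨M + 1, fun m hm c φ hφ => ?_⟩
  refine hJ _ φ (isFGAut_pert hn (by omega) c) (fun i hi => ?_) hφ
  refine coeff_hend_pert hn (galois_pow n hn) m c i ?_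
  calc i < M := hi
    _ ≤ m := by omega
    _ ≤ n * m := Nat.le_mul_of_pos_left m hn
    _ < p ^ (n * m) := Nat.lt_pow_self hp.out.one_lt

theorem exists_not_le_sup_pow {R : Type*} [CommRing R] [IsLocalRing R] [IsNoetherianRing R]
    {P Q : Ideal R} (hP : P ≠ ⊤) (h : ¬ Q ≤ P) :
    ∃ N : ℕ, ¬ Q ≤ P ⊔ IsLocalRing.maximalIdeal R ^ N := by
  by_contra hc
  push Not at hc
  apply h
  have : Nontrivial (R ⧸ P) := Ideal.Quotient.nontrivial_iff.mpr hP
  have hloc : IsLocalRing (R ⧸ P) :=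
    IsLocalRing.of_surjective' (Ideal.Quotient.mk P) Ideal.Quotient.mk_surjective
  have hlh : IsLocalHom (Ideal.Quotient.mk P) :=
    IsLocalHom.of_surjective _ Ideal.Quotient.mk_surjective
  have hbot := Ideal.iInf_pow_eq_bot_of_isLocalRing (IsLocalRing.maximalIdeal (R ⧸ P))
    (IsLocalRing.maximalIdeal.isMaximal _).ne_top
  intro a ha
  rw [← Ideal.Quotient.eq_zero_iff_mem, ← Ideal.mem_bot, ← hbot, Ideal.mem_iInf]
  intro N
  obtain ⟨y, hy, z, hz, rfl⟩ := Submodule.mem_sup.mp (hc N ha)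
  rw [map_add, Ideal.Quotient.eq_zero_iff_mem.mpr hy, zero_add]
  have h1 : Ideal.map (Ideal.Quotient.mk P) (IsLocalRing.maximalIdeal R) ≤
      IsLocalRing.maximalIdeal (R ⧸ P) := by
    rw [Ideal.map_le_iff_le_comap]
    intro x hx
    exact map_nonunit (Ideal.Quotient.mk P) x hx
  have h2 := Ideal.mem_map_of_mem (Ideal.Quotient.mk P) hz
  rw [Ideal.map_pow] at h2
  exact Ideal.pow_right_mono h1 N h2

theorem wstable_minimalPrimes (hn : 1 ≤ n) (hU : IsUniversalDeformation p n (GG p n) (HH p n))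
    {J : Ideal (LTRing p n)} (hJ : WStable J) {P : Ideal (LTRing p n)}
    (hP : P ∈ J.minimalPrimes) : WStable P := by
  classical
  obtain ⟨m₀, hm₀⟩ := hJ
  have hPp : P.IsPrime := hP.isPrime
  have hfin := Ideal.finite_minimalPrimes_of_isNoetherianRing (LTRing p n) J
  have hex : ∀ Q : Ideal (LTRing p n), ∃ N : ℕ,
      Q ≤ P ⊔ IsLocalRing.maximalIdeal (LTRing p n) ^ N → Q ≤ P := by
    intro Q
    by_cases h : Q ≤ P
    · exact ⟨0, fun _ => h⟩
    · obtain ⟨N, hN⟩ := exists_not_le_sup_pow hPp.ne_top h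
      exact ⟨N, fun h' => absurd h' hN⟩
  choose f hf using hex
  obtain ⟨N, hN⟩ := (hfin.image f).bddAbove
  refine ⟨m₀ + N + 1, fun m hm c φ hφ => ?_⟩
  have hJφ := hm₀ m (by omega) c φ hφ
  have hbij := (stab_bijective hn (isFGAut_pert hn (by omega) c).2 hφ).1
  obtain ⟨hres, θ, hθ, hg⟩ := hφ
  have hrig := (rigid hn hU (isChn_chain0 hn) (m := m) (by omega) c φ hres hθ hg).1
  have hmin : Ideal.comap φ.toRingHom P ∈ J.minimalPrimes := by
    have h1 := Ideal.comap_minimalPrimes_eq_of_surjective (f := φ.toRingHom) hbij.2 J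
    rw [hJφ] at h1
    rw [h1]
    exact ⟨P, hP, rfl⟩
  have hle : Ideal.comap φ.toRingHom P ≤ P := by
    apply hf
    intro a ha
    have h1 : φ a ∈ P := ha
    have h2 : φ a - a ∈ IsLocalRing.maximalIdeal (LTRing p n) ^ f (Ideal.comap φ.toRingHom P) := by
      refine Ideal.pow_le_pow_right ?_ (chain0_le m (hrig a))
      have := hN ⟨_, hmin, rfl⟩
      omega
    have : a = φ a - (φ a - a) := by ring
    rw [this]
    exact Ideal.sub_mem _ (Ideal.mem_sup_left h1) (Ideal.mem_sup_right h2)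
  exact le_antisymm hle (hP.2 hmin.1 hle)

theorem radical_eq_Jid (hn : 1 ≤ n) (hU : IsUniversalDeformation p n (GG p n) (HH p n))
    (hprime : ∀ P : Ideal (LTRing p n), P.IsPrime → WStable P → ∃ h ≤ n, P = Jid p n h)
    {J : Ideal (LTRing p n)} (hrad : J.IsRadical) (hJ : WStable J) (htop : J ≠ ⊤) :
    ∃ h ≤ n, J = Jid p n h := by
  obtain ⟨P, hP⟩ := J.nonempty_minimalPrimes htop
  obtain ⟨h, hh, hPh⟩ := hprime P hP.isPrime (wstable_minimalPrimes hn hU hJ hP)
  refine ⟨h, hh, ?_⟩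
  rw [← hPh]
  refine le_antisymm hP.1.2 ?_
  rw [← hrad.radical, ← Ideal.sInf_minimalPrimes]
  refine le_sInf fun Q hQ => ?_
  obtain ⟨h', -, hQh⟩ := hprime Q hQ.isPrime (wstable_minimalPrimes hn hU hJ hQ)
  rcases le_total h h' with e | e
  · rw [hPh, hQh]; exact Jid_mono p n e
  · exact hP.2 hQ.1 (by rw [hPh, hQh]; exact Jid_mono p n e)

end Crest.Agent.R227
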