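import Crest.Agent.R227.Transfer

/-!
# R227 / Rigid : the action of `1 + p^m c` is congruent to the identity

Plan.
* `exists_stab`: lift `g` to `ĝ` over `E` (unit linear coefficient), `s` its inverse, `G` the transport of `H`
  along `s`; `G.map residue = Γ` (`transport_unique`, using that the inverse of `g` is an automorphism).
  Universality with `B = E` gives `φ`, `θ`; take `ĝ ∘ θ`.
* `cong_pser`: `[p] = V(X^p) + p W` (`exists_pser` with `h = 1`); `α ≡ β mod I` gives
  `α^p ≡ β^p mod pI + I^p` (write `α = β + δ`, `exists_add_pow_prime_eq`-type expansion: the middle terms are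
  `p β δ r`) and substitution respects congruences (`Cong.subst`: map to `R ⧸ I`, `PowerSeries.map_subst`).
* `cong_pser_charP`: modulo `J`, `[p] = V(X^{p^h})` and `α^{p^h} - β^{p^h} = (α - β)^{p^h}`.
* `cmp_cancel`: induction on `j`: `δ ∘ s = 0` and `δ ∈ 𝔪^j⟦X⟧` imply `δ ∈ 𝔪^{j+1}⟦X⟧`: if `s ≡ X^N mod 𝔪` then
  `coeff (N i) (δ ∘ s) ≡ δ_i mod 𝔪^{j+1}`.
* `rigid`: `B = E ⧸ 𝔞 m` (local, Noetherian, `𝔪_B` nilpotent hence complete), `π : E → B`.  `ê` a lift of
  `e = hend c`.  `ê(HH(X,Y)) ≡ HH(ê X, ê Y) mod 𝔪 = 𝔞 0`; applying `[p]` `m` times (`IsChn.step`, `mulSeries_mul`)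
  shows that `[p^m] ∘ ê` is an endomorphism of `HH.map π`; so is `θ₀ = HH(X, [p^m] ê)` (`isFGHom_fadd`), and it
  reduces to `hend (pert m c)` (`hend_pert`, `pser_hon_pow`).  Apply uniqueness in the universal property
  to `G = HH.map (π φ)`: `π φ` works with `X`, and `π` works with `(π θ)⁻¹ ∘ θ₀`; so `π φ = π`.  Then `π θ` and
  `θ₀` are endomorphisms of `HH.map π` congruent mod `𝔪_B`; by iterating `cong_pser`,
  `[p^N] ∘ πθ = [p^N] ∘ θ₀` for `N` large, i.e. `πθ ∘ [p^N] = θ₀ ∘ [p^N]`, and `cmp_cancel` applies.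
-/

set_option autoImplicit false
open Crest.LubinTate

namespace Crest.Agent.R227

/-- coefficientwise congruence. -/
def Cong {R τ : Type*} [CommRing R] (I : Ideal R) (α β : MvPowerSeries τ R) : Prop :=
  ∀ d, MvPowerSeries.coeff d α - MvPowerSeries.coeff d β ∈ I

section general
variable {R τ : Type*} [CommRing R]

theorem cong_ker {S : Type*} [CommRing S] (ρ : R →+* S) (α β : MvPowerSeries τ R) :
    Cong (RingHom.ker ρ) α β ↔ MvPowerSeries.map ρ α = MvPowerSeries.map ρ β := by
  rw [MvPowerSeries.ext_iff]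
  refine forall_congr' fun d => ?_
  rw [RingHom.mem_ker, map_sub, sub_eq_zero, MvPowerSeries.coeff_map, MvPowerSeries.coeff_map]

theorem cong_iff_map (I : Ideal R) (α β : MvPowerSeries τ R) :
    Cong I α β ↔ MvPowerSeries.map (Ideal.Quotient.mk I) α =
      MvPowerSeries.map (Ideal.Quotient.mk I) β := by
  rw [← cong_ker, Ideal.mk_ker]

theorem Cong.mono {I J : Ideal R} {α β : MvPowerSeries τ R} (h : Cong I α β) (e : I ≤ J) :
    Cong J α β := fun d => e (h d)

theorem coeff_mul_mem {I J : Ideal R} {α β : MvPowerSeries τ R}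
    (ha : ∀ d, MvPowerSeries.coeff d α ∈ I) (hb : ∀ d, MvPowerSeries.coeff d β ∈ J) (d : τ →₀ ℕ) :
    MvPowerSeries.coeff d (α * β) ∈ I * J := by
  classical
  rw [MvPowerSeries.coeff_mul]
  exact Ideal.sum_mem _ fun x _ => Ideal.mul_mem_mul (ha _) (hb _)

theorem coeff_pow_mem {I : Ideal R} {α : MvPowerSeries τ R}
    (ha : ∀ d, MvPowerSeries.coeff d α ∈ I) (k : ℕ) (d : τ →₀ ℕ) :
    MvPowerSeries.coeff d (α ^ k) ∈ I ^ k := by
  induction k generalizing d with
  | zero => simp
  | succ k ih => rw [pow_succ, pow_succ]; exact coeff_mul_mem ih ha d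

theorem Cong.pow {I : Ideal R} {α β : MvPowerSeries τ R} (h : Cong I α β) (k : ℕ) :
    Cong I (α ^ k) (β ^ k) := by
  rw [cong_iff_map] at h ⊢
  rw [map_pow, map_pow, h]

theorem const_map_zero {S : Type*} [CommRing S] (ρ : R →+* S) {α : MvPowerSeries τ R}
    (hα : MvPowerSeries.constantCoeff α = 0) :
    MvPowerSeries.constantCoeff (MvPowerSeries.map ρ α) = 0 := by
  rw [MvPowerSeries.constantCoeff_map, hα, map_zero]

theorem const_map_zero' {S : Type*} [CommRing S] (ρ : R →+* S) {α : PowerSeries R}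
    (hα : PowerSeries.constantCoeff α = 0) :
    PowerSeries.constantCoeff (PowerSeries.map ρ α) = 0 := const_map_zero ρ hα

theorem subst_expand' {α : MvPowerSeries τ R} (hα : MvPowerSeries.constantCoeff α = 0) {q : ℕ}
    (hq : q ≠ 0) (V : PowerSeries R) :
    PowerSeries.subst α (PowerSeries.expand q hq V) = PowerSeries.subst (α ^ q) V := by
  have h := PowerSeries.HasSubst.of_constantCoeff_zero hα
  rw [PowerSeries.expand_apply,
    PowerSeries.subst_comp_subst_apply (PowerSeries.HasSubst.X_pow hq) h,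
    PowerSeries.subst_pow h, PowerSeries.subst_X h]

theorem subst_cmp_rg {α : MvPowerSeries τ R} (hα : MvPowerSeries.constantCoeff α = 0)
    (f : PowerSeries R) {g : PowerSeries R} (hg : PowerSeries.constantCoeff g = 0) :
    PowerSeries.subst α (cmp f g) = PowerSeries.subst (PowerSeries.subst α g) f :=
  PowerSeries.subst_comp_subst_apply (PowerSeries.HasSubst.of_constantCoeff_zero' hg)
    (PowerSeries.HasSubst.of_constantCoeff_zero hα) f

theorem sup_pow_le' (J K : Ideal R) (N : ℕ) : (J ⊔ K) ^ N ≤ J ⊔ K ^ N := by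
  induction N with
  | zero => simp
  | succ N ih =>
    rw [pow_succ, pow_succ]
    refine (Ideal.mul_mono_left ih).trans ?_
    rw [Ideal.sup_mul, Ideal.mul_sup, Ideal.mul_sup]
    refine sup_le (sup_le ?_ ?_) (sup_le ?_ le_sup_right)
    · exact Ideal.mul_le_left.trans le_sup_left
    · exact Ideal.mul_le_left.trans le_sup_left
    · exact Ideal.mul_le_right.trans le_sup_left

theorem isAdicComplete_of_pow_eq_bot {I : Ideal R} {L : ℕ} (hI : I ^ L = ⊥) :
    IsAdicComplete I R where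
  haus' := fun x hx => by
    have := hx L
    rw [hI] at this
    simpa using this
  prec' := fun f hf => by
    refine ⟨f L, fun k => ?_⟩
    rcases le_total k L with h | h
    · exact hf h
    · have h1 := hf h
      rw [hI] at h1
      have h2 : f L = f k := by simpa using h1
      rw [h2]

theorem hom_iff_cong {S : Type*} [CommRing S] (ρ : R →+* S) (F : FormalGroup R)
    {η : PowerSeries R} (hη : PowerSeries.constantCoeff η = 0) :
    IsFGHom (F.map ρ) (F.map ρ) (PowerSeries.map ρ η) ↔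
      Cong (RingHom.ker ρ) (PowerSeries.subst F.toPowerSeries η)
        (F.toPowerSeries.subst ![PowerSeries.subst (MvPowerSeries.X 0 : MvPowerSeries (Fin 2) R) η,
          PowerSeries.subst (MvPowerSeries.X 1 : MvPowerSeries (Fin 2) R) η]) := by
  have h0 : ∀ i : Fin 2, MvPowerSeries.constantCoeff
      (PowerSeries.subst (MvPowerSeries.X i : MvPowerSeries (Fin 2) R) η) = 0 := fun i =>
    PowerSeries.constantCoeff_subst_eq_zero (MvPowerSeries.constantCoeff_X i) η hη
  have hs : MvPowerSeries.HasSubst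
      ![PowerSeries.subst (MvPowerSeries.X 0 : MvPowerSeries (Fin 2) R) η,
          PowerSeries.subst (MvPowerSeries.X 1 : MvPowerSeries (Fin 2) R) η] :=
    MvPowerSeries.hasSubst_of_constantCoeff_zero fun i => by fin_cases i <;> simp [h0]
  have h1 : (fun i => MvPowerSeries.map ρ
      (![PowerSeries.subst (MvPowerSeries.X 0 : MvPowerSeries (Fin 2) R) η,
          PowerSeries.subst (MvPowerSeries.X 1 : MvPowerSeries (Fin 2) R) η] i)) =
      ![PowerSeries.subst (MvPowerSeries.X 0 : MvPowerSeries (Fin 2) S) (PowerSeries.map ρ η),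
          PowerSeries.subst (MvPowerSeries.X 1 : MvPowerSeries (Fin 2) S)
            (PowerSeries.map ρ η)] := by
    funext i
    fin_cases i <;>
      simp [PowerSeries.map_subst (PowerSeries.HasSubst.X _), MvPowerSeries.map_X]
  rw [cong_ker, PowerSeries.map_subst (.of_constantCoeff_zero F.zero_constantCoeff),
    MvPowerSeries.map_subst hs, h1, IsFGHom]
  exact ⟨fun h => h.2, fun h => ⟨const_map_zero' ρ hη, h⟩⟩

theorem Cong.subst {I : Ideal R} {α β : MvPowerSeries τ R} (h : Cong I α β)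
    (hα : MvPowerSeries.constantCoeff α = 0) (hβ : MvPowerSeries.constantCoeff β = 0)
    (f : PowerSeries R) : Cong I (PowerSeries.subst α f) (PowerSeries.subst β f) := by
  rw [cong_iff_map] at h ⊢
  rw [PowerSeries.map_subst (.of_constantCoeff_zero hα),
    PowerSeries.map_subst (.of_constantCoeff_zero hβ), h]

variable (p : ℕ) [hp : Fact p.Prime]

theorem cong_pow_prime {I : Ideal R} {α β : MvPowerSeries τ R} (e : Cong I α β) (h : ℕ) :
    Cong (Ideal.span {(p : R)} * I ⊔ I ^ (p ^ h)) (α ^ p ^ h) (β ^ p ^ h) := by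
  obtain ⟨r, hr⟩ := exists_add_pow_prime_pow_eq hp.out β (α - β) h
  have hδ : ∀ d, MvPowerSeries.coeff d (α - β) ∈ I := fun d => by rw [map_sub]; exact e d
  intro d
  rw [add_sub_cancel] at hr
  have h1 : α ^ p ^ h - β ^ p ^ h = (p : R) • ((α - β) * (β * r)) + (α - β) ^ p ^ h := by
    rw [hr, Algebra.smul_def, map_natCast]; ring
  rw [← map_sub, h1, map_add, MvPowerSeries.coeff_smul]
  refine Ideal.add_mem _ (Ideal.mem_sup_left ?_) (Ideal.mem_sup_right (coeff_pow_mem hδ _ d))
  refine Ideal.mul_mem_mul (Ideal.mem_span_singleton_self _) ?_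
  have := coeff_mul_mem (J := ⊤) (β := β * r) hδ (fun _ => trivial) d
  rwa [Ideal.mul_top] at this

theorem cong_pser {n : ℕ} (hn : 1 ≤ n) (v : ℕ → R) {I : Ideal R} {α β : MvPowerSeries τ R}
    (h : Cong I α β) (hα : MvPowerSeries.constantCoeff α = 0)
    (hβ : MvPowerSeries.constantCoeff β = 0) :
    Cong (Ideal.span {(p : R)} * I ⊔ I ^ p) (PowerSeries.subst α (mulSeries (HL p n v) p))
      (PowerSeries.subst β (mulSeries (HL p n v) p)) := by
  obtain ⟨V, W, -, -, -, e⟩ := exists_pser p (h := 1) le_rfl hn v (fun j h1 h2 => by omega)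
  have ha := PowerSeries.HasSubst.of_constantCoeff_zero hα
  have hb := PowerSeries.HasSubst.of_constantCoeff_zero hβ
  have h1 := (cong_pow_prime p h 1).subst (by simp [hα, hp.out.ne_zero])
    (by simp [hβ, hp.out.ne_zero]) V
  have h2 := h.subst hα hβ W
  intro d
  rw [e, PowerSeries.subst_add ha, PowerSeries.subst_add hb, subst_expand' hα, subst_expand' hβ,
    PowerSeries.subst_smul ha, PowerSeries.subst_smul hb, map_add, map_add,
    MvPowerSeries.coeff_smul, MvPowerSeries.coeff_smul, add_sub_add_comm, ← mul_sub]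
  refine Ideal.add_mem _ ?_ (Ideal.mem_sup_left
    (Ideal.mul_mem_mul (Ideal.mem_span_singleton_self _) (h2 d)))
  have := h1 d
  rwa [pow_one p] at this ⊢

theorem cong_pser_charP {n h : ℕ} (hh : 1 ≤ h) (hhn : h ≤ n) (v : ℕ → R) {J : Ideal R}
    (hpJ : (p : R) ∈ J) (hv : ∀ j, 1 ≤ j → j < h → v j ∈ J) {I : Ideal R}
    {α β : MvPowerSeries τ R} (e : Cong I α β) (hα : MvPowerSeries.constantCoeff α = 0)
    (hβ : MvPowerSeries.constantCoeff β = 0) :
    Cong (J ⊔ I ^ (p ^ h)) (PowerSeries.subst α (mulSeries (HL p n v) p))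
      (PowerSeries.subst β (mulSeries (HL p n v) p)) := by
  set K := J ⊔ I ^ (p ^ h) with hK
  have h1 : Cong K (α ^ p ^ h) (β ^ p ^ h) := (cong_pow_prime p e h).mono
    (sup_le_sup_right (Ideal.mul_le_left.trans ((Ideal.span_singleton_le_iff_mem _).2 hpJ)) _)
  rw [cong_iff_map] at h1 ⊢
  have hz : ∀ a ∈ J, Ideal.Quotient.mk K a = 0 := fun a ha =>
    Ideal.Quotient.eq_zero_iff_mem.2 (Ideal.mem_sup_left ha)
  obtain ⟨V, -, -, hV⟩ := exists_pser_charP p (R := R ⧸ K)
    (by rw [← map_natCast (Ideal.Quotient.mk K)]; exact hz _ hpJ) hh hhn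
    (fun j => Ideal.Quotient.mk K (v j)) (fun j h1 h2 => hz _ (hv j h1 h2))
  rw [PowerSeries.map_subst (.of_constantCoeff_zero hα),
    PowerSeries.map_subst (.of_constantCoeff_zero hβ), map_mulSeries, HL_map, hV,
    subst_expand' (const_map_zero _ hα), subst_expand' (const_map_zero _ hβ), ← map_pow, ← map_pow,
    h1]

theorem cong_pser_iter {n : ℕ} (hn : 1 ≤ n) (v : ℕ → R) {I : Ideal R} (hI : (p : R) ∈ I)
    {a b : PowerSeries R} (h : Cong I a b) (ha : PowerSeries.constantCoeff a = 0)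
    (hb : PowerSeries.constantCoeff b = 0) (j : ℕ) :
    Cong (I ^ (j + 1)) (cmp (mulSeries (HL p n v) (p ^ j)) a)
      (cmp (mulSeries (HL p n v) (p ^ j)) b) := by
  induction j with
  | zero => rw [pow_zero, mulSeries_one, X_cmp ha, X_cmp hb, zero_add, pow_one]; exact h
  | succ j ih =>
    rw [pow_succ' p, mulSeries_mul, cmp_assoc _ (const_mulSeries _ _) ha,
      cmp_assoc _ (const_mulSeries _ _) hb]
    refine (cong_pser p hn v ih (const_cmp (const_mulSeries _ _) ha)
      (const_cmp (const_mulSeries _ _) hb)).mono (sup_le ?_ ?_)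
    · rw [pow_succ' I (j + 1)]
      exact Ideal.mul_mono_left ((Ideal.span_singleton_le_iff_mem _).2 hI)
    · rw [← pow_mul]
      refine Ideal.pow_le_pow_right ?_
      have := hp.out.two_le
      nlinarith

theorem cmp_cancel {I : Ideal R} {L : ℕ} (hI : I ^ L = ⊥) {s a b : PowerSeries R} {N : ℕ}
    (hN : N ≠ 0) (hs0 : PowerSeries.constantCoeff s = 0) (hs : Cong I s (PowerSeries.X ^ N))
    (h : cmp a s = cmp b s) : a = b := by
  have hss := PowerSeries.HasSubst.of_constantCoeff_zero' hs0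
  have hx : PowerSeries.HasSubst (PowerSeries.X ^ N : PowerSeries R) := .X_pow hN
  have h0 : PowerSeries.subst s (a - b) = 0 := by
    rw [PowerSeries.subst_sub hss]; exact sub_eq_zero.2 h
  have key : ∀ j i, PowerSeries.coeff i (a - b) ∈ I ^ j := by
    intro j
    induction j with
    | zero => simp
    | succ j ih =>
      intro i
      have h1 : PowerSeries.coeff (N * i) (PowerSeries.subst (PowerSeries.X ^ N : PowerSeries R)
          (a - b)) = PowerSeries.coeff i (a - b) := by
        rw [PowerSeries.coeff_subst_X_pow hN, if_pos (dvd_mul_right _ _),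
          Nat.mul_div_cancel_left _ (Nat.pos_of_ne_zero hN)]
        rfl
      have h2 : PowerSeries.coeff (N * i) (PowerSeries.subst s (a - b)) = 0 := by rw [h0, map_zero]
      rw [← h1, ← neg_mem_iff, ← zero_sub, ← h2, PowerSeries.coeff_subst' hss,
        PowerSeries.coeff_subst' hx, ← finsum_sub_distrib (PowerSeries.coeff_subst_finite' hss _ _)
          (PowerSeries.coeff_subst_finite' hx _ _)]
      refine finsum_induction (fun x => x ∈ I ^ (j + 1)) (Ideal.zero_mem _)
        (fun x y => Ideal.add_mem _) fun d => ?_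
      rw [smul_eq_mul, smul_eq_mul, ← mul_sub, pow_succ]
      exact Ideal.mul_mem_mul (ih d) (hs.pow d _)
  ext i
  have := key L i
  rw [hI, Ideal.mem_bot, map_sub] at this
  exact sub_eq_zero.1 this

end general

variable {p : ℕ} [hp : Fact p.Prime] {n : ℕ}

theorem exists_stab {Γ : FormalGroup (GaloisField p n)} {H : FormalGroup (LTRing p n)}
    (hH : IsUniversalDeformation p n Γ H) {g : PowerSeries (GaloisField p n)} (hg : IsFGAut Γ g) :
    ∃ φ, IsStabilizerMap p n H g φ := by
  obtain ⟨g', hg0, hg'⟩ := exists_lift_series _ (residue_surjective p n) hg.1.1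
  have hu : IsUnit (PowerSeries.coeff 1 g') := by
    refine isUnit_of_residue p n ?_
    rw [← PowerSeries.coeff_map, hg']
    exact hg.2.ne_zero
  obtain ⟨s, hs0, hs1, h1, h2⟩ := exists_cmp_inv hg0 hu
  have hsu : IsUnit (PowerSeries.coeff 1 s) := IsUnit.of_mul_eq_one_right _ hs1
  obtain ⟨G, hG⟩ := exists_transport H hs0 hsu
  have hGΓ : G.map (LTRing.residue p n) = Γ := by
    have h3 := isFGHom_map (LTRing.residue p n) hG
    rw [hH.1] at h3
    refine transport_unique ?_ h3 (isFGHom_inv hg.1 (const_map_zero' _ hs0) ?_ ?_)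
    · rw [PowerSeries.coeff_map]; exact hsu.map _
    · rw [← hg', ← map_cmp _ _ hs0, h1, PowerSeries.map_X]
    · rw [← hg', ← map_cmp _ _ hg0, h2, PowerSeries.map_X]
  obtain ⟨φ, ⟨hφ, θ, hθ, hθ'⟩, -⟩ := hH.2 (LTRing p n) (lt_isAdicComplete p n)
    (LTRing.residue p n) (residue_surjective p n) (ker_residue p n) (residue_comp_algebraMap p n)
    G hGΓ
  refine ⟨φ, hφ, cmp g' θ, isFGHom_cmp hθ (isFGHom_inv hG hg0 h2 h1), ?_⟩
  rw [map_cmp _ _ hθ.1, hg', hθ', cmp_X]

/-- a chain of ideals along which `[p]` contracts congruences. -/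
structure IsChn (𝔞 : ℕ → Ideal (LTRing p n)) : Prop where
  zero : 𝔞 0 = IsLocalRing.maximalIdeal (LTRing p n)
  le : ∀ j, 𝔞 j ≤ IsLocalRing.maximalIdeal (LTRing p n)
  pow_le : ∀ j, ∃ L, IsLocalRing.maximalIdeal (LTRing p n) ^ L ≤ 𝔞 j
  step : ∀ j (α β : MvPowerSeries (Fin 2) (LTRing p n)), MvPowerSeries.constantCoeff α = 0 →
    MvPowerSeries.constantCoeff β = 0 → Cong (𝔞 j) α β →
    Cong (𝔞 (j + 1)) (PowerSeries.subst α (mulSeries (HH p n) p))
      (PowerSeries.subst β (mulSeries (HH p n) p))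

variable (p n) in
/-- `𝔞₀ = 𝔪`, `𝔞_{j+1} = p 𝔞_j + 𝔞_j^p`. -/
noncomputable def chain0 : ℕ → Ideal (LTRing p n)
  | 0 => IsLocalRing.maximalIdeal (LTRing p n)
  | j + 1 => Ideal.span {(p : LTRing p n)} * chain0 j ⊔ chain0 j ^ p

variable (p n) in
/-- `J_h + 𝔪^{p^{hj}}`. -/
noncomputable def chainP (h j : ℕ) : Ideal (LTRing p n) :=
  Jid p n h ⊔ IsLocalRing.maximalIdeal (LTRing p n) ^ (p ^ (h * j))

theorem p_mem_max : (p : LTRing p n) ∈ IsLocalRing.maximalIdeal (LTRing p n) := by
  rw [← ker_residue, RingHom.mem_ker, map_natCast, CharP.cast_eq_zero]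

theorem chain0_le' (j : ℕ) : chain0 p n j ≤ IsLocalRing.maximalIdeal (LTRing p n) ^ (j + 1) := by
  induction j with
  | zero => rw [zero_add, pow_one]; exact le_rfl
  | succ j ih =>
    refine sup_le ?_ ?_
    · rw [pow_succ' _ (j + 1)]
      exact Ideal.mul_mono ((Ideal.span_singleton_le_iff_mem _).2 p_mem_max) ih
    · refine (Ideal.pow_right_mono ih p).trans ?_
      rw [← pow_mul]
      refine Ideal.pow_le_pow_right ?_
      have := hp.out.two_le
      nlinarith

theorem isChn_chain0 (hn : 1 ≤ n) : IsChn (chain0 p n) := by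
  refine ⟨rfl, fun j => (chain0_le' j).trans (Ideal.pow_le_self (Nat.succ_ne_zero j)), fun j => ?_,
    fun j α β hα hβ h => cong_pser p hn _ h hα hβ⟩
  induction j with
  | zero => exact ⟨1, by rw [pow_one]; exact le_rfl⟩
  | succ j ih =>
    obtain ⟨L, hL⟩ := ih
    exact ⟨L * p, by rw [pow_mul]; exact (Ideal.pow_right_mono hL p).trans le_sup_right⟩

theorem chain0_le (j : ℕ) : chain0 p n j ≤ IsLocalRing.maximalIdeal (LTRing p n) ^ (j + 1) := by
  exact chain0_le' j

theorem isChn_chainP {h : ℕ} (hh : 1 ≤ h) (hhn : h ≤ n) : IsChn (chainP p n h) := by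
  have hJ : Jid p n h ≤ IsLocalRing.maximalIdeal (LTRing p n) :=
    (Jid_mono p n hhn).trans (Jid_self p n (hh.trans hhn)).le
  have hu : ∀ j < h, useq p n j ∈ Jid p n h := fun j hj => Ideal.subset_span ⟨j, hj, rfl⟩
  refine ⟨?_, fun j => sup_le hJ (Ideal.pow_le_self (pow_ne_zero _ hp.out.ne_zero)),
    fun j => ⟨_, le_sup_right⟩, fun j α β hα hβ e => ?_⟩
  · rw [chainP, mul_zero, pow_zero, pow_one]; exact sup_eq_right.2 hJ
  · refine (cong_pser_charP p hh hhn (uv p n) (J := Jid p n h) (by simpa [useq] using hu 0 hh)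
      (fun i h1 h2 => by simpa [useq, show i ≠ 0 by omega] using hu i h2) e hα hβ).mono ?_
    refine sup_le le_sup_left ((sup_pow_le' _ _ _).trans ?_)
    rw [← pow_mul, ← pow_add, chainP, mul_add, mul_one]

theorem isFGAut_pert' (hn : 1 ≤ n) {m : ℕ} (hm : 1 ≤ m) (c : ℕ → WittVector p (GaloisField p n)) :
    IsFGAut (GG p n) (hend p n (pert p m c)) := by
  refine ⟨isFGHom_hend hn (galois_pow n hn) _, ?_⟩
  rw [coeff_one_hend hn (galois_pow n hn), ← WittVector.constantCoeff_apply, pert, if_pos rfl,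
    map_add, map_one, map_mul, map_pow, map_natCast, CharP.cast_eq_zero,
    zero_pow (by omega), zero_mul, add_zero]
  exact isUnit_one

theorem IsChn.cong_iter {𝔞 : ℕ → Ideal (LTRing p n)} (h𝔞 : IsChn 𝔞) {e : PowerSeries (LTRing p n)}
    (he : PowerSeries.constantCoeff e = 0)
    (h : IsFGHom ((HH p n).map (LTRing.residue p n)) ((HH p n).map (LTRing.residue p n))
      (PowerSeries.map (LTRing.residue p n) e)) (j : ℕ) :
    IsFGHom ((HH p n).map (Ideal.Quotient.mk (𝔞 j))) ((HH p n).map (Ideal.Quotient.mk (𝔞 j)))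
      (PowerSeries.map (Ideal.Quotient.mk (𝔞 j)) (cmp (mulSeries (HH p n) (p ^ j)) e)) := by
  rw [hom_iff_cong _ _ (const_cmp (const_mulSeries _ _) he), Ideal.mk_ker]
  induction j with
  | zero =>
    rw [hom_iff_cong _ _ he, ker_residue, ← h𝔞.zero] at h
    rwa [pow_zero, mulSeries_one, X_cmp he]
  | succ j ih =>
    set η := cmp (mulSeries (HH p n) (p ^ j)) e with hη
    have hη0 : PowerSeries.constantCoeff η = 0 := const_cmp (const_mulSeries _ _) he
    have h0 : ∀ i : Fin 2, MvPowerSeries.constantCoeff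
        (PowerSeries.subst (MvPowerSeries.X i : MvPowerSeries (Fin 2) (LTRing p n)) η) = 0 :=
      fun i => PowerSeries.constantCoeff_subst_eq_zero (MvPowerSeries.constantCoeff_X i) η hη0
    rw [pow_succ' p, mulSeries_mul, cmp_assoc _ (const_mulSeries _ _) he, ← hη,
      subst_cmp_rg (HH p n).zero_constantCoeff _ hη0,
      subst_cmp_rg (MvPowerSeries.constantCoeff_X 0) _ hη0,
      subst_cmp_rg (MvPowerSeries.constantCoeff_X 1) _ hη0,
      ← isFGHom_apply (isFGHom_mulSeries (HH p n) p) (h0 0) (h0 1)]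
    refine h𝔞.step j _ _
      (PowerSeries.constantCoeff_subst_eq_zero (HH p n).zero_constantCoeff η hη0) ?_ ih
    exact MvPowerSeries.constantCoeff_subst_eq_zero
      (MvPowerSeries.hasSubst_of_constantCoeff_zero fun i => by fin_cases i <;> simp [h0])
      (fun i => by fin_cases i <;> simp [h0]) (HH p n).zero_constantCoeff

theorem rigid (hn : 1 ≤ n) (hU : IsUniversalDeformation p n (GG p n) (HH p n))
    {𝔞 : ℕ → Ideal (LTRing p n)} (h𝔞 : IsChn 𝔞) {m : ℕ} (hm : 1 ≤ m)
    (c : ℕ → WittVector p (GaloisField p n))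
    (φ : LTRing p n →ₐ[WittVector p (GaloisField p n)] LTRing p n)
    (hφ : (LTRing.residue p n).comp φ.toRingHom = LTRing.residue p n)
    {θ : PowerSeries (LTRing p n)} (hθ : IsFGHom ((HH p n).map φ.toRingHom) (HH p n) θ)
    (hg : PowerSeries.map (LTRing.residue p n) θ = hend p n (pert p m c)) :
    (∀ a, φ a - a ∈ 𝔞 m) ∧ ∃ e : PowerSeries (LTRing p n), PowerSeries.constantCoeff e = 0 ∧
      Cong (𝔞 m) θ (fadd (HH p n) PowerSeries.X (cmp (mulSeries (HH p n) (p ^ m)) e)) := by
  have hκ := galois_pow (p := p) n hn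
  have hk : (p : GaloisField p n) = 0 := CharP.cast_eq_zero _ _
  obtain ⟨e, he0, he⟩ := exists_lift_series _ (residue_surjective p n)
    (const_hend (p := p) (N := n) c)
  have hη := h𝔞.cong_iter he0 (by rw [hU.1, he]; exact isFGHom_hend hn hκ c) m
  set η := cmp (mulSeries (HH p n) (p ^ m)) e with hηd
  have hη0 : PowerSeries.constantCoeff η = 0 := const_cmp (const_mulSeries _ _) he0
  set θ₀ := fadd (HH p n) PowerSeries.X η with hθ₀d
  have hθ₀0 : PowerSeries.constantCoeff θ₀ = 0 := const_fadd _ PowerSeries.constantCoeff_X hη0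
  set π := Ideal.Quotient.mk (𝔞 m) with hπ
  have hθ₀ : IsFGHom ((HH p n).map π) ((HH p n).map π) (PowerSeries.map π θ₀) := by
    rw [hθ₀d, map_fadd _ _ PowerSeries.constantCoeff_X hη0, PowerSeries.map_X]
    exact isFGHom_fadd (isFGHom_X _) hη
  have hres : PowerSeries.map (LTRing.residue p n) θ₀ = PowerSeries.map (LTRing.residue p n) θ := by
    rw [hg, hend_pert hn hκ, hθ₀d, map_fadd _ _ PowerSeries.constantCoeff_X hη0, PowerSeries.map_X,
      hηd, map_cmp _ _ he0, map_mulSeries, hU.1, he, GG, pser_hon_pow p hk hn,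
      X_pow_cmp (const_hend c)]
  have hu : IsUnit (PowerSeries.coeff 1 θ) := by
    refine isUnit_of_residue p n ?_
    rw [← PowerSeries.coeff_map, hg]
    exact (isFGAut_pert' hn hm c).2.ne_zero
  obtain ⟨s, hs0, -, h1, h2⟩ := exists_cmp_inv hθ.1 hu
  have hs := isFGHom_inv hθ hs0 h1 h2
  -- the test ring
  have hne : 𝔞 m ≠ ⊤ := fun h =>
    (IsLocalRing.maximalIdeal.isMaximal (LTRing p n)).ne_top (top_le_iff.1 (h ▸ h𝔞.le m))
  haveI : Nontrivial (LTRing p n ⧸ 𝔞 m) := Ideal.Quotient.nontrivial_iff.2 hne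
  haveI : IsLocalRing (LTRing p n ⧸ 𝔞 m) :=
    IsLocalRing.of_surjective' π Ideal.Quotient.mk_surjective
  let r : LTRing p n ⧸ 𝔞 m →+* GaloisField p n := Ideal.Quotient.lift _ (LTRing.residue p n)
    fun a ha => by rw [← RingHom.mem_ker, ker_residue]; exact h𝔞.le m ha
  have hr : r.comp π = LTRing.residue p n := RingHom.ext fun a => rfl
  have hrs : Function.Surjective r := fun b => by
    obtain ⟨a, rfl⟩ := residue_surjective p n b
    exact ⟨π a, rfl⟩
  have hker := IsLocalRing.ker_eq_maximalIdeal r hrs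
  obtain ⟨L, hL⟩ := h𝔞.pow_le m
  have hnil : RingHom.ker r ^ L = ⊥ := by
    have h3 : RingHom.ker r = Ideal.map π (IsLocalRing.maximalIdeal (LTRing p n)) := by
      rw [← ker_residue, ← hr, ← RingHom.comap_ker,
        Ideal.map_comap_of_surjective _ Ideal.Quotient.mk_surjective]
    rw [h3, ← Ideal.map_pow, Ideal.map_eq_bot_iff_le_ker, hπ, Ideal.mk_ker]
    exact hL
  have hmap : ∀ f : PowerSeries (LTRing p n), PowerSeries.map r (PowerSeries.map π f) =
      PowerSeries.map (LTRing.residue p n) f := fun f => by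
    rw [← hr, PowerSeries.map_comp]; rfl
  let πa := Ideal.Quotient.mkₐ (WittVector p (GaloisField p n)) (𝔞 m)
  have hc : (πa.comp φ).toRingHom = π.comp φ.toRingHom := rfl
  have hrφ : r.comp (πa.comp φ).toRingHom = LTRing.residue p n := by
    rw [hc, ← RingHom.comp_assoc, hr, hφ]
  have heq : πa.comp φ = πa := by
    refine (hU.2 (LTRing p n ⧸ 𝔞 m) (isAdicComplete_of_pow_eq_bot (hker ▸ hnil)) r hrs hker ?_
      ((HH p n).map (πa.comp φ).toRingHom) ?_).unique
      ⟨hrφ, PowerSeries.X, isFGHom_X _, PowerSeries.map_X _⟩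
      ⟨hr, PowerSeries.map π (cmp s θ₀), ?_, ?_⟩
    · rw [← residue_comp_algebraMap p n]; rfl
    · rw [fg_map_map, hrφ, hU.1]
    · rw [map_cmp _ _ hθ₀0, hc, ← fg_map_map]
      exact isFGHom_cmp hθ₀ (isFGHom_map π hs)
    · rw [hmap, map_cmp _ _ hθ₀0, hres, ← map_cmp _ _ hθ.1, h2, PowerSeries.map_X]
  have heq' : π.comp φ.toRingHom = π := by rw [← hc, heq]; rfl
  refine ⟨fun a => Ideal.Quotient.eq.1 (RingHom.congr_fun heq' a), e, he0, ?_⟩
  have hθ' := isFGHom_map π hθ
  rw [fg_map_map, heq'] at hθ'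
  have hc0 : Cong (RingHom.ker r) (PowerSeries.map π θ) (PowerSeries.map π θ₀) :=
    (cong_ker r _ _).2 (by
      change PowerSeries.map r _ = PowerSeries.map r _
      rw [hmap, hmap, hres])
  have hF : (HH p n).map π = HL p n fun j => π (uv p n j) := HL_map p n π _
  have h4 := cong_pser_iter p hn (fun j => π (uv p n j)) (I := RingHom.ker r)
    (by rw [RingHom.mem_ker, map_natCast, hk]) hc0 hθ'.1 hθ₀.1 L
  rw [pow_succ, hnil, Ideal.bot_mul, ← hF, ← isFGHom_cmp_mulSeries hθ',
    ← isFGHom_cmp_mulSeries hθ₀] at h4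
  have h5 : cmp (PowerSeries.map π θ) (mulSeries ((HH p n).map π) (p ^ L)) =
      cmp (PowerSeries.map π θ₀) (mulSeries ((HH p n).map π) (p ^ L)) :=
    MvPowerSeries.ext fun d => sub_eq_zero.1 (Ideal.mem_bot.1 (h4 d))
  refine (cong_iff_map _ _ _).2 (cmp_cancel hnil (N := p ^ (n * L))
    (pow_ne_zero _ hp.out.ne_zero) (const_mulSeries _ _) ((cong_ker r _ _).2 ?_) h5)
  change PowerSeries.map r _ = PowerSeries.map r _
  rw [map_mulSeries, fg_map_map, hr, hU.1, GG, pser_hon_pow p hk hn, map_pow, PowerSeries.map_X]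

theorem isFGAut_pert (hn : 1 ≤ n) {m : ℕ} (hm : 1 ≤ m) (c : ℕ → WittVector p (GaloisField p n)) :
    IsFGAut (GG p n) (hend p n (pert p m c)) := by
  exact isFGAut_pert' hn hm c

end Crest.Agent.R227
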