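import Crest.Agent.R227.Honda

/-!
# R227 / Solve : a height `h` law over an algebraically closed field is isomorphic to the Honda law

Plan.
* `exists_witt_solve`: solve `σ^h c = α c + γ` in `W C`.  Mod `p` this is `x^{p^h} = ᾱ x + γ̄`, solvable
  in the algebraically closed field `C` (degree `p^h ≥ 2`).  If `c₀` solves it mod `p` (take a
  Teichmüller lift), put `c = c₀ + p c'` to get `σ^h c' = α c' + γ'`.  Iterate, and pass to the limit
  with `WittVector.isAdicCompleteIdealSpanP` (`σ` preserves `p^k W`), or build coefficients directly.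
* `exists_witt_solve_unit`: same with `γ = 0`, first step `x^{p^h - 1} = ᾱ ≠ 0`.
* `exists_cond`: recursion on `l` (`Nat.strongRecOn` + choice): `Cond` at `l` reads
  `σ^h c_l = c_l σ^l(w_0) + ∑_{i<l} c_i σ^i(w_{l-i})`.
-/

set_option autoImplicit false
open Crest.LubinTate

namespace Crest.Agent.R227

variable {p : ℕ} [hp : Fact p.Prime] {C : Type*} [Field C] [CharP C p] [IsAlgClosed C]

omit [IsAlgClosed C] in
theorem p_dvd_of_coeff [PerfectRing C p] {x : WittVector p C} (h : WittVector.constantCoeff x = 0) :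
    (p : WittVector p C) ∣ x := by
  rw [← Ideal.mem_span_singleton, ← WittVector.ker_constantCoeff]; exact h

theorem exists_witt_solve {h : ℕ} (hh : 1 ≤ h) (α γ : WittVector p C) :
    ∃ c : WittVector p C,
      ((WittVector.frobenius : WittVector p C →+* WittVector p C) ^ h) c = α * c + γ := by
  set σ := (WittVector.frobenius : WittVector p C →+* WittVector p C) ^ h with hσ
  have step : ∀ γ : WittVector p C, ∃ c γ', γ = σ c - α * c + p * γ' := fun γ => by
    have hq : 1 < p ^ h := Nat.one_lt_pow (by omega) hp.out.one_lt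
    have hd : (Polynomial.X ^ p ^ h - (Polynomial.C (α.coeff 0) * Polynomial.X +
        Polynomial.C (γ.coeff 0))).degree = ((p ^ h : ℕ) : WithBot ℕ) := by
      rw [Polynomial.degree_sub_eq_left_of_degree_lt, Polynomial.degree_X_pow]
      rw [Polynomial.degree_X_pow]
      exact Polynomial.degree_linear_le.trans_lt (by exact_mod_cast hq)
    obtain ⟨x, hx⟩ := IsAlgClosed.exists_root _ (by rw [hd]; exact_mod_cast (by omega : p ^ h ≠ 0))
    obtain ⟨γ', h'⟩ := p_dvd_of_coeff (x := γ - (σ (WittVector.teichmuller p x) -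
      α * WittVector.teichmuller p x)) (by
        simp only [Polynomial.IsRoot.def, Polynomial.eval_sub, Polynomial.eval_pow, Polynomial.eval_X,
          Polynomial.eval_add, Polynomial.eval_mul, Polynomial.eval_C] at hx
        simp only [hσ, frobenius_pow_teichmuller, map_sub, map_mul, WittVector.constantCoeff_apply,
          WittVector.teichmuller_coeff_zero]
        linear_combination -hx)
    exact ⟨WittVector.teichmuller p x, γ', by rw [← h']; ring⟩
  choose s t hst using step
  let c : ℕ → WittVector p C := fun N => ∑ k ∈ Finset.range N, p ^ k * s (t^[k] γ)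
  have hc : ∀ N, γ = σ (c N) - α * c N + p ^ N * t^[N] γ := fun N => by
    induction N with
    | zero => simp [c]
    | succ N ih =>
      simp only [c, Finset.sum_range_succ, Function.iterate_succ_apply', map_add, map_mul, map_pow,
        map_natCast] at ih ⊢
      linear_combination ih + (p : WittVector p C) ^ N * hst (t^[N] γ)
  obtain ⟨L, hL⟩ := IsPrecomplete.prec (I := Ideal.span {(p : WittVector p C)}) inferInstance
    (f := c) fun {m n} hmn => by
      simp only [Ideal.span_singleton_pow, smul_eq_mul, Ideal.mul_top, SModEq.sub_mem,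
        Ideal.mem_span_singleton]
      rw [← dvd_neg, neg_sub, Finset.sum_range_sub_sum_range hmn]
      exact Finset.dvd_sum fun k hk =>
        (pow_dvd_pow _ (Finset.mem_filter.1 hk).2).mul_right _
  simp only [Ideal.span_singleton_pow, smul_eq_mul, Ideal.mul_top, SModEq.sub_mem,
    Ideal.mem_span_singleton] at hL
  refine ⟨L, ?_⟩
  rw [← sub_eq_zero]
  ext i
  obtain ⟨d, hd⟩ := hL (i + 1)
  refine (WittVector.mem_span_p_pow_iff_le_coeff_eq_zero _ (i + 1)).1
    (Ideal.mem_span_singleton.2 ⟨α * d - σ d - t^[i + 1] γ, ?_⟩) i (Nat.lt_succ_self i) |>.trans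
      (WittVector.zero_coeff _ _ _).symm
  have e := congrArg σ hd
  rw [map_sub, map_mul, map_pow, map_natCast] at e
  linear_combination -hc (i + 1) - e + α * hd

theorem exists_witt_solve_unit {h : ℕ} (hh : 1 ≤ h) {α : WittVector p C} (hα : α.coeff 0 ≠ 0) :
    ∃ c : WittVector p C, c.coeff 0 ≠ 0 ∧
      ((WittVector.frobenius : WittVector p C →+* WittVector p C) ^ h) c = α * c := by
  set σ := (WittVector.frobenius : WittVector p C →+* WittVector p C) ^ h with hσ
  have hq : 1 < p ^ h := Nat.one_lt_pow (by omega) hp.out.one_lt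
  obtain ⟨x, hx⟩ := IsAlgClosed.exists_pow_nat_eq (α.coeff 0) (n := p ^ h - 1) (by omega)
  have hx0 : x ≠ 0 := by
    rintro rfl
    exact hα (by rw [← hx, zero_pow (by omega)])
  obtain ⟨δ, hδ⟩ := p_dvd_of_coeff (x := α * WittVector.teichmuller p x -
    σ (WittVector.teichmuller p x)) (by
      simp only [hσ, frobenius_pow_teichmuller, map_sub, map_mul, WittVector.constantCoeff_apply,
        WittVector.teichmuller_coeff_zero]
      rw [← hx, ← pow_succ, Nat.sub_add_cancel hq.le, sub_self])
  obtain ⟨c, hc⟩ := exists_witt_solve hh α δ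
  refine ⟨WittVector.teichmuller p x + p * c, ?_, ?_⟩
  · rw [← WittVector.constantCoeff_apply, map_add, map_mul, map_natCast, CharP.cast_eq_zero]
    simpa using hx0
  · rw [map_add, map_mul, map_natCast, hc]
    linear_combination -hδ

/-- recursive solution of `Cond`. -/
noncomputable def condSeq {W : Type*} [CommRing W] (S : W → W → W) (c₀ : W) (σ : W →+* W)
    (w : ℕ → W) : ℕ → W
  | 0 => c₀
  | l + 1 => S ((σ ^ (l + 1)) (w 0))
      (∑ x : Fin (l + 1), condSeq S c₀ σ w x * (σ ^ (x : ℕ)) (w (l + 1 - x)))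
  decreasing_by exact x.2

theorem condSeq_succ {W : Type*} [CommRing W] (S : W → W → W) (c₀ : W) (σ : W →+* W)
    (w : ℕ → W) (l : ℕ) : condSeq S c₀ σ w (l + 1) = S ((σ ^ (l + 1)) (w 0))
      (∑ x : Fin (l + 1), condSeq S c₀ σ w x * (σ ^ (x : ℕ)) (w (l + 1 - x))) := by
  rw [condSeq]

theorem exists_cond {n h : ℕ} (hh : 1 ≤ h) (hhn : h ≤ n) {v : ℕ → WittVector p C}
    (hv : (v h).coeff 0 ≠ 0) :
    ∃ c : ℕ → WittVector p C, (c 0).coeff 0 ≠ 0 ∧ Cond WittVector.frobenius n h v c := by
  choose S hS using exists_witt_solve (p := p) (C := C) hh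
  obtain ⟨c₀, h0, h1⟩ := exists_witt_solve_unit hh hv
  set w : ℕ → WittVector p C := fun j => if h + j ≤ n then v (h + j) else 0 with hw
  refine ⟨condSeq S c₀ WittVector.frobenius w, by rwa [condSeq], fun l => ?_⟩
  cases l with
  | zero => simp [tw, condSeq, h1, hhn, mul_comm]
  | succ l =>
    rw [tw, Finset.Nat.sum_antidiagonal_eq_sum_range_succ_mk, Finset.sum_range_succ,
      Finset.sum_range]
    have e := hS ((WittVector.frobenius ^ (l + 1)) (w 0)) (∑ x : Fin (l + 1),
      condSeq S c₀ WittVector.frobenius w x * (WittVector.frobenius ^ (x : ℕ)) (w (l + 1 - x)))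
    rw [← condSeq_succ S] at e
    rw [e, Nat.sub_self]
    ring

theorem exists_isHon_algClosed {n h r : ℕ} (hh : 1 ≤ h) (hr : h + r = n) (hr0 : 0 < r)
    (z : Fin r → C) (hz : z ⟨0, hr0⟩ ≠ 0) :
    ∃ (c : ℕ → WittVector p C) (Θ : PowerSeries (WittVector p C)),
      IsHon (wFrob p C) n h (zseq n h (fun i => WittVector.teichmuller p (z i))) c Θ ∧
      (c 0).coeff 0 ≠ 0 := by
  obtain ⟨c, h0, hc⟩ := exists_cond (n := n) hh (by omega)
    (v := zseq n h fun i => WittVector.teichmuller p (z i)) (by
      rw [zseq, dif_pos ⟨le_rfl, by omega⟩]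
      simpa using hz)
  obtain ⟨Θ, hΘ⟩ := exists_isHon (wFrob p C) (n := n) hh
    (v := zseq n h fun i => WittVector.teichmuller p (z i)) (c := c)
    (fun j => by rw [wFrob_σA]; exact frobenius_zseq_teichmuller n h z j)
    (fun j _ hj => by rw [zseq, dif_neg (by omega), hon, if_neg (by omega)])
    (by rwa [wFrob_σA])
  exact ⟨c, Θ, hΘ, h0⟩

/-- the reduction of an `IsHon` series is a homomorphism to the Honda law. -/
theorem isFGHom_of_isHon_teich {n h r : ℕ} {z : Fin r → C} {c : ℕ → WittVector p C}
    {Θ : PowerSeries (WittVector p C)}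
    (hΘ : IsHon (wFrob p C) n h (zseq n h (fun i => WittVector.teichmuller p (z i))) c Θ) :
    IsFGHom (HL p n (zseq n h z)) (HL p h (hon h))
      (PowerSeries.map WittVector.constantCoeff Θ) := by
  simpa only [map_zseq, WittVector.constantCoeff_apply, WittVector.teichmuller_coeff_zero] using
    hΘ.hom (fun j => by rw [wFrob_σA]; exact frobenius_zseq_teichmuller n h z j)
      (CharP.cast_eq_zero C p) WittVector.constantCoeff

end Crest.Agent.R227
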