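import Crest.Agent.R227.Trans
import Crest.Agent.R227.Solve

/-!
# R227 / Span : `λ_h ∘ Θ ∘ π₀` is a fixed linear combination of the periods `λ_n(y^{p^s})`

Plan.
* `span_approx`: `Θ̄ = map (σ ∘ constantCoeff) Θ` is a bounded homomorphism `HL (zseq (σ z)) → HL h hon`
  (`isFGHom_of_isHon_teich`, `isFGHom_map`).  With `x = π₀ (rt (nk) y)`: `Θ̄(π₀ y) = Θ̄([p^k] x) = Θ̄(x)^{p^{hk}}` (`pi0_pow`,
  `ev1_hom_pm`, `pm_hon`), so `norm_lam_sub` compares the left side with `p^k ℓ_h(τ Θ̄(x))`, `T_weak1` (for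
  `G = map (W σ_O) Θ`) and `norm_lg_sub_le` with `p^k ℓ_h(Θ^J(τ x)) = p^k ev1 (ℓ_h ∘ Θ^J) (τ x)` (`ev1_cmp`), and `IsHon.push` with
  `ρ = J ∘ W σ_O` (`frobenius_pow_zseq_teichmuller`, `map_zseq`, `WittVector.map_teichmuller`) expands this as
  `∑_l ∑_{i+j=l} c_i b_j^{(i)} τx^{p^l}`.  Rearrange (`hasSum_ptyp`, `hasSum_lg`; the terms have norm `≤ ρ^{-j} ‖x‖^{p^{i+j}}`).
* `span_rel`: from `span_approx`, `trans`, letting `k → ∞`.
* `exists_extend_fun`: linear algebra over the field `K`: the map `Finsupp.linearCombination` kills the kernel, so factors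
  through the range (`LinearMap.exists_extend`, `Submodule.liftQ`, `LinearMap.quotKerEquivRange`).
-/

set_option autoImplicit false
open Crest.LubinTate Filter Topology

namespace Crest.Agent.R227

theorem exists_extend_fun {F : Type*} [Field F] (K : Subfield F) {Y : Type*} (n : ℕ)
    (v : Y → ℕ → F) (hv : ∀ y s, s < n → v y s ∈ K) (L : Y → F)
    (h : ∀ (T : Finset Y) (a : Y → F), (∀ t ∈ T, a t ∈ K) →
      (∀ s < n, ∑ t ∈ T, a t * v t s = 0) → ∑ t ∈ T, a t * L t = 0) :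
    ∃ c : ℕ → F, ∀ y, L y = ∑ s ∈ Finset.range n, c s * v y s := by
  classical
  let v' : Y → Fin n → K := fun y s => ⟨v y s, hv y s s.2⟩
  let A : (Y →₀ K) →ₗ[K] (Fin n → K) := Finsupp.linearCombination K v'
  let B : (Y →₀ K) →ₗ[K] F := Finsupp.linearCombination K L
  have hker : LinearMap.ker A ≤ LinearMap.ker B := by
    intro a ha
    rw [LinearMap.mem_ker] at ha ⊢
    have := h a.support (fun t => (a t : F)) (fun t _ => (a t).2) (fun s hs => by
      have h1 := congrArg (fun x : Fin n → K => ((x ⟨s, hs⟩ : K) : F)) ha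
      simpa [A, Finsupp.linearCombination_apply, Finsupp.sum, v', Finset.sum_apply] using h1)
    simpa [B, Finsupp.linearCombination_apply, Finsupp.sum, Subfield.smul_def] using this
  obtain ⟨g, hg⟩ := ((LinearMap.ker A).liftQ B hker ∘ₗ
    (A.quotKerEquivRange.symm : LinearMap.range A →ₗ[K] _)).exists_extend
  have hgA : ∀ a, g (A a) = B a := fun a => by
    have := congrArg (fun φ => φ ⟨A a, LinearMap.mem_range_self A a⟩) hg
    simpa [LinearMap.quotKerEquivRange_symm_apply_image] using this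
  refine ⟨fun s => if hs : s < n then g (Pi.single ⟨s, hs⟩ 1) else 0, fun y => ?_⟩
  have h1 := hgA (Finsupp.single y 1)
  simp only [A, B, Finsupp.linearCombination_single, one_smul] at h1
  rw [← h1, pi_eq_sum_univ' (v' y), map_sum, Finset.sum_range]
  refine Finset.sum_congr rfl fun s _ => ?_
  beta_reduce
  rw [map_smul, dif_pos s.2, Subfield.smul_def, smul_eq_mul, mul_comm]

variable {p : ℕ} [hp : Fact p.Prime] {C D F : Type*} [NormedField C] [IsUltrametricDist C]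
  [CharP C p] [IsAlgClosed C] [NormedField D] [IsUltrametricDist D] [CharP D p] [NormedField F]
  [PerfectRing D p] [CompleteSpace C] [CompleteSpace D] [IsUltrametricDist F] [CompleteSpace F]
  {J : WittVector p (OO D) →+* F} {ρ : ℝ} {n h r : ℕ} {z : Fin r → C}
  {c : ℕ → WittVector p C} {Θ : PowerSeries (WittVector p C)}

theorem hasSum_double {L : Type*} [NormedField L] [IsUltrametricDist L] [CompleteSpace L]
    (hp0 : (p : L) ≠ 0) {n : ℕ} {V : ℕ → ℕ → L} (hV : ∀ i j, ‖V i j‖ ≤ 1) {c : ℕ → L}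
    (hc : ∀ i, ‖c i‖ ≤ 1) {X : L} (hX : ‖X‖ < 1)
    (han : An (ptyp p fun l => ∑ x ∈ Finset.HasAntidiagonal.antidiagonal l,
      c x.1 * bseq p n (p : L)⁻¹ (V x.1) x.2)) :
    HasSum (fun i => c i * lg p n (V i) (X ^ p ^ i))
      (ev1 (ptyp p fun l => ∑ x ∈ Finset.HasAntidiagonal.antidiagonal l,
        c x.1 * bseq p n (p : L)⁻¹ (V x.1) x.2) X) := by
  let t : ℕ × ℕ → L := fun x => c x.1 * bseq p n (p : L)⁻¹ (V x.1) x.2 * X ^ p ^ (x.1 + x.2)
  have hg : Tendsto (fun l : ℕ => ‖(p : L)⁻¹ ^ l * X ^ p ^ l‖) atTop (𝓝 0) := by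
    have h1 : An (ptyp p fun l => (p : L)⁻¹ ^ l) :=
      an_ptyp (B := 1) (R := ‖(p : L)⁻¹‖) fun l => by rw [norm_pow, one_mul]
    simpa using (hasSum_ptyp h1 hX).summable.tendsto_atTop_zero.norm
  have hp1 : 1 ≤ ‖(p : L)‖⁻¹ :=
    (one_le_inv₀ (norm_pos_iff.2 hp0)).2 (IsUltrametricDist.norm_natCast_le_one L p)
  have ht : ∀ x : ℕ × ℕ, ‖t x‖ ≤ ‖(p : L)⁻¹ ^ (x.1 + x.2) * X ^ p ^ (x.1 + x.2)‖ := fun x => by
    simp only [t, norm_mul]
    refine mul_le_mul_of_nonneg_right ?_ (norm_nonneg _)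
    rw [norm_pow, norm_inv]
    exact (mul_le_mul (hc _) (norm_bseq_le hp0 (hV _) _) (norm_nonneg _) zero_le_one).trans
      ((one_mul _).trans_le (pow_le_pow_right₀ hp1 (Nat.le_add_left _ _)))
  have hsum : Summable t := by
    refine NonarchimedeanAddGroup.summable_of_tendsto_cofinite_zero ?_
    rw [tendsto_zero_iff_norm_tendsto_zero, Metric.tendsto_nhds]
    intro ε hε
    obtain ⟨N, hN⟩ := eventually_atTop.1 (Metric.tendsto_nhds.1 hg ε hε)
    rw [Filter.eventually_cofinite]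
    refine (Finset.range N ×ˢ Finset.range N).finite_toSet.subset fun x hx => ?_
    by_contra hcon
    refine hx ?_
    have h2 : N ≤ x.1 + x.2 := by
      simp only [Finset.coe_product, Finset.coe_range, Set.mem_prod, Set.mem_Iio] at hcon
      omega
    have h3 := hN _ h2
    rw [Real.dist_0_eq_abs, abs_norm] at h3 ⊢
    exact (ht x).trans_lt h3
  have h1 : HasSum (fun l => ∑ x ∈ Finset.HasAntidiagonal.antidiagonal l, t x) (∑' x, t x) := by
    have := (Finset.HasAntidiagonal.sigmaAntidiagonalEquivProd.hasSum_iff.2 hsum.hasSum).sigma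
      (g := fun l => ∑ x ∈ Finset.HasAntidiagonal.antidiagonal l, t x) (fun l => by
        rw [← Finset.sum_coe_sort]
        exact hasSum_fintype _)
    exact this
  have h2 := hasSum_ptyp han hX
  have h3 : (fun l => (∑ x ∈ Finset.HasAntidiagonal.antidiagonal l,
      c x.1 * bseq p n (p : L)⁻¹ (V x.1) x.2) * X ^ p ^ l) =
      fun l => ∑ x ∈ Finset.HasAntidiagonal.antidiagonal l, t x := by
    funext l
    rw [Finset.sum_mul]
    refine Finset.sum_congr rfl fun x hx => ?_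
    simp only [t, Finset.HasAntidiagonal.mem_antidiagonal.1 hx]
  rw [h3] at h2
  rw [h2.unique h1]
  refine hsum.hasSum.prod_fiberwise fun i => ?_
  have hXi : ‖X ^ p ^ i‖ < 1 := by
    rw [norm_pow]; exact pow_lt_one₀ (norm_nonneg _) hX (pow_ne_zero _ hp.out.ne_zero)
  have := (hasSum_lg (n := n) hp0 (hV i) hXi).mul_left (c i)
  have e : (fun j => c i * (bseq p n (p : L)⁻¹ (V i) j * (X ^ p ^ i) ^ p ^ j)) =
      fun j => t (i, j) := by
    funext j
    simp only [t]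
    rw [← pow_mul, ← pow_add, mul_assoc]
  rwa [e] at this

theorem UP.span_approx (u : UP C D) (hJ : IsPer p J ρ) (h0 : 0 < ρ) (h1 : ρ < 1) (hh : 1 ≤ h)
    (hr : h + r = n) (hz : Sm z)
    (hΘ : IsHon (wFrob p C) n h (zseq n h (fun i => WittVector.teichmuller p (z i))) c Θ)
    {y : C} (hy : ‖y‖ < 1) (k : ℕ) :
    ∃ I₀ : ℕ, ∀ I ≥ I₀,
      ‖lam J h (ev1 (PowerSeries.map ((u.sig p h).comp WittVector.constantCoeff) Θ)
          (u.pi0 p n h z y)) -
        ∑ i ∈ Finset.range I, J (WittVector.map (u.sigO hh) (c i)) * u.EE J n h z k i y‖ ≤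
        ρ ^ (k + 1) := by
  have hσ := u.norm_sig_le (p := p) hh
  have hp0 := hJ.p_ne_zero h0
  have hpn := hJ.norm_p h0
  set x := u.pi0 p n h z (rt p (n * k) y) with hx
  have hx1 : ‖x‖ < 1 := u.norm_pi0_lt hh hr hz (norm_rt_lt_one _ hy)
  set Θb := PowerSeries.map ((u.sig p h).comp WittVector.constantCoeff) Θ with hΘb
  have hbd : Bd Θb := bd_map _ (fun a => hσ _) _
  have hhom : IsFGHom (HL p n (zseq n h fun i => u.sig p h (z i))) (HL p h (hon h)) Θb := by
    have := isFGHom_map (u.sig p h) (isFGHom_of_isHon_teich hΘ)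
    rw [HL_map_zseq, HL_map_hon] at this
    rw [hΘb, PowerSeries.map_comp]
    exact this
  set w := ev1 Θb x with hw
  have hw1 : ‖w‖ < 1 := (hbd.norm_ev1_le hhom.1 hx1).trans_lt hx1
  have e1 : ev1 Θb (u.pi0 p n h z y) = w ^ p ^ (h * k) := by
    conv_lhs => rw [← rt_pow (p := p) (n * k) y]
    rw [u.pi0_pow hh hr hz (norm_rt_lt_one _ hy), ← hx,
      ev1_hom_pm (norm_hon_le h) (norm_zseq_le' n h fun i => hσ _) hhom hbd _ hx1,
      pm_hon (CharP.cast_eq_zero D p) hh]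
  have hwp : ‖w ^ p ^ (h * k)‖ < 1 := by
    rw [norm_pow]; exact pow_lt_one₀ (norm_nonneg _) hw1 (pow_ne_zero _ hp.out.ne_zero)
  have b1 := hJ.norm_lam_sub h0 h1 hh hwp k
  rw [rt_pow'] at b1
  let ρ' : WittVector p C →+* F := J.comp (WittVector.map (u.sigO hh))
  have hρ' : ∀ a, ‖ρ' a‖ ≤ 1 := fun a => hJ.norm_le_one h0 h1 _
  have hX : ‖tau J x‖ < 1 := by rw [hJ.norm_tau hx1.le]; exact hx1
  have hJb : Bd (PowerSeries.map ρ' Θ) := bd_map _ hρ' _
  have hJ0 : PowerSeries.constantCoeff (PowerSeries.map ρ' Θ) = 0 := by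
    rw [← PowerSeries.coeff_zero_eq_constantCoeff_apply, PowerSeries.coeff_map,
      PowerSeries.coeff_zero_eq_constantCoeff_apply, hΘ.1, map_zero]
  have b2 : ‖ev1 (PowerSeries.map ρ' Θ) (tau J x) - tau J w‖ ≤ ρ := by
    have := hJ.T_weak1 h0 h1 (PowerSeries.map (WittVector.map (u.sigO hh)) Θ) hx1
    have e2 : PowerSeries.map (redO p D) (PowerSeries.map (WittVector.map (u.sigO hh)) Θ) = Θb := by
      ext i
      simp [hΘb, redO, UP.sigO, WittVector.map_coeff]
    rw [e2] at this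
    exact this
  have b3 := norm_lg_sub_le (n := h) hp0 (norm_hon_le h)
    ((hJb.norm_ev1_le hJ0 hX).trans_lt hX) (by rw [hJ.norm_tau hw1.le]; exact hw1)
    (b2.trans_eq hpn.symm)
  rw [hpn] at b3
  let V : ℕ → ℕ → F := fun i => zseq n h fun l => tau J (u.sig p h (z l) ^ p ^ i)
  have hV : ∀ i j, ‖V i j‖ ≤ 1 := fun i => norm_zseq_le' n h fun l => hJ.norm_tau_le _
  have hpush := hΘ.push ρ' (mul_inv_cancel₀ hp0)
  have e3 : ∀ i, (fun j => ρ' (((wFrob p C).σA ^ i)
      (zseq n h (fun i => WittVector.teichmuller p (z i)) j))) = V i := fun i => by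
    funext j
    rw [wFrob_σA, frobenius_pow_zseq_teichmuller, map_zseq]
    congr 1
    funext l
    change J (WittVector.map _ _) = _
    rw [WittVector.map_teichmuller, ← tau_coe, map_pow]
    rfl
  simp only [e3] at hpush
  have han := (an_hlog (n := h) hp0 (norm_hon_le h)).subst1 hJb hJ0
  have hs := hasSum_double hp0 hV (c := fun i => ρ' (c i)) (fun i => hρ' _) hX (by
    rw [← hpush]; exact han)
  rw [← hpush, ev1_cmp (an_hlog hp0 (norm_hon_le h)) hJb hJ0 hX] at hs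
  obtain ⟨I₀, hI₀⟩ := eventually_atTop.1 (Metric.tendsto_nhds.1 hs.tendsto_sum_nat ρ h0)
  refine ⟨I₀, fun I hI => ?_⟩
  have b4 := (hI₀ I hI).le
  rw [dist_eq_norm, norm_sub_rev] at b4
  have e4 : ∑ i ∈ Finset.range I, J (WittVector.map (u.sigO hh) (c i)) * u.EE J n h z k i y =
      (p : F) ^ k * ∑ i ∈ Finset.range I, ρ' (c i) * lg p n (V i) (tau J x ^ p ^ i) := by
    rw [Finset.mul_sum]
    refine Finset.sum_congr rfl fun i _ => ?_
    rw [UP.EE, ← hx, tau_pow hx1.le]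
    change ρ' (c i) * _ = _
    ring
  rw [e1, e4]
  set A := lam J h (w ^ p ^ (h * k))
  set B := lg p h (hon h) (tau J w)
  set B' := lg p h (hon h) (ev1 (PowerSeries.map ρ' Θ) (tau J x))
  set S := ∑ i ∈ Finset.range I, ρ' (c i) * lg p n (V i) (tau J x ^ p ^ i)
  have e5 : A - (p : F) ^ k * S = (A - (p : F) ^ k * B) + (p : F) ^ k * (-(B' - B) + (B' - S)) := by
    ring
  rw [e5]
  refine (IsUltrametricDist.norm_add_le_max _ _).trans (max_le b1 ?_)
  rw [norm_mul, norm_pow, hpn, pow_succ]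
  refine mul_le_mul_of_nonneg_left ?_ (pow_nonneg h0.le _)
  exact (IsUltrametricDist.norm_add_le_max _ _).trans (max_le (by rwa [norm_neg]) b4)

theorem UP.span_rel (u : UP C D) (hJ : IsPer p J ρ) (h0 : 0 < ρ) (h1 : ρ < 1) (hh : 1 ≤ h)
    (hr : h + r = n) (hz : Sm z)
    (hΘ : IsHon (wFrob p C) n h (zseq n h (fun i => WittVector.teichmuller p (z i))) c Θ)
    {ι : Type*} (T : Finset ι) {a : ι → F} (haK : ∀ t ∈ T, a t ∈ u.KK J) {y : ι → C}
    (hy : ∀ t, ‖y t‖ < 1) (hrel : ∀ s < n, ∑ t ∈ T, a t * lam J n (u.iota (y t) ^ p ^ s) = 0) :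
    ∑ t ∈ T, a t * lam J h (ev1 (PowerSeries.map ((u.sig p h).comp WittVector.constantCoeff) Θ)
      (u.pi0 p n h z (y t))) = 0 := by
  obtain ⟨K₀, hK, ha⟩ : ∃ K₀ : ℝ, 0 ≤ K₀ ∧ ∀ t ∈ T, ‖a t‖ ≤ K₀ :=
    ⟨∑ t ∈ T, ‖a t‖, Finset.sum_nonneg fun _ _ => norm_nonneg _, fun t ht =>
      Finset.single_le_sum (f := fun t => ‖a t‖) (fun _ _ => norm_nonneg _) ht⟩
  have key : ∀ k : ℕ, ‖∑ t ∈ T, a t * lam J h (ev1 (PowerSeries.map
      ((u.sig p h).comp WittVector.constantCoeff) Θ) (u.pi0 p n h z (y t)))‖ ≤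
      K₀ * ρ ^ (k + 1) := by
    intro k
    choose I₀ hI₀ using fun t => u.span_approx hJ h0 h1 hh hr hz hΘ (hy t) k
    set I := T.sup I₀
    have e : ∑ t ∈ T, a t * lam J h (ev1 (PowerSeries.map
        ((u.sig p h).comp WittVector.constantCoeff) Θ) (u.pi0 p n h z (y t))) =
        ∑ t ∈ T, a t * (lam J h (ev1 (PowerSeries.map
          ((u.sig p h).comp WittVector.constantCoeff) Θ) (u.pi0 p n h z (y t))) -
          ∑ i ∈ Finset.range I, J (WittVector.map (u.sigO hh) (c i)) * u.EE J n h z k i (y t)) +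
        ∑ i ∈ Finset.range I, J (WittVector.map (u.sigO hh) (c i)) *
          ∑ t ∈ T, a t * u.EE J n h z k i (y t) := by
      simp only [mul_sub, Finset.sum_sub_distrib, Finset.mul_sum]
      rw [Finset.sum_comm (s := T), sub_add, eq_comm, sub_eq_self, sub_eq_zero]
      refine Finset.sum_congr rfl fun i _ => Finset.sum_congr rfl fun t _ => by ring
    have hnn : 0 ≤ K₀ * ρ ^ (k + 1) := by positivity
    rw [e]
    refine (IsUltrametricDist.norm_add_le_max _ _).trans (max_le ?_ ?_)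
    · refine IsUltrametricDist.norm_sum_le_of_forall_le_of_nonneg hnn fun t ht => ?_
      rw [norm_mul]
      exact mul_le_mul (ha t ht) (hI₀ t I (Finset.le_sup ht)) (norm_nonneg _) hK
    · refine IsUltrametricDist.norm_sum_le_of_forall_le_of_nonneg hnn fun i _ => ?_
      rw [norm_mul]
      exact (mul_le_mul (hJ.norm_le_one h0 h1 _)
        (u.trans hJ h0 h1 hh hr hz T haK hy hK ha hrel k i) (norm_nonneg _) zero_le_one).trans_eq
        (one_mul _)
  have hlim : Tendsto (fun k : ℕ => K₀ * ρ ^ (k + 1)) atTop (𝓝 0) := by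
    have := ((tendsto_pow_atTop_nhds_zero_of_lt_one h0.le h1).comp
      (tendsto_add_atTop_nat 1)).const_mul K₀
    simpa using this
  exact norm_le_zero_iff.1 (ge_of_tendsto' hlim key)

theorem UP.span (u : UP C D) (hJ : IsPer p J ρ) (h0 : 0 < ρ) (h1 : ρ < 1) (hh : 1 ≤ h)
    (hr : h + r = n) (hz : Sm z)
    (hΘ : IsHon (wFrob p C) n h (zseq n h (fun i => WittVector.teichmuller p (z i))) c Θ) :
    ∃ a : ℕ → F, ∀ y : C, ‖y‖ < 1 →
      lam J h (ev1 (PowerSeries.map ((u.sig p h).comp WittVector.constantCoeff) Θ)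
        (u.pi0 p n h z y)) = ∑ s ∈ Finset.range n, a s * lam J n (u.iota y ^ p ^ s) := by
  obtain ⟨a, ha⟩ := exists_extend_fun (u.KK J) (Y := {y : C // ‖y‖ < 1}) n
    (fun y s => lam J n (u.iota y.1 ^ p ^ s)) (fun y s _ => by
      rw [← map_pow]
      refine u.lam_mem_KK hJ h0 h1 (by omega) ?_
      rw [norm_pow]
      exact pow_lt_one₀ (norm_nonneg _) y.2 (pow_ne_zero _ hp.out.ne_zero))
    (fun y => lam J h (ev1 (PowerSeries.map ((u.sig p h).comp WittVector.constantCoeff) Θ)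
        (u.pi0 p n h z y.1)))
    (fun T a haK hrel => u.span_rel hJ h0 h1 hh hr hz hΘ T haK (fun t => t.2) hrel)
  exact ⟨a, fun y hy => ha ⟨y, hy⟩⟩

end Crest.Agent.R227
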