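import Crest.Agent.R227.Lam
import Crest.Agent.R227.Pi0

/-!
# R227 / Trans : linear relations between periods pass to the ultralimit

`EE k i y = p^k lg_{τ(σ z^{p^i})}(τ(π₀(y^{1/p^{nk}})^{p^i}))` is the ultralimit of the elements `EEm m k i y`.

Plan.
* `trans_level`: let `φ = iterateFrobenius C p i ∘ rt (h m)`, `z'' = φ z`.  By `map_prf` (for `φ`, then for `ι`),
  `ι (φ (prf_z x)) = prf_{ι z''} (ι (φ x))` and for `x = (rt (nk) y)^{p^{nm}}`, `φ x = rt (nk) (y^{p^{rm+i}})`.  Now `per_lam` over `D`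
  and `rel_all` (with `s₀ = 0`).
* `trans_limit`: choose `N` by `exists_lg_tail` (all points have norm `≤ ρ' = max_t ‖prf (rt (nk) y_t)‖ < 1`: `norm_prf_pow_le`,
  `norm_pi0_le`).  Let `R = ℕ → OO C`, `ŵ = ∑_t (const d_t) p^k ∑_{l<N} p^{N-l} bint(v̂)_l [x̂_t]^{p^l} ∈ W R`, where
  `v̂ j = [m ↦ zseq n h (φ_m z) j]`, `x̂_t = (m ↦ φ_m (prf …))`.  Its images under `W(ι_O ∘ eval_m)` and `W(U_O)`
  (`U_O : R →+* OO D` induced by `u.U`) are `p^N` times the truncated sums (`map_bint`, `pow_mul_bseq`,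
  `WittVector.map_teichmuller`); `norm_J_limit` transfers the bound `ρ^N max B ε`.
* `trans`: elements of `KK` are limits of quotients `J(Wι d) / J(Wι d')` (`Subfield.mem_closure_iff`: the range is a subring);
  use a common denominator; `EEm`, `EE` are bounded uniformly in `m` (`exists_lg_bound`).
-/

set_option autoImplicit false
open Crest.LubinTate Filter Topology

namespace Crest.Agent.R227

variable {p : ℕ} [hp : Fact p.Prime] {C D F : Type*} [NormedField C] [IsUltrametricDist C]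
  [CharP C p] [PerfectRing C p] [NormedField D] [IsUltrametricDist D] [CharP D p] [NormedField F]

/-- the diagonal embedding on unit balls. -/
noncomputable def UP.iotaO (u : UP C D) : OO C →+* OO D :=
  (u.iota.comp (OO C).subtype).codRestrict (OO D) fun a => by
    rw [mem_OO, RingHom.comp_apply, u.norm_iota]; exact a.2

/-- the rescaled embedding `C → O_D`. -/
noncomputable def UP.sigO (u : UP C D) {h : ℕ} (hh : 1 ≤ h) : C →+* OO D :=
  (u.sig p h).codRestrict (OO D) fun a => u.norm_sig_le hh a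

/-- the closed subfield generated by `W(O_C)`. -/
noncomputable def UP.KK (u : UP C D) (J : WittVector p (OO D) →+* F) : Subfield F :=
  (Subfield.closure (Set.range fun d : WittVector p (OO C) =>
    J (WittVector.map u.iotaO d))).topologicalClosure

/-- the limit expression. -/
noncomputable def UP.EE (u : UP C D) (J : WittVector p (OO D) →+* F) (n h : ℕ) {r : ℕ}
    (z : Fin r → C) (k i : ℕ) (y : C) : F :=
  (p : F) ^ k * lg p n (zseq n h fun l => tau J (u.sig p h (z l) ^ p ^ i))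
    (tau J (u.pi0 p n h z (rt p (n * k) y) ^ p ^ i))

/-- the expression at level `m`. -/
noncomputable def UP.EEm (u : UP C D) (J : WittVector p (OO D) →+* F) (n h : ℕ) {r : ℕ}
    (z : Fin r → C) (m k i : ℕ) (y : C) : F :=
  (p : F) ^ k * lg p n (zseq n h fun l => tau J (u.iota (rt p (h * m) (z l) ^ p ^ i)))
    (tau J (u.iota (rt p (h * m) (prf p n (zseq n h z) (rt p (n * k) y ^ p ^ (n * m))) ^ p ^ i)))

variable {J : WittVector p (OO D) →+* F} {ρ : ℝ}

theorem UP.exists_UO (u : UP C D) : ∃ V : (ℕ → OO C) →+* OO D,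
    ∀ a : ℕ → OO C, (V a : D) = u.U (bs fun m => (a m : C)) := by
  let φ : (ℕ → OO C) →+* BS C :=
    (RingHom.pi fun m => (OO C).subtype.comp (Pi.evalRingHom (fun _ : ℕ => OO C) m)).codRestrict
      (BS C) fun a => ⟨1, fun m => (a m).2⟩
  have hφ : ∀ a, φ a = bs fun m => (a m : C) := fun a => bs_ext fun m => by
    rw [evm_apply, evm_apply, bs_apply (B := 1) (fun m => (a m).2)]; rfl
  refine ⟨(u.U.comp φ).codRestrict (OO D) fun a =>
    u.norm_U_le (Eventually.of_forall fun m => (a m).2), fun a => ?_⟩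
  rw [← hφ]; rfl

theorem UP.norm_J_limit (u : UP C D) (hJ : IsPer p J ρ) (h0 : 0 < ρ) {V : (ℕ → OO C) →+* OO D}
    (hV : ∀ a : ℕ → OO C, (V a : D) = u.U (bs fun m => (a m : C)))
    (w : WittVector p (ℕ → OO C)) {B : ℝ} (hB : 0 ≤ B)
    (h : ∀ m, ‖J (WittVector.map (u.iotaO.comp (Pi.evalRingHom (fun _ : ℕ => OO C) m)) w)‖ ≤ B) :
    ‖J (WittVector.map V w)‖ ≤ B := by
  rw [hJ _ _ hB]
  intro i
  have hpos : 0 < (ρ ^ i) ^ p ^ i := by positivity
  rw [WittVector.map_coeff, hV, ← le_div_iff₀ hpos]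
  refine u.norm_U_le (Eventually.of_forall fun m => ?_)
  rw [evm_apply, bs_apply (B := 1) (fun m => (w.coeff i m).2), le_div_iff₀ hpos]
  have := (hJ _ _ hB).1 (h m) i
  rw [WittVector.map_coeff] at this
  have e : ‖((u.iotaO.comp (Pi.evalRingHom (fun _ : ℕ => OO C) m) (w.coeff i) : OO D) : D)‖ =
      ‖(w.coeff i m : C)‖ := u.norm_iota _
  rwa [e] at this

variable [PerfectRing D p] [CompleteSpace C] [CompleteSpace D] [IsUltrametricDist F]
  [CompleteSpace F] {n h r : ℕ} {z : Fin r → C}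

theorem UP.lam_mem_KK (u : UP C D) (hJ : IsPer p J ρ) (h0 : 0 < ρ) (h1 : ρ < 1) {N : ℕ}
    (hN : 1 ≤ N) {y : C} (hy : ‖y‖ < 1) : lam J N (u.iota y) ∈ u.KK J := by
  refine hJ.lam_mem h0 h1 hN _ (Subfield.isClosed_topologicalClosure _)
    (by rw [u.norm_iota]; exact hy) fun j => ?_
  refine Subfield.le_topologicalClosure _ (Subfield.subset_closure
    ⟨WittVector.teichmuller p ⟨rt p j y, norm_rt_le_one j hy.le⟩, ?_⟩)
  beta_reduce
  rw [WittVector.map_teichmuller, ← tau_coe, ← map_rt]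
  rfl

theorem UP.trans_level (u : UP C D) (hJ : IsPer p J ρ) (h0 : 0 < ρ) (h1 : ρ < 1) (hh : 1 ≤ h)
    (hr : h + r = n) (hz : Sm z) {ι : Type*} (T : Finset ι) {a : ι → F} {y : ι → C}
    (hy : ∀ t, ‖y t‖ < 1) {K₀ : ℝ} (hK : 0 ≤ K₀) (ha : ∀ t ∈ T, ‖a t‖ ≤ K₀)
    (hrel : ∀ s < n, ∑ t ∈ T, a t * lam J n (u.iota (y t) ^ p ^ s) = 0) (m k i : ℕ) :
    ‖∑ t ∈ T, a t * u.EEm J n h z m k i (y t)‖ ≤ K₀ * ρ ^ (k + 1) := by
  have hn : 1 ≤ n := by omega
  have hpe : ∀ e, p ^ e ≠ 0 := fun e => pow_ne_zero _ hp.out.ne_zero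
  have hlt : ∀ {a : C}, ‖a‖ < 1 → ∀ e, ‖a ^ p ^ e‖ < 1 := fun ha e => by
    rw [norm_pow]; exact pow_lt_one₀ (norm_nonneg _) ha (hpe e)
  let φ : C →+* D := u.iota.comp ((iterateFrobenius C p i).comp (rt p (h * m)))
  have hφ : ∀ a, φ a = u.iota (rt p (h * m) a ^ p ^ i) := fun a => rfl
  have hφc : Continuous φ := u.continuous_iota.comp ((continuous_rt (h * m)).pow _)
  have hz' : Sm (fun l => φ (z l)) := fun l => by
    beta_reduce; rw [hφ, u.norm_iota]; exact hlt (norm_rt_lt_one _ (hz l)) i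
  have hy' : ∀ t, ‖u.iota (y t) ^ p ^ (r * m + i)‖ < 1 := fun t => by
    rw [← map_pow, u.norm_iota]; exact hlt (hy t) _
  have e1 : ∀ t, u.EEm J n h z m k i (y t) = (p : F) ^ k *
      lg p n (zseq n h fun l => tau J (φ (z l))) (tau J (prf p n (zseq n h fun l => φ (z l))
        (rt p (n * k) (u.iota (y t) ^ p ^ (r * m + i))))) := fun t => by
    rw [UP.EEm, ← hφ, map_prf φ hφc hh hr hz (hlt (norm_rt_lt_one _ (hy t)) _)]
    congr 4
    rw [hφ, ← map_pow (rt p (n * k)), ← map_pow u.iota, ← map_rt u.iota,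
      map_rt (rt p (h * m)) (n * k), ← map_pow, show n * m = h * m + r * m by rw [← hr, add_mul],
      rt_pow_add, ← pow_mul, ← pow_add]
  let L : ι → F := fun t => ∑ s ∈ Finset.range n,
    per p n (zseq n h fun l => tau J (φ (z l))) s *
      lam J n ((u.iota (y t) ^ p ^ (r * m + i)) ^ p ^ s)
  have e2 : ∑ t ∈ T, a t * L t = 0 := by
    simp only [L, Finset.mul_sum]
    rw [Finset.sum_comm]
    refine Finset.sum_eq_zero fun s _ => ?_
    have := hJ.rel_all h0 h1 hn T a (y := fun t => u.iota (y t))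
      (fun t => by rw [u.norm_iota]; exact hy t) 0 (by simpa using hrel) (r * m + i + s)
    calc _ = per p n (zseq n h fun l => tau J (φ (z l))) s *
          ∑ t ∈ T, a t * lam J n (u.iota (y t) ^ p ^ (r * m + i + s)) := by
          rw [Finset.mul_sum]
          refine Finset.sum_congr rfl fun t _ => ?_
          rw [← pow_mul, ← pow_add]; ring
      _ = 0 := by rw [this, mul_zero]
  have e3 : ∑ t ∈ T, a t * u.EEm J n h z m k i (y t) =
      ∑ t ∈ T, a t * (u.EEm J n h z m k i (y t) - L t) := by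
    simp only [mul_sub, Finset.sum_sub_distrib, e2, sub_zero]
  rw [e3]
  refine IsUltrametricDist.norm_sum_le_of_forall_le_of_nonneg (by positivity) fun t ht => ?_
  rw [norm_mul, norm_sub_rev, e1]
  exact mul_le_mul (ha t ht) (hJ.per_lam h0 h1 hh hr hz' (hy' t) k) (norm_nonneg _) hK

theorem UP.trans_limit (u : UP C D) (hJ : IsPer p J ρ) (h0 : 0 < ρ) (h1 : ρ < 1) (hh : 1 ≤ h)
    (hr : h + r = n) (hz : Sm z) {ι : Type*} (T : Finset ι) (d : ι → WittVector p (OO C))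
    {y : ι → C} (hy : ∀ t, ‖y t‖ < 1) (k i : ℕ) {B : ℝ}
    (h' : ∀ m, ‖∑ t ∈ T, J (WittVector.map u.iotaO (d t)) * u.EEm J n h z m k i (y t)‖ ≤ B) :
    ‖∑ t ∈ T, J (WittVector.map u.iotaO (d t)) * u.EE J n h z k i (y t)‖ ≤ B := by
  have hB : 0 ≤ B := (norm_nonneg _).trans (h' 0)
  have hp0 := hJ.p_ne_zero h0
  have hpn := hJ.norm_p h0
  have hpe : ∀ e, p ^ e ≠ 0 := fun e => pow_ne_zero _ hp.out.ne_zero
  refine le_of_forall_pos_le_add fun ε hε => ?_
  suffices ‖∑ t ∈ T, J (WittVector.map u.iotaO (d t)) * u.EE J n h z k i (y t)‖ ≤ max B ε from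
    this.trans (max_le (by linarith) (by linarith))
  -- radius
  obtain ⟨ρ', hρ0, hρ1, hρ'⟩ := Sm.exists_bound (τ := T)
    (y := fun t => prf p n (zseq n h z) (rt p (n * k) (y t)))
    (fun t => norm_prf_lt hh hr hz (norm_rt_lt_one _ (hy t)))
  obtain ⟨N, hN⟩ := exists_lg_tail hp0 hρ1 hε
  obtain ⟨V, hV⟩ := u.exists_UO
  -- the sequences
  let xs : ι → ℕ → C := fun t m => prf p n (zseq n h z) (rt p (n * k) (y t) ^ p ^ (n * m))
  have hxs1 : ∀ t m, ‖xs t m‖ < 1 := fun t m => norm_prf_lt hh hr hz (by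
    rw [norm_pow]; exact pow_lt_one₀ (norm_nonneg _) (norm_rt_lt_one _ (hy t)) (hpe _))
  have hxs : ∀ t ∈ T, ∀ m, ‖rt p (h * m) (xs t m)‖ ≤ ρ' := fun t ht m => by
    rw [norm_rt_le_iff _ _ hρ0]
    exact (norm_prf_pow_le hh hr hz (norm_rt_lt_one _ (hy t)) m).trans
      (pow_le_pow_left₀ (norm_nonneg _) (hρ' ⟨t, ht⟩) _)
  let xh : ι → ℕ → OO C := fun t m => ⟨rt p (h * m) (xs t m), norm_rt_le_one _ (hxs1 t m).le⟩
  let zh : Fin r → ℕ → OO C := fun l m => ⟨rt p (h * m) (z l), norm_rt_le_one _ (hz l).le⟩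
  let cs : OO C →+* (ℕ → OO C) := Pi.constRingHom ℕ (OO C)
  let w : WittVector p (ℕ → OO C) := ∑ t ∈ T, WittVector.map cs (d t) * ((p : _) ^ k *
    ∑ l ∈ Finset.range N, (p : _) ^ (N - l) *
      (bint p n (zseq n h fun l => WittVector.teichmuller p (zh l ^ p ^ i)) l *
        WittVector.teichmuller p (xh t ^ p ^ i) ^ p ^ l))
  have hw : ∀ g : (ℕ → OO C) →+* OO D, g.comp cs = u.iotaO →
      J (WittVector.map g w) = (p : F) ^ N * ∑ t ∈ T, J (WittVector.map u.iotaO (d t)) *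
        ((p : F) ^ k * ∑ l ∈ Finset.range N,
          bseq p n (p : F)⁻¹ (zseq n h fun l => tau J ((g (zh l) : D) ^ p ^ i)) l *
            tau J ((g (xh t) : D) ^ p ^ i) ^ p ^ l) := fun g hg => by
    have ht : ∀ a : ℕ → OO C, (J.comp (WittVector.map g)) (WittVector.teichmuller p (a ^ p ^ i)) =
        tau J ((g a : D) ^ p ^ i) := fun a => by
      rw [RingHom.comp_apply, WittVector.map_teichmuller, ← tau_coe, map_pow g]; rfl
    change (J.comp (WittVector.map g)) w = _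
    simp only [w, map_sum, map_mul, map_pow (J.comp (WittVector.map g)), map_natCast, map_bint,
      map_zseq, ht]
    rw [Finset.mul_sum]
    refine Finset.sum_congr rfl fun t _ => ?_
    have e1 : (J.comp (WittVector.map g)) (WittVector.map cs (d t)) =
        J (WittVector.map u.iotaO (d t)) := by
      rw [← hg, RingHom.comp_apply]
      congr 1
    rw [e1, mul_left_comm ((p : F) ^ N), mul_left_comm ((p : F) ^ N),
      Finset.mul_sum _ _ ((p : F) ^ N)]
    congr 2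
    refine Finset.sum_congr rfl fun l hl => ?_
    rw [← pow_mul_bseq p n (mul_inv_cancel₀ hp0)]
    have : (p : F) ^ N = (p : F) ^ (N - l) * (p : F) ^ l := by
      rw [← pow_add, Nat.sub_add_cancel (Finset.mem_range.1 hl).le]
    rw [this]; ring
  -- comparison of the truncated sum with the logarithm
  have hcmp : ∀ (zz : Fin r → D) (xx : ι → D), (∀ t ∈ T, ‖xx t‖ ≤ ρ') →
      ‖∑ t ∈ T, J (WittVector.map u.iotaO (d t)) * ((p : F) ^ k *
          lg p n (zseq n h fun l => tau J (zz l ^ p ^ i)) (tau J (xx t ^ p ^ i))) -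
        ∑ t ∈ T, J (WittVector.map u.iotaO (d t)) * ((p : F) ^ k * ∑ l ∈ Finset.range N,
          bseq p n (p : F)⁻¹ (zseq n h fun l => tau J (zz l ^ p ^ i)) l *
            tau J (xx t ^ p ^ i) ^ p ^ l)‖ ≤ ε := fun zz xx hxx => by
    rw [← Finset.sum_sub_distrib]
    refine IsUltrametricDist.norm_sum_le_of_forall_le_of_nonneg hε.le fun t ht => ?_
    rw [← mul_sub, ← mul_sub, norm_mul, norm_mul, norm_pow, hpn]
    have hx1 : ‖xx t ^ p ^ i‖ ≤ ρ' := by
      rw [norm_pow]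
      exact (pow_le_of_le_one (norm_nonneg _) ((hxx t ht).trans hρ1.le) (hpe i)).trans (hxx t ht)
    have := hN n (zseq n h fun l => tau J (zz l ^ p ^ i))
      (norm_zseq_le' n h fun l => hJ.norm_tau_le _) (tau J (xx t ^ p ^ i))
      (by rw [hJ.norm_tau (hx1.trans hρ1.le)]; exact hx1)
    calc _ ≤ 1 * (1 * ε) := mul_le_mul (hJ.norm_le_one h0 h1 _)
          (mul_le_mul (pow_le_one₀ h0.le h1.le) this (norm_nonneg _) zero_le_one) (by positivity)
          zero_le_one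
      _ = ε := by ring
  have htri : ∀ a b : F, ‖a‖ ≤ max B ε → ‖a - b‖ ≤ ε → ‖b‖ ≤ max B ε := fun a b ha hab => by
    have := IsUltrametricDist.norm_add_le_max a (-(a - b))
    rw [norm_neg, show a + -(a - b) = b by ring] at this
    exact this.trans (max_le ha (hab.trans (le_max_right _ _)))
  have hlev : ∀ m, ‖J (WittVector.map (u.iotaO.comp (Pi.evalRingHom (fun _ : ℕ => OO C) m)) w)‖ ≤
      ρ ^ N * max B ε := fun m => by
    rw [hw _ (by ext a; rfl), norm_mul, norm_pow, hpn]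
    refine mul_le_mul_of_nonneg_left ?_ (pow_nonneg h0.le _)
    refine htri _ _ ((h' m).trans (le_max_left _ _)) ?_
    have := hcmp (fun l => u.iota (rt p (h * m) (z l))) (fun t => u.iota (rt p (h * m) (xs t m)))
      (fun t ht => by rw [u.norm_iota]; exact hxs t ht m)
    simp only [UP.EEm, map_pow u.iota]
    exact this
  have hlim := u.norm_J_limit hJ h0 hV w (by positivity) hlev
  have hVz : ∀ l, (V (zh l) : D) = u.sig p h (z l) := fun l => by
    rw [hV]
    refine u.U_congr (Eventually.of_forall fun m => ?_)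
    rw [evm_apply, bs_apply (B := 1) (fun m => (zh l m).2)]; rfl
  have hVx : ∀ t, (V (xh t) : D) = u.pi0 p n h z (rt p (n * k) (y t)) := fun t => by
    rw [hV]
    refine u.U_congr (Eventually.of_forall fun m => ?_)
    rw [evm_apply, bs_apply (B := 1) (fun m => (xh t m).2), evm_rtS, evm_apply,
      bs_apply (B := 1) (fun m => (hxs1 t m).le)]
  rw [hw V (by
    ext a
    change (V (cs a) : D) = u.iota a
    rw [hV]
    refine u.U_congr (Eventually.of_forall fun m => ?_)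
    rw [evm_apply, bs_apply (B := 1) (fun m => (cs a m).2)]; rfl), norm_mul, norm_pow, hpn,
    mul_le_mul_iff_right₀ (pow_pos h0 N)] at hlim
  simp only [hVz, hVx] at hlim
  refine htri _ _ hlim ?_
  rw [norm_sub_rev]
  exact hcmp (fun l => u.sig p h (z l)) (fun t => u.pi0 p n h z (rt p (n * k) (y t)))
    (fun t ht => (u.norm_pi0_le hh hr hz (norm_rt_lt_one _ (hy t))).trans (hρ' ⟨t, ht⟩))

theorem UP.trans (u : UP C D) (hJ : IsPer p J ρ) (h0 : 0 < ρ) (h1 : ρ < 1) (hh : 1 ≤ h)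
    (hr : h + r = n) (hz : Sm z) {ι : Type*} (T : Finset ι) {a : ι → F}
    (haK : ∀ t ∈ T, a t ∈ u.KK J) {y : ι → C} (hy : ∀ t, ‖y t‖ < 1) {K₀ : ℝ} (hK : 0 ≤ K₀)
    (ha : ∀ t ∈ T, ‖a t‖ ≤ K₀)
    (hrel : ∀ s < n, ∑ t ∈ T, a t * lam J n (u.iota (y t) ^ p ^ s) = 0) (k i : ℕ) :
    ‖∑ t ∈ T, a t * u.EE J n h z k i (y t)‖ ≤ K₀ * ρ ^ (k + 1) := by
  classical
  have hp0 := hJ.p_ne_zero h0
  have hpn := hJ.norm_p h0
  have hpe : ∀ e, p ^ e ≠ 0 := fun e => pow_ne_zero _ hp.out.ne_zero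
  let φ : WittVector p (OO C) →+* F := J.comp (WittVector.map u.iotaO)
  obtain ⟨ρ', hρ0, hρ1, hρ'⟩ := Sm.exists_bound (τ := T)
    (y := fun t => prf p n (zseq n h z) (rt p (n * k) (y t)))
    (fun t => norm_prf_lt hh hr hz (norm_rt_lt_one _ (hy t)))
  obtain ⟨B₁, hB₁⟩ := exists_lg_bound hp0 hρ1
  set B₀ := max B₁ 1
  have hB₀ : 0 < B₀ := lt_max_of_lt_right one_pos
  have hbd : ∀ (zz : Fin r → D) (x : D), ‖x‖ ≤ ρ' →
      ‖(p : F) ^ k * lg p n (zseq n h fun l => tau J (zz l)) (tau J (x ^ p ^ i))‖ ≤ B₀ := by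
    intro zz x hx
    have hx1 : ‖x ^ p ^ i‖ ≤ ρ' := by
      rw [norm_pow]
      exact (pow_le_of_le_one (norm_nonneg _) (hx.trans hρ1.le) (hpe i)).trans hx
    have := hB₁ n (zseq n h fun l => tau J (zz l)) (norm_zseq_le' n h fun l => hJ.norm_tau_le _)
      (tau J (x ^ p ^ i)) (by rw [hJ.norm_tau (hx1.trans hρ1.le)]; exact hx1)
    rw [norm_mul, norm_pow, hpn]
    calc _ ≤ 1 * B₀ := mul_le_mul (pow_le_one₀ h0.le h1.le) (this.trans (le_max_left _ _))
          (norm_nonneg _) zero_le_one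
      _ = B₀ := one_mul _
  have hEE : ∀ t ∈ T, ‖u.EE J n h z k i (y t)‖ ≤ B₀ := fun t ht =>
    hbd _ _ ((u.norm_pi0_le hh hr hz (norm_rt_lt_one _ (hy t))).trans (hρ' ⟨t, ht⟩))
  have hEEm : ∀ m, ∀ t ∈ T, ‖u.EEm J n h z m k i (y t)‖ ≤ B₀ := fun m t ht => by
    rw [UP.EEm, map_pow u.iota (rt p (h * m) (prf _ _ _ _))]
    refine hbd _ _ ?_
    rw [u.norm_iota, norm_rt_le_iff _ _ hρ0]
    exact (norm_prf_pow_le hh hr hz (norm_rt_lt_one _ (hy t)) m).trans
      (pow_le_pow_left₀ (norm_nonneg _) (hρ' ⟨t, ht⟩) _)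
  refine le_of_forall_pos_le_add fun ε hε => ?_
  have happ : ∀ t ∈ T, ∃ a' : F, ‖a t - a'‖ ≤ ε / B₀ ∧ ∃ Y d, φ Y ≠ 0 ∧ φ Y * a' = φ d := by
    intro t ht
    obtain ⟨a', ha', hd⟩ := Metric.mem_closure_iff.1 (haK t ht) (ε / B₀) (by positivity)
    refine ⟨a', by rw [← dist_eq_norm]; exact hd.le, ?_⟩
    obtain ⟨b, hb, c, hc, rfl⟩ := Subfield.mem_closure_iff.1 ha'
    have e : Subring.closure (Set.range fun d : WittVector p (OO C) =>
        J (WittVector.map u.iotaO d)) = φ.range := Subring.closure_eq φ.range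
    rw [e] at hb hc
    obtain ⟨b, rfl⟩ := hb
    obtain ⟨c, rfl⟩ := hc
    by_cases h' : φ c = 0
    · exact ⟨1, 0, by simp, by simp [h']⟩
    · exact ⟨c, b, h', by field_simp⟩
  choose! a' ha' Y d hY hd using happ
  set Z := ∏ t ∈ T, Y t
  have hZ : φ Z ≠ 0 := by
    rw [map_prod]; exact Finset.prod_ne_zero_iff.2 hY
  have hd' : ∀ t ∈ T, φ (d t * ∏ s ∈ T.erase t, Y s) = φ Z * a' t := fun t ht => by
    rw [map_mul, ← hd t ht, show Z = Y t * ∏ s ∈ T.erase t, Y s from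
      (Finset.mul_prod_erase T Y ht).symm, map_mul]
    ring
  have hdiff : ∀ E : ι → F, (∀ t ∈ T, ‖E t‖ ≤ B₀) →
      ‖∑ t ∈ T, a t * E t - ∑ t ∈ T, a' t * E t‖ ≤ ε := fun E hE => by
    rw [← Finset.sum_sub_distrib]
    refine IsUltrametricDist.norm_sum_le_of_forall_le_of_nonneg hε.le fun t ht => ?_
    rw [← sub_mul, norm_mul]
    calc _ ≤ ε / B₀ * B₀ := mul_le_mul (ha' t ht) (hE t ht) (norm_nonneg _) (by positivity)
      _ = ε := by field_simp
  have hscale : ∀ E : ι → F, ∑ t ∈ T, φ (d t * ∏ s ∈ T.erase t, Y s) * E t =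
      φ Z * ∑ t ∈ T, a' t * E t := fun E => by
    rw [Finset.mul_sum]
    exact Finset.sum_congr rfl fun t ht => by rw [hd' t ht, mul_assoc]
  set B := max (K₀ * ρ ^ (k + 1)) ε
  have htri : ∀ a b : F, ‖a‖ ≤ B → ‖a - b‖ ≤ ε → ‖b‖ ≤ B := fun a b ha hab => by
    have := IsUltrametricDist.norm_add_le_max a (-(a - b))
    rw [norm_neg, show a + -(a - b) = b by ring] at this
    exact this.trans (max_le ha (hab.trans (le_max_right _ _)))
  have h2 := u.trans_limit hJ h0 h1 hh hr hz T (fun t => d t * ∏ s ∈ T.erase t, Y s) hy k i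
    (B := ‖φ Z‖ * B) (fun m => by
      have := hscale fun t => u.EEm J n h z m k i (y t)
      change ‖∑ t ∈ T, φ _ * _‖ ≤ _
      rw [this, norm_mul]
      exact mul_le_mul_of_nonneg_left (htri _ _
        ((u.trans_level hJ h0 h1 hh hr hz T hy hK ha hrel m k i).trans (le_max_left _ _))
        (hdiff _ (hEEm m))) (norm_nonneg _))
  change ‖∑ t ∈ T, φ _ * _‖ ≤ _ at h2
  rw [hscale, norm_mul, mul_le_mul_iff_right₀ (norm_pos_iff.2 hZ)] at h2
  refine (htri _ _ h2 (by rw [norm_sub_rev]; exact hdiff _ hEE)).trans ?_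
  have : 0 ≤ K₀ * ρ ^ (k + 1) := by positivity
  exact max_le (by linarith) (by linarith)

end Crest.Agent.R227
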