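import Crest.Agent.R227.Conv
import Crest.Agent.R227.Log

/-!
# R227 / Transfer : from an arbitrary universal deformation to the standard one

Plan.
* `exists_lift_series`: coefficientwise lifts (take `0` for the constant term).
* `exists_transfer`: `F = H.map constantCoeff` is a lift of `Γ` to `W k`, so `exists_iso_hon` gives a strict
  isomorphism `Θ : Γ → GG`.  Let `s` be a lift to `E` of the inverse `Θ'` of `Θ`, `H''` the transport of `HH`
  along `s` (`exists_transport`); `H''.map residue = Γ` by `transport_unique`.  Universality of `H` with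
  `B = E` gives `τ` and `θ : H.map τ → H''`; `ϑ = s⁻¹ ∘ θ`.  By `heightIdeal_of_iso` and `heightIdeal_map`,
  `𝔪 = Jid n = map τ (heightIdeal H n) ≤ map τ 𝔪` (if `heightIdeal H n` contained a unit then `𝔪 = ⊤`),
  so `τ` is bijective (`bijective_of_map_max`).
* `isUniversal_transfer`: given `(B, r, G)` deforming `Γ'`, let `Θ = residue ϑ : Γ → Γ'`, lift `Θ⁻¹` to `s` over
  `B`, transport `G` along `s` to `G''` deforming `Γ`, get `φ`; take `φ ∘ τ⁻¹` with the isomorphism
  `s⁻¹ ∘ θ ∘ (φ τ⁻¹)(ϑ⁻¹)`.  Uniqueness: for `φ'`, `φ' ∘ τ` satisfies the condition for `G''`.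
* `stable_transfer`: for `g'`, `φ'`, `θ'` put `g = Θ⁻¹ g' Θ`, `φ = τ⁻¹ φ' τ`,
  `θ = τ⁻¹ (ϑ⁻¹ ∘ θ' ∘ φ'(ϑ))`.  Prove one implication in general and apply it to the inverse data
  `(τ⁻¹, τ⁻¹(ϑ⁻¹))` for the other.
-/

set_option autoImplicit false
open Crest.LubinTate

namespace Crest.Agent.R227

theorem exists_lift_series {R S : Type*} [CommRing R] [CommRing S] (ρ : R →+* S)
    (hρ : Function.Surjective ρ) {g : PowerSeries S} (hg : PowerSeries.constantCoeff g = 0) :
    ∃ s : PowerSeries R, PowerSeries.constantCoeff s = 0 ∧ PowerSeries.map ρ s = g := by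
  refine ⟨PowerSeries.mk fun i => if i = 0 then 0 else
    Function.surjInv hρ (PowerSeries.coeff i g), ?_, ?_⟩
  · rw [← PowerSeries.coeff_zero_eq_constantCoeff_apply, PowerSeries.coeff_mk, if_pos rfl]
  · ext i
    rw [PowerSeries.coeff_map, PowerSeries.coeff_mk]
    split_ifs with hi
    · rw [hi, map_zero, PowerSeries.coeff_zero_eq_constantCoeff_apply, hg]
    · exact Function.surjInv_eq hρ _

theorem exists_hom_inv {R : Type*} [CommRing R] {F G : FormalGroup R} {θ : PowerSeries R}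
    (h : IsFGHom F G θ) (h1 : IsUnit (PowerSeries.coeff 1 θ)) :
    ∃ ψ : PowerSeries R, IsFGHom G F ψ ∧ IsUnit (PowerSeries.coeff 1 ψ) ∧
      cmp θ ψ = PowerSeries.X ∧ cmp ψ θ = PowerSeries.X := by
  obtain ⟨ψ, h0, e1, e2, e3⟩ := exists_cmp_inv h.1 h1
  exact ⟨ψ, isFGHom_inv h h0 e2 e3, IsUnit.of_mul_eq_one_right _ e1, e2, e3⟩

theorem ps_map_map {R S T : Type*} [CommRing R] [CommRing S] [CommRing T] (ρ : R →+* S)
    (ρ' : S →+* T) (f : PowerSeries R) :
    PowerSeries.map ρ' (PowerSeries.map ρ f) = PowerSeries.map (ρ'.comp ρ) f := by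
  ext i
  simp only [PowerSeries.coeff_map, RingHom.comp_apply]

theorem coeff_cmp_congr_left {R : Type*} [CommRing R] {f f' g : PowerSeries R} {M : ℕ}
    (hg : PowerSeries.constantCoeff g = 0)
    (h : ∀ i < M, PowerSeries.coeff i f = PowerSeries.coeff i f') :
    ∀ i < M, PowerSeries.coeff i (cmp f g) = PowerSeries.coeff i (cmp f' g) := by
  intro i hi
  have hs := PowerSeries.HasSubst.of_constantCoeff_zero' hg
  rw [PowerSeries.coeff_subst' hs, PowerSeries.coeff_subst' hs]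
  refine finsum_congr fun d => ?_
  rcases lt_or_ge d M with hd | hd
  · rw [h d hd]
  · rw [PowerSeries.X_pow_dvd_iff.1 (pow_dvd_pow_of_dvd (PowerSeries.X_dvd_iff.2 hg) d) i
      (by omega), smul_zero, smul_zero]

theorem coeff_cmp_congr_right {R : Type*} [CommRing R] {f g g' : PowerSeries R} {M : ℕ}
    (hg : PowerSeries.constantCoeff g = 0) (hg' : PowerSeries.constantCoeff g' = 0)
    (h : ∀ i < M, PowerSeries.coeff i g = PowerSeries.coeff i g') :
    ∀ i < M, PowerSeries.coeff i (cmp f g) = PowerSeries.coeff i (cmp f g') := by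
  intro i hi
  rw [PowerSeries.coeff_subst' (PowerSeries.HasSubst.of_constantCoeff_zero' hg),
    PowerSeries.coeff_subst' (PowerSeries.HasSubst.of_constantCoeff_zero' hg')]
  refine finsum_congr fun d => ?_
  have h1 : (PowerSeries.X : PowerSeries R) ^ M ∣ g - g' :=
    PowerSeries.X_pow_dvd_iff.2 fun m hm => by rw [map_sub, h m hm, sub_self]
  have h2 := PowerSeries.X_pow_dvd_iff.1 (h1.trans (sub_dvd_pow_sub_pow g g' d)) i hi
  rw [map_sub, sub_eq_zero] at h2
  rw [h2]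

variable {p : ℕ} [hp : Fact p.Prime] {n : ℕ}

theorem exists_transfer (hn : 1 ≤ n) {Γ : FormalGroup (GaloisField p n)}
    (hΓ : mulSeries Γ p = PowerSeries.X ^ (p ^ n)) {H : FormalGroup (LTRing p n)}
    (hH : IsUniversalDeformation p n Γ H) :
    ∃ (τ : LTRing p n ≃ₐ[WittVector p (GaloisField p n)] LTRing p n)
      (ϑ : PowerSeries (LTRing p n)),
      (∀ a, LTRing.residue p n (τ a) = LTRing.residue p n a) ∧
      IsFGHom (H.map (τ : LTRing p n →+* LTRing p n)) (HH p n) ϑ ∧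
      IsUnit (PowerSeries.coeff 1 ϑ) := by
  have hF : (H.map MvPowerSeries.constantCoeff).map WittVector.constantCoeff = Γ := by
    rw [fg_map_map]; exact hH.1
  obtain ⟨Θ, hΘ1, hΘ⟩ := exists_iso_hon p n hn (H.map MvPowerSeries.constantCoeff)
    (by rw [hF]; exact hΓ)
  rw [hF] at hΘ
  obtain ⟨Θ', hΘ', hΘ'1, -, -⟩ := exists_hom_inv hΘ (by rw [hΘ1]; exact isUnit_one)
  obtain ⟨s, hs0, hs⟩ := exists_lift_series _ (residue_surjective p n) hΘ'.1
  have hs1 : IsUnit (PowerSeries.coeff 1 s) := by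
    refine isUnit_of_residue p n ?_
    rw [← PowerSeries.coeff_map, hs]
    exact hΘ'1.ne_zero
  obtain ⟨H'', hH''⟩ := exists_transport (HH p n) hs0 hs1
  have hred : H''.map (LTRing.residue p n) = Γ := by
    have h2 := isFGHom_map (LTRing.residue p n) hH''
    rw [HH_map_residue p n hn, hs] at h2
    exact transport_unique hΘ'1 h2 hΘ'
  obtain ⟨φ, ⟨hφ, θ, hθ, hθX⟩, -⟩ := hH.2 (LTRing p n) (lt_isAdicComplete p n) (LTRing.residue p n)
    (residue_surjective p n) (ker_residue p n) (residue_comp_algebraMap p n) H'' hred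
  have hθ1 : IsUnit (PowerSeries.coeff 1 θ) := by
    refine isUnit_of_residue p n ?_
    rw [← PowerSeries.coeff_map, hθX, PowerSeries.coeff_one_X]
    exact one_ne_zero
  obtain ⟨s', hs', hs'1, -, -⟩ := exists_hom_inv hH'' hs1
  have hϑ := isFGHom_cmp hθ hs'
  have hϑ1 : IsUnit (PowerSeries.coeff 1 (cmp s' θ)) := by
    rw [coeff_one_cmp _ hθ.1]; exact hs'1.mul hθ1
  have h3 := heightIdeal_of_iso hϑ hϑ1 le_rfl
  rw [heightIdeal_map, Jid_self p n hn] at h3
  have hb : Function.Bijective φ := by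
    refine bijective_of_map_max p n φ hφ ?_
    conv_lhs => rw [← h3]
    refine Ideal.map_mono (IsLocalRing.le_maximalIdeal fun htop => ?_)
    rw [htop, Ideal.map_top] at h3
    exact (IsLocalRing.maximalIdeal.isMaximal _).ne_top h3.symm
  exact ⟨AlgEquiv.ofBijective φ hb, cmp s' θ, fun a => RingHom.congr_fun hφ a, hϑ, hϑ1⟩

theorem isUniversal_transfer {Γ Γ' : FormalGroup (GaloisField p n)}
    {H H' : FormalGroup (LTRing p n)} (hH : IsUniversalDeformation p n Γ H)
    (hH' : H'.map (LTRing.residue p n) = Γ')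
    (τ : LTRing p n ≃ₐ[WittVector p (GaloisField p n)] LTRing p n) {ϑ : PowerSeries (LTRing p n)}
    (hτ : ∀ a, LTRing.residue p n (τ a) = LTRing.residue p n a)
    (hϑ : IsFGHom (H.map (τ : LTRing p n →+* LTRing p n)) H' ϑ)
    (h1 : IsUnit (PowerSeries.coeff 1 ϑ)) : IsUniversalDeformation p n Γ' H' := by
  refine ⟨hH', fun B _ _ _ _ hc r hr hk hcomp G hG => ?_⟩
  have hτ' : (LTRing.residue p n).comp (τ : LTRing p n →+* LTRing p n) = LTRing.residue p n :=
    RingHom.ext hτ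
  obtain ⟨ϑ', hϑ', hϑ'1, e1, e2⟩ := exists_hom_inv hϑ h1
  set Θ := PowerSeries.map (LTRing.residue p n) ϑ with hΘdef
  set Θ' := PowerSeries.map (LTRing.residue p n) ϑ' with hΘ'def
  have hΘ : IsFGHom Γ Γ' Θ := by
    have := isFGHom_map (LTRing.residue p n) hϑ
    rwa [fg_map_map, hτ', hH.1, hH'] at this
  have hΘ' : IsFGHom Γ' Γ Θ' := by
    have := isFGHom_map (LTRing.residue p n) hϑ'
    rwa [fg_map_map, hτ', hH.1, hH'] at this
  have f1 : cmp Θ Θ' = PowerSeries.X := by rw [← map_cmp _ _ hϑ'.1, e1, PowerSeries.map_X]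
  have f2 : cmp Θ' Θ = PowerSeries.X := by rw [← map_cmp _ _ hϑ.1, e2, PowerSeries.map_X]
  have hΘ'1 : IsUnit (PowerSeries.coeff 1 Θ') := by
    rw [hΘ'def, PowerSeries.coeff_map]; exact hϑ'1.map _
  obtain ⟨s, hs0, hs⟩ := exists_lift_series r hr hΘ'.1
  have hs1 : IsUnit (PowerSeries.coeff 1 s) := by
    by_contra hu
    have : PowerSeries.coeff 1 s ∈ RingHom.ker r := by
      rw [hk]; exact (IsLocalRing.mem_maximalIdeal _).2 hu
    rw [RingHom.mem_ker, ← PowerSeries.coeff_map, hs] at this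
    exact hΘ'1.ne_zero this
  obtain ⟨G'', hG''⟩ := exists_transport G hs0 hs1
  have hred : G''.map r = Γ := by
    have h2 := isFGHom_map r hG''
    rw [hG, hs] at h2
    exact transport_unique hΘ'1 h2 hΘ'
  obtain ⟨s', hs', -, -, e4⟩ := exists_hom_inv hG'' hs1
  have hs'r : PowerSeries.map r s' = Θ := by
    have h0 : PowerSeries.constantCoeff (PowerSeries.map r s') = 0 := (isFGHom_map r hs').1
    rw [← cmp_X (PowerSeries.map r s'), ← f2, ← cmp_assoc _ hΘ'.1 hΘ.1, ← hs, ← map_cmp _ _ hs0,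
      e4, PowerSeries.map_X, X_cmp hΘ.1]
  obtain ⟨φ, ⟨hφ, θ, hθ, hθX⟩, huniq⟩ := hH.2 B hc r hr hk hcomp G'' hred
  have hφ' : ∀ a, r (φ a) = LTRing.residue p n a := fun a => RingHom.congr_fun hφ a
  have hres : r.comp (φ.comp (τ.symm : LTRing p n →ₐ[WittVector p (GaloisField p n)]
      LTRing p n)).toRingHom = LTRing.residue p n := by
    ext1 a
    have := hτ (τ.symm a)
    rw [τ.apply_symm_apply] at this
    exact (hφ' (τ.symm a)).trans this.symm
  refine ⟨φ.comp (τ.symm : LTRing p n →ₐ[WittVector p (GaloisField p n)] LTRing p n),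
    ⟨hres, ?_⟩, fun ψ ⟨hψ, θ₁, hθ₁, hθ₁X⟩ => ?_⟩
  · have h2 := isFGHom_map (φ.comp (τ.symm : LTRing p n →ₐ[WittVector p (GaloisField p n)]
      LTRing p n)).toRingHom hϑ'
    have e5 : (φ.comp (τ.symm : LTRing p n →ₐ[WittVector p (GaloisField p n)]
        LTRing p n)).toRingHom.comp (τ : LTRing p n →+* LTRing p n) = φ.toRingHom := by
      ext1 a
      exact congrArg φ (τ.symm_apply_apply a)
    rw [fg_map_map, e5] at h2
    refine ⟨_, isFGHom_cmp (isFGHom_cmp h2 hθ) hs', ?_⟩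
    rw [map_cmp _ _ (isFGHom_cmp h2 hθ).1, map_cmp _ _ h2.1, ps_map_map, hres, hθX, hs'r,
      ← hΘ'def, X_cmp hΘ'.1, f1]
  · have h2 := isFGHom_map ψ.toRingHom hϑ
    rw [fg_map_map] at h2
    have h3 := huniq (ψ.comp (τ : LTRing p n →ₐ[WittVector p (GaloisField p n)] LTRing p n))
      ⟨by ext1 a; exact (RingHom.congr_fun hψ (τ a)).trans (hτ a),
        _, isFGHom_cmp (isFGHom_cmp h2 hθ₁) hG'', by
          rw [map_cmp _ _ (isFGHom_cmp h2 hθ₁).1, map_cmp _ _ h2.1, ps_map_map, hψ, hθ₁X, hs,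
            ← hΘdef, X_cmp hΘ.1, f2]⟩
    rw [← h3]
    ext1 a
    exact congrArg ψ (τ.apply_symm_apply a).symm

theorem stable_transfer_aux {Γ Γ' : FormalGroup (GaloisField p n)}
    {H H' : FormalGroup (LTRing p n)} (hH : H.map (LTRing.residue p n) = Γ)
    (hH' : H'.map (LTRing.residue p n) = Γ')
    (τ : LTRing p n ≃ₐ[WittVector p (GaloisField p n)] LTRing p n) {ϑ : PowerSeries (LTRing p n)}
    (hτ : ∀ a, LTRing.residue p n (τ a) = LTRing.residue p n a)
    (hϑ : IsFGHom (H.map (τ : LTRing p n →+* LTRing p n)) H' ϑ)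
    (h1 : IsUnit (PowerSeries.coeff 1 ϑ)) (M : ℕ) (J : Ideal (LTRing p n))
    (hJ : IsStableIdeal p n Γ H M (Ideal.comap (τ : LTRing p n →+* LTRing p n) J)) :
    IsStableIdeal p n Γ' H' M J := by
  intro g' φ' hg' hgM ⟨hres, θ', hθ', hθ'g⟩
  have hτ' : (LTRing.residue p n).comp (τ : LTRing p n →+* LTRing p n) = LTRing.residue p n :=
    RingHom.ext hτ
  have hτ'' : (LTRing.residue p n).comp (τ.symm : LTRing p n →+* LTRing p n) =
      LTRing.residue p n := by
    ext1 a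
    have := hτ (τ.symm a)
    rw [τ.apply_symm_apply] at this
    exact this.symm
  obtain ⟨ϑ', hϑ', hϑ'1, -, e2⟩ := exists_hom_inv hϑ h1
  set Θ := PowerSeries.map (LTRing.residue p n) ϑ with hΘdef
  set Θ' := PowerSeries.map (LTRing.residue p n) ϑ' with hΘ'def
  have hΘ : IsFGHom Γ Γ' Θ := by
    have := isFGHom_map (LTRing.residue p n) hϑ
    rwa [fg_map_map, hτ', hH, hH'] at this
  have hΘ' : IsFGHom Γ' Γ Θ' := by
    have := isFGHom_map (LTRing.residue p n) hϑ'
    rwa [fg_map_map, hτ', hH, hH'] at this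
  have f2 : cmp Θ' Θ = PowerSeries.X := by rw [← map_cmp _ _ hϑ.1, e2, PowerSeries.map_X]
  have hΘ1 : IsUnit (PowerSeries.coeff 1 Θ) := by
    rw [hΘdef, PowerSeries.coeff_map]; exact h1.map _
  have hΘ'1 : IsUnit (PowerSeries.coeff 1 Θ') := by
    rw [hΘ'def, PowerSeries.coeff_map]; exact hϑ'1.map _
  have k1 := isFGHom_cmp hΘ hg'.1
  have h2 := isFGHom_map φ'.toRingHom hϑ
  have h3 := isFGHom_cmp (isFGHom_cmp h2 hθ') hϑ'
  have h4 := isFGHom_map (τ.symm : LTRing p n →+* LTRing p n) h3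
  have e : (τ.symm : LTRing p n →+* LTRing p n).comp (τ : LTRing p n →+* LTRing p n) =
      RingHom.id _ := by
    ext1 a; exact τ.symm_apply_apply a
  rw [fg_map_map, fg_map_map, fg_map_map, e, fg_map_id] at h4
  have h5 := hJ (cmp Θ' (cmp g' Θ))
    ((τ.symm : LTRing p n →ₐ[WittVector p (GaloisField p n)] LTRing p n).comp
      (φ'.comp (τ : LTRing p n →ₐ[WittVector p (GaloisField p n)] LTRing p n)))
    ⟨isFGHom_cmp k1 hΘ', by
      rw [coeff_one_cmp _ k1.1, coeff_one_cmp _ hΘ.1]; exact hΘ'1.mul (hg'.2.mul hΘ1)⟩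
    (fun i hi => by
      rw [← f2]
      refine coeff_cmp_congr_right k1.1 hΘ.1 (fun j hj => ?_) i hi
      rw [coeff_cmp_congr_left hΘ.1 hgM j hj, X_cmp hΘ.1])
    ⟨by
      ext1 a
      exact (RingHom.congr_fun hτ'' _).trans ((RingHom.congr_fun hres (τ a)).trans (hτ a)),
    _, h4, by
      rw [ps_map_map, hτ'', map_cmp _ _ (isFGHom_cmp h2 hθ').1, map_cmp _ _ h2.1, ps_map_map, hres,
        hθ'g]⟩
  ext b
  have h6 := SetLike.ext_iff.1 h5 (τ.symm b)
  simp only [Ideal.mem_comap] at h6 ⊢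
  simpa using h6

theorem stable_transfer {Γ Γ' : FormalGroup (GaloisField p n)}
    {H H' : FormalGroup (LTRing p n)} (hH : H.map (LTRing.residue p n) = Γ)
    (hH' : H'.map (LTRing.residue p n) = Γ')
    (τ : LTRing p n ≃ₐ[WittVector p (GaloisField p n)] LTRing p n) {ϑ : PowerSeries (LTRing p n)}
    (hτ : ∀ a, LTRing.residue p n (τ a) = LTRing.residue p n a)
    (hϑ : IsFGHom (H.map (τ : LTRing p n →+* LTRing p n)) H' ϑ)
    (h1 : IsUnit (PowerSeries.coeff 1 ϑ)) (M : ℕ) (J : Ideal (LTRing p n)) :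
    IsStableIdeal p n Γ H M (Ideal.comap (τ : LTRing p n →+* LTRing p n) J) ↔
      IsStableIdeal p n Γ' H' M J := by
  refine ⟨stable_transfer_aux hH hH' τ hτ hϑ h1 M J, fun hJ => ?_⟩
  obtain ⟨ϑ', hϑ', hϑ'1, -, -⟩ := exists_hom_inv hϑ h1
  have h2 := isFGHom_map (τ.symm : LTRing p n →+* LTRing p n) hϑ'
  have e : (τ.symm : LTRing p n →+* LTRing p n).comp (τ : LTRing p n →+* LTRing p n) =
      RingHom.id _ := by
    ext1 a; exact τ.symm_apply_apply a
  have e' : (τ : LTRing p n →+* LTRing p n).comp (τ.symm : LTRing p n →+* LTRing p n) =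
      RingHom.id _ := by
    ext1 a; exact τ.apply_symm_apply a
  rw [fg_map_map, e, fg_map_id] at h2
  refine stable_transfer_aux hH' hH τ.symm (fun a => ?_) h2 ?_ M _ ?_
  · rw [← hτ (τ.symm a), τ.apply_symm_apply]
  · rw [PowerSeries.coeff_map]; exact hϑ'1.map _
  · rwa [Ideal.comap_comap, e', Ideal.comap_id]

end Crest.Agent.R227
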