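import Crest.Agent.R227.Acc
import Crest.Agent.R227.Pr

/-!
# R227 / UP : metric ultrapowers

`BS C` is the ring of bounded sequences; an ultrapower is a ring map `U : BS C → D` with `‖U a‖ = lim_𝒰 ‖a m‖`.

Plan.
* `exists_UP`: `𝒰 = hyperfilter ℕ` (`Nat.hyperfilter_le_atTop`), `N a = lim_𝒰 ‖a m‖` (exists by compactness of `[0, B]`:
  `IsCompact.ultrafilter_le_nhds`), multiplicative and ultrametric; apply `exists_acc`.  `CharP D p` follows from the
  ring map `C → D` (`charP_of_injective_ringHom` / `RingHom.charP`).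
* `UP.U_ev`: truncate at degree `N`: the polynomial part passes through the ring map `U`, the tails have norm `≤ ρ^N`.
* `UP.Ur_ev`: apply `U_ev` to `map (rtS h) F`, `rtS h y`, using `map_ev` for `rt (h m)`.
-/

set_option autoImplicit false
set_option linter.unusedSectionVars false
open Crest.LubinTate Filter Topology

namespace Crest.Agent.R227

/-- bounded sequences. -/
def BS (C : Type*) [NormedField C] : Subring (ℕ → C) where
  carrier := {a | ∃ B : ℝ, ∀ m, ‖a m‖ ≤ B}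
  mul_mem' := fun {a b} ⟨A, ha⟩ ⟨B, hb⟩ => ⟨A * B, fun m => by
    rw [Pi.mul_apply, norm_mul]
    exact mul_le_mul (ha m) (hb m) (norm_nonneg _) ((norm_nonneg _).trans (ha m))⟩
  one_mem' := ⟨1, fun m => by simp⟩
  add_mem' := fun {a b} ⟨A, ha⟩ ⟨B, hb⟩ => ⟨A + B, fun m =>
    (norm_add_le _ _).trans (add_le_add (ha m) (hb m))⟩
  zero_mem' := ⟨0, fun m => by simp⟩
  neg_mem' := fun {a} ⟨A, ha⟩ => ⟨A, fun m => by simpa using ha m⟩

section
variable {C D : Type*} [NormedField C] [NormedField D]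

open Classical in
/-- a sequence as a bounded sequence (junk value `0`). -/
noncomputable def bs (a : ℕ → C) : BS C := if h : a ∈ BS C then ⟨a, h⟩ else 0

theorem bs_apply {a : ℕ → C} {B : ℝ} (h : ∀ m, ‖a m‖ ≤ B) (m : ℕ) : (bs a : ℕ → C) m = a m := by
  have : a ∈ BS C := ⟨B, h⟩
  simp [bs, this]

/-- constant sequences. -/
def cst : C →+* BS C where
  toFun a := ⟨fun _ => a, ‖a‖, fun _ => le_rfl⟩
  map_one' := rfl
  map_mul' _ _ := rfl
  map_zero' := rfl
  map_add' _ _ := rfl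

/-- the `m`-th term. -/
def evm (m : ℕ) : BS C →+* C := (Pi.evalRingHom (fun _ : ℕ => C) m).comp (BS C).subtype

theorem evm_apply (m : ℕ) (a : BS C) : evm m a = (a : ℕ → C) m := rfl

theorem evm_cst (m : ℕ) (a : C) : evm m (cst a) = a := rfl

theorem bs_ext {a b : BS C} (h : ∀ m, evm m a = evm m b) : a = b := Subtype.ext (funext h)

variable (C D) in
/-- a metric ultrapower of `C` inside `D`. -/
structure UP where
  𝒰 : Ultrafilter ℕ
  le : (𝒰 : Filter ℕ) ≤ atTop
  U : BS C →+* D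
  lim : ∀ a : BS C, Tendsto (fun m => ‖evm m a‖) 𝒰 (𝓝 ‖U a‖)

/-- the diagonal embedding. -/
noncomputable def UP.iota (u : UP C D) : C →+* D := u.U.comp cst

theorem UP.norm_iota (u : UP C D) (a : C) : ‖u.iota a‖ = ‖a‖ := by
  exact tendsto_nhds_unique (u.lim (cst a)) tendsto_const_nhds

theorem UP.continuous_iota (u : UP C D) : Continuous u.iota := by
  exact (AddMonoidHomClass.isometry_of_norm _ u.norm_iota).continuous

theorem UP.norm_U_le (u : UP C D) {a : BS C} {B : ℝ} (h : ∀ᶠ m in atTop, ‖evm m a‖ ≤ B) :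
    ‖u.U a‖ ≤ B := by
  exact le_of_tendsto (u.lim a) (h.filter_mono u.le)

theorem UP.le_norm_U (u : UP C D) {a : BS C} {B : ℝ} (h : ∀ᶠ m in atTop, B ≤ ‖evm m a‖) :
    B ≤ ‖u.U a‖ := by
  exact ge_of_tendsto (u.lim a) (h.filter_mono u.le)

theorem UP.U_congr (u : UP C D) {a b : BS C} (h : ∀ᶠ m in atTop, evm m a = evm m b) :
    u.U a = u.U b := by
  rw [← sub_eq_zero, ← map_sub, ← norm_le_zero_iff]
  exact u.norm_U_le (h.mono fun m hm => by rw [map_sub, hm, sub_self, norm_zero])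

theorem norm_ev_map_sub_trunc [IsUltrametricDist C] [CompleteSpace C] {R τ : Type*} [CommRing R]
    [Finite τ] (j : R →+* C) {F : MvPowerSeries τ R} (hF : Bd (MvPowerSeries.map j F)) {y : τ → R}
    {ρ : ℝ} (h0 : 0 ≤ ρ) (h1 : ρ < 1) (hy : ∀ i, ‖j (y i)‖ ≤ ρ) (N : ℕ) :
    ‖ev (MvPowerSeries.map j F) (fun i => j (y i)) - j (MvPolynomial.eval y (F.truncTotal N))‖ ≤
      ρ ^ N := by
  rw [MvPolynomial.eval₂_comp, ← MvPolynomial.eval_map, ← ev_coe]
  refine hF.norm_ev_sub_le_pow (fun d => ?_) (fun d hd => ?_) h0 h1 hy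
  · rw [MvPolynomial.coeff_coe, MvPolynomial.coeff_map, MvPowerSeries.coeff_truncTotal_eq_ite]
    split_ifs
    · exact hF d
    · simp
  · rw [MvPolynomial.coeff_coe, MvPolynomial.coeff_map, MvPowerSeries.coeff_truncTotal _ hd,
      MvPowerSeries.coeff_map]

theorem UP.U_ev [IsUltrametricDist C] [CompleteSpace C] [IsUltrametricDist D] [CompleteSpace D]
    (u : UP C D) {τ : Type*} [Finite τ] {F : MvPowerSeries τ (BS C)}
    (hF : ∀ m, Bd (MvPowerSeries.map (evm m) F)) {y : τ → BS C} {ρ : ℝ} (hρ : ρ < 1)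
    (hy : ∀ᶠ m in atTop, ∀ i, ‖evm m (y i)‖ ≤ ρ) {b : BS C}
    (hb : ∀ᶠ m in atTop, evm m b = ev (MvPowerSeries.map (evm m) F) (fun i => evm m (y i))) :
    u.U b = ev (MvPowerSeries.map u.U F) (fun i => u.U (y i)) := by
  have h0 : 0 ≤ max ρ 0 := le_max_right _ _
  have h1 : max ρ 0 < 1 := max_lt hρ one_pos
  have hG : Bd (MvPowerSeries.map u.U F) := fun d =>
    u.norm_U_le (Eventually.of_forall fun m => hF m d)
  rw [← sub_eq_zero, ← norm_le_zero_iff]
  refine ge_of_tendsto' (tendsto_pow_atTop_nhds_zero_of_lt_one h0 h1) fun N => ?_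
  refine ultra_sub_le (b := u.U (MvPolynomial.eval y (F.truncTotal N))) ?_ ?_
  · rw [← map_sub]
    refine u.norm_U_le ?_
    filter_upwards [hy, hb] with m h2 h3
    rw [map_sub, h3]
    exact norm_ev_map_sub_trunc _ (hF m) h0 h1 (fun i => (h2 i).trans (le_max_left _ _)) N
  · rw [norm_sub_rev]
    exact norm_ev_map_sub_trunc _ hG h0 h1
      (fun i => u.norm_U_le (hy.mono fun m hm => (hm i).trans (le_max_left _ _))) N

variable (p : ℕ) [hp : Fact p.Prime] [CharP C p] [PerfectRing C p]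

theorem rtS_mem (h : ℕ) (a : BS C) : (fun m => rt p (h * m) (evm m a)) ∈ BS C := by
  obtain ⟨B, hB⟩ := a.2
  refine ⟨max B 1, fun m => (norm_rt_le_iff _ _ (le_max_of_le_right zero_le_one)).2 ?_⟩
  exact ((hB m).trans (le_max_left _ _)).trans
    (le_self_pow₀ (le_max_right _ _) (pow_ne_zero _ hp.out.ne_zero))

/-- termwise `p^{hm}`-th roots. -/
noncomputable def rtS (h : ℕ) : BS C →+* BS C where
  toFun a := ⟨fun m => rt p (h * m) (evm m a), rtS_mem p h a⟩
  map_one' := bs_ext fun m => map_one (rt p (h * m))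
  map_mul' a b := bs_ext fun m => map_mul (rt p (h * m)) _ _
  map_zero' := bs_ext fun m => map_zero (rt p (h * m))
  map_add' a b := bs_ext fun m => map_add (rt p (h * m)) _ _

theorem evm_rtS (h m : ℕ) (a : BS C) : evm m (rtS p h a) = rt p (h * m) (evm m a) := rfl

/-- the rescaled ultralimit. -/
noncomputable def UP.Ur (u : UP C D) (h : ℕ) : BS C →+* D := u.U.comp (rtS p h)

/-- the rescaled diagonal embedding; it is trivially valued. -/
noncomputable def UP.sig (u : UP C D) (h : ℕ) : C →+* D := (u.Ur p h).comp cst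

variable {p}

omit [CharP C p] [PerfectRing C p] in
theorem tendsto_p_pow {h : ℕ} (hh : 1 ≤ h) : Tendsto (fun m : ℕ => p ^ (h * m)) atTop atTop := by
  simp only [pow_mul]
  exact tendsto_pow_atTop_atTop_of_one_lt (Nat.one_lt_pow (by omega) hp.out.one_lt)

theorem UP.norm_sig_le (u : UP C D) {h : ℕ} (hh : 1 ≤ h) (a : C) : ‖u.sig p h a‖ ≤ 1 := by
  refine le_of_forall_gt_imp_ge_of_dense fun B hB => u.norm_U_le ?_
  filter_upwards [((tendsto_pow_atTop_atTop_of_one_lt hB).comp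
    (tendsto_p_pow (p := p) hh)).eventually_ge_atTop ‖a‖] with m hm
  exact (norm_rt_le_iff _ _ (zero_le_one.trans hB.le)).2 hm

theorem UP.norm_sig (u : UP C D) {h : ℕ} (hh : 1 ≤ h) {a : C} (ha : a ≠ 0) :
    ‖u.sig p h a‖ = 1 := by
  refine le_antisymm (u.norm_sig_le hh a) (le_of_forall_lt_imp_le_of_dense fun B hB => ?_)
  rcases le_or_gt 0 B with h0 | h0
  · refine u.le_norm_U ?_
    filter_upwards [(tendsto_mu (p := p) h0 hB hh).eventually_le_const (norm_pos_iff.2 ha)]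
      with m hm
    exact (le_norm_rt_iff _ _ h0).2 hm
  · exact h0.le.trans (norm_nonneg _)

theorem UP.norm_Ur_le (u : UP C D) (h : ℕ) {a : BS C} {B : ℝ} (hB : 0 ≤ B)
    (e : ∀ᶠ m in atTop, ‖evm m a‖ ≤ B ^ p ^ (h * m)) : ‖u.Ur p h a‖ ≤ B := by
  exact u.norm_U_le (e.mono fun m hm => (norm_rt_le_iff _ _ hB).2 hm)

theorem UP.le_norm_Ur (u : UP C D) (h : ℕ) {a : BS C} {B : ℝ} (hB : 0 ≤ B)
    (e : ∀ᶠ m in atTop, B ^ p ^ (h * m) ≤ ‖evm m a‖) : B ≤ ‖u.Ur p h a‖ := by
  exact u.le_norm_U (e.mono fun m hm => (le_norm_rt_iff _ _ hB).2 hm)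

theorem UP.Ur_congr (u : UP C D) (h : ℕ) {a b : BS C} (e : ∀ᶠ m in atTop, evm m a = evm m b) :
    u.Ur p h a = u.Ur p h b := by
  exact u.U_congr (e.mono fun m hm => by rw [evm_rtS, evm_rtS, hm])

theorem UP.Ur_ev [IsUltrametricDist C] [CompleteSpace C] [IsUltrametricDist D] [CompleteSpace D]
    (u : UP C D) (h : ℕ) {τ : Type*} [Finite τ] {F : MvPowerSeries τ (BS C)}
    (hF : ∀ m, Bd (MvPowerSeries.map (evm m) F)) {y : τ → BS C} {ρ : ℝ} (hρ0 : 0 ≤ ρ) (hρ : ρ < 1)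
    (hy : ∀ᶠ m in atTop, ∀ i, ‖evm m (y i)‖ ≤ ρ ^ p ^ (h * m)) {b : BS C}
    (hb : ∀ᶠ m in atTop, evm m b = ev (MvPowerSeries.map (evm m) F) (fun i => evm m (y i))) :
    u.Ur p h b = ev (MvPowerSeries.map (u.Ur p h) F) (fun i => u.Ur p h (y i)) := by
  refine u.U_ev (F := MvPowerSeries.map (rtS p h) F) (y := fun i => rtS p h (y i))
    (fun m d => norm_rt_le_one _ (hF m d)) hρ
    (hy.mono fun m hm i => (norm_rt_le_iff _ _ hρ0).2 (hm i)) ?_
  filter_upwards [hy, hb] with m h1 h2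
  rw [evm_rtS, h2, map_ev _ (continuous_rt _) (hF m).an fun i =>
    (h1 i).trans_lt (pow_lt_one₀ hρ0 hρ (pow_ne_zero _ hp.out.ne_zero))]
  rfl

end

theorem exists_UP (p : ℕ) (C : Type) [NontriviallyNormedField C] [IsUltrametricDist C] [CharP C p] :
    ∃ (D : Type) (_ : NontriviallyNormedField D) (_ : IsUltrametricDist D) (_ : CompleteSpace D)
      (_ : IsAlgClosed D) (_ : CharP D p), Nonempty (UP C D) := by
  have hN : ∀ a : BS C, ∃ x : ℝ, Tendsto (fun m => ‖evm m a‖) (hyperfilter ℕ) (𝓝 x) := fun a => by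
    obtain ⟨B, hB⟩ := a.2
    obtain ⟨x, -, hx⟩ := (isCompact_Icc (a := (0 : ℝ)) (b := B)).ultrafilter_le_nhds
      ((hyperfilter ℕ).map fun m => ‖evm m a‖) (le_principal_iff.2
        (Filter.mem_map.2 (Eventually.of_forall fun m => ⟨norm_nonneg _, hB m⟩)))
    exact ⟨x, hx⟩
  choose N hN using hN
  have hc : ∀ a : C, N (cst a) = ‖a‖ := fun a => tendsto_nhds_unique (hN _) tendsto_const_nhds
  obtain ⟨x, hx⟩ := NormedField.exists_norm_lt_one C
  obtain ⟨D, i1, i2, i3, i4, J, hJ⟩ := exists_acc N (by simpa using hc 0) (by simpa using hc 1)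
    (fun a => ge_of_tendsto' (hN a) fun _ => norm_nonneg _)
    (fun a b => tendsto_nhds_unique (hN _) (by simpa using (hN a).mul (hN b)))
    (fun a b => le_of_tendsto_of_tendsto' (hN _) ((hN a).max (hN b)) fun m => by
      rw [map_add]; exact IsUltrametricDist.norm_add_le_max _ _) ⟨cst x, by rwa [hc]⟩
  exact ⟨D, i1, i2, i3, i4, charP_of_injective_ringHom (J.comp cst).injective p,
    ⟨⟨hyperfilter ℕ, Nat.hyperfilter_le_atTop, J, fun a => by rw [hJ]; exact hN a⟩⟩⟩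

end Crest.Agent.R227
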