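import Crest.Agent.R227.FE

/-!
# R227 / Univ : Hazewinkel's `p`-typical laws `HL p n v`

The logarithm is `f_v = ∑ b_i X^{p^i}` with `b_0 = 1`,
`p b_{i} = ∑_{j=1}^{min n i} b_{i-j} v_j^{p^{i-j}}`.

Plan.
* `tw` is multiplication in the twisted power series ring (`T a = σ(a) T`); `tw_assoc` is a
  reindexing of a triple antidiagonal sum.
* `tw_bseq_uc` is the defining (right) recursion when `σ v_j = v_j^p` (then `σ^i v_j = v_j^{p^i}`).
  `tw_uc_bseq` (left recursion): let `b'` be defined by the left recursion `u b' = p`; then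
  `p b = b (u b') = (b u) b' = p b'` by associativity, cancel `p` with `pinv` (note `σ pinv = pinv`
  since `σ p = p` and inverses are unique).
* `exists_univ`: `A = MvPolynomial ℕ ℤ`, `K = A[1/p]`, `σ = MvPolynomial.expand p`
  (`σ a ≡ a^p mod p`: induction on `a` using `add_pow_char`-type congruence
  `exists_add_pow_prime_eq`, Fermat `ZMod.pow_card`/`Int.ModEq.pow_card_sub_one_eq_one`),
  `D = Frob.away`, `f = hlog`, `g` the compositional inverse of `f` over `K`,
  `F = g (f X₀ + f X₁)`; integral by `intg_of_uact` (`uact` of `f X₀ + f X₁` is `p X₀ + p X₁`).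
  The group law axioms are checked over `K` (`f` is injective on series, because `g ∘ f = X`),
  and pulled back by injectivity of `MvPowerSeries.map (algebraMap A K)` (`map_subst`).
  For the log identity over a general `K'` map along `A[1/p] → K'` (`IsLocalization.Away.lift`),
  which sends `D.pinv` to `pinv` by uniqueness of inverses.
-/

set_option autoImplicit false
open Crest.LubinTate

namespace Crest.Agent.R227

section seqs
variable {K K' : Type*} [CommRing K] [CommRing K']

/-- coefficients of the `p`-typical logarithm. -/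
noncomputable def bseq (p n : ℕ) (pinv : K) (v : ℕ → K) : ℕ → K
  | 0 => 1
  | i + 1 => pinv * ∑ j ∈ Finset.range (min n (i + 1)),
      bseq p n pinv v (i - j) * v (j + 1) ^ (p ^ (i - j))
  decreasing_by omega

/-- the integral version `p^i b_i`. -/
noncomputable def bint (p n : ℕ) (v : ℕ → K) : ℕ → K
  | 0 => 1
  | i + 1 => ∑ j ∈ Finset.range (min n (i + 1)),
      (p : K) ^ j * (bint p n v (i - j) * v (j + 1) ^ (p ^ (i - j)))
  decreasing_by omega

/-- the `p`-typical series `∑ a_l X^{p^l}`. -/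
noncomputable def ptyp (p : ℕ) (a : ℕ → K) : PowerSeries K :=
  PowerSeries.mk fun i => if p ^ (Nat.log p i) = i then a (Nat.log p i) else 0

/-- the logarithm `f_v`. -/
noncomputable def hlog (p n : ℕ) (pinv : K) (v : ℕ → K) : PowerSeries K :=
  ptyp p (bseq p n pinv v)

/-- twisted convolution: product of `∑ c_i T^i` and `∑ b_j T^j` where `T a = σ(a) T`. -/
noncomputable def tw (σ : K →+* K) (c b : ℕ → K) (l : ℕ) : K :=
  ∑ x ∈ Finset.HasAntidiagonal.antidiagonal l, c x.1 * (σ ^ x.1) (b x.2)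

/-- the element `u = p - ∑_{j=1}^n v_j T^j` as a sequence. -/
noncomputable def uc (p n : ℕ) (v : ℕ → K) (l : ℕ) : K :=
  if l = 0 then (p : K) else if l ≤ n then -v l else 0

/-- parameters of the Honda law of height `N`. -/
noncomputable def hon (N : ℕ) (j : ℕ) : K := if j = N then 1 else 0

/-- parameters `v_j = z_{j-h}` for `h ≤ j < h + r`, and otherwise those of the Honda law of
height `n` (used with `h + r = n`). -/
noncomputable def zseq (n h : ℕ) {r : ℕ} (z : Fin r → K) (j : ℕ) : K :=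
  if hj : h ≤ j ∧ j - h < r then z ⟨j - h, hj.2⟩ else hon n j

theorem map_hon (ρ : K →+* K') (N j : ℕ) : ρ (hon N j) = hon N j := by
  unfold hon; split_ifs <;> simp

theorem map_zseq (ρ : K →+* K') (n h : ℕ) {r : ℕ} (z : Fin r → K) (j : ℕ) :
    ρ (zseq n h z j) = zseq n h (fun i => ρ (z i)) j := by
  unfold zseq; split_ifs
  · rfl
  · exact map_hon ρ n j

theorem zseq_zero (n h r : ℕ) (hr : h + r = n) : zseq n h (0 : Fin r → K) = hon n := by
  funext j
  unfold zseq; split_ifs with hj
  · rw [hon, if_neg (by omega)]; rfl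
  · rfl

theorem map_bseq (ρ : K →+* K') (p n : ℕ) (pinv : K) (v : ℕ → K) (i : ℕ) :
    ρ (bseq p n pinv v i) = bseq p n (ρ pinv) (fun j => ρ (v j)) i := by
  induction i using Nat.strong_induction_on with
  | _ i ih =>
  cases i with
  | zero => simp [bseq]
  | succ i =>
    rw [bseq, bseq, map_mul, map_sum]
    congr 1
    exact Finset.sum_congr rfl fun j _ => by rw [map_mul, map_pow, ih _ (by omega)]

theorem map_bint (ρ : K →+* K') (p n : ℕ) (v : ℕ → K) (i : ℕ) :
    ρ (bint p n v i) = bint p n (fun j => ρ (v j)) i := by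
  induction i using Nat.strong_induction_on with
  | _ i ih =>
  cases i with
  | zero => simp [bint]
  | succ i =>
    rw [bint, bint, map_sum]
    exact Finset.sum_congr rfl fun j _ => by
      rw [map_mul, map_mul, map_pow, map_pow, map_natCast, ih _ (by omega)]

theorem pow_mul_bseq (p n : ℕ) {pinv : K} (hp : (p : K) * pinv = 1) (v : ℕ → K) (i : ℕ) :
    (p : K) ^ i * bseq p n pinv v i = bint p n v i := by
  induction i using Nat.strong_induction_on with
  | _ i ih =>
  cases i with
  | zero => simp [bint, bseq]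
  | succ i =>
    rw [bint, bseq, pow_succ, mul_assoc, ← mul_assoc (p : K), hp, one_mul, Finset.mul_sum]
    refine Finset.sum_congr rfl fun j hj => ?_
    have : j ≤ i := by have := Finset.mem_range.1 hj; omega
    rw [← ih _ (by omega), ← mul_assoc, ← mul_assoc, ← mul_assoc, ← pow_add,
      Nat.add_sub_cancel' this]

/-- the Honda logarithm `∑ p^{-k} X^{p^{Nk}}`. -/
theorem bseq_hon {p : ℕ} (hp : p ≠ 0) {N : ℕ} (hN : 1 ≤ N) (pinv : K) (i : ℕ) :
    bseq p N pinv (hon N) i = if N ∣ i then pinv ^ (i / N) else 0 := by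
  induction i using Nat.strong_induction_on with
  | _ i ih =>
  cases i with
  | zero => simp [bseq]
  | succ i =>
    rw [bseq]
    by_cases h : N ≤ i + 1
    · obtain ⟨k, hk⟩ := Nat.exists_eq_add_of_le h
      rw [Finset.sum_eq_single (N - 1), ih _ (by omega), show i - (N - 1) = k by omega,
        show N - 1 + 1 = N by omega, hk]
      · simp only [hon, if_true, one_pow, mul_one, Nat.dvd_add_self_left,
          Nat.add_div_left _ hN]
        split_ifs
        · rw [pow_succ']
        · rw [mul_zero]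
      · intro j _ hj
        rw [hon, if_neg (by omega), zero_pow (pow_ne_zero _ hp), mul_zero]
      · intro hj
        exact absurd (Finset.mem_range.2 (by omega)) hj
    · rw [if_neg fun hd => h (Nat.le_of_dvd (by omega) hd), Finset.sum_eq_zero, mul_zero]
      intro j hj
      have := Finset.mem_range.1 hj
      rw [hon, if_neg (by omega), zero_pow (pow_ne_zero _ hp), mul_zero]

theorem tw_assoc (σ : K →+* K) (a b c : ℕ → K) : tw σ (tw σ a b) c = tw σ a (tw σ b c) := by
  funext l
  simp only [tw, Finset.sum_mul, Finset.mul_sum, map_sum, Finset.sum_sigma']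
  refine Finset.sum_nbij' (fun x => ⟨(x.2.1, x.2.2 + x.1.2), (x.2.2, x.1.2)⟩)
    (fun x => ⟨(x.1.1 + x.2.1, x.2.2), (x.1.1, x.2.1)⟩) ?_ ?_ ?_ ?_ ?_
  · rintro ⟨⟨i, j⟩, ⟨k, l⟩⟩ h
    simp only [Finset.mem_sigma, Finset.HasAntidiagonal.mem_antidiagonal] at h ⊢
    exact ⟨by omega, trivial⟩
  · rintro ⟨⟨i, j⟩, ⟨k, l⟩⟩ h
    simp only [Finset.mem_sigma, Finset.HasAntidiagonal.mem_antidiagonal] at h ⊢
    exact ⟨by omega, trivial⟩
  · rintro ⟨⟨i, j⟩, ⟨k, l⟩⟩ h
    simp only [Finset.mem_sigma, Finset.HasAntidiagonal.mem_antidiagonal] at h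
    obtain ⟨-, rfl⟩ := h
    rfl
  · rintro ⟨⟨i, j⟩, ⟨k, l⟩⟩ h
    simp only [Finset.mem_sigma, Finset.HasAntidiagonal.mem_antidiagonal] at h
    obtain ⟨-, rfl⟩ := h
    rfl
  · rintro ⟨⟨i, j⟩, ⟨k, l⟩⟩ h
    simp only [Finset.mem_sigma, Finset.HasAntidiagonal.mem_antidiagonal] at h
    obtain ⟨-, rfl⟩ := h
    simp only [map_mul, pow_add, RingHom.mul_def, RingHom.comp_apply, mul_assoc]

theorem tw_add_left (σ : K →+* K) (a a' b : ℕ → K) : tw σ (a + a') b = tw σ a b + tw σ a' b := by
  funext l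
  simp only [tw, Pi.add_apply, add_mul, Finset.sum_add_distrib]

theorem tw_single_left (σ : K →+* K) (j : ℕ) (a : K) (b : ℕ → K) (l : ℕ) :
    tw σ (Pi.single j a) b l = if j ≤ l then a * (σ ^ j) (b (l - j)) else 0 := by
  unfold tw
  split_ifs with h
  · rw [Finset.sum_eq_single (j, l - j)]
    · simp
    · rintro ⟨x, y⟩ hx hne
      have := Finset.HasAntidiagonal.mem_antidiagonal.1 hx
      rw [Pi.single_eq_of_ne, zero_mul]
      rintro rfl
      exact hne (by simp only [Prod.mk.injEq, true_and]; simp only at this; omega)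
    · intro hj
      exact absurd (Finset.HasAntidiagonal.mem_antidiagonal.2 (by simp only; omega)) hj
  · refine Finset.sum_eq_zero fun x hx => ?_
    have := Finset.HasAntidiagonal.mem_antidiagonal.1 hx
    rw [Pi.single_eq_of_ne (by omega), zero_mul]

theorem tw_single_zero_right (σ : K →+* K) (m : ℕ) (c : ℕ → K) (l : ℕ) :
    tw σ c (Pi.single 0 (m : K)) l = (m : K) * c l := by
  unfold tw
  rw [Finset.sum_eq_single (l, 0)]
  · simp [mul_comm]
  · rintro ⟨x, y⟩ hx hne
    have := Finset.HasAntidiagonal.mem_antidiagonal.1 hx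
    rw [Pi.single_eq_of_ne, map_zero, mul_zero]
    rintro rfl
    exact hne (by simp only [Prod.mk.injEq, and_true]; simp only at this; omega)
  · intro hj
    exact absurd (Finset.HasAntidiagonal.mem_antidiagonal.2 (by simp)) hj

theorem pow_apply_of_frob {p : ℕ} {σ : K →+* K} {v : ℕ → K} (hv : ∀ j, σ (v j) = v j ^ p)
    (k j : ℕ) : (σ ^ k) (v j) = v j ^ p ^ k := by
  induction k with
  | zero => simp
  | succ k ih => rw [pow_succ', RingHom.mul_def, RingHom.comp_apply, ih, map_pow, hv, ← pow_mul,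
      pow_succ']

theorem tw_left_cancel (σ : K →+* K) {b x y : ℕ → K} (hb : b 0 = 1) (h : tw σ b x = tw σ b y) :
    x = y := by
  funext l
  induction l using Nat.strong_induction_on with
  | _ l ih =>
  have := congrFun h l
  cases l with
  | zero => simpa [tw, hb] using this
  | succ l =>
    rw [tw, tw, Finset.Nat.sum_antidiagonal_succ, Finset.Nat.sum_antidiagonal_succ,
      Finset.sum_congr rfl fun z hz => by
        rw [ih z.2 (by have := Finset.HasAntidiagonal.mem_antidiagonal.1 hz; omega)]] at this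
    simpa [hb] using this

theorem tw_bseq_uc (p n : ℕ) (σ : K →+* K) {pinv : K} (hp : (p : K) * pinv = 1) {v : ℕ → K}
    (hv : ∀ j, σ (v j) = v j ^ p) :
    tw σ (bseq p n pinv v) (uc p n v) = Pi.single 0 (p : K) := by
  funext l
  cases l with
  | zero => simp [tw, bseq, uc]
  | succ i =>
    rw [Pi.single_eq_of_ne (by omega), tw, Finset.Nat.sum_antidiagonal_succ',
      ← Finset.Nat.sum_antidiagonal_swap, Finset.Nat.sum_antidiagonal_eq_sum_range_succ_mk]
    simp only [Prod.fst_swap, Prod.snd_swap]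
    rw [bseq, uc, if_pos rfl, map_natCast, mul_comm, ← mul_assoc, hp, one_mul,
      ← Finset.sum_subset (s₁ := Finset.range (min n (i + 1))) (Finset.range_mono (min_le_right _ _)),
      ← Finset.sum_add_distrib, Finset.sum_eq_zero]
    · intro j hj
      have := Finset.mem_range.1 hj
      rw [uc, if_neg (by omega), if_pos (by omega), map_neg, pow_apply_of_frob hv, mul_neg,
        add_neg_cancel]
    · intro j hj hj'
      simp only [Finset.mem_range] at hj hj'
      rw [uc, if_neg (by omega), if_neg (by omega), map_zero, mul_zero]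

theorem tw_uc_bseq (p n : ℕ) (σ : K →+* K) {pinv : K} (hp : (p : K) * pinv = 1) {v : ℕ → K}
    (hv : ∀ j, σ (v j) = v j ^ p) :
    tw σ (uc p n v) (bseq p n pinv v) = Pi.single 0 (p : K) := by
  refine tw_left_cancel σ (b := bseq p n pinv v) (by rw [bseq]) ?_
  rw [← tw_assoc, tw_bseq_uc p n σ hp hv]
  funext l
  rw [tw_single_left, tw_single_zero_right]
  simp

variable {p : ℕ} [hp : Fact p.Prime]

theorem coeff_ptyp_pow (a : ℕ → K) (l : ℕ) : PowerSeries.coeff (p ^ l) (ptyp p a) = a l := by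
  rw [ptyp, PowerSeries.coeff_mk, Nat.log_pow hp.out.one_lt, if_pos rfl]

omit hp in
theorem coeff_ptyp_of_not_pow (a : ℕ → K) {i : ℕ} (hi : ∀ l, p ^ l ≠ i) :
    PowerSeries.coeff i (ptyp p a) = 0 := by
  rw [ptyp, PowerSeries.coeff_mk, if_neg (hi _)]

theorem eq_ptyp {F : PowerSeries K} {a : ℕ → K} (h1 : ∀ l, PowerSeries.coeff (p ^ l) F = a l)
    (h2 : ∀ i, (∀ l, p ^ l ≠ i) → PowerSeries.coeff i F = 0) : F = ptyp p a := by
  ext i
  by_cases h : ∃ l, p ^ l = i
  · obtain ⟨l, rfl⟩ := h
    rw [h1, coeff_ptyp_pow]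
  · push Not at h
    rw [h2 i h, coeff_ptyp_of_not_pow a h]

theorem const_ptyp (a : ℕ → K) : PowerSeries.constantCoeff (ptyp p a) = 0 := by
  rw [← PowerSeries.coeff_zero_eq_constantCoeff_apply]
  exact coeff_ptyp_of_not_pow a fun l => pow_ne_zero l hp.out.ne_zero

theorem map_ptyp (ρ : K →+* K') (a : ℕ → K) :
    PowerSeries.map ρ (ptyp p a) = ptyp p (fun l => ρ (a l)) := eq_ptyp (fun l => by rw [PowerSeries.coeff_map, coeff_ptyp_pow]) fun i hi => by
    rw [PowerSeries.coeff_map, coeff_ptyp_of_not_pow a hi, map_zero]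

theorem ptyp_add (a b : ℕ → K) : ptyp p (a + b) = ptyp p a + ptyp p b := (eq_ptyp (fun l => by rw [map_add, coeff_ptyp_pow, coeff_ptyp_pow, Pi.add_apply]) fun i hi => by
    rw [map_add, coeff_ptyp_of_not_pow a hi, coeff_ptyp_of_not_pow b hi, add_zero]).symm

theorem ptyp_single (j : ℕ) (a : K) :
    ptyp p (Pi.single j a) = PowerSeries.C a * PowerSeries.X ^ (p ^ j) := by
  refine (eq_ptyp (fun l => ?_) fun i hi => ?_).symm
  · rw [PowerSeries.coeff_C_mul, PowerSeries.coeff_X_pow, Pi.single_apply]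
    simp [Nat.pow_right_inj hp.out.one_lt]
  · rw [PowerSeries.coeff_C_mul, PowerSeries.coeff_X_pow, if_neg (hi j).symm, mul_zero]

theorem const_hlog (n : ℕ) (pinv : K) (v : ℕ → K) :
    PowerSeries.constantCoeff (hlog p n pinv v) = 0 := const_ptyp _

theorem coeff_one_hlog (n : ℕ) (pinv : K) (v : ℕ → K) :
    PowerSeries.coeff 1 (hlog p n pinv v) = 1 := by
  have := coeff_ptyp_pow (p := p) (bseq p n pinv v) 0
  rwa [pow_zero, bseq] at this

theorem map_hlog (ρ : K →+* K') (n : ℕ) (pinv : K) (v : ℕ → K) :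
    PowerSeries.map ρ (hlog p n pinv v) = hlog p n (ρ pinv) (fun j => ρ (v j)) := by
  simp only [hlog, map_ptyp, map_bseq]

end seqs

section frob
variable {p : ℕ} [hp : Fact p.Prime] {A K : Type*} [CommRing A] [CommRing K] [Algebra A K]

theorem Tact_ptyp (D : Frob p A K) (j : ℕ) (a : ℕ → K) :
    (D.Tact j (ptyp p a) : PowerSeries K) = ptyp p (tw D.σK (Pi.single j 1) a) := by
  refine eq_ptyp (fun l => ?_) fun i hi => ?_
  · rw [D.coeff_Tact, tw_single_left, one_mul]
    simp only [Nat.pow_dvd_pow_iff_le_right hp.out.one_lt]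
    split_ifs with h
    · rw [Nat.pow_div h hp.out.pos, coeff_ptyp_pow]
    · rfl
  · rw [D.coeff_Tact]
    split_ifs with h
    · rw [coeff_ptyp_of_not_pow a fun l hl => hi (j + l) (by rw [pow_add, hl, Nat.mul_div_cancel' h]),
        map_zero]
    · rfl

omit hp in
theorem tw_uc (σ : K →+* K) (n : ℕ) (v a : ℕ → K) (l : ℕ) :
    tw σ (uc p n v) a l =
      p * a l - ∑ j ∈ Finset.range n, v (j + 1) * tw σ (Pi.single (j + 1) 1) a l := by
  have e : ∀ x, uc p n v x = (Pi.single 0 (p : K) : ℕ → K) x -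
      ∑ j ∈ Finset.range n, v (j + 1) * (Pi.single (j + 1) (1 : K) : ℕ → K) x := fun x => by
    cases x with
    | zero => simp [uc]
    | succ x => simp [uc, Pi.single_apply]; split_ifs <;> simp
  have e2 := tw_single_left σ 0 (p : K) a l
  simp only [zero_le, if_true, pow_zero, Nat.sub_zero, RingHom.coe_one, id] at e2
  rw [← e2]
  simp only [tw, e, sub_mul, Finset.sum_sub_distrib, Finset.sum_mul, Finset.mul_sum, mul_assoc]
  rw [Finset.sum_comm]

theorem uact_ptyp (D : Frob p A K) (n : ℕ) (v : ℕ → A) (a : ℕ → K) :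
    (D.uact n v (ptyp p a) : PowerSeries K) =
      ptyp p (tw D.σK (uc p n (fun j => algebraMap A K (v j))) a) := by
  have e : ∀ i, PowerSeries.coeff i (D.uact n v (ptyp p a) : PowerSeries K) =
      p * PowerSeries.coeff i (ptyp p a) - ∑ j ∈ Finset.range n, algebraMap A K (v (j + 1)) *
        PowerSeries.coeff i (ptyp p (tw D.σK (Pi.single (j + 1) 1) a)) := fun i => by
    simp only [← Tact_ptyp]
    change MvPowerSeries.coeff (Finsupp.single () i) (D.uact n v (ptyp p a)) = _
    simp only [Frob.uact, map_sub, map_smul, map_sum, smul_eq_mul]; rfl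
  refine eq_ptyp (fun l => ?_) fun i hi => ?_
  · simp only [e, coeff_ptyp_pow, tw_uc]
  · simp [e, coeff_ptyp_of_not_pow _ hi]

theorem uact_hlog (D : Frob p A K) (n : ℕ) {v : ℕ → A} (hv : ∀ j, D.σA (v j) = v j ^ p) :
    (D.uact n v (hlog p n D.pinv (fun j => algebraMap A K (v j))) : PowerSeries K) =
      (p : K) • PowerSeries.X := by
  rw [hlog, uact_ptyp, tw_uc_bseq p n D.σK D.mul_pinv fun j => by rw [D.comm, hv, map_pow],
    ptyp_single, pow_zero, pow_one, PowerSeries.smul_eq_C_mul]

theorem pint_uact_hlog (D : Frob p A K) (n : ℕ) {v : ℕ → A} (hv : ∀ j, D.σA (v j) = v j ^ p) :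
    PInt p A (D.uact n v (hlog p n D.pinv (fun j => algebraMap A K (v j)))) := by
  refine ⟨(PowerSeries.X : PowerSeries A), ?_⟩
  rw [map_p_smul]
  refine Eq.trans ?_ (uact_hlog D n hv).symm
  congr 1
  exact PowerSeries.map_X _

end frob

/-- the log identity `f(F(X,Y)) = f(X) + f(Y)`. -/
def IsLog {K : Type*} [CommRing K] (F : FormalGroup K) (f : PowerSeries K) : Prop :=
  PowerSeries.subst F.toPowerSeries f =
    PowerSeries.subst (MvPowerSeries.X 0 : MvPowerSeries (Fin 2) K) f +
      PowerSeries.subst (MvPowerSeries.X 1 : MvPowerSeries (Fin 2) K) f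

/-- the Frobenius lift `X_j ↦ X_j^p` on the parameter ring. -/
theorem expand_lift (p : ℕ) [Fact p.Prime] (a : MvPolynomial ℕ ℤ) :
    (p : MvPolynomial ℕ ℤ) ∣ (MvPolynomial.expand p : MvPolynomial ℕ ℤ →ₐ[ℤ] _).toRingHom a
      - a ^ p := by
  have : (p : MvPolynomial ℕ ℤ) = MvPolynomial.C (p : ℤ) := by simp
  rw [this, MvPolynomial.C_dvd_iff_zmod, map_sub, map_pow]
  change MvPolynomial.map _ (MvPolynomial.expand p a) - _ = 0
  rw [MvPolynomial.map_expand, MvPolynomial.expand_zmod, sub_self]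

theorem p_mem_nonZeroDivisors_poly (p : ℕ) [Fact p.Prime] :
    (p : MvPolynomial ℕ ℤ) ∈ nonZeroDivisors (MvPolynomial ℕ ℤ) := mem_nonZeroDivisors_of_ne_zero (Nat.cast_ne_zero.2 (Fact.out : p.Prime).ne_zero)

theorem mv_map_injective {R S τ : Type*} [CommRing R] [CommRing S] {ρ : R →+* S}
    (h : Function.Injective ρ) : Function.Injective (MvPowerSeries.map (σ := τ) ρ) := by
  intro a b hab
  ext e
  apply h
  rw [← MvPowerSeries.coeff_map, ← MvPowerSeries.coeff_map, hab]

theorem exists_fg_of_map {R S : Type*} [CommRing R] [CommRing S] {ρ : R →+* S}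
    (h : Function.Injective ρ) (G : FormalGroup S) {F₀ : MvPowerSeries (Fin 2) R}
    (hF : MvPowerSeries.map ρ F₀ = G.toPowerSeries) : ∃ F : FormalGroup R, F.map ρ = G := by
  have h0 : MvPowerSeries.constantCoeff F₀ = 0 := h (by
    rw [← MvPowerSeries.constantCoeff_map, hF, G.zero_constantCoeff, map_zero])
  refine ⟨⟨F₀, h0, h ?_, h ?_, mv_map_injective h ?_⟩, FormalGroup.ext hF⟩
  · rw [← MvPowerSeries.coeff_map, hF, G.lin_coeff_X, map_one]
  · rw [← MvPowerSeries.coeff_map, hF, G.lin_coeff_Y, map_one]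
  · have e (g₁ g₂ : MvPowerSeries (Fin 3) R) : ![g₁.map ρ, g₂.map ρ] =
      fun i => (![g₁, g₂] i).map ρ := by ext1 i; fin_cases i <;> simp
    have := G.assoc
    rw [← hF] at this
    simp_rw [(MvPowerSeries.map_X ρ _).symm, e, ← MvPowerSeries.map_subst .X_X, e,
      ← MvPowerSeries.map_subst (MvPowerSeries.HasSubst.cons_subst_zero_left (0 : Fin 3) 1 2 h0),
      ← MvPowerSeries.map_subst (MvPowerSeries.HasSubst.cons_subst_zero_right (0 : Fin 3) 1 2 h0)]
      at this
    exact this

theorem isComm_of_map {R S : Type*} [CommRing R] [CommRing S] {ρ : R →+* S}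
    (h : Function.Injective ρ) {F : FormalGroup R} (hF : (F.map ρ).IsComm) : F.IsComm := by
  refine ⟨mv_map_injective h ?_⟩
  rw [MvPowerSeries.map_subst .X_X]
  refine hF.comm.trans ?_
  congr 1
  ext1 i; fin_cases i <;> simp

theorem exists_fg_of_log {K : Type*} [CommRing K] {f : PowerSeries K}
    (h0 : PowerSeries.constantCoeff f = 0) (h1 : PowerSeries.coeff 1 f = 1) :
    ∃ G : FormalGroup K, G.IsComm ∧ IsLog G f := by
  obtain ⟨g, g0, g1, g2, g3⟩ := exists_cmp_inv h0 (h1 ▸ isUnit_one)
  have gu : IsUnit (PowerSeries.coeff 1 g) := IsUnit.of_mul_eq_one_right _ g1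
  obtain ⟨G, hG⟩ := exists_transport FormalGroup.𝔾ₐ g0 gu
  refine ⟨G, isComm_of_iso gu hG, (isFGHom_inv hG h0 g3 g2).2.trans ?_⟩
  have hs : MvPowerSeries.HasSubst ![PowerSeries.subst (MvPowerSeries.X 0 : MvPowerSeries (Fin 2) K) f,
      PowerSeries.subst (MvPowerSeries.X 1 : MvPowerSeries (Fin 2) K) f] :=
    MvPowerSeries.hasSubst_of_constantCoeff_zero fun i => by
      fin_cases i <;> exact PowerSeries.constantCoeff_subst_eq_zero (by simp) f h0
  rw [FormalGroup.𝔾ₐ_toPowerSeries, MvPowerSeries.subst_add hs, MvPowerSeries.subst_X hs,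
    MvPowerSeries.subst_X hs]
  rfl

theorem IsLog.map {K K' : Type*} [CommRing K] [CommRing K'] (ρ : K →+* K') {F : FormalGroup K}
    {f : PowerSeries K} (h : IsLog F f) : IsLog (F.map ρ) (PowerSeries.map ρ f) := by
  have := congrArg (MvPowerSeries.map ρ) h
  rwa [map_add, PowerSeries.map_subst (hasS F.zero_constantCoeff),
    PowerSeries.map_subst (PowerSeries.HasSubst.X _),
    PowerSeries.map_subst (PowerSeries.HasSubst.X _), MvPowerSeries.map_X, MvPowerSeries.map_X]
    at this

theorem exists_univ (p : ℕ) [Fact p.Prime] (n : ℕ) :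
    ∃ F : FormalGroup (MvPolynomial ℕ ℤ), F.IsComm ∧
      IsLog (F.map (algebraMap _ (Localization.Away (p : MvPolynomial ℕ ℤ))))
        (hlog p n (IsLocalization.Away.invSelf (p : MvPolynomial ℕ ℤ))
          (fun j => algebraMap (MvPolynomial ℕ ℤ) (Localization.Away (p : MvPolynomial ℕ ℤ))
            (MvPolynomial.X j))) := by
  let D := Frob.away p (p_mem_nonZeroDivisors_poly p) _ (expand_lift p)
  have hv : ∀ j, D.σA (MvPolynomial.X j) = MvPolynomial.X j ^ p := fun j => by
    rw [Frob.away_σA]; exact MvPolynomial.expand_X p j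
  have e : IsLocalization.Away.invSelf (p : MvPolynomial ℕ ℤ) = D.pinv := by
    apply D.cancel
    rw [D.mul_pinv, ← IsLocalization.Away.mul_invSelf
      (S := Localization.Away (p : MvPolynomial ℕ ℤ)) (p : MvPolynomial ℕ ℤ), map_natCast]
  rw [e]
  set f := hlog p n D.pinv fun j => algebraMap (MvPolynomial ℕ ℤ) _ (MvPolynomial.X j) with hf
  have h0 : PowerSeries.constantCoeff f = 0 := const_hlog _ _ _
  have h1 : PowerSeries.coeff 1 f = 1 := coeff_one_hlog _ _ _
  obtain ⟨G, hG1, hG2⟩ := exists_fg_of_log h0 h1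
  have hu := pint_uact_hlog D n hv
  obtain ⟨F₀, hF₀⟩ := intg_of_uact D h0 h1 hu G.zero_constantCoeff (by
    rw [show PowerSeries.subst G.toPowerSeries f = _ from hG2, D.uact_add, D.uact_subst_X,
      D.uact_subst_X]
    have k : ∀ t : Fin 2, PInt p (MvPolynomial ℕ ℤ) (PowerSeries.subst (MvPowerSeries.X t)
        (D.uact n (fun j => MvPolynomial.X j) f : PowerSeries _)) := fun t => by
      have := hu.subst (H := MvPowerSeries.X t) (by simp)
      rwa [MvPowerSeries.map_X] at this
    exact (k 0).add (k 1))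
  obtain ⟨F, hF⟩ := exists_fg_of_map D.inj G hF₀
  refine ⟨F, isComm_of_map D.inj (by rwa [hF]), by rwa [hF]⟩

/-- the universal `p`-typical law. -/
noncomputable def univ (p : ℕ) [Fact p.Prime] (n : ℕ) : FormalGroup (MvPolynomial ℕ ℤ) :=
  (exists_univ p n).choose

instance univ_isComm (p : ℕ) [Fact p.Prime] (n : ℕ) : (univ p n).IsComm :=
  (exists_univ p n).choose_spec.1

/-- Hazewinkel's law with parameters `v`. -/
noncomputable def HL (p : ℕ) [Fact p.Prime] (n : ℕ) {R : Type*} [CommRing R] (v : ℕ → R) :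
    FormalGroup R :=
  (univ p n).map (MvPolynomial.eval₂Hom (Int.castRingHom R) v)

instance HL_isComm (p : ℕ) [Fact p.Prime] (n : ℕ) {R : Type*} [CommRing R] (v : ℕ → R) :
    (HL p n v).IsComm := by
  unfold HL; infer_instance

theorem HL_map (p : ℕ) [Fact p.Prime] (n : ℕ) {R S : Type*} [CommRing R] [CommRing S]
    (ρ : R →+* S) (v : ℕ → R) : (HL p n v).map ρ = HL p n (fun j => ρ (v j)) := by
  rw [HL, HL, fg_map_map, MvPolynomial.comp_eval₂Hom, RingHom.ext_int (ρ.comp _) (Int.castRingHom S)]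

theorem HL_map_hon (p : ℕ) [Fact p.Prime] (N : ℕ) {R S : Type*} [CommRing R] [CommRing S]
    (ρ : R →+* S) : (HL p N (hon N)).map ρ = HL p N (hon N) := by
  simp only [HL_map, map_hon]

theorem HL_map_zseq (p : ℕ) [Fact p.Prime] (n h : ℕ) {r : ℕ} {R S : Type*} [CommRing R]
    [CommRing S] (ρ : R →+* S) (z : Fin r → R) :
    (HL p n (zseq n h z)).map ρ = HL p n (zseq n h (fun i => ρ (z i))) := by
  simp only [HL_map, map_zseq]

theorem isLog_HL (p : ℕ) [Fact p.Prime] (n : ℕ) {K : Type*} [CommRing K] {pinv : K}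
    (hp : (p : K) * pinv = 1) (v : ℕ → K) : IsLog (HL p n v) (hlog p n pinv v) := by
  have hu : IsUnit (MvPolynomial.eval₂Hom (Int.castRingHom K) v (p : MvPolynomial ℕ ℤ)) := by
    rw [map_natCast]; exact IsUnit.of_mul_eq_one _ hp
  let ψ : Localization.Away (p : MvPolynomial ℕ ℤ) →+* K := IsLocalization.Away.lift _ hu
  have h := (exists_univ p n).choose_spec.2.map ψ
  rw [fg_map_map, IsLocalization.Away.lift_comp, map_hlog] at h
  have e : ψ (IsLocalization.Away.invSelf (p : MvPolynomial ℕ ℤ)) = pinv := by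
    have h1 := congrArg ψ (IsLocalization.Away.mul_invSelf
      (S := Localization.Away (p : MvPolynomial ℕ ℤ)) (p : MvPolynomial ℕ ℤ))
    rw [map_mul, map_natCast, map_natCast, map_one] at h1
    rw [← one_mul pinv, ← h1, mul_right_comm, hp, one_mul]
  simp only [e, ψ, IsLocalization.Away.lift_eq, MvPolynomial.eval₂Hom_X'] at h
  exact h

section log
variable {K : Type*} [CommRing K] {τ : Type*}

theorem hasS2 {a b : MvPowerSeries τ K} (ha : MvPowerSeries.constantCoeff a = 0)
    (hb : MvPowerSeries.constantCoeff b = 0) : MvPowerSeries.HasSubst ![a, b] :=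
  MvPowerSeries.hasSubst_of_constantCoeff_zero fun i => by fin_cases i <;> assumption

theorem mv_subst_subst {υ : Type*} {b : τ → MvPowerSeries υ K} (hb : MvPowerSeries.HasSubst b)
    {a : MvPowerSeries τ K} (ha : MvPowerSeries.constantCoeff a = 0) (f : PowerSeries K) :
    MvPowerSeries.subst b (PowerSeries.subst a f) =
      PowerSeries.subst (MvPowerSeries.subst b a : MvPowerSeries υ K) f :=
  MvPowerSeries.subst_comp_subst_apply (hasS ha).const hb f

theorem subst_cmp {a : MvPowerSeries τ K} (ha : MvPowerSeries.constantCoeff a = 0)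
    (f : PowerSeries K) {g : PowerSeries K} (hg : PowerSeries.constantCoeff g = 0) :
    PowerSeries.subst a (cmp f g) = PowerSeries.subst (PowerSeries.subst a g) f :=
  PowerSeries.subst_comp_subst_apply (PowerSeries.HasSubst.of_constantCoeff_zero' hg) (hasS ha) f

/-- pointwise form of the log identity. -/
theorem IsLog.apply {F : FormalGroup K} {f : PowerSeries K} (h : IsLog F f)
    {a b : MvPowerSeries τ K} (ha : MvPowerSeries.constantCoeff a = 0)
    (hb : MvPowerSeries.constantCoeff b = 0) :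
    PowerSeries.subst (MvPowerSeries.subst ![a, b] F.toPowerSeries : MvPowerSeries τ K) f =
      PowerSeries.subst a f + PowerSeries.subst b f := by
  have hs := hasS2 ha hb
  have := congrArg (MvPowerSeries.subst ![a, b]) h
  rwa [MvPowerSeries.subst_add hs, mv_subst_subst hs F.zero_constantCoeff,
    mv_subst_subst hs (by simp), mv_subst_subst hs (by simp), MvPowerSeries.subst_X hs,
    MvPowerSeries.subst_X hs] at this

theorem IsLog.cmp_mulSeries {F : FormalGroup K} {f : PowerSeries K} (h : IsLog F f)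
    (h0 : PowerSeries.constantCoeff f = 0) (m : ℕ) :
    cmp f (mulSeries F m) = (m : K) • f := by
  induction m with
  | zero => simpa [mulSeries] using PowerSeries.subst_zero_of_constantCoeff_zero h0
  | succ m ih =>
    have := h.apply (a := mulSeries F m) (b := PowerSeries.X) (const_mulSeries F m)
      PowerSeries.constantCoeff_X
    rw [Nat.cast_succ, add_smul, one_smul, ← ih]
    exact this.trans (congrArg _ (cmp_X f))

theorem IsLog.cmp_hom {F G : FormalGroup K} {f θ : PowerSeries K} (h : IsLog G f)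
    (hθ : IsFGHom F G θ) : IsLog F (cmp f θ) := by
  unfold IsLog
  rw [subst_cmp F.zero_constantCoeff f hθ.1, subst_cmp (by simp) f hθ.1, subst_cmp (by simp) f hθ.1,
    hθ.2]
  exact h.apply (PowerSeries.constantCoeff_subst_eq_zero (by simp) _ hθ.1)
    (PowerSeries.constantCoeff_subst_eq_zero (by simp) _ hθ.1)

/-- a series `f = X + ⋯` is injective for substitution. -/
theorem subst_injective_of_coeff_one {f : PowerSeries K} (h0 : PowerSeries.constantCoeff f = 0)
    (h1 : PowerSeries.coeff 1 f = 1) {a b : MvPowerSeries τ K}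
    (ha : MvPowerSeries.constantCoeff a = 0) (hb : MvPowerSeries.constantCoeff b = 0)
    (h : PowerSeries.subst a f = PowerSeries.subst b f) : a = b := by
  obtain ⟨g, -, -, -, g3⟩ := exists_cmp_inv h0 (h1 ▸ isUnit_one)
  rw [← PowerSeries.subst_X (R := K) (hasS ha), ← PowerSeries.subst_X (R := K) (hasS hb), ← g3,
    subst_cmp ha g h0, subst_cmp hb g h0, h]

/-- if `g ∘ θ` is a logarithm of `F` and `g = X + ⋯` a logarithm of `G` then `θ : F → G`. -/
theorem isFGHom_of_isLog {F G : FormalGroup K} {g θ : PowerSeries K} (hg : IsLog G g)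
    (h0 : PowerSeries.constantCoeff g = 0) (h1 : PowerSeries.coeff 1 g = 1)
    (hθ : PowerSeries.constantCoeff θ = 0) (h : IsLog F (cmp g θ)) : IsFGHom F G θ := by
  have k : ∀ t : Fin 2, MvPowerSeries.constantCoeff
      (PowerSeries.subst (MvPowerSeries.X t : MvPowerSeries (Fin 2) K) θ) = 0 := fun t =>
    PowerSeries.constantCoeff_subst_eq_zero (by simp) _ hθ
  refine ⟨hθ, subst_injective_of_coeff_one h0 h1
    (PowerSeries.constantCoeff_subst_eq_zero F.zero_constantCoeff _ hθ)
    (MvPowerSeries.constantCoeff_subst_eq_zero (hasS2 (k 0) (k 1))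
      (fun i => by fin_cases i; exacts [k 0, k 1]) G.zero_constantCoeff) ?_⟩
  rw [hg.apply (k 0) (k 1), ← subst_cmp F.zero_constantCoeff g hθ, ← subst_cmp (by simp) g hθ,
    ← subst_cmp (by simp) g hθ]
  exact h

end log

end Crest.Agent.R227
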