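import Crest.Agent.R227.WNorm
import Crest.Agent.R227.Per

/-!
# R227 / WBasic : Teichmüller lifts in the period field

`tau J a = J [a]`.  All statements are for `IsPer p J ρ`, `0 < ρ < 1`.

Plan.
* `norm_p`: `(p : W).coeff i = if i = 1 then 1 else 0` (`WittVector.coeff_p`).  `norm_tau`: `teichmuller_coeff_zero/pos`.
* elements of `W O` with the same zeroth coefficient differ by `p w` (`mem_span_p_iff_coeff_zero_eq_zero`), `‖J w‖ ≤ 1`.
* `T_strong`: truncate `G` at degree `N` with `‖a‖^N ≤ ε`; `G_{<N}([a]) = [Ḡ_{<N}(a)] + p w₁` and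
  `[Ḡ_{<N}(a)] = [Ḡ(a)] + [difference] + p w₂`.
* `gadd_tau`, `pm_tau(_strong)`: `G = HL p n v̂` over `W O` with `v̂ j = [v j]` (`HL_map`, `map_mulSeries`).
* `norm_le_norm_lg_tau`: `p^N ∑_{l ≤ N} b_l τx^{p^l} = J([x] (p^N + [x] w))` with `w ∈ W O` (`pow_mul_bseq`, `map_bint`); for
  `x ≠ 0`, `‖J(p^N + [x] w)‖ ≥ ρ^N`: otherwise its `N`-th coefficient has norm `< 1`, but modulo the ideal `(x)` of `O`
  (`WittVector.map (Ideal.Quotient.mk _)`) it equals `p^N`, whose `N`-th coefficient is `1`.  Let `N → ∞` (`exists_lg_tail`).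
* `lg_tau_frob`: `p^N (∑_{l ≤ N} b_l τx^{p^l} - τ b) = J w_N`, the twisted expression is `J (frobenius^e w_N)`;
  `norm_J_frobenius_le`, `exists_lg_tail`.
* `exists_bar`: `T_strong` gives `‖[p](τ x) - p J w‖ ≤ ε`, so (`An.exists_lipschitz`) `‖p lg(τ x) - lg (p J w)‖ ≤ ρ²`; and
  `lg(p J w) = p J w + b_1 (p J w)^p + O(ρ²)` because `p^l - l ≥ 2` for `l ≥ 2`; `b_1 p^p = p · p^{p-2} bint 1`.  So
  `‖lg(τ x) - J w'‖ ≤ ρ` with `w' = w + p^{p-2} bint₁ w^p`; take `b = w'_0`.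
-/

set_option autoImplicit false
set_option linter.unusedSectionVars false
open Crest.LubinTate Filter Topology

namespace Crest.Agent.R227

variable {p : ℕ} [hp : Fact p.Prime] {D : Type*} [NormedField D] [IsUltrametricDist D] [CharP D p]
  {F : Type*} [NormedField F]

open Classical in
/-- the Teichmüller lift in the period field (junk value `0`). -/
noncomputable def tau (J : WittVector p (OO D) →+* F) (a : D) : F :=
  if h : ‖a‖ ≤ 1 then J (WittVector.teichmuller p (⟨a, h⟩ : OO D)) else 0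

variable (p D) in
/-- reduction `W(O) → O → D`. -/
noncomputable def redO : WittVector p (OO D) →+* D := (OO D).subtype.comp WittVector.constantCoeff

variable {J : WittVector p (OO D) →+* F} {ρ : ℝ}

theorem tau_coe (a : OO D) : tau J (a : D) = J (WittVector.teichmuller p a) := by
  unfold tau
  rw [dif_pos (show ‖(a : D)‖ ≤ 1 from a.2)]

theorem tau_of_le {a : D} (ha : ‖a‖ ≤ 1) :
    tau J a = J (WittVector.teichmuller p (⟨a, ha⟩ : OO D)) := tau_coe (⟨a, ha⟩ : OO D)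

theorem tau_zero : tau J 0 = 0 := by
  have := tau_coe (J := J) (0 : OO D)
  rwa [WittVector.teichmuller_zero, map_zero] at this

theorem tau_one : tau J 1 = 1 := by
  have := tau_coe (J := J) (1 : OO D)
  rwa [map_one, map_one] at this

theorem tau_mul {a b : D} (ha : ‖a‖ ≤ 1) (hb : ‖b‖ ≤ 1) : tau J (a * b) = tau J a * tau J b := by
  rw [tau_of_le ha, tau_of_le hb, ← map_mul, ← map_mul, ← tau_coe]
  rfl

theorem tau_pow {a : D} (ha : ‖a‖ ≤ 1) (m : ℕ) : tau J (a ^ m) = tau J a ^ m := by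
  rw [tau_of_le ha, ← map_pow, ← map_pow, ← tau_coe]
  rfl

theorem tau_hon (N j : ℕ) : tau J (hon N j) = hon N j := by
  unfold hon
  split_ifs
  · exact tau_one
  · exact tau_zero

theorem tau_zseq (n h : ℕ) {r : ℕ} (z : Fin r → D) (j : ℕ) :
    tau J (zseq n h z j) = zseq n h (fun i => tau J (z i)) j := by
  unfold zseq
  split_ifs
  · rfl
  · exact tau_hon n j

theorem zseq_pow {K : Type*} [CommRing K] (n h : ℕ) {r : ℕ} (z : Fin r → K) {m : ℕ} (hm : m ≠ 0)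
    (j : ℕ) : zseq n h z j ^ m = zseq n h (fun i => z i ^ m) j := by
  unfold zseq hon
  split_ifs
  · rfl
  · exact one_pow m
  · exact zero_pow hm

theorem norm_redO_le (w : WittVector p (OO D)) : ‖redO p D w‖ ≤ 1 := by
  exact (w.coeff 0).2

theorem IsPer.norm_le_one (hJ : IsPer p J ρ) (h0 : 0 < ρ) (h1 : ρ < 1) (w : WittVector p (OO D)) :
    ‖J w‖ ≤ 1 := by
  refine (hJ w 1 zero_le_one).2 fun i => ?_
  rw [one_pow]
  exact mul_le_one₀ (w.coeff i).2 (by positivity)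
    (pow_le_one₀ (by positivity) (pow_le_one₀ h0.le h1.le))

theorem IsPer.norm_p (hJ : IsPer p J ρ) (h0 : 0 < ρ) : ‖(p : F)‖ = ρ := by
  rw [← map_natCast J p]
  apply le_antisymm
  · refine (hJ _ ρ h0.le).2 fun i => ?_
    rw [WittVector.coeff_p]
    split_ifs with hi
    · subst hi; simp
    · simp only [ZeroMemClass.coe_zero, norm_zero, zero_mul]; positivity
  · have := (hJ (p : WittVector p (OO D)) _ (norm_nonneg _)).1 le_rfl 1
    rw [WittVector.coeff_p_one] at this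
    simp only [OneMemClass.coe_one, norm_one, pow_one, one_mul] at this
    exact (pow_le_pow_iff_left₀ h0.le (norm_nonneg _) hp.out.ne_zero).1 this

theorem IsPer.p_ne_zero (hJ : IsPer p J ρ) (h0 : 0 < ρ) : (p : F) ≠ 0 := by
  rw [← norm_ne_zero_iff, hJ.norm_p h0]
  exact h0.ne'

theorem IsPer.norm_tau (hJ : IsPer p J ρ) {a : D} (ha : ‖a‖ ≤ 1) : ‖tau J a‖ = ‖a‖ := by
  rw [tau_of_le ha]
  apply le_antisymm
  · refine (hJ _ ‖a‖ (norm_nonneg _)).2 fun i => ?_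
    rcases Nat.eq_zero_or_pos i with rfl | hi
    · simp
    · rw [WittVector.teichmuller_coeff_pos p _ i hi]
      simp only [ZeroMemClass.coe_zero, norm_zero, zero_mul]; positivity
  · have := (hJ (WittVector.teichmuller p (⟨a, ha⟩ : OO D)) _ (norm_nonneg _)).1 le_rfl 0
    simpa using this

theorem IsPer.norm_tau_le (hJ : IsPer p J ρ) (a : D) : ‖tau J a‖ ≤ 1 := by
  by_cases ha : ‖a‖ ≤ 1
  · rwa [hJ.norm_tau ha]
  · unfold tau
    rw [dif_neg ha, norm_zero]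
    exact zero_le_one

theorem IsPer.norm_frobenius_le (hJ : IsPer p J ρ) (h0 : 0 < ρ) (w : WittVector p (OO D)) :
    ‖J (WittVector.frobenius w)‖ ≤ ‖J w‖ := by
  refine (hJ _ _ (norm_nonneg _)).2 fun i => ?_
  refine le_trans ?_ ((hJ w _ (norm_nonneg _)).1 le_rfl i)
  refine mul_le_mul_of_nonneg_right ?_ (by positivity)
  rw [WittVector.coeff_frobenius_charP, SubmonoidClass.coe_pow, norm_pow]
  exact pow_le_of_le_one (norm_nonneg _) (w.coeff i).2 hp.out.ne_zero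

variable [PerfectRing D p] [IsUltrametricDist F]

omit [IsUltrametricDist F] in
theorem exists_J_dec (J : WittVector p (OO D) →+* F) (w : WittVector p (OO D)) :
    ∃ u : WittVector p (OO D), J w = tau J (redO p D w) + (p : F) * J u := by
  obtain ⟨u, hu⟩ := WN.exists_dec w
  refine ⟨u, ?_⟩
  conv_lhs => rw [hu]
  rw [map_add, map_mul, map_natCast, mul_comm, WN.dg_zero, ← tau_coe]
  rfl

omit [PerfectRing D p] [IsUltrametricDist F] in
theorem IsPer.norm_p_mul_le (hJ : IsPer p J ρ) (h0 : 0 < ρ) (h1 : ρ < 1)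
    (u : WittVector p (OO D)) : ‖(p : F) * J u‖ ≤ ρ := by
  rw [norm_mul, hJ.norm_p h0]
  have := mul_le_mul_of_nonneg_left (hJ.norm_le_one h0 h1 u) h0.le
  rwa [mul_one] at this

omit [CharP D p] [PerfectRing D p] in
theorem redO_teich (a : OO D) : redO p D (WittVector.teichmuller p a) = a := rfl

omit [PerfectRing D p] in
theorem norm_sub_le_of {a b c : F} {e : ℝ} (h1 : ‖a - b‖ ≤ e) (h2 : ‖b - c‖ ≤ e) :
    ‖a - c‖ ≤ e := by
  have := IsUltrametricDist.norm_add_le_max (a - b) (b - c)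
  rw [sub_add_sub_cancel] at this
  exact this.trans (max_le h1 h2)

theorem IsPer.norm_sub_tau (hJ : IsPer p J ρ) (h0 : 0 < ρ) (h1 : ρ < 1) (w : WittVector p (OO D)) :
    ‖J w - tau J (redO p D w)‖ ≤ ρ := by
  obtain ⟨u, hu⟩ := exists_J_dec J w
  rw [hu, add_sub_cancel_left]
  exact hJ.norm_p_mul_le h0 h1 u

theorem IsPer.norm_tau_add (hJ : IsPer p J ρ) (h0 : 0 < ρ) (h1 : ρ < 1) {a b : D} (ha : ‖a‖ ≤ 1)
    (hb : ‖b‖ ≤ 1) : ‖tau J (a + b) - (tau J a + tau J b)‖ ≤ ρ := by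
  have := hJ.norm_sub_tau h0 h1 (WittVector.teichmuller p (⟨a, ha⟩ : OO D) +
    WittVector.teichmuller p (⟨b, hb⟩ : OO D))
  rw [map_add, map_add, redO_teich, redO_teich, ← tau_of_le ha, ← tau_of_le hb] at this
  rwa [norm_sub_rev]

theorem IsPer.norm_tau_sub (hJ : IsPer p J ρ) (h0 : 0 < ρ) (h1 : ρ < 1) {a b : D} (ha : ‖a‖ ≤ 1)
    (hb : ‖b‖ ≤ 1) : ‖tau J a - tau J b‖ ≤ max ‖a - b‖ ρ := by
  have hab : ‖a - b‖ ≤ 1 := (OO D).sub_mem (show a ∈ OO D from ha) (show b ∈ OO D from hb)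
  have h2 := hJ.norm_tau_add h0 h1 hab hb
  rw [sub_add_cancel] at h2
  refine norm_sub_le_of (b := tau J (a - b) + tau J b) (h2.trans (le_max_right _ _)) ?_
  rw [add_sub_cancel_right, hJ.norm_tau hab]
  exact le_max_left _ _

theorem IsPer.norm_tau_sum (hJ : IsPer p J ρ) (h0 : 0 < ρ) (h1 : ρ < 1) {ι : Type*} (s : Finset ι)
    {a : ι → D} (ha : ∀ i, ‖a i‖ ≤ 1) : ‖tau J (∑ i ∈ s, a i) - ∑ i ∈ s, tau J (a i)‖ ≤ ρ := by
  have := hJ.norm_sub_tau h0 h1 (∑ i ∈ s, WittVector.teichmuller p (⟨a i, ha i⟩ : OO D))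
  rw [map_sum, map_sum] at this
  simp only [redO_teich] at this
  simp only [← tau_of_le] at this
  rwa [norm_sub_rev]

variable [CompleteSpace D] [CompleteSpace F]

theorem norm_ev_sub_trunc {R K τ : Type*} [CommRing R] [Finite τ] [NormedField K]
    [IsUltrametricDist K] [CompleteSpace K] (G : MvPowerSeries τ R) (t : τ → R) (N : ℕ) {μ : ℝ}
    (hμ0 : 0 ≤ μ) (hμ1 : μ < 1) (φ : R →+* K) (hφ : ∀ w, ‖φ w‖ ≤ 1) (y : τ → K)
    (hy : ∀ i, ‖y i‖ ≤ μ) (e : ∀ i, φ (t i) = y i) :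
    ‖ev (MvPowerSeries.map φ G) y - φ (MvPolynomial.eval t (MvPowerSeries.truncTotal N G))‖ ≤
      μ ^ N := by
  set P : MvPolynomial τ R := MvPowerSeries.truncTotal N G with hP
  have e1 : φ (MvPolynomial.eval t P) = ev (MvPowerSeries.map φ (P : MvPowerSeries τ R)) y := by
    have e2 : MvPowerSeries.map φ (P : MvPowerSeries τ R) =
        ((MvPolynomial.map φ P : MvPolynomial τ K) : MvPowerSeries τ K) := by
      ext d
      rw [MvPowerSeries.coeff_map, MvPolynomial.coeff_coe, MvPolynomial.coeff_coe,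
        MvPolynomial.coeff_map]
    rw [e2, ev_coe, MvPolynomial.eval_map, MvPolynomial.eval₂_comp]
    congr 1
    funext i
    exact e i
  rw [e1]
  refine Bd.norm_ev_sub_le_pow (bd_map φ hφ _) (bd_map φ hφ _) (N := N) (fun d hd => ?_)
    hμ0 hμ1 hy
  rw [MvPowerSeries.coeff_map, MvPowerSeries.coeff_map, MvPolynomial.coeff_coe, hP,
    MvPowerSeries.coeff_truncTotal _ hd]

theorem IsPer.T_strong (hJ : IsPer p J ρ) (h0 : 0 < ρ) (h1 : ρ < 1) {τ : Type*} [Finite τ]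
    (G : MvPowerSeries τ (WittVector p (OO D))) {a : τ → D} (ha : Sm a) {ε : ℝ} (hε : 0 < ε) :
    ∃ w : WittVector p (OO D), ‖ev (MvPowerSeries.map J G) (fun i => tau J (a i)) -
      tau J (ev (MvPowerSeries.map (redO p D) G) a) - (p : F) * J w‖ ≤ ε := by
  obtain ⟨μ, hμ0, hμ1, hμ⟩ := ha.exists_bound
  obtain ⟨N, hN⟩ := exists_pow_lt_of_lt_one hε hμ1
  have ha1 : ∀ i, ‖a i‖ ≤ 1 := fun i => (ha i).le
  set P : MvPolynomial τ (WittVector p (OO D)) := MvPowerSeries.truncTotal N G with hP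
  set w₁ : WittVector p (OO D) :=
    MvPolynomial.eval (fun i => WittVector.teichmuller p (⟨a i, ha1 i⟩ : OO D)) P with hw₁
  have k1 : ‖ev (MvPowerSeries.map J G) (fun i => tau J (a i)) - J w₁‖ ≤ ε :=
    (norm_ev_sub_trunc G _ N hμ0 hμ1 J (hJ.norm_le_one h0 h1) (fun i => tau J (a i))
      (fun i => by rw [hJ.norm_tau (ha1 i)]; exact hμ i)
      (fun i => (tau_of_le (ha1 i)).symm)).trans hN.le
  have k2 : ‖ev (MvPowerSeries.map (redO p D) G) a - redO p D w₁‖ ≤ ε :=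
    (norm_ev_sub_trunc G _ N hμ0 hμ1 (redO p D) norm_redO_le a hμ (fun i => rfl)).trans hN.le
  set g := ev (MvPowerSeries.map (redO p D) G) a with hg
  have hg1 : ‖g‖ ≤ 1 := (bd_map _ norm_redO_le G).norm_ev_le_one ha
  have hδ : ‖g - redO p D w₁‖ ≤ 1 :=
    (OO D).sub_mem (show g ∈ OO D from hg1) (show redO p D w₁ ∈ OO D from norm_redO_le w₁)
  obtain ⟨u, hu⟩ := exists_J_dec J (w₁ + WittVector.teichmuller p (⟨_, hδ⟩ : OO D))
  rw [map_add, map_add, redO_teich, ← tau_of_le hδ] at hu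
  simp only [add_sub_cancel] at hu
  refine ⟨u, ?_⟩
  rw [sub_sub, ← hu]
  refine norm_sub_le_of k1 ?_
  rw [sub_add_cancel_left, norm_neg, hJ.norm_tau hδ]
  exact k2

theorem IsPer.T_weak (hJ : IsPer p J ρ) (h0 : 0 < ρ) (h1 : ρ < 1) {τ : Type*} [Finite τ]
    (G : MvPowerSeries τ (WittVector p (OO D))) {a : τ → D} (ha : Sm a) :
    ‖ev (MvPowerSeries.map J G) (fun i => tau J (a i)) -
      tau J (ev (MvPowerSeries.map (redO p D) G) a)‖ ≤ ρ := by
  obtain ⟨w, hw⟩ := hJ.T_strong h0 h1 G ha h0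
  have := norm_sub_le_of (c := 0) hw (by rw [sub_zero]; exact hJ.norm_p_mul_le h0 h1 w)
  rwa [sub_zero] at this

theorem IsPer.T_weak1 (hJ : IsPer p J ρ) (h0 : 0 < ρ) (h1 : ρ < 1)
    (G : PowerSeries (WittVector p (OO D))) {a : D} (ha : ‖a‖ < 1) :
    ‖ev1 (PowerSeries.map J G) (tau J a) - tau J (ev1 (PowerSeries.map (redO p D) G) a)‖ ≤ ρ := by
  exact hJ.T_weak h0 h1 (τ := Unit) G (a := fun _ => a) (fun _ => ha)

variable (p) in
/-- Teichmüller lifts of the parameters. -/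
noncomputable def vhat (v : ℕ → D) (hv : ∀ j, ‖v j‖ ≤ 1) (j : ℕ) : WittVector p (OO D) :=
  WittVector.teichmuller p (⟨v j, hv j⟩ : OO D)

omit [PerfectRing D p] [IsUltrametricDist F] [CompleteSpace D] [CompleteSpace F] in
theorem J_vhat (v : ℕ → D) (hv : ∀ j, ‖v j‖ ≤ 1) :
    (fun j => J (vhat p v hv j)) = fun j => tau J (v j) := by
  funext j; exact (tau_of_le (hv j)).symm

omit [CharP D p] [PerfectRing D p] [CompleteSpace D] in
theorem red_vhat (v : ℕ → D) (hv : ∀ j, ‖v j‖ ≤ 1) :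
    (fun j => redO p D (vhat p v hv j)) = v := rfl

theorem IsPer.gadd_tau (hJ : IsPer p J ρ) (h0 : 0 < ρ) (h1 : ρ < 1) {n : ℕ} {v : ℕ → D}
    (hv : ∀ j, ‖v j‖ ≤ 1) {a b : D} (ha : ‖a‖ < 1) (hb : ‖b‖ < 1) :
    ‖gadd p n (fun j => tau J (v j)) (tau J a) (tau J b) - tau J (gadd p n v a b)‖ ≤ ρ := by
  have hs : Sm ![a, b] := by
    intro i; fin_cases i
    · exact ha
    · exact hb
  have := hJ.T_weak h0 h1 (HL p n (vhat p v hv)).toPowerSeries hs
  rw [← FormalGroup.map_toPowerSeries, ← FormalGroup.map_toPowerSeries, HL_map, HL_map,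
    J_vhat, red_vhat] at this
  have e : (fun i => tau J (![a, b] i)) = ![tau J a, tau J b] := by
    funext i; fin_cases i <;> rfl
  rw [e] at this
  exact this

theorem IsPer.pm_tau (hJ : IsPer p J ρ) (h0 : 0 < ρ) (h1 : ρ < 1) {n : ℕ} {v : ℕ → D}
    (hv : ∀ j, ‖v j‖ ≤ 1) (m : ℕ) {a : D} (ha : ‖a‖ < 1) :
    ‖pm p n (fun j => tau J (v j)) m (tau J a) - tau J (pm p n v m a)‖ ≤ ρ := by
  have := hJ.T_weak1 h0 h1 (mulSeries (HL p n (vhat p v hv)) m) ha
  rw [map_mulSeries, map_mulSeries, HL_map, HL_map, J_vhat, red_vhat] at this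
  exact this

theorem IsPer.pm_tau_strong (hJ : IsPer p J ρ) (h0 : 0 < ρ) (h1 : ρ < 1) {n : ℕ} {v : ℕ → D}
    (hv : ∀ j, ‖v j‖ ≤ 1) (m : ℕ) {a : D} (ha : ‖a‖ < 1) {ε : ℝ} (hε : 0 < ε) :
    ∃ w : WittVector p (OO D),
      ‖pm p n (fun j => tau J (v j)) m (tau J a) - tau J (pm p n v m a) - (p : F) * J w‖ ≤ ε := by
  obtain ⟨w, hw⟩ := hJ.T_strong h0 h1 (τ := Unit) (mulSeries (HL p n (vhat p v hv)) m)
    (a := fun _ => a) (fun _ => ha) hε
  refine ⟨w, ?_⟩
  have e1 := map_mulSeries J (HL p n (vhat p v hv)) m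
  have e2 := map_mulSeries (redO p D) (HL p n (vhat p v hv)) m
  rw [HL_map, J_vhat] at e1
  rw [HL_map, red_vhat] at e2
  unfold pm
  rw [← e1, ← e2]
  exact hw

theorem IsPer.lg_tau_gadd (hJ : IsPer p J ρ) (h0 : 0 < ρ) (h1 : ρ < 1) {n : ℕ} {v : ℕ → D}
    (hv : ∀ j, ‖v j‖ ≤ 1) {a b : D} (ha : ‖a‖ < 1) (hb : ‖b‖ < 1) :
    ‖lg p n (fun j => tau J (v j)) (tau J (gadd p n v a b)) -
      (lg p n (fun j => tau J (v j)) (tau J a) + lg p n (fun j => tau J (v j)) (tau J b))‖ ≤ ρ := by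
  have hv' : ∀ j, ‖tau J (v j)‖ ≤ 1 := fun j => hJ.norm_tau_le _
  have ha' : ‖tau J a‖ < 1 := by rwa [hJ.norm_tau ha.le]
  have hb' : ‖tau J b‖ < 1 := by rwa [hJ.norm_tau hb.le]
  have hg := norm_gadd_lt (p := p) (n := n) hv ha hb
  have hg' : ‖tau J (gadd p n v a b)‖ < 1 := by rwa [hJ.norm_tau hg.le]
  rw [← lg_gadd (hJ.p_ne_zero h0) hv' ha' hb', ← hJ.norm_p h0]
  refine norm_lg_sub_le (hJ.p_ne_zero h0) hv' hg' (norm_gadd_lt hv' ha' hb') ?_
  rw [hJ.norm_p h0, norm_sub_rev]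
  exact hJ.gadd_tau h0 h1 hv ha hb

variable (p) in
/-- partial sums of the logarithm. -/
noncomputable def lgS {L : Type*} [Field L] (n : ℕ) (v : ℕ → L) (y : L) (N : ℕ) : L :=
  ∑ l ∈ Finset.range (N + 1), bseq p n (p : L)⁻¹ v l * y ^ p ^ l

variable (p) in
/-- integral partial sums of the logarithm. -/
noncomputable def SW {K : Type*} [CommRing K] (n : ℕ) (v : ℕ → K) (y : K) : ℕ → K
  | 0 => y
  | N + 1 => (p : K) * SW n v y N + bint p n v (N + 1) * y ^ p ^ (N + 1)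

omit hp in
theorem map_SW {K K' : Type*} [CommRing K] [CommRing K'] (φ : K →+* K') (n : ℕ) (v : ℕ → K)
    (y : K) (N : ℕ) : φ (SW p n v y N) = SW p n (fun j => φ (v j)) (φ y) N := by
  induction N with
  | zero => rfl
  | succ N ih => simp only [SW, map_add, map_mul, map_natCast, map_pow, ih, map_bint]

omit hp in
theorem SW_eq {L : Type*} [Field L] (hp0 : (p : L) ≠ 0) (n : ℕ) (v : ℕ → L) (y : L) (N : ℕ) :
    SW p n v y N = (p : L) ^ N * lgS p n v y N := by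
  induction N with
  | zero => simp [SW, lgS, bseq]
  | succ N ih =>
    rw [SW, ih, ← pow_mul_bseq p n (mul_inv_cancel₀ hp0)]
    unfold lgS
    rw [Finset.sum_range_succ _ (N + 1)]
    ring

theorem exists_SW_eq {K : Type*} [CommRing K] (n : ℕ) (v : ℕ → K) (y : K) (N : ℕ) :
    ∃ w, SW p n v y N = y * ((p : K) ^ N + y * w) := by
  induction N with
  | zero => exact ⟨0, by simp [SW]⟩
  | succ N ih =>
    obtain ⟨w, hw⟩ := ih
    have h2 : 2 ≤ p ^ (N + 1) := hp.out.two_le.trans (Nat.le_self_pow (Nat.succ_ne_zero N) p)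
    obtain ⟨k, hk⟩ := Nat.exists_eq_add_of_le h2
    refine ⟨p * w + bint p n v (N + 1) * y ^ k, ?_⟩
    rw [SW, hw, hk]
    ring

theorem tendsto_lgS {L : Type*} [NormedField L] [IsUltrametricDist L] [CompleteSpace L]
    (hp0 : (p : L) ≠ 0) {n : ℕ} {v : ℕ → L} (hv : ∀ j, ‖v j‖ ≤ 1) {y : L} (hy : ‖y‖ < 1) :
    Tendsto (lgS p n v y) atTop (𝓝 (lg p n v y)) :=
  (hasSum_lg hp0 hv hy).tendsto_sum_nat.comp (tendsto_add_atTop_nat 1)

theorem IsPer.norm_le_norm_lg_tau (hJ : IsPer p J ρ) (h0 : 0 < ρ) (h1 : ρ < 1) {n : ℕ} {v : ℕ → D}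
    (hv : ∀ j, ‖v j‖ ≤ 1) {x : D} (hx : ‖x‖ < 1) :
    ‖x‖ ≤ ‖lg p n (fun j => tau J (v j)) (tau J x)‖ := by
  have hv' : ∀ j, ‖tau J (v j)‖ ≤ 1 := fun j => hJ.norm_tau_le _
  have hx' : ‖tau J x‖ < 1 := by rwa [hJ.norm_tau hx.le]
  refine ge_of_tendsto' (tendsto_lgS (n := n) (hJ.p_ne_zero h0) hv' hx').norm fun N => ?_
  obtain ⟨w, hw⟩ := exists_SW_eq (p := p) n (vhat p v hv)
    (WittVector.teichmuller p (⟨x, hx.le⟩ : OO D)) N
  have e := map_SW (p := p) J n (vhat p v hv) (WittVector.teichmuller p (⟨x, hx.le⟩ : OO D)) N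
  rw [J_vhat, ← tau_of_le, SW_eq (hJ.p_ne_zero h0), hw, map_mul, ← tau_of_le] at e
  have e2 := congrArg norm e
  rw [norm_mul, norm_mul, norm_pow, hJ.norm_p h0, hJ.norm_tau hx.le] at e2
  set u : WittVector p (OO D) := (p : WittVector p (OO D)) ^ N +
    WittVector.teichmuller p (⟨x, hx.le⟩ : OO D) * w with hu
  have h3 : ρ ^ N ≤ ‖J u‖ := by
    have h4 := (hJ u _ (norm_nonneg _)).1 le_rfl N
    have h5 : ‖((u.coeff N : OO D) : D)‖ = 1 := by
      set π := Ideal.Quotient.mk (Ideal.span {(⟨x, hx.le⟩ : OO D)}) with hπ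
      have h6 : WittVector.map π u = WittVector.map π ((p : WittVector p (OO D)) ^ N) := by
        rw [hu, map_add, map_mul, WittVector.map_teichmuller]
        have : π ⟨x, hx.le⟩ = 0 :=
          Ideal.Quotient.eq_zero_iff_mem.2 (Ideal.mem_span_singleton_self _)
        rw [this, WittVector.teichmuller_zero, zero_mul, add_zero]
      have h7 := congrArg (fun z => WittVector.coeff z N) h6
      simp only [WittVector.map_coeff, WittVector.coeff_p_pow] at h7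
      obtain ⟨c, hc⟩ := Ideal.mem_span_singleton'.1 (Ideal.Quotient.eq.1 h7)
      have h8 : ((u.coeff N : OO D) : D) = 1 + (c : D) * x := by
        have := congrArg (fun z : OO D => (z : D)) hc
        simp only [Subring.coe_mul, AddSubgroupClass.coe_sub, OneMemClass.coe_one] at this
        rw [this]; ring
      have h9 : ‖(c : D) * x‖ < ‖(1 : D)‖ := by
        rw [norm_mul, norm_one]
        exact mul_lt_one_of_nonneg_of_lt_one_right c.2 (norm_nonneg _) hx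
      rw [h8, IsUltrametricDist.norm_add_eq_max_of_norm_ne_norm h9.ne', max_eq_left h9.le, norm_one]
    rw [h5, one_mul] at h4
    exact (pow_le_pow_iff_left₀ (by positivity) (norm_nonneg _)
      (pow_ne_zero _ hp.out.ne_zero)).1 h4
  have h10 : ρ ^ N * ‖x‖ ≤ ρ ^ N * ‖lgS p n (fun j => tau J (v j)) (tau J x) N‖ := by
    rw [← e2, mul_comm]
    exact mul_le_mul_of_nonneg_left h3 (norm_nonneg _)
  exact le_of_mul_le_mul_left h10 (by positivity)

omit [PerfectRing D p] [IsUltrametricDist F] [CompleteSpace D] [CompleteSpace F] in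
theorem J_frob_teich {a : D} (ha : ‖a‖ ≤ 1) :
    J (WittVector.frobenius (WittVector.teichmuller p (⟨a, ha⟩ : OO D))) = tau J (a ^ p) := by
  rw [WittVector.frobenius_eq_map_frobenius, WittVector.map_teichmuller, ← tau_coe]
  rfl

omit [PerfectRing D p] [CompleteSpace D] in
theorem IsPer.lg_tau_frob_one (hJ : IsPer p J ρ) (h0 : 0 < ρ) {n : ℕ} {v : ℕ → D}
    (hv : ∀ j, ‖v j‖ ≤ 1) {x b : D} (hx : ‖x‖ < 1) (hb : ‖b‖ ≤ 1) :
    ‖lg p n (fun j => tau J (v j ^ p)) (tau J (x ^ p)) - tau J (b ^ p)‖ ≤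
      ‖lg p n (fun j => tau J (v j)) (tau J x) - tau J b‖ := by
  have hp0 := hJ.p_ne_zero h0
  have hx' : ‖tau J x‖ < 1 := by rwa [hJ.norm_tau hx.le]
  have hxp : ‖x ^ p‖ < 1 := by rw [norm_pow]; exact pow_lt_one₀ (norm_nonneg _) hx hp.out.ne_zero
  have hx'' : ‖tau J (x ^ p)‖ < 1 := by rwa [hJ.norm_tau hxp.le]
  refine le_of_tendsto_of_tendsto'
    ((tendsto_lgS (n := n) hp0 (fun j => hJ.norm_tau_le _) hx'').sub_const _).norm
    ((tendsto_lgS (n := n) hp0 (fun j => hJ.norm_tau_le _) hx').sub_const _).norm fun N => ?_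
  have h2 := hJ.norm_frobenius_le h0
    (SW p n (vhat p v hv) (WittVector.teichmuller p (⟨x, hx.le⟩ : OO D)) N -
      (p : WittVector p (OO D)) ^ N * WittVector.teichmuller p (⟨b, hb⟩ : OO D))
  have e : (fun j => J (WittVector.frobenius (vhat p v hv j))) = fun j => tau J (v j ^ p) := by
    funext j; exact J_frob_teich (hv j)
  simp only [map_sub, map_mul, map_pow, map_natCast, map_SW] at h2
  rw [e, J_vhat, J_frob_teich, J_frob_teich, ← tau_of_le, ← tau_of_le, SW_eq hp0, SW_eq hp0,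
    ← mul_sub, ← mul_sub, norm_mul, norm_mul, norm_pow, hJ.norm_p h0] at h2
  exact le_of_mul_le_mul_left h2 (by positivity)

theorem IsPer.lg_tau_frob (hJ : IsPer p J ρ) (h0 : 0 < ρ) (h1 : ρ < 1) {n : ℕ} {v : ℕ → D}
    (hv : ∀ j, ‖v j‖ ≤ 1) {x b : D} (hx : ‖x‖ < 1) (hb : ‖b‖ ≤ 1)
    (h : ‖lg p n (fun j => tau J (v j)) (tau J x) - tau J b‖ ≤ ρ) (e : ℕ) :
    ‖lg p n (fun j => tau J (v j ^ p ^ e)) (tau J (x ^ p ^ e)) - tau J (b ^ p ^ e)‖ ≤ ρ := by
  induction e with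
  | zero => simpa using h
  | succ e ih =>
    have hq : p ^ e ≠ 0 := pow_ne_zero _ hp.out.ne_zero
    have := hJ.lg_tau_frob_one h0 (n := n) (v := fun j => v j ^ p ^ e) (x := x ^ p ^ e)
      (b := b ^ p ^ e) (fun j => by rw [norm_pow]; exact pow_le_one₀ (norm_nonneg _) (hv j))
      (by rw [norm_pow]; exact pow_lt_one₀ (norm_nonneg _) hx hq)
      (by rw [norm_pow]; exact pow_le_one₀ (norm_nonneg _) hb)
    simp only [← pow_mul, ← pow_succ] at this
    exact this.trans ih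

theorem IsPer.exists_bar (hJ : IsPer p J ρ) (h0 : 0 < ρ) (h1 : ρ < 1) {n : ℕ} {v : ℕ → D}
    (hv : ∀ j, ‖v j‖ ≤ 1) {x : D} (hx : ‖x‖ < 1) (ht : pm p n v p x = 0) :
    ∃ b : D, ‖b‖ ≤ 1 ∧ ‖lg p n (fun j => tau J (v j)) (tau J x) - tau J b‖ ≤ ρ := by
  have hp0 := hJ.p_ne_zero h0
  have hv' : ∀ j, ‖tau J (v j)‖ ≤ 1 := fun j => hJ.norm_tau_le _
  have hx' : ‖tau J x‖ < 1 := by rwa [hJ.norm_tau hx.le]
  set v' : ℕ → F := fun j => tau J (v j) with hv'def
  obtain ⟨L, hL0, hL⟩ := An.exists_lipschitz (an_hlog (n := n) hp0 hv')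
    (ρ := max ‖tau J x‖ ρ) (max_lt hx' h1)
  have hε : 0 < ρ ^ 2 / (L + 1) := by positivity
  obtain ⟨w, hw⟩ := hJ.pm_tau_strong h0 h1 (n := n) hv p hx hε
  rw [ht, tau_zero, sub_zero] at hw
  have hpw := hJ.norm_p_mul_le h0 h1 w
  have k1 : ‖lg p n v' (pm p n v' p (tau J x)) - lg p n v' ((p : F) * J w)‖ ≤ ρ ^ 2 := by
    refine (hL (fun _ => pm p n v' p (tau J x)) (fun _ => (p : F) * J w) _ hε.le
      (fun _ => (norm_pm_le hv' p hx').trans (le_max_left _ _))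
      (fun _ => hpw.trans (le_max_right _ _)) (fun _ => hw)).trans ?_
    rw [← mul_div_assoc, div_le_iff₀ (by positivity)]
    nlinarith [sq_nonneg ρ]
  rw [lg_pm hp0 hv' p hx'] at k1
  have hs := (hasSum_nat_add_iff' 2).2 (hasSum_lg (n := n) hp0 hv' (hpw.trans_lt h1))
  have k2 : ‖lg p n v' ((p : F) * J w) -
      ∑ l ∈ Finset.range 2, bseq p n (p : F)⁻¹ v' l * ((p : F) * J w) ^ p ^ l‖ ≤ ρ ^ 2 := by
    rw [← hs.tsum_eq]
    refine IsUltrametricDist.norm_tsum_le_of_forall_le_of_nonneg (by positivity) fun l => ?_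
    have h2 : l + 2 + 2 ≤ p ^ (l + 2) := by
      have h3 : l + 2 + 2 ≤ 2 ^ (l + 2) := by
        have := Nat.lt_two_pow_self (n := l)
        rw [pow_add]; omega
      exact h3.trans (Nat.pow_le_pow_left hp.out.two_le _)
    obtain ⟨k, hk⟩ := Nat.exists_eq_add_of_le h2
    have h4 := norm_bseq_le (n := n) hp0 hv' (l + 2)
    rw [hJ.norm_p h0] at h4
    rw [norm_mul, norm_pow]
    refine (mul_le_mul h4 (pow_le_pow_left₀ (norm_nonneg _) hpw _) (by positivity)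
      (by positivity)).trans ?_
    rw [hk, pow_add ρ, pow_add ρ, ← mul_assoc, ← mul_assoc, ← mul_pow, inv_mul_cancel₀ h0.ne',
      one_pow, one_mul]
    exact mul_le_of_le_one_right (by positivity) (pow_le_one₀ h0.le h1.le)
  obtain ⟨k, hk⟩ := Nat.exists_eq_add_of_le hp.out.two_le
  set w' : WittVector p (OO D) :=
    w + (p : WittVector p (OO D)) ^ k * bint p n (vhat p v hv) 1 * w ^ p with hw'
  have e : ∑ l ∈ Finset.range 2, bseq p n (p : F)⁻¹ v' l * ((p : F) * J w) ^ p ^ l =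
      (p : F) * J w' := by
    have e1 : ((p : F) * J w) ^ p = (p : F) ^ (2 + k) * J w ^ p := by rw [mul_pow, ← hk]
    rw [Finset.sum_range_succ, Finset.sum_range_one, hw', map_add, map_mul, map_mul, map_pow,
      map_pow, map_natCast, map_bint, J_vhat, ← pow_mul_bseq p n (mul_inv_cancel₀ hp0), pow_one, e1,
      pow_zero, pow_one, bseq]
    ring
  rw [e] at k2
  have k3 := norm_sub_le_of k1 k2
  rw [← mul_sub, norm_mul, hJ.norm_p h0, sq] at k3
  exact ⟨redO p D w', norm_redO_le w',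
    norm_sub_le_of (le_of_mul_le_mul_left k3 h0) (hJ.norm_sub_tau h0 h1 w')⟩

end Crest.Agent.R227
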