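import Crest.Agent.R227.Acc
import Crest.Agent.R227.Pr

/-!
# R227 / WNorm : the Gauss norms on `W(O)`

For `w = ∑ p^i [a_i]` (`a_i = w_i^{1/p^i}`) put `N_ρ(w) = sup_i ‖a_i‖ ρ^i`.  It is a multiplicative ultrametric norm.

Plan (`O = OO D` is a perfect valuation ring: `‖a‖ ≤ ‖b‖ → b ∣ a`).
* `Le ρ w B` : `∀ i, ‖w_i‖ (ρ^i)^{p^i} ≤ B^{p^i}`, i.e. `‖a_i‖ ρ^i ≤ B`.
* Normal form: `Le ρ w B ↔ ∀/∃ N, ∃ ϖ_0 … ϖ_{N-1} ∈ O, y_i, y, w = ∑_{i<N} p^i [ϖ_i] y_i + p^N y`, `‖ϖ_i‖ ρ^i ≤ B`, `ρ^N ≤ B`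
  (`B > 0`).  (→) `WittVector.dvd_sub_sum_teichmuller_iterateFrobeniusEquiv_coeff`.  (←) induction on `N` generalizing `B`:
  `w_0 = ϖ_0 (y_0)_0`; `w - [w_0] = p w'` where `[ϖ_0] y_0 - [ϖ_0 (y_0)_0] = p [ϖ_0] y_0'`, and `[ϖ_0] y_0' + [ϖ_1] y_1 = [ϖ'] y'`
  with `ϖ'` the larger of the two; `(p w' + [a])_{i+1} = (w'_i)^p`.
* `Le.add`, `Le.mul` from the normal form.  `Le.strict` versions: define `nrm ρ w = ⨆ i, ‖rt i w_i‖ ρ^i`, attained if `w ≠ 0`.
* multiplicativity: let `i₀, j₀` be the least indices attaining the sup for `w, w'`.  Then `w w' = p^{i₀+j₀}[a b] + p^{i₀+j₀+1} y + e`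
  with `nrm e < nrm w · nrm w'`; if `nrm (w w') < nrm w · nrm w'` then `nrm (p^{i₀+j₀}[ab] + p^{i₀+j₀+1} y)` is `<` too, but its
  coefficient of index `i₀+j₀` is `(ab)^{p^{i₀+j₀}}` (`teichmuller_mul_pow_coeff`, `le_coeff_eq_iff_le_sub_coeff_eq_zero`).
* `exists_per`: `exists_acc` with `N = nrm ρ` (nontrivial: `N p = ρ`).
-/

set_option autoImplicit false
open Filter Topology

namespace Crest.Agent.R227

variable (p : ℕ) [hp : Fact p.Prime] {D : Type*} [NormedField D] [IsUltrametricDist D] [CharP D p]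

instance OO.charP : CharP (OO D) p := inferInstance

instance OO.perfectRing [PerfectRing D p] : PerfectRing (OO D) p := by
  refine PerfectRing.ofSurjective (OO D) p fun a => ?_
  obtain ⟨b, hb⟩ := (frobeniusEquiv D p).surjective (a : D)
  have hb' : b ^ p = (a : D) := hb
  have h1 : ‖b‖ ≤ 1 := by
    have ha : ‖(a : D)‖ ≤ 1 := a.2
    rw [← hb', norm_pow] at ha
    exact (pow_le_one_iff_of_nonneg (norm_nonneg b) hp.out.ne_zero).1 ha
  exact ⟨⟨b, h1⟩, Subtype.ext hb'⟩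

/-- `J` induces the Gauss norm of radius `ρ`. -/
def IsPer {F : Type*} [NormedField F] (J : WittVector p (OO D) →+* F) (ρ : ℝ) : Prop :=
  ∀ (w : WittVector p (OO D)) (B : ℝ), 0 ≤ B →
    (‖J w‖ ≤ B ↔ ∀ i, ‖((w.coeff i : OO D) : D)‖ * (ρ ^ i) ^ p ^ i ≤ B ^ p ^ i)

namespace WN
variable {p}

section dig
variable {R : Type*} [CommRing R] [CharP R p] [PerfectRing R p]

/-- the Teichmüller digits. -/
noncomputable def dg (i : ℕ) (w : WittVector p R) : R :=
  (iterateFrobeniusEquiv R p i).symm (w.coeff i)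

theorem dg_pow (i : ℕ) (w : WittVector p R) : dg i w ^ p ^ i = w.coeff i := by
  have := (iterateFrobeniusEquiv R p i).apply_symm_apply (w.coeff i)
  rwa [iterateFrobeniusEquiv_def] at this

theorem dg_eq {i : ℕ} {w : WittVector p R} {a : R} (h : a ^ p ^ i = w.coeff i) : dg i w = a := by
  apply (iterateFrobeniusEquiv R p i).injective
  rw [iterateFrobeniusEquiv_def, iterateFrobeniusEquiv_def, dg_pow, h]

theorem dg_zero (w : WittVector p R) : dg 0 w = w.coeff 0 := dg_eq (by simp)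

omit [PerfectRing R p] in
theorem coeff_dec (a : R) (u : WittVector p R) (i : ℕ) :
    (WittVector.teichmuller p a + u * (p : WittVector p R)).coeff i =
      (WittVector.teichmuller p a).coeff i + (u * (p : WittVector p R)).coeff i := by
  apply WittVector.coeff_add_of_disjoint
  intro n
  cases n with
  | zero => exact Or.inr (WittVector.mul_charP_coeff_zero u)
  | succ n => exact Or.inl (WittVector.teichmuller_coeff_pos p a _ (Nat.succ_pos n))

theorem dg_zero_dec (a : R) (u : WittVector p R) :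
    dg 0 (WittVector.teichmuller p a + u * (p : WittVector p R)) = a := by
  rw [dg_zero, coeff_dec, WittVector.mul_charP_coeff_zero, WittVector.teichmuller_coeff_zero,
    add_zero]

theorem dg_succ_dec (a : R) (u : WittVector p R) (i : ℕ) :
    dg (i + 1) (WittVector.teichmuller p a + u * (p : WittVector p R)) = dg i u := by
  apply dg_eq
  rw [coeff_dec, WittVector.teichmuller_coeff_pos p a _ (Nat.succ_pos i), zero_add,
    WittVector.mul_charP_coeff_succ, pow_succ, pow_mul, dg_pow]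

theorem exists_dec (w : WittVector p R) :
    ∃ u : WittVector p R, w = WittVector.teichmuller p (dg 0 w) + u * (p : WittVector p R) := by
  have h : w - WittVector.teichmuller p (dg 0 w) ∈ Ideal.span {(p : WittVector p R)} := by
    rw [← WittVector.ker_constantCoeff, RingHom.mem_ker, map_sub, WittVector.constantCoeff_apply,
      WittVector.constantCoeff_apply, WittVector.teichmuller_coeff_zero, dg_zero, sub_self]
  obtain ⟨u, hu⟩ := Ideal.mem_span_singleton'.1 h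
  exact ⟨u, by rw [hu]; ring⟩

theorem dg_zero_mul (u v : WittVector p R) : dg 0 (u * v) = dg 0 u * dg 0 v := by
  simp only [dg_zero, WittVector.mul_coeff_zero]

theorem dg_zero_add (u v : WittVector p R) : dg 0 (u + v) = dg 0 u + dg 0 v := by
  simp only [dg_zero, WittVector.add_coeff_zero]

theorem dg_teich_mul (a : R) (i : ℕ) : ∀ y : WittVector p R,
    dg i (WittVector.teichmuller p a * y) = a * dg i y := by
  induction i with
  | zero => intro y; rw [dg_zero_mul, dg_zero, WittVector.teichmuller_coeff_zero]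
  | succ i ih =>
    intro y
    obtain ⟨u, hu⟩ := exists_dec y
    have e : WittVector.teichmuller p a * y =
        WittVector.teichmuller p (a * dg 0 y) + (WittVector.teichmuller p a * u) * (p : WittVector p R) := by
      rw [map_mul]; conv_lhs => rw [hu]
      ring
    rw [e, dg_succ_dec, ih]
    conv_rhs => rw [hu, dg_succ_dec]

theorem dg_succ_mul_p (u : WittVector p R) (i : ℕ) : dg (i + 1) (u * (p : WittVector p R)) = dg i u := by
  have := dg_succ_dec (0 : R) u i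
  rwa [WittVector.teichmuller_zero, zero_add] at this

theorem dg_zero_mul_p (u : WittVector p R) : dg 0 (u * (p : WittVector p R)) = 0 := by
  have := dg_zero_dec (0 : R) u
  rwa [WittVector.teichmuller_zero, zero_add] at this

theorem dg_mul_pow (u : WittVector p R) (n i : ℕ) : dg (i + n) (u * (p : WittVector p R) ^ n) = dg i u := by
  induction n with
  | zero => simp
  | succ n ih => rw [pow_succ, ← mul_assoc, ← add_assoc, dg_succ_mul_p, ih]

theorem dg_zero_vec (i : ℕ) : dg i (0 : WittVector p R) = 0 :=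
  dg_eq (by rw [WittVector.zero_coeff]; exact zero_pow (pow_ne_zero _ hp.out.ne_zero))

theorem dg_succ_teich (a : R) (i : ℕ) : dg (i + 1) (WittVector.teichmuller p a) = 0 := by
  have := dg_succ_dec a (0 : WittVector p R) i
  rwa [zero_mul, add_zero, dg_zero_vec] at this

end dig

variable [PerfectRing D p] {ρ : ℝ}

/-- norm of the digits. -/
noncomputable def nd (i : ℕ) (w : WittVector p (OO D)) : ℝ := ‖((dg i w : OO D) : D)‖

theorem nd_nonneg (i : ℕ) (w : WittVector p (OO D)) : 0 ≤ nd i w := norm_nonneg _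

theorem nd_le_one (i : ℕ) (w : WittVector p (OO D)) : nd i w ≤ 1 := (dg i w).2

theorem nd_teich_mul (a : OO D) (i : ℕ) (y : WittVector p (OO D)) :
    nd i (WittVector.teichmuller p a * y) = ‖(a : D)‖ * nd i y := by
  simp only [nd, dg_teich_mul, Subring.coe_mul, norm_mul]

/-- the first `n` digits are bounded. -/
def LeN (ρ : ℝ) (n : ℕ) (B : ℝ) (w : WittVector p (OO D)) : Prop :=
  ∀ j < n, nd j w * ρ ^ j ≤ B

theorem leN_succ (h0 : 0 < ρ) {n : ℕ} {B : ℝ} (a : OO D) (u : WittVector p (OO D)) :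
    LeN ρ (n + 1) B (WittVector.teichmuller p a + u * (p : WittVector p (OO D))) ↔ ‖(a : D)‖ ≤ B ∧ LeN ρ n (B / ρ) u := by
  constructor
  · intro h
    refine ⟨?_, fun j hj => ?_⟩
    · have := h 0 (Nat.succ_pos n)
      simpa [nd, dg_zero_dec] using this
    · have := h (j + 1) (Nat.succ_lt_succ hj)
      rw [nd, dg_succ_dec, pow_succ, ← mul_assoc] at this
      exact (le_div_iff₀ h0).2 this
  · rintro ⟨h1, h2⟩ j hj
    cases j with
    | zero => simpa [nd, dg_zero_dec] using h1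
    | succ j =>
      have := h2 j (Nat.lt_of_succ_lt_succ hj)
      rw [nd, dg_succ_dec, pow_succ, ← mul_assoc]
      exact (le_div_iff₀ h0).1 this

omit [CharP D p] [PerfectRing D p] in
theorem teich_add (a b : OO D) : ∃ (c : OO D) (y : WittVector p (OO D)),
    ‖(c : D)‖ ≤ max ‖(a : D)‖ ‖(b : D)‖ ∧
      WittVector.teichmuller p a + WittVector.teichmuller p b = WittVector.teichmuller p c * y := by
  have key : ∀ a b : OO D, ‖(a : D)‖ ≤ ‖(b : D)‖ → ∃ y : WittVector p (OO D),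
      WittVector.teichmuller p a + WittVector.teichmuller p b =
        WittVector.teichmuller p b * y := by
    intro a b hab
    by_cases hb : (b : D) = 0
    · have ha : a = 0 := by
        rw [hb, norm_zero] at hab
        exact Subtype.ext (norm_le_zero_iff.1 hab)
      exact ⟨1, by rw [ha, WittVector.teichmuller_zero, zero_add, mul_one]⟩
    · have hc : ‖(a : D) / b‖ ≤ 1 := by
        rw [norm_div]; exact div_le_one_of_le₀ hab (norm_nonneg _)
      have e : a = b * (⟨(a : D) / b, hc⟩ : OO D) := by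
        apply Subtype.ext
        simp only [Subring.coe_mul]
        field_simp
      refine ⟨WittVector.teichmuller p (⟨(a : D) / b, hc⟩ : OO D) + 1, ?_⟩
      rw [mul_add, ← map_mul, ← e, mul_one]
  rcases le_total ‖(a : D)‖ ‖(b : D)‖ with h | h
  · obtain ⟨y, hy⟩ := key a b h
    exact ⟨b, y, le_max_right _ _, hy⟩
  · obtain ⟨y, hy⟩ := key b a h
    exact ⟨a, y, le_max_left _ _, by rw [add_comm, hy]⟩

theorem leN_teich_mul (h0 : 0 < ρ) (h1 : ρ < 1) {n : ℕ} {B : ℝ} {a : OO D} (ha : ‖(a : D)‖ ≤ B)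
    (y : WittVector p (OO D)) : LeN ρ n B (WittVector.teichmuller p a * y) := by
  intro j _
  rw [nd_teich_mul]
  have h2 : ρ ^ j ≤ 1 := pow_le_one₀ h0.le h1.le
  have h3 := nd_le_one j y
  have h4 := nd_nonneg j y
  have h5 : 0 ≤ ρ ^ j := pow_nonneg h0.le j
  have h6 : nd j y * ρ ^ j ≤ 1 := mul_le_one₀ h3 h5 h2
  calc ‖(a : D)‖ * nd j y * ρ ^ j = ‖(a : D)‖ * (nd j y * ρ ^ j) := by ring
    _ ≤ ‖(a : D)‖ * 1 := mul_le_mul_of_nonneg_left h6 (norm_nonneg _)
    _ ≤ B := by rwa [mul_one]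

theorem LeN.add (h0 : 0 < ρ) (h1 : ρ < 1) (n : ℕ) : ∀ {B : ℝ} {w w' : WittVector p (OO D)},
    LeN ρ n B w → LeN ρ n B w' → LeN ρ n B (w + w') := by
  induction n with
  | zero => intro B w w' _ _ j hj; exact absurd hj (Nat.not_lt_zero j)
  | succ n ih =>
    intro B w w' hw hw'
    obtain ⟨u, hu⟩ := exists_dec w
    obtain ⟨u', hu'⟩ := exists_dec w'
    rw [hu, leN_succ h0] at hw
    rw [hu', leN_succ h0] at hw'
    obtain ⟨c, y, hc, hy⟩ := teich_add (p := p) (dg 0 w) (dg 0 w')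
    have hcB : ‖(c : D)‖ ≤ B := hc.trans (max_le hw.1 hw'.1)
    obtain ⟨t, ht⟩ := exists_dec (WittVector.teichmuller p c * y)
    have h3 : LeN ρ (n + 1) B (WittVector.teichmuller p c * y) := leN_teich_mul h0 h1 hcB y
    rw [ht, leN_succ h0] at h3
    have e : w + w' = WittVector.teichmuller p (dg 0 (WittVector.teichmuller p c * y)) +
        (t + (u + u')) * (p : WittVector p (OO D)) := by
      have : w + w' = (WittVector.teichmuller p (dg 0 w) + WittVector.teichmuller p (dg 0 w')) +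
          (u + u') * (p : WittVector p (OO D)) := by
        conv_lhs => rw [hu, hu']
        ring
      rw [this, hy]
      conv_lhs => rw [ht]
      ring
    rw [e, leN_succ h0]
    exact ⟨h3.1, ih h3.2 (ih hw.2 hw'.2)⟩

theorem LeN.mul (h0 : 0 < ρ) (h1 : ρ < 1) (n : ℕ) : ∀ {B B' : ℝ} {w w' : WittVector p (OO D)},
    LeN ρ n B w → LeN ρ n B' w' → LeN ρ n (B * B') (w * w') := by
  induction n with
  | zero => intro B B' w w' _ _ j hj; exact absurd hj (Nat.not_lt_zero j)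
  | succ n ih =>
    intro B B' w w' hw hw'
    obtain ⟨u, hu⟩ := exists_dec w
    rw [hu, leN_succ h0] at hw
    have hB : 0 ≤ B := (norm_nonneg _).trans hw.1
    have hB' : 0 ≤ B' := le_trans (mul_nonneg (nd_nonneg _ _) (pow_nonneg h0.le _))
      (hw' 0 (Nat.succ_pos n))
    have e : w * w' = WittVector.teichmuller p (dg 0 w) * w' +
        (WittVector.teichmuller p (0 : OO D) + (u * w') * (p : WittVector p (OO D))) := by
      conv_lhs => rw [hu]
      rw [WittVector.teichmuller_zero]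
      ring
    rw [e]
    refine LeN.add h0 h1 _ (fun j hj => ?_) ?_
    · rw [nd_teich_mul, mul_assoc]
      exact mul_le_mul hw.1 (hw' j hj) (mul_nonneg (nd_nonneg _ _) (pow_nonneg h0.le _)) hB
    · rw [leN_succ h0]
      refine ⟨by simpa using mul_nonneg hB hB', ?_⟩
      have := ih hw.2 (fun j hj => hw' j (Nat.lt_succ_of_lt hj))
      rwa [div_mul_eq_mul_div] at this

/-- the Gauss norm. -/
noncomputable def nrm (ρ : ℝ) (w : WittVector p (OO D)) : ℝ := ⨆ i, nd i w * ρ ^ i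

theorem term_le_one (h0 : 0 < ρ) (h1 : ρ < 1) (i : ℕ) (w : WittVector p (OO D)) :
    nd i w * ρ ^ i ≤ 1 :=
  mul_le_one₀ (nd_le_one i w) (pow_nonneg h0.le i) (pow_le_one₀ h0.le h1.le)

theorem le_nrm (h0 : 0 < ρ) (h1 : ρ < 1) (i : ℕ) (w : WittVector p (OO D)) :
    nd i w * ρ ^ i ≤ nrm ρ w :=
  le_ciSup (f := fun i => nd i w * ρ ^ i) ⟨1, by rintro _ ⟨i, rfl⟩; exact term_le_one h0 h1 i w⟩ i

theorem nrm_le_iff (h0 : 0 < ρ) (h1 : ρ < 1) {w : WittVector p (OO D)} {B : ℝ} :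
    nrm ρ w ≤ B ↔ ∀ i, nd i w * ρ ^ i ≤ B :=
  ⟨fun h i => (le_nrm h0 h1 i w).trans h, fun h => ciSup_le h⟩

theorem nrm_nonneg (h0 : 0 < ρ) (h1 : ρ < 1) (w : WittVector p (OO D)) : 0 ≤ nrm ρ w :=
  le_trans (mul_nonneg (nd_nonneg _ _) (pow_nonneg h0.le _)) (le_nrm h0 h1 0 w)

theorem nrm_le_one (h0 : 0 < ρ) (h1 : ρ < 1) (w : WittVector p (OO D)) : nrm ρ w ≤ 1 :=
  (nrm_le_iff h0 h1).2 fun i => term_le_one h0 h1 i w

theorem nrm_add (h0 : 0 < ρ) (h1 : ρ < 1) (w w' : WittVector p (OO D)) :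
    nrm ρ (w + w') ≤ max (nrm ρ w) (nrm ρ w') :=
  (nrm_le_iff h0 h1).2 fun i => LeN.add h0 h1 (i + 1)
    (fun j _ => (le_nrm h0 h1 j w).trans (le_max_left _ _))
    (fun j _ => (le_nrm h0 h1 j w').trans (le_max_right _ _)) i (Nat.lt_succ_self i)

theorem nrm_mul_le (h0 : 0 < ρ) (h1 : ρ < 1) (w w' : WittVector p (OO D)) :
    nrm ρ (w * w') ≤ nrm ρ w * nrm ρ w' :=
  (nrm_le_iff h0 h1).2 fun i => LeN.mul h0 h1 (i + 1)
    (fun j _ => le_nrm h0 h1 j w) (fun j _ => le_nrm h0 h1 j w') i (Nat.lt_succ_self i)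

theorem nrm_neg_le (h0 : 0 < ρ) (h1 : ρ < 1) (w : WittVector p (OO D)) : nrm ρ (-w) ≤ nrm ρ w := by
  rw [← neg_one_mul]
  refine (nrm_mul_le h0 h1 _ _).trans ?_
  have := mul_le_mul_of_nonneg_right (nrm_le_one h0 h1 (-1 : WittVector p (OO D)))
    (nrm_nonneg h0 h1 w)
  rwa [one_mul] at this

theorem nrm_sub (h0 : 0 < ρ) (h1 : ρ < 1) (w w' : WittVector p (OO D)) :
    nrm ρ (w - w') ≤ max (nrm ρ w) (nrm ρ w') := by
  rw [sub_eq_add_neg]
  exact (nrm_add h0 h1 _ _).trans (max_le_max le_rfl (nrm_neg_le h0 h1 w'))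

theorem nrm_zero (h0 : 0 < ρ) (h1 : ρ < 1) : nrm ρ (0 : WittVector p (OO D)) = 0 :=
  le_antisymm ((nrm_le_iff h0 h1).2 fun i => by simp [nd, dg_zero_vec]) (nrm_nonneg h0 h1 _)

theorem nrm_teich (h0 : 0 < ρ) (h1 : ρ < 1) (a : OO D) :
    nrm ρ (WittVector.teichmuller p a) = ‖(a : D)‖ := by
  apply le_antisymm
  · refine (nrm_le_iff h0 h1).2 fun i => ?_
    have := leN_teich_mul (p := p) h0 h1 (n := i + 1) (le_refl ‖(a : D)‖) 1 i (Nat.lt_succ_self i)
    rwa [mul_one] at this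
  · have := le_nrm h0 h1 0 (WittVector.teichmuller p a)
    simpa [nd, dg_zero] using this

theorem nrm_one (h0 : 0 < ρ) (h1 : ρ < 1) : nrm ρ (1 : WittVector p (OO D)) = 1 := by
  have := nrm_teich (p := p) h0 h1 (1 : OO D)
  simpa using this

theorem nrm_p (h0 : 0 < ρ) (h1 : ρ < 1) : nrm ρ (p : WittVector p (OO D)) = ρ := by
  have e : (p : WittVector p (OO D)) = WittVector.teichmuller p (1 : OO D) * (p : WittVector p (OO D)) := by simp
  apply le_antisymm
  · refine (nrm_le_iff h0 h1).2 fun i => ?_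
    cases i with
    | zero => rw [e, nd, dg_zero_mul_p]; simpa using h0.le
    | succ i =>
      have h2 := term_le_one h0 h1 i (WittVector.teichmuller p (1 : OO D))
      rw [e, nd, dg_succ_mul_p, pow_succ, ← mul_assoc]
      have := mul_le_mul_of_nonneg_right h2 h0.le
      rwa [one_mul] at this
  · have := le_nrm h0 h1 (0 + 1) (p : WittVector p (OO D))
    rw [e, nd, dg_succ_mul_p, dg_zero, WittVector.teichmuller_coeff_zero, ← e] at this
    simpa using this

theorem nrm_p_pow_le (h0 : 0 < ρ) (h1 : ρ < 1) (n : ℕ) :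
    nrm ρ ((p : WittVector p (OO D)) ^ n) ≤ ρ ^ n := by
  induction n with
  | zero => rw [pow_zero, pow_zero, nrm_one h0 h1]
  | succ n ih =>
    rw [pow_succ, pow_succ]
    refine (nrm_mul_le h0 h1 _ _).trans ?_
    rw [nrm_p h0 h1]
    exact mul_le_mul_of_nonneg_right ih h0.le

theorem exists_split (h0 : 0 < ρ) (h1 : ρ < 1) (w : WittVector p (OO D)) {B : ℝ} (hB : 0 < B)
    (n : ℕ) (h : ∀ j < n, nd j w * ρ ^ j < B) :
    ∃ e v : WittVector p (OO D), w = e + v * (p : WittVector p (OO D)) ^ n ∧ nrm ρ e < B ∧ ∀ j, dg j v = dg (j + n) w := by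
  induction n with
  | zero => exact ⟨0, w, by simp, by rwa [nrm_zero h0 h1], fun j => rfl⟩
  | succ n ih =>
    obtain ⟨e, v, hw, he, hv⟩ := ih fun j hj => h j (Nat.lt_succ_of_lt hj)
    obtain ⟨u, hu⟩ := exists_dec v
    refine ⟨e + WittVector.teichmuller p (dg 0 v) * (p : WittVector p (OO D)) ^ n, u, ?_, ?_, fun j => ?_⟩
    · rw [hw]; conv_lhs => rw [hu]
      ring
    · refine (nrm_add h0 h1 _ _).trans_lt (max_lt he ?_)
      refine (nrm_mul_le h0 h1 _ _).trans_lt (lt_of_le_of_lt ?_ (h n (Nat.lt_succ_self n)))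
      rw [nrm_teich h0 h1, hv 0, zero_add]
      exact mul_le_mul_of_nonneg_left (nrm_p_pow_le h0 h1 n) (norm_nonneg _)
    · rw [show j + (n + 1) = (j + 1) + n by ring, ← hv, ← dg_succ_dec (dg 0 v) u j, ← hu]

theorem exists_lead (h0 : 0 < ρ) (h1 : ρ < 1) (w : WittVector p (OO D)) (hw : 0 < nrm ρ w) :
    ∃ (n : ℕ) (e v : WittVector p (OO D)), w = e + v * (p : WittVector p (OO D)) ^ n ∧ nrm ρ e < nrm ρ w ∧
      nrm ρ w ≤ nd 0 v * ρ ^ n := by
  classical
  have hex : ∃ i, nrm ρ w ≤ nd i w * ρ ^ i := by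
    by_contra hne
    push Not at hne
    obtain ⟨n, hn⟩ := exists_pow_lt_of_lt_one hw h1
    obtain ⟨e, v, e1, he, -⟩ := exists_split h0 h1 w hw n fun j _ => hne j
    have h2 : nrm ρ (v * (p : WittVector p (OO D)) ^ n) < nrm ρ w := by
      refine (nrm_mul_le h0 h1 _ _).trans_lt (lt_of_le_of_lt ?_ hn)
      have := mul_le_mul (nrm_le_one h0 h1 v) (nrm_p_pow_le (p := p) (D := D) h0 h1 n)
        (nrm_nonneg h0 h1 _) zero_le_one
      rwa [one_mul] at this
    have h3 := (nrm_add h0 h1 e (v * (p : WittVector p (OO D)) ^ n)).trans_lt (max_lt he h2)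
    rw [← e1] at h3
    exact lt_irrefl _ h3
  obtain ⟨e, v, e1, he, hv⟩ := exists_split h0 h1 w hw (Nat.find hex)
    fun j hj => lt_of_not_ge (Nat.find_min hex hj)
  refine ⟨Nat.find hex, e, v, e1, he, ?_⟩
  have := Nat.find_spec hex
  rwa [nd, hv 0, zero_add]

theorem nrm_mul (h0 : 0 < ρ) (h1 : ρ < 1) (w w' : WittVector p (OO D)) :
    nrm ρ (w * w') = nrm ρ w * nrm ρ w' := by
  refine le_antisymm (nrm_mul_le h0 h1 w w') ?_
  rcases (nrm_nonneg h0 h1 w).eq_or_lt with hw | hw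
  · rw [← hw, zero_mul]; exact nrm_nonneg h0 h1 _
  rcases (nrm_nonneg h0 h1 w').eq_or_lt with hw' | hw'
  · rw [← hw', mul_zero]; exact nrm_nonneg h0 h1 _
  obtain ⟨i, e, v, e1, he, hv⟩ := exists_lead h0 h1 w hw
  obtain ⟨j, e', v', e1', he', hv'⟩ := exists_lead h0 h1 w' hw'
  by_contra hlt
  push Not at hlt
  have hvp : nrm ρ (v * (p : WittVector p (OO D)) ^ i) ≤ nrm ρ w := by
    have : v * (p : WittVector p (OO D)) ^ i = w - e := by rw [e1]; ring
    rw [this]
    exact (nrm_sub h0 h1 _ _).trans (max_le le_rfl he.le)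
  have h2 : nrm ρ (e * w') < nrm ρ w * nrm ρ w' :=
    (nrm_mul_le h0 h1 _ _).trans_lt (mul_lt_mul_of_pos_right he hw')
  have h3 : nrm ρ (v * (p : WittVector p (OO D)) ^ i * e') < nrm ρ w * nrm ρ w' :=
    (nrm_mul_le h0 h1 _ _).trans_lt (lt_of_le_of_lt
      (mul_le_mul_of_nonneg_right hvp (nrm_nonneg h0 h1 _)) (mul_lt_mul_of_pos_left he' hw))
  have e2 : (v * v') * (p : WittVector p (OO D)) ^ (i + j) = w * w' - (e * w' + v * (p : WittVector p (OO D)) ^ i * e') := by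
    have a1 : v * (p : WittVector p (OO D)) ^ i = w - e := by rw [e1]; ring
    have a2 : v' * (p : WittVector p (OO D)) ^ j = w' - e' := by rw [e1']; ring
    calc (v * v') * (p : WittVector p (OO D)) ^ (i + j) = (v * (p : WittVector p (OO D)) ^ i) * (v' * (p : WittVector p (OO D)) ^ j) := by ring
      _ = _ := by rw [a2]; nth_rewrite 1 [a1]; rw [a1]; ring
  have h4 : nrm ρ ((v * v') * (p : WittVector p (OO D)) ^ (i + j)) < nrm ρ w * nrm ρ w' := by
    rw [e2]
    exact (nrm_sub h0 h1 _ _).trans_lt (max_lt hlt ((nrm_add h0 h1 _ _).trans_lt (max_lt h2 h3)))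
  have h5 := le_nrm h0 h1 (0 + (i + j)) ((v * v') * (p : WittVector p (OO D)) ^ (i + j))
  rw [nd, dg_mul_pow, dg_zero_mul, Subring.coe_mul, norm_mul, zero_add] at h5
  have h6 : nrm ρ w * nrm ρ w' ≤ (nd 0 v * ρ ^ i) * (nd 0 v' * ρ ^ j) :=
    mul_le_mul hv hv' hw'.le (mul_nonneg (nd_nonneg _ _) (pow_nonneg h0.le _))
  have h7 : (nd 0 v * ρ ^ i) * (nd 0 v' * ρ ^ j) =
      ‖((dg 0 v : OO D) : D)‖ * ‖((dg 0 v' : OO D) : D)‖ * ρ ^ (i + j) := by
    simp only [nd]; ring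
  linarith

theorem term_iff (h0 : 0 < ρ) (w : WittVector p (OO D)) {B : ℝ} (hB : 0 ≤ B) (i : ℕ) :
    nd i w * ρ ^ i ≤ B ↔ ‖((w.coeff i : OO D) : D)‖ * (ρ ^ i) ^ p ^ i ≤ B ^ p ^ i := by
  rw [← dg_pow, SubmonoidClass.coe_pow, norm_pow, ← mul_pow]
  exact (pow_le_pow_iff_left₀ (mul_nonneg (nd_nonneg _ _) (pow_nonneg h0.le _)) hB
    (pow_ne_zero _ hp.out.ne_zero)).symm

end WN

theorem exists_gauss_norm [PerfectRing D p] {ρ : ℝ} (h0 : 0 < ρ) (h1 : ρ < 1) :
    ∃ N : WittVector p (OO D) → ℝ, N 0 = 0 ∧ N 1 = 1 ∧ (∀ a, 0 ≤ N a) ∧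
      (∀ a b, N (a * b) = N a * N b) ∧ (∀ a b, N (a + b) ≤ max (N a) (N b)) ∧ N p = ρ ∧
      ∀ (w : WittVector p (OO D)) (B : ℝ), 0 ≤ B →
        (N w ≤ B ↔ ∀ i, ‖((w.coeff i : OO D) : D)‖ * (ρ ^ i) ^ p ^ i ≤ B ^ p ^ i) := by
  refine ⟨WN.nrm ρ, WN.nrm_zero h0 h1, WN.nrm_one h0 h1, WN.nrm_nonneg h0 h1, WN.nrm_mul h0 h1,
    WN.nrm_add h0 h1, WN.nrm_p h0 h1, fun w B hB => ?_⟩
  rw [WN.nrm_le_iff h0 h1]
  exact forall_congr' fun i => WN.term_iff h0 w hB i

theorem exists_per {D : Type} [NormedField D] [IsUltrametricDist D] [CharP D p] [PerfectRing D p]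
    {ρ : ℝ} (h0 : 0 < ρ) (h1 : ρ < 1) :
    ∃ (F : Type) (_ : NontriviallyNormedField F) (_ : IsUltrametricDist F) (_ : CompleteSpace F)
      (J : WittVector p (OO D) →+* F), IsPer p J ρ := by
  obtain ⟨N, a0, a1, a2, a3, a4, a5, a6⟩ := exists_gauss_norm p (D := D) h0 h1
  obtain ⟨F, i1, i2, i3, -, J, hJ⟩ := exists_acc N a0 a1 a2 a3 a4 ⟨p, by rw [a5]; exact ⟨h0, h1⟩⟩
  exact ⟨F, i1, i2, i3, J, fun w B hB => by rw [hJ]; exact a6 w B hB⟩

end Crest.Agent.R227
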